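import Vale.Agent.P002.Defs

open scoped Matrix.Norms.Operator Topology
open Matrix Filter

namespace Vale.Agent.P002

variable {g n : ℕ}

/-- a local parametrization inside `Z` whose derivative covers `U` -/
def ABGood {V : Type} [NormedAddCommGroup V] [NormedSpace ℂ V] (x0 : V) (Z : Set V)
    (U : Submodule ℂ V) : Prop :=
  ∃ (P : Type) (_ : NormedAddCommGroup P) (_ : NormedSpace ℂ P) (_ : CompleteSpace P)
    (Φ : P → V) (Φ' : P →L[ℂ] V), HasStrictFDerivAt Φ Φ' 0 ∧ Φ 0 = x0 ∧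
      (∀ᶠ p in 𝓝 (0 : P), Φ p ∈ Z) ∧ ∀ u ∈ U, ∃ p, Φ' p = u

section
variable {V : Type} [NormedAddCommGroup V] [NormedSpace ℂ V] {x0 : V} {Z : Set V}

theorem abGood_bot (hx : x0 ∈ Z) : ABGood x0 Z ⊥ := by
  refine ⟨ℂ, inferInstance, inferInstance, inferInstance, fun _ => x0, 0,
    hasStrictFDerivAt_const _ _, rfl, Eventually.of_forall fun _ => hx, ?_⟩
  intro u hu
  exact ⟨0, by rw [(Submodule.mem_bot ℂ).1 hu]; simp⟩

theorem ABGood.mono {H : Set V} {U : Submodule ℂ V} (h : ABGood x0 H U) (hHZ : H ⊆ Z) :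
    ABGood x0 Z U := by
  obtain ⟨P, i1, i2, i3, Φ, Φ', h1, h2, h3, h4⟩ := h
  exact ⟨P, i1, i2, i3, Φ, Φ', h1, h2, h3.mono fun _ hp => hHZ hp, h4⟩

theorem ABGood.step {U : Submodule ℂ V} (h : ABGood x0 Z U) {v : V} (hv : v ∈ Vel Z x0) :
    ABGood x0 Z (Submodule.span ℂ {v} ⊔ U) := by
  obtain ⟨P, i1, i2, i3, Φ, Φ', h1, h2, h3, h4⟩ := h
  obtain ⟨φ, hφ1, hφ2, hφ3, hφ4⟩ := hv
  have hs : HasStrictFDerivAt φ (fderiv ℂ φ (0, x0)) (0, x0) :=
    hφ1.hasStrictFDerivAt one_ne_zero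
  set φ' := fderiv ℂ φ (0, x0) with hφ'
  let G : ℂ × P → ℂ × V := fun y => (y.1, Φ y.2)
  let G' : ℂ × P →L[ℂ] ℂ × V :=
    (ContinuousLinearMap.fst ℂ ℂ P).prod (Φ'.comp (ContinuousLinearMap.snd ℂ ℂ P))
  have hG0 : G 0 = (0, x0) := by simp [G, h2]
  have hG : HasStrictFDerivAt G G' 0 := by
    refine HasStrictFDerivAt.prodMk hasStrictFDerivAt_fst ?_
    exact HasStrictFDerivAt.comp (0 : ℂ × P) (g := Φ) (f := Prod.snd) h1 hasStrictFDerivAt_snd
  have hΨ : HasStrictFDerivAt (fun y => φ (G y)) (φ'.comp G') 0 := by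
    refine HasStrictFDerivAt.comp (0 : ℂ × P) (g := φ) (f := G) ?_ hG
    rw [hG0]; exact hs
  have hsnd : Tendsto (Prod.snd : ℂ × P → P) (𝓝 0) (𝓝 0) := continuous_snd.tendsto' _ _ rfl
  have hGt : Tendsto G (𝓝 0) (𝓝 (0, x0)) := by
    rw [← hG0]; exact hG.continuousAt
  have e1 : (φ'.comp G') (1, 0) = v := by
    have hl : HasDerivAt (fun t : ℂ => ((t, 0) : ℂ × P)) (1, 0) 0 :=
      (hasDerivAt_id (0 : ℂ)).prodMk (hasDerivAt_const _ _)
    have h5 : HasDerivAt (fun t : ℂ => φ (G (t, 0))) ((φ'.comp G') (1, 0)) 0 :=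
      HasFDerivAt.comp_hasDerivAt (0 : ℂ) (l := fun y => φ (G y)) hΨ.hasFDerivAt hl
    have h6 : (fun t : ℂ => φ (G (t, 0))) = fun t => φ (t, x0) := by
      funext t; simp [G, h2]
    rw [h6] at h5
    exact h5.unique hφ3
  have e2 : ∀ p, (φ'.comp G') (0, p) = Φ' p := by
    have hl : HasFDerivAt (fun p : P => ((0, p) : ℂ × P)) (ContinuousLinearMap.inr ℂ ℂ P) 0 :=
      (ContinuousLinearMap.inr ℂ ℂ P).hasFDerivAt
    have h5 : HasFDerivAt (fun p : P => φ (G (0, p)))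
        ((φ'.comp G').comp (ContinuousLinearMap.inr ℂ ℂ P)) 0 :=
      HasFDerivAt.comp (0 : P) (g := fun y => φ (G y)) hΨ.hasFDerivAt hl
    have h6 : (fun p : P => φ (G (0, p))) =ᶠ[𝓝 0] Φ :=
      h3.mono fun p hp => hφ2 _ hp
    have h7 := (h5.congr_of_eventuallyEq h6.symm).unique h1.hasFDerivAt
    intro p
    rw [← h7]; rfl
  refine ⟨ℂ × P, inferInstance, inferInstance, inferInstance, fun y => φ (G y), φ'.comp G', hΨ,
    ?_, ?_, ?_⟩
  · show φ (G 0) = x0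
    rw [hG0]
    exact hφ2 _ (h2 ▸ h3.self_of_nhds)
  · filter_upwards [hGt.eventually hφ4, hsnd.eventually h3] with y hy1 hy2
    exact hy1 hy2
  · intro u hu
    obtain ⟨a, ha, b, hb, rfl⟩ := Submodule.mem_sup.1 hu
    obtain ⟨c, rfl⟩ := Submodule.mem_span_singleton.1 ha
    obtain ⟨p, rfl⟩ := h4 b hb
    refine ⟨c • ((1, 0) : ℂ × P) + (0, p), ?_⟩
    rw [map_add, map_smul, e1, e2]

theorem ABGood.span [FiniteDimensional ℂ V] {U : Submodule ℂ V} (h : ABGood x0 Z U) :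
    ABGood x0 Z (Submodule.span ℂ (Vel Z x0) ⊔ U) := by
  classical
  obtain ⟨s, hs, he⟩ := (Submodule.fg_span_iff_fg_span_finset_subset (R := ℂ) (Vel Z x0)).1
    (IsNoetherian.noetherian _)
  rw [he]
  clear he
  induction s using Finset.induction_on with
  | empty => simpa using h
  | insert a s ha ih =>
    rw [Finset.coe_insert] at hs ⊢
    rw [Submodule.span_insert, sup_assoc]
    exact (ih fun x hx => hs (Set.mem_insert_of_mem _ hx)).step (hs (Set.mem_insert _ _))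

end

theorem ab {V W : Type} [NormedAddCommGroup V] [NormedSpace ℂ V] [FiniteDimensional ℂ V]
    [NormedAddCommGroup W] [NormedSpace ℂ W] {H Z : Set V} {x0 : V} (F : V → W)
    (hF : ContDiffAt ℂ 1 F x0) (hx : x0 ∈ H) (hHZ : H ⊆ Z) (hZ : ∀ x ∈ Z, F x = F x0)
    (hk : ∀ v, fderiv ℂ F x0 v = 0 → v ∈ Submodule.span ℂ (Vel H x0 ∪ Vel Z x0)) :
    (∀ᶠ y in 𝓝 x0, F y = F x0 → y ∈ Z) ∧ ∀ v, fderiv ℂ F x0 v = 0 →
      ∃ γ : ℂ → V, γ 0 = x0 ∧ HasDerivAt γ v 0 ∧ ∀ᶠ t in 𝓝 (0 : ℂ), γ t ∈ Z := by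
  have hg := (((abGood_bot hx).span).mono hHZ).span
  obtain ⟨P, i1, i2, i3, Φ, Φ', h1, h2, h3, h4⟩ := hg
  have h5 : ∀ v, fderiv ℂ F x0 v = 0 → ∃ p, Φ' p = v := by
    intro v hv
    refine h4 v ?_
    have := hk v hv
    rw [Submodule.span_union] at this
    rw [sup_bot_eq, sup_comm]
    exact this
  have hs : HasStrictFDerivAt F (fderiv ℂ F x0) x0 := hF.hasStrictFDerivAt one_ne_zero
  set F' := fderiv ℂ F x0 with hF'
  refine ⟨?_, ?_⟩
  · haveI : CompleteSpace V := FiniteDimensional.complete ℂ V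
    obtain ⟨K, hK⟩ := Submodule.exists_isCompl (LinearMap.ker (F' : V →ₗ[ℂ] W))
    haveI : CompleteSpace K := FiniteDimensional.complete ℂ K
    let Ψ : P × K → V := fun y => Φ y.1 + (y.2 : V)
    let Ψ' : P × K →L[ℂ] V := Φ'.comp (ContinuousLinearMap.fst ℂ P K) +
      K.subtypeL.comp (ContinuousLinearMap.snd ℂ P K)
    have hΦ1 : HasStrictFDerivAt (fun y : P × K => Φ y.1)
        (Φ'.comp (ContinuousLinearMap.fst ℂ P K)) 0 :=
      HasStrictFDerivAt.comp (0 : P × K) (g := Φ) (f := Prod.fst) h1 hasStrictFDerivAt_fst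
    have hΨ : HasStrictFDerivAt Ψ Ψ' 0 :=
      hΦ1.add (K.subtypeL.comp (ContinuousLinearMap.snd ℂ P K)).hasStrictFDerivAt
    have hΨ0 : Ψ 0 = x0 := by simp [Ψ, h2]
    have hsurj : Ψ'.range = ⊤ := by
      rw [eq_top_iff]
      intro u _
      have hu : u ∈ LinearMap.ker (F' : V →ₗ[ℂ] W) ⊔ K := by
        rw [hK.sup_eq_top]; trivial
      obtain ⟨a, ha, b, hb, rfl⟩ := Submodule.mem_sup.1 hu
      obtain ⟨p, rfl⟩ := h5 a ha
      exact ⟨(p, ⟨b, hb⟩), rfl⟩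
    have hmap := hΨ.map_nhds_eq_of_surj hsurj
    rw [hΨ0] at hmap
    rw [← hmap, eventually_map]
    have hinj : LinearMap.ker ((F' : V →ₗ[ℂ] W).comp K.subtype) = ⊥ := by
      rw [eq_bot_iff]
      intro k hk0
      have hk1 : (k : V) ∈ LinearMap.ker (F' : V →ₗ[ℂ] W) ⊓ K := ⟨hk0, k.2⟩
      rw [hK.inf_eq_bot] at hk1
      exact Subtype.ext hk1
    obtain ⟨c, hc, hanti⟩ := LinearMap.exists_antilipschitzWith _ hinj
    have hc' : (0 : ℝ) < c := hc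
    have hb : ∀ k : K, ‖(k : V)‖ ≤ c * ‖F' k‖ := fun k =>
      ZeroHomClass.bound_of_antilipschitz _ hanti k
    have hε : (0 : ℝ) < (2 * (c : ℝ))⁻¹ := by positivity
    have hev := hs.isLittleO.bound hε
    have ht : Tendsto (fun y : P × K => (Ψ y, Φ y.1)) (𝓝 0) (𝓝 (x0, x0)) := by
      refine Tendsto.prodMk_nhds ?_ ?_
      · rw [← hΨ0]; exact hΨ.continuousAt
      · rw [← h2]; exact hΦ1.continuousAt
    have hfst : Tendsto (Prod.fst : P × K → P) (𝓝 0) (𝓝 0) := continuous_fst.tendsto' _ _ rfl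
    filter_upwards [ht.eventually hev, hfst.eventually h3] with y hy1 hy2 hy3
    have e1 : Ψ y - Φ y.1 = (y.2 : V) := by simp [Ψ]
    simp only [e1, hy3, hZ _ hy2, sub_self, zero_sub, norm_neg] at hy1
    have e2 : ‖(y.2 : V)‖ ≤ c * ((2 * (c : ℝ))⁻¹ * ‖(y.2 : V)‖) :=
      (hb y.2).trans (mul_le_mul_of_nonneg_left hy1 hc'.le)
    have e3 : (c : ℝ) * ((2 * (c : ℝ))⁻¹ * ‖(y.2 : V)‖) = ‖(y.2 : V)‖ / 2 := by
      field_simp
    have e4 : (y.2 : V) = 0 := by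
      rw [← norm_le_zero_iff]; rw [e3] at e2; linarith
    have e5 : Ψ y = Φ y.1 := by simp [Ψ, e4]
    rw [e5]; exact hy2
  · intro v hv
    obtain ⟨p, rfl⟩ := h5 v hv
    have hl : HasDerivAt (fun t : ℂ => t • p) p 0 := by
      simpa using (hasDerivAt_id (0 : ℂ)).smul_const p
    have h0 : (fun t : ℂ => t • p) 0 = 0 := zero_smul ℂ p
    refine ⟨fun t => Φ (t • p), by simp [h2], ?_, ?_⟩
    · refine HasFDerivAt.comp_hasDerivAt (0 : ℂ) (l := Φ) ?_ hl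
      rw [zero_smul]; exact h1.hasFDerivAt
    · have ht : Tendsto (fun t : ℂ => t • p) (𝓝 0) (𝓝 0) := by
        have := hl.continuousAt.tendsto
        rwa [zero_smul] at this
      exact ht.eventually h3

end Vale.Agent.P002
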