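import Vale.Agent.P002.Def2

open scoped Matrix.Norms.Operator Topology
open Matrix Filter

namespace Vale.Agent.P002

variable {g n : ℕ}

open Polynomial in
theorem abn_comm {A : Type} [Ring A] [Algebra ℂ A] (f z : A) (h : f * z = z * f) (p : ℂ[X]) :
    z * aeval f p = aeval f p * z := by
  have hc : Commute z f := h.symm
  induction p using Polynomial.induction_on' with
  | add p q hp hq => rw [map_add, mul_add, add_mul, hp, hq]
  | monomial k a =>
    rw [aeval_monomial, ← mul_assoc, ← Algebra.commutes a z, mul_assoc, (hc.pow_right k).eq,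
      mul_assoc]

open Polynomial DirectSum in
theorem abn_cycR {R W : Type} [CommRing R] [AddCommGroup W] [Module R W] {ι : Type} [Fintype ι]
    (q : ι → R) (ψ : W ≃ₗ[R] ⨁ i : ι, R ⧸ R ∙ q i) :
    ∃ (e : ι → W →ₗ[R] W) (v : ι → W), (∀ i j x, i ≠ j → e i (e j x) = 0) ∧
      (∀ i x, e i (e i x) = e i x) ∧ (∀ x, ∑ i, e i x = x) ∧ ∀ i x, ∃ p : R, e i x = p • v i := by
  classical
  refine ⟨fun i => ψ.symm.toLinearMap ∘ₗ lof R ι (fun i => R ⧸ R ∙ q i) i ∘ₗ
      component R ι (fun i => R ⧸ R ∙ q i) i ∘ₗ ψ.toLinearMap,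
    fun i => ψ.symm (lof R ι (fun i => R ⧸ R ∙ q i) i (Submodule.Quotient.mk 1)), ?_, ?_, ?_, ?_⟩
  · intro i j x hij
    simp only [LinearMap.comp_apply, LinearEquiv.coe_coe, LinearEquiv.apply_symm_apply]
    rw [component.of, dif_neg hij.symm, map_zero, map_zero]
  · intro i x
    simp only [LinearMap.comp_apply, LinearEquiv.coe_coe, LinearEquiv.apply_symm_apply]
    rw [component.lof_self]
  · intro x
    simp only [LinearMap.comp_apply, LinearEquiv.coe_coe]
    rw [← map_sum, LinearEquiv.symm_apply_eq]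
    exact DirectSum.sum_univ_of (ψ x)
  · intro i x
    simp only [LinearMap.comp_apply, LinearEquiv.coe_coe]
    obtain ⟨p, hp⟩ := Submodule.Quotient.mk_surjective _
      (component R ι (fun i => R ⧸ R ∙ q i) i (ψ x))
    refine ⟨p, ?_⟩
    rw [← hp, ← map_smul, ← map_smul, ← Submodule.Quotient.mk_smul, smul_eq_mul, mul_one]

open Polynomial in
theorem abn_cycE {V : Type} [AddCommGroup V] [Module ℂ V] [FiniteDimensional ℂ V]
    (f : V →ₗ[ℂ] V) :
    ∃ (ι : Type) (_ : Fintype ι) (e : ι → V →ₗ[ℂ] V) (v : ι → V), (∀ i, f * e i = e i * f) ∧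
      (∀ i j, i ≠ j → e i * e j = 0) ∧ (∀ i, e i * e i = e i) ∧ ∑ i, e i = 1 ∧
      ∀ z : V →ₗ[ℂ] V, f * z = z * f → ∀ i, z (v i) = 0 → z * e i = 0 := by
  obtain ⟨ι, hι, p, -, k, ⟨ψ⟩⟩ := Module.equiv_directSum_of_isTorsion
    (Module.AEval.isTorsion_of_finiteDimensional ℂ V f)
  obtain ⟨e, v, h1, h2, h3, h4⟩ := abn_cycR (fun i => p i ^ k i) ψ
  let o := Module.AEval'.of f
  refine ⟨ι, hι, fun i => o.symm.toLinearMap ∘ₗ (e i).restrictScalars ℂ ∘ₗ o.toLinearMap,
    fun i => o.symm (v i), ?_, ?_, ?_, ?_, ?_⟩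
  · intro i
    ext x
    simp only [Module.End.mul_apply, LinearMap.comp_apply, LinearEquiv.coe_coe,
      LinearMap.restrictScalars_apply]
    rw [← Module.AEval'.of_symm_X_smul, ← map_smul, Module.AEval'.X_smul_of]
  · intro i j hij
    ext x
    simp only [Module.End.mul_apply, LinearMap.comp_apply, LinearEquiv.coe_coe,
      LinearMap.restrictScalars_apply, LinearEquiv.apply_symm_apply, h1 i j _ hij, map_zero,
      LinearMap.zero_apply]
  · intro i
    ext x
    simp only [Module.End.mul_apply, LinearMap.comp_apply, LinearEquiv.coe_coe,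
      LinearMap.restrictScalars_apply, LinearEquiv.apply_symm_apply, h2]
  · ext x
    simp only [LinearMap.sum_apply, LinearMap.comp_apply, LinearEquiv.coe_coe,
      LinearMap.restrictScalars_apply, Module.End.one_apply]
    rw [← map_sum, h3, LinearEquiv.symm_apply_apply]
  · intro z hz i hi
    ext x
    simp only [Module.End.mul_apply, LinearMap.comp_apply, LinearEquiv.coe_coe,
      LinearMap.restrictScalars_apply, LinearMap.zero_apply]
    obtain ⟨r, hr⟩ := h4 i (o x)
    rw [hr, Module.AEval.of_symm_smul, Module.End.smul_def, ← Module.End.mul_apply,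
      abn_comm f z hz r, Module.End.mul_apply, hi, map_zero]

theorem abn_cyc (N : M n) :
    ∃ (ι : Type) (_ : Fintype ι) (e : ι → M n) (v : ι → Fin n → ℂ), (∀ i, N * e i = e i * N) ∧
      (∀ i j, i ≠ j → e i * e j = 0) ∧ (∀ i, e i * e i = e i) ∧ ∑ i, e i = 1 ∧
      ∀ z : M n, N * z = z * N → ∀ i, z *ᵥ v i = 0 → z * e i = 0 := by
  obtain ⟨ι, hι, e, v, h0, h1, h2, h3, h4⟩ := abn_cycE (Matrix.toLinAlgEquiv' N)
  let T : M n ≃ₐ[ℂ] ((Fin n → ℂ) →ₗ[ℂ] Fin n → ℂ) := Matrix.toLinAlgEquiv'
  refine ⟨ι, hι, fun i => T.symm (e i), v, fun i => T.injective ?_, fun i j hij => ?_, fun i => ?_,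
    ?_, fun z hz i hi => T.injective ?_⟩
  · rw [map_mul, map_mul, T.apply_symm_apply]
    exact h0 i
  · rw [← map_mul, h1 i j hij, map_zero]
  · rw [← map_mul, h2]
  · rw [← map_sum, h3, map_one]
  · rw [map_mul, T.apply_symm_apply, map_zero]
    refine h4 (T z) ?_ i ?_
    · change T N * T z = T z * T N
      rw [← map_mul, hz, map_mul]
    · exact (Matrix.toLinAlgEquiv'_apply z (v i)).trans hi

theorem abn_tr {N η a b : M n} (hη : η ∈ EE N) (ha : N * a = a * N) (hb : N * b = b * N) :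
    (a * b * η).trace = (b * a * η).trace := by
  obtain ⟨θ, hθ⟩ := hη a ha
  have h1 : ((η * a - a * η) * b).trace = 0 := by
    rw [hθ, sub_mul, trace_sub, mul_assoc θ, hb, mul_assoc N, trace_mul_comm N, mul_assoc θ,
      sub_self]
  rw [sub_mul, trace_sub, sub_eq_zero] at h1
  rw [trace_mul_comm (a * b), ← mul_assoc, h1, trace_mul_comm (a * η), mul_assoc]

theorem abn (N : M n) : Module.finrank ℂ (EE N) ≤ rk (adL N) + n := by
  classical
  obtain ⟨ι, hι, e, v, h0, h1, h2, h3, h4⟩ := abn_cyc N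
  let B : LinearMap.BilinForm ℂ (M n) :=
    (LinearMap.mul ℂ (M n)).compr₂ (Matrix.traceLinearMap (Fin n) ℂ ℂ)
  have hB : ∀ x y, B x y = (x * y).trace := fun x y => rfl
  have hnd : B.Nondegenerate := by
    refine ⟨fun x hx => ?_, fun y hy => ?_⟩
    · exact Matrix.ext_iff_trace_mul_right.2 fun y => by rw [← hB, hx y, zero_mul, trace_zero]
    · exact Matrix.ext_iff_trace_mul_left.2 fun x => by rw [← hB, hy x, mul_zero, trace_zero]
  let A : M n →ₗ[ℂ] M n := (adL N : M n →L[ℂ] M n)
  let φ : M n →ₗ[ℂ] (Fin n → ℂ) :=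
    { toFun := fun z => ∑ i, (e i * z) *ᵥ v i
      map_add' := fun a b => by simp only [mul_add, add_mulVec, Finset.sum_add_distrib]
      map_smul' := fun c a => by
        simp only [Matrix.mul_smul, smul_mulVec, Finset.smul_sum, RingHom.id_apply] }
  have hφ : ∀ z, φ z = ∑ i, (e i * z) *ᵥ v i := fun z => rfl
  let φ' := φ.domRestrict (LinearMap.ker A)
  let K : Submodule ℂ (M n) := (LinearMap.ker φ').map (LinearMap.ker A).subtype
  have hle : EE N ≤ B.orthogonal K := by
    intro η hη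
    rw [LinearMap.BilinForm.mem_orthogonal_iff]
    rintro _ ⟨⟨z, hz⟩, hz0, rfl⟩
    have hzN : N * z = z * N := sub_eq_zero.1 hz
    have hz1 : ∑ i, (e i * z) *ᵥ v i = 0 := hz0
    have hc : ∀ i, N * (e i * z) = e i * z * N := fun i => by
      rw [← mul_assoc, h0, mul_assoc, hzN, mul_assoc]
    have hd : ∀ i, e i * z * e i = 0 := fun i => by
      refine h4 _ (hc i) i ?_
      have h5 := congrArg (fun w => e i *ᵥ w) hz1
      simp only [mulVec_sum, mulVec_mulVec, mulVec_zero] at h5
      rw [Finset.sum_eq_single i (fun j _ hj => by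
        rw [← mul_assoc, h1 i j hj.symm, zero_mul, zero_mulVec]) (by simp), ← mul_assoc, h2] at h5
      exact h5
    have ht : ∀ i, (e i * z * η).trace = 0 := fun i => by
      have h6 := abn_tr hη (h0 i) (hc i)
      rw [← mul_assoc, h2, hd i, zero_mul, trace_zero] at h6
      exact h6
    change (z * η).trace = 0
    rw [← one_mul z, ← h3, Finset.sum_mul, Finset.sum_mul, trace_sum]
    exact Finset.sum_eq_zero fun i _ => ht i
  have e1 := Submodule.finrank_mono hle
  rw [LinearMap.BilinForm.finrank_orthogonal hnd] at e1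
  have e2 : Module.finrank ℂ K = Module.finrank ℂ (LinearMap.ker φ') :=
    (Submodule.finrank_map_subtype_eq _ _)
  have e3 := LinearMap.finrank_range_add_finrank_ker φ'
  have e4 := LinearMap.finrank_range_add_finrank_ker A
  have e5 : Module.finrank ℂ (LinearMap.range φ') ≤ n :=
    (Submodule.finrank_le _).trans (by simp)
  have e6 : rk (adL N) = Module.finrank ℂ (LinearMap.range A) := rfl
  omega

end Vale.Agent.P002
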