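import Vale.Agent.P002.Def3

open scoped Matrix.Norms.Operator Topology
open Matrix Filter

namespace Vale.Agent.P002

variable {g n : ℕ} {κ : Kd g n}

theorem Abs1_root {K k : ℕ} {L : IntermediateField ℚ ℂ} (hL : Roots L K) (hk : 0 < k)
    (hK : k ≤ K) {z : ℂ} (hz : z ^ k = 1) : z ∈ OO L := by
  obtain ⟨ω, hω, hp⟩ := hL k hk hK
  have : NeZero k := ⟨hk.ne'⟩
  obtain ⟨i, -, hi⟩ := hp.eq_pow_of_pow_eq_one hz
  refine ⟨?_, ?_⟩
  · rw [← hi]; exact pow_mem hω i
  · change IsIntegral ℤ z
    exact IsIntegral.of_pow hk (by rw [hz]; exact isIntegral_one)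

theorem abs1 {N : ℕ} (hN : 0 < N) (hn : 0 < n) {L : IntermediateField ℚ ℂ}
    (hL : Roots L (2 * N * n)) {d : Fin n → ℂ} (hd : ∀ i, d i ^ N = 1) (h1 : ∏ i, d i = 1) :
    ∃ a : M n × M n, a.1.det = 1 ∧ a.2.det = 1 ∧ Ent (OO L) a.1 ∧ Ent (OO L) a.2 ∧
      cm a = diagonal d := by
  obtain ⟨m, rfl⟩ : ∃ m, n = m + 1 := ⟨n - 1, by omega⟩
  set σ := finRotate (m + 1) with hσ
  set e : ℕ → ℂ := fun k => if h : k < m + 1 then d ⟨k, h⟩ else 1 with he
  have heN : ∀ k, e k ^ N = 1 := fun k => by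
    simp only [he]; split_ifs
    · exact hd _
    · exact one_pow _
  have hed : ∀ i : Fin (m + 1), e i = d i := fun i => by simp only [he, i.2, dif_pos]
  have hprod : ∏ k ∈ Finset.range (m + 1), e k = 1 := by
    rw [← Fin.prod_univ_eq_prod_range e, ← h1]
    exact Finset.prod_congr rfl fun i _ => hed i
  set t0 : Fin (m + 1) → ℂ := fun i => ∏ k ∈ Finset.range i, e k with ht0
  have ht0N : ∀ i, t0 i ^ N = 1 := fun i => by
    simp only [ht0]
    rw [← Finset.prod_pow]
    exact Finset.prod_eq_one fun k _ => heN k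
  have hstep : ∀ i, t0 (σ i) = d i * t0 i := fun i => by
    simp only [ht0, hσ]
    by_cases hi : i = Fin.last m
    · subst hi
      rw [finRotate_last, ← hed, mul_comm]
      simp only [Fin.val_zero, Finset.range_zero, Finset.prod_empty, Fin.val_last]
      rw [← Finset.prod_range_succ, hprod]
    · rw [coe_finRotate_of_ne_last hi, Finset.prod_range_succ, hed, mul_comm]
  have hP : (∏ i, t0 i) ^ N = 1 := by
    rw [← Finset.prod_pow]
    exact Finset.prod_eq_one fun i _ => ht0N i
  have hP0 : ∏ i, t0 i ≠ 0 := fun h => by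
    rw [h, zero_pow hN.ne'] at hP; exact zero_ne_one hP
  obtain ⟨c, hc⟩ := IsAlgClosed.exists_pow_nat_eq (∏ i, t0 i)⁻¹ hn
  have hcN : c ^ ((m + 1) * N) = 1 := by rw [pow_mul, hc, inv_pow, hP, inv_one]
  set s : ℂ := ((Equiv.Perm.sign σ : ℤ) : ℂ) with hs
  have hss : s * s = 1 := by
    rw [hs, ← Int.cast_mul, ← Units.val_mul, Int.units_mul_self]; simp
  obtain ⟨ε, hε⟩ := IsAlgClosed.exists_pow_nat_eq s hn
  have hε2 : ε ^ ((m + 1) * 2) = 1 := by rw [pow_mul, hε, pow_two, hss]
  have hεO : ε ∈ OO L := Abs1_root hL (by positivity) (by nlinarith) hε2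
  have hcO : c ∈ OO L := Abs1_root hL (by positivity) (by nlinarith) hcN
  have htO : ∀ i, t0 i ∈ OO L := fun i => Abs1_root hL hN (by nlinarith) (ht0N i)
  set w : M (m + 1) := ε • σ.permMatrix ℂ with hw
  set T : M (m + 1) := diagonal fun i => c * t0 i with hT
  have hwij : ∀ i j, w i j = if j = σ i then ε else 0 := fun i j => by
    simp only [hw, Matrix.smul_apply, Equiv.Perm.permMatrix, PEquiv.toMatrix_apply,
      Equiv.toPEquiv_apply, Option.mem_def, Option.some.injEq, smul_eq_mul]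
    by_cases h : j = σ i
    · rw [if_pos h, if_pos h.symm, mul_one]
    · rw [if_neg h, if_neg (Ne.symm h), mul_zero]
  have hwd : w.det = 1 := by
    rw [hw, det_smul, det_permutation, Fintype.card_fin, hε]
    exact hss
  have hTd : T.det = 1 := by
    rw [hT, det_diagonal, Finset.prod_mul_distrib, Finset.prod_const, Finset.card_univ,
      Fintype.card_fin, hc, inv_mul_cancel₀ hP0]
  have hcomm : w * T = diagonal d * T * w := by
    ext i j
    rw [hT, mul_diagonal, diagonal_mul_diagonal, diagonal_mul, hwij]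
    split_ifs with h
    · rw [h, hstep]; ring
    · simp
  refine ⟨(w, T), hwd, hTd, fun i j => ?_, fun i j => ?_, ?_⟩
  · change w i j ∈ OO L
    rw [hwij]; split_ifs
    · exact hεO
    · exact zero_mem _
  · change T i j ∈ OO L
    rw [hT, diagonal_apply]; split_ifs
    · exact mul_mem hcO (htO i)
    · exact zero_mem _
  · change w * T * adjugate w * adjugate T = _
    rw [hcomm, Matrix.mul_assoc _ w, mul_adjugate, hwd, one_smul, Matrix.mul_one,
      Matrix.mul_assoc, mul_adjugate, hTd, one_smul, Matrix.mul_one]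

end Vale.Agent.P002
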