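import Vale.Agent.P002.Def3

open scoped Matrix.Norms.Operator Topology
open Matrix Filter

namespace Vale.Agent.P002

variable {g n : ℕ} {κ : Kd g n}

theorem abs2_solve {R : Type} [CommRing R] (t : Fin n → R) (ht : ∀ i j, i < j → IsUnit (t i - t j))
    (u : Matrix (Fin n) (Fin n) R) (hu : u.BlockTriangular id) (h1 : ∀ i, u i i = 1) :
    ∃ w : Matrix (Fin n) (Fin n) R, w.det = 1 ∧ diagonal t * w = u * w * diagonal t := by
  have key : ∀ j : Fin n, ∃ c : Fin n → R, (∀ i, j ≤ i → c i = if i = j then 1 else 0) ∧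
      ∀ i, i < j → t i * c i = t j * ∑ k, u i k * c k := fun j => by
    let B : Matrix (Fin n) (Fin n) R := of fun i k =>
      if i < j then diagonal t i k - t j * u i k else (1 : Matrix (Fin n) (Fin n) R) i k
    have hB : B.BlockTriangular id := fun i k h => by
      have h' : k < i := h
      simp only [B, of_apply, diagonal_apply_ne _ h'.ne', one_apply_ne h'.ne', hu h]
      simp
    have hd : IsUnit B.det := by
      rw [det_of_isUpperTriangular hB]
      refine Finset.prod_induction _ IsUnit (fun _ _ => IsUnit.mul) isUnit_one fun i _ => ?_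
      by_cases h : i < j
      · simpa [B, h, h1] using ht i j h
      · simp [B, h]
    have e : B *ᵥ (B⁻¹ *ᵥ Pi.single j 1) = Pi.single j 1 := by
      rw [mulVec_mulVec, mul_nonsing_inv _ hd, one_mulVec]
    refine ⟨B⁻¹ *ᵥ Pi.single j 1, fun i hi => ?_, fun i hi => ?_⟩
    · have := congrFun e i
      generalize B⁻¹ *ᵥ Pi.single j 1 = c at this ⊢
      simpa [B, mulVec, dotProduct, not_lt.2 hi, one_apply, Pi.single_apply] using this
    · have := congrFun e i
      generalize B⁻¹ *ᵥ Pi.single j 1 = c at this ⊢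
      simp only [B, mulVec, dotProduct, of_apply, if_pos hi, Pi.single_eq_of_ne hi.ne, sub_mul,
        Finset.sum_sub_distrib, diagonal_apply, ite_mul, zero_mul, Finset.sum_ite_eq,
        Finset.mem_univ, if_true, mul_assoc, ← Finset.mul_sum] at this
      exact sub_eq_zero.1 this
  choose c h2 h3 using key
  refine ⟨of fun i j => c j i, ?_, ?_⟩
  · rw [det_of_isUpperTriangular fun i j (h : j < i) => by simp [h2 j i h.le, h.ne']]
    exact Finset.prod_eq_one fun i _ => by simp [h2 i i le_rfl]
  · ext i j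
    rw [diagonal_mul, mul_diagonal, mul_apply, mul_comm _ (t j)]
    simp only [of_apply]
    rcases lt_or_ge i j with h | h
    · exact h3 j i h
    · rw [Finset.sum_eq_single i, h1, one_mul, h2 j i h]
      · split_ifs with e
        · rw [e]
        · simp
      · intro k _ hk
        rcases lt_or_gt_of_ne hk with h' | h'
        · rw [hu h', zero_mul]
        · rw [h2 j k (h.trans h'.le), if_neg (h.trans_lt h').ne', mul_zero]
      · simp

theorem abs2_unit {R : Type} [CommRing R] [IsDomain R] {p q : ℕ} (hp : p.Prime) (hq : q.Prime)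
    (hpq : p ≠ q) {μ : R} (h : IsPrimitiveRoot μ (p * q)) : IsUnit (1 - μ) := by
  have h1 : Polynomial.eval 1 (Polynomial.cyclotomic (p * q) R) = 1 :=
    Polynomial.eval_one_cyclotomic_not_prime_pow fun {r} hr k e => by
      have a1 := (Nat.prime_dvd_prime_iff_eq hp hr).1
        (hp.dvd_of_dvd_pow (e ▸ Nat.dvd_mul_right p q))
      have a2 := (Nat.prime_dvd_prime_iff_eq hq hr).1
        (hq.dvd_of_dvd_pow (e ▸ Nat.dvd_mul_left q p))
      exact hpq (a1.trans a2.symm)
  rw [Polynomial.cyclotomic_eq_prod_X_sub_primitiveRoots h, Polynomial.eval_prod] at h1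
  have := Finset.dvd_prod_of_mem (fun μ : R => Polynomial.eval 1 (Polynomial.X - Polynomial.C μ))
    ((mem_primitiveRoots (Nat.mul_pos hp.pos hq.pos)).2 h)
  rw [h1] at this
  exact isUnit_of_dvd_one (by simpa using this)

theorem abs2 (n : ℕ) : ∃ K, ∀ L : IntermediateField ℚ ℂ, Roots L K → ∀ u : M n, Ent (OO L) u →
    u.BlockTriangular id → (∀ i, u i i = 1) →
    ∃ a : M n × M n, a.1.det = 1 ∧ a.2.det = 1 ∧ Ent (OO L) a.1 ∧ Ent (OO L) a.2 ∧
      cm a = u := by
  obtain ⟨p, hp1, hp⟩ := Nat.exists_infinite_primes (2 * n + 1)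
  obtain ⟨q, hq1, hq⟩ := Nat.exists_infinite_primes (p + 1)
  have hm : 0 < p * q := Nat.mul_pos hp.pos hq.pos
  refine ⟨p * q, fun L hL u hu hb h1 => ?_⟩
  obtain ⟨ω, hωL, hω⟩ := hL _ hm le_rfl
  let ζ : OO L := ⟨ω, hωL, hω.isIntegral hm⟩
  have hζ : IsPrimitiveRoot ζ (p * q) :=
    IsPrimitiveRoot.of_map_of_injective (f := (OO L).subtype) hω Subtype.val_injective
  let t : Fin n → OO L := fun i => ζ ^ (2 * i.val + (p * q - 1) * (n - 1))
  have ht : ∀ i j, i < j → IsUnit (t i - t j) := fun i j h => by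
    have h' : i.val < j.val := h
    have hj := j.2
    have c : (2 * (j.val - i.val)).Coprime (p * q) := Nat.Coprime.mul_right
      ((hp.coprime_iff_not_dvd.2 (Nat.not_dvd_of_pos_of_lt (by omega) (by omega))).symm)
      ((hq.coprime_iff_not_dvd.2 (Nat.not_dvd_of_pos_of_lt (by omega) (by omega))).symm)
    have e : t i - t j = t i * (1 - ζ ^ (2 * (j.val - i.val))) := by
      simp only [t]
      rw [mul_sub, mul_one, ← pow_add]
      congr 2
      omega
    rw [e]
    exact ((hζ.isUnit hm.ne').pow _).mul (abs2_unit hp hq (by omega) (hζ.pow_of_coprime _ c))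
  have hT : (diagonal t).det = 1 := by
    rw [det_diagonal, Finset.prod_pow_eq_pow_sum, hζ.pow_eq_one_iff_dvd, Finset.sum_add_distrib,
      ← Finset.mul_sum, Fin.sum_univ_eq_sum_range (fun i => i), mul_comm 2,
      Finset.sum_range_id_mul_two, Finset.sum_const, Finset.card_univ, Fintype.card_fin,
      smul_eq_mul]
    obtain ⟨m, hm'⟩ : ∃ m, p * q = m + 1 := ⟨p * q - 1, by omega⟩
    rw [hm', Nat.add_sub_cancel]
    exact ⟨n * (n - 1), by ring⟩
  obtain ⟨w, hw, e⟩ := abs2_solve t ht (of fun i j => (⟨u i j, hu i j⟩ : OO L))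
    (fun i j h => Subtype.ext (hb h)) fun i => Subtype.ext (h1 i)
  have d1 : ((OO L).subtype.mapMatrix (diagonal t)).det = 1 := by
    rw [← RingHom.map_det, hT, map_one]
  have d2 : ((OO L).subtype.mapMatrix w).det = 1 := by rw [← RingHom.map_det, hw, map_one]
  have e' := congrArg (OO L).subtype.mapMatrix e
  rw [map_mul, map_mul, map_mul] at e'
  refine ⟨((OO L).subtype.mapMatrix (diagonal t), (OO L).subtype.mapMatrix w), d1, d2,
    fun a b => (diagonal t a b).2, fun a b => (w a b).2, ?_⟩
  simp only [cm]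
  rw [e', mul_assoc _ _ (adjugate ((OO L).subtype.mapMatrix (diagonal t))), mul_adjugate, d1,
    one_smul, mul_one, mul_assoc,
    mul_adjugate, d2, one_smul, mul_one]
  rfl

end Vale.Agent.P002
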