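import Vale.Agent.P002.MvK

open scoped Matrix.Norms.Operator Topology
open Matrix Filter

namespace Vale.Agent.P002

variable {g n : ℕ} {κ : Kd g n}

theorem IsAut.comp {a a' b b' : E g n → E g n} (ha : IsAut κ a a') (hb : IsAut κ b b') :
    IsAut κ (fun x => b (a x)) fun x => a' (b' x) :=
  ⟨fun V A x hκ hx => hb.poly V A _ hκ (ha.poly V A x hκ hx),
    fun V A x hκ hx => ha.poly' V A _ hκ (hb.poly' V A x hκ hx),
    fun x hx => hb.mem _ (ha.mem x hx), fun x hx => ha.mem' _ (hb.mem' x hx),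
    fun x hx => by rw [hb.inv _ (ha.mem x hx), ha.inv x hx]⟩

theorem IsMoveK.conj {D : E g n → M n} {m : E g n → M n → E g n} (hm : IsMoveK κ D m)
    {a a' : E g n → E g n} (ha : IsAut κ a a') :
    IsMoveK κ (fun x => D (a x)) fun x C => a' (m (a x) C) :=
  ⟨fun V A x hκ hx => hm.polyD V A _ hκ (ha.poly V A x hκ hx),
    fun V A x C hκ hx hC => ha.poly' V A _ hκ (hm.polym V A _ C hκ (ha.poly V A x hκ hx) hC),
    fun x hx => by rw [hm.one _ (ha.mem x hx), ha.inv x hx],
    fun x hx C hC h => ha.mem' _ (hm.mem _ (ha.mem x hx) C hC h)⟩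

theorem aut_tw {i : Fin g} (hk : κ i = none) (p : ℕ) : IsAut κ (tw i p) (utw i p) := by
  refine ⟨fun V A x hκ hx => (move1K hk).polym V A x _ hκ hx ((hx i).2.pow p),
    fun V A x hκ hx => (move1K hk).polym V A x _ hκ hx ((hx i).2.adj.pow p),
    fun x hx => (move1K hk).mem x hx _ (by rw [det_pow, (hx.1 i).2, one_pow])
      (Commute.pow_self _ p).eq,
    fun x hx => (move1K hk).mem x hx _ (by rw [det_pow, mv_adet (hx.1 i).2, one_pow])
      (Commute.pow_left (show adjugate (x i).2 * (x i).2 = (x i).2 * adjugate (x i).2 by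
        rw [adjugate_mul, mul_adjugate]) p).eq, fun x hx => funext fun j => Prod.ext ?_ ?_⟩
  · simp only [utw, tw, m1_fst, m1_snd]
    by_cases h1 : j = i
    · simp only [if_pos h1, mul_assoc, mv_pp (hx.1 i).2, mul_one]
    · simp only [if_neg h1]
  · simp only [utw, tw, m1_snd]

theorem AutK_ep {V : Type} {A : Subring (V → ℂ)} {x : V → E g n} (hx : EP A x) (o : Fin g)
    {a b : V → M n} (ha : MP A a) (hb : MP A b) :
    EP A fun v => Function.update (x v) o (a v, b v) := by
  intro j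
  by_cases h : j = o
  · subst h
    simp only [Function.update_self]
    exact ⟨ha, hb⟩
  · simp only [Function.update_of_ne h]
    exact hx j

theorem AutK_rk {o : Fin g} (hk : κ o = none) {x : E g n} (hx : x ∈ RK κ) {a : M n × M n}
    (h1 : a.1.det = 1) (h2 : a.2.det = 1) (h3 : cm a = cm (x o)) :
    Function.update x o a ∈ RK κ := by
  refine ⟨fun j => ?_, ?_⟩
  · by_cases h : j = o
    · rw [h, Function.update_self]
      exact ⟨h1, h2⟩
    · rw [Function.update_of_ne h]
      exact hx.1 j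
  · have : (fun j => it (κ j) (Function.update x o a j)) = fun j => it (κ j) (x j) :=
      funext fun j => by
        by_cases h : j = o
        · rw [h, Function.update_self, hk]
          exact h3
        · rw [Function.update_of_ne h]
    rw [pk, this]
    exact hx.2

theorem AutK_sw1 {A B : M n} (hA : A.det = 1) (hB : B.det = 1) :
    cm (A * B * adjugate A, adjugate A) = cm (A, B) ∧
    cm (adjugate B, B * A * adjugate B) = cm (A, B) ∧ adjugate (adjugate A) = A ∧
    adjugate A * (A * B * adjugate A) * adjugate (adjugate A) = B := by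
  obtain ⟨A, rfl⟩ := mv_lift hA
  obtain ⟨B, rfl⟩ := mv_lift hB
  simp only [cm, mvl_mul, mvl_adj]
  refine ⟨?_, ?_, ?_, ?_⟩ <;> congr 1 <;> group

theorem AutK_sw {o : Fin g} (hk : κ o = none) : IsAut κ (sw o) (sw' o) := by
  refine ⟨fun V A x _ hx => AutK_ep hx o (((hx o).1.mul (hx o).2).mul (hx o).1.adj) (hx o).1.adj,
    fun V A x _ hx => AutK_ep hx o (hx o).2.adj (((hx o).2.mul (hx o).1).mul (hx o).2.adj),
    fun x hx => AutK_rk hk hx ?_ (mv_adet (hx.1 o).1) (AutK_sw1 (hx.1 o).1 (hx.1 o).2).1,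
    fun x hx => AutK_rk hk hx (mv_adet (hx.1 o).2) ?_ (AutK_sw1 (hx.1 o).1 (hx.1 o).2).2.1,
    fun x hx => ?_⟩
  · simp only [det_mul, mv_adet, hx.1 o, mul_one]
  · simp only [det_mul, mv_adet, hx.1 o, mul_one]
  · have k := AutK_sw1 (hx.1 o).1 (hx.1 o).2
    simp only [sw, sw', Function.update_self, Function.update_idem]
    rw [k.2.2.2, k.2.2.1]
    exact Function.update_eq_self o x

theorem AutK_ne {o o' : Fin g} (h : Two κ o o') : o' ≠ o := fun e => by
  have h1 := h.ho
  have h2 := h.ho'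
  rw [e] at h2
  omega

theorem AutK_mh {o o' : Fin g} (h : Two κ o o') (x : E g n) (C : M n) (j : Fin g) :
    mh κ o o' x C j = if j = o then ((x j).1, C * (x j).2) else if j = o' then
      (C * (x j).1 * adjugate C, (x j).2 * adjugate C) else x j := by
  by_cases h2 : j = o'
  · rw [h2, mh, Function.update_self, if_neg (AutK_ne h), if_pos rfl]
  · rw [mh, Function.update_of_ne h2, mb, if_neg h2]
    by_cases h1 : j = o
    · rw [if_pos h1, if_pos h1]
    · have : ¬ j.1 < o'.1 := fun e => h1 (Fin.ext (by have := h.ho; have := h.ho'; omega))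
      rw [if_neg h1, if_neg h1, if_neg this]

theorem AutK_mv {o o' : Fin g} (h : Two κ o o') : (mv o o' : E g n → M n → E g n) = mh κ o o' := by
  funext x C j
  have : ¬ (o < j ∧ j < o') := fun e => by
    have h1 : o.1 < j.1 := e.1
    have h2 : j.1 < o'.1 := e.2
    have := h.ho'
    omega
  rw [AutK_mh h, mv, if_neg this]

theorem AutK_Dh {o o' : Fin g} (h : Two κ o o') (x : E g n) :
    Dh κ o o' x = adjugate (x o).1 * cm (x o) * (x o').1 := by
  have e := pk_succ (κ := κ) x o
  rw [h.hk, h.ho] at e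
  rw [Dh, Db, h.ho', e]
  simp [pk, it]

theorem AutK_Dv {o o' : Fin g} (h : Two κ o o') : (Dv o o' : E g n → M n) = Dh κ o o' := by
  funext x
  have e := mv_succ x o.2
  rw [Fin.eta, h.ho] at e
  rw [AutK_Dh h, Dv, h.ho, h.ho', e]
  simp [pm]

theorem AutK_T1 {A B A' B' : M n} (hA : A.det = 1) (hB : B.det = 1) (hA' : A'.det = 1)
    (hB' : B'.det = 1) {D : M n} (hD : D = adjugate A * cm (A, B) * A') :
    adjugate A * cm (A, D * B) * (D * A' * adjugate D) = D ∧ adjugate D * (D * B) = B ∧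
    adjugate D * (D * A' * adjugate D) * adjugate (adjugate D) = A' ∧
    B' * adjugate D * adjugate (adjugate D) = B' := by
  obtain ⟨A, rfl⟩ := mv_lift hA
  obtain ⟨B, rfl⟩ := mv_lift hB
  obtain ⟨A', rfl⟩ := mv_lift hA'
  obtain ⟨B', rfl⟩ := mv_lift hB'
  have e : D = mvl (B * A⁻¹ * B⁻¹ * A') := by
    rw [hD]
    simp only [cm, mvl_mul, mvl_adj]
    exact congrArg mvl (by group)
  rw [e]
  simp only [cm, mvl_mul, mvl_adj]
  exact ⟨congrArg mvl (by group), congrArg mvl (by group), congrArg mvl (by group),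
    congrArg mvl (by group)⟩

theorem AutK_T {o o' : Fin g} (h : Two κ o o') :
    IsAut κ (fun y => mh κ o o' y (Dh κ o o' y)) fun y => mh κ o o' y (adjugate (Dh κ o o' y)) := by
  have hm := moveh h.hd h.ho h.hk (AutK_ne h) h.hk'
  have hd : ∀ x ∈ RK κ, (Dh κ o o' x).det = 1 := fun x hx => by
    rw [AutK_Dh h, cm]
    simp only [det_mul, mv_adet, hx.1 o, hx.1 o', mul_one]
  refine ⟨fun V A x hκ hx => hm.polym V A x _ hκ hx (hm.polyD V A x hκ hx),
    fun V A x hκ hx => hm.polym V A x _ hκ hx (hm.polyD V A x hκ hx).adj,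
    fun x hx => hm.mem x hx _ (hd x hx) rfl,
    fun x hx => hm.mem x hx _ (mv_adet (hd x hx)) (by rw [adjugate_mul, mul_adjugate]),
    fun x hx => ?_⟩
  obtain ⟨k1, k2, k3, k4⟩ := AutK_T1 (hx.1 o).1 (hx.1 o).2 (hx.1 o').1 (hx.1 o').2 (AutK_Dh h x)
  have e : Dh κ o o' (mh κ o o' x (Dh κ o o' x)) = Dh κ o o' x := by
    rw [AutK_Dh h (mh κ o o' x _), AutK_mh h, AutK_mh h, if_pos rfl, if_neg (AutK_ne h),
      if_pos rfl]
    exact k1
  funext j
  beta_reduce
  rw [e, AutK_mh h, AutK_mh h]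
  by_cases h1 : j = o
  · subst h1
    simp only [if_true, k2]
  · by_cases h2 : j = o'
    · subst h2
      simp only [if_neg h1, if_true, k3, k4]
    · simp only [if_neg h1, if_neg h2]

theorem aut_Th {o o' : Fin g} (h : Two κ o o') (p q : ℕ) :
    IsAut κ (Th κ o o' p q) (Th' κ o o' p q) :=
  (((aut_tw h.hk' q).comp (aut_tw h.hk p)).comp (AutK_T h)).comp (AutK_sw h.hk)

theorem move2K {o o' : Fin g} (h : Two κ o o') (p q : ℕ) :
    IsMoveK κ (D2 o o' p q) (m2 o o' p q) := by
  have k := (moveh h.hd h.ho h.hk (AutK_ne h) h.hk').conj ((aut_tw h.hk' q).comp (aut_tw h.hk p))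
  have c : ∀ y : E g n, utw o p (utw o' q y) = utw o' q (utw o p y) := fun y =>
    funext fun j => Prod.ext (by
      simp only [utw, m1_fst, m1_snd]
      by_cases h1 : j = o
      · have h2 : j ≠ o' := h1 ▸ (AutK_ne h).symm
        simp only [if_pos h1, if_neg h2]
      · simp only [if_neg h1]) (by simp only [utw, m1_snd])
  have e1 : (D2 o o' p q : E g n → M n) = fun x => Dh κ o o' (tw o p (tw o' q x)) :=
    funext fun x => by rw [D2, AutK_Dv h]
  have e2 : (m2 o o' p q : E g n → M n → E g n) =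
      fun x C => utw o' q (utw o p (mh κ o o' (tw o p (tw o' q x)) C)) :=
    funext fun x => funext fun C => by rw [m2, AutK_mv h, c]
  rw [e1, e2]
  exact k

end Vale.Agent.P002
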