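import Vale.Agent.P002.Der1

open scoped Matrix.Norms.Operator Topology
open Matrix Filter

namespace Vale.Agent.P002

variable {g n : ℕ}

theorem der2_pair {a b : ℂ → M n} {a' b' : M n} (ha : HasDerivAt a a' 0) (hb : HasDerivAt b b' 0) :
    HasDerivAt (fun t => (a t, b t)) (a', b') 0 := ha.prodMk hb

theorem der2_mul {a b : ℂ → M n} {a' b' : M n} (ha : HasDerivAt a a' 0) (hb : HasDerivAt b b' 0) :
    HasDerivAt (fun t => a t * b t) (a' * b 0 + a 0 * b') 0 := ha.mul hb

theorem der2_cl {b : ℂ → M n} {b' : M n} (A : M n) (hb : HasDerivAt b b' 0) :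
    HasDerivAt (fun t => A * b t) (A * b') 0 := hb.const_mul A

theorem der2_cr {b : ℂ → M n} {b' : M n} (A : M n) (hb : HasDerivAt b b' 0) :
    HasDerivAt (fun t => b t * A) (b' * A) 0 := hb.mul_const A

theorem der2_pi {f : ℂ → E g n} {v : E g n}
    (h : ∀ j, HasDerivAt (fun t => f t j) (v j) 0) : HasDerivAt f v 0 :=
  (hasDerivAt_pi (E' := fun _ : Fin g => M n × M n)).2 h

theorem der2_const (A : M n) : HasDerivAt (fun _ : ℂ => A) 0 0 := hasDerivAt_const _ _

theorem der2_const2 (A : M n × M n) : HasDerivAt (fun _ : ℂ => A) 0 0 := hasDerivAt_const _ _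

theorem m1_deriv (B : Fin g → M n) (i : Fin g) {C : ℂ → M n} {ξ : M n} (hC : HasDerivAt C ξ 0) :
    HasDerivAt (fun t => m1 i (xB B) (C t)) (Pi.single i (ξ, 0) : E g n) 0 := by
  refine der2_pi fun j => ?_
  by_cases h : j = i
  · subst h
    simp only [m1, xB, Function.update_self, Pi.single_eq_same, one_mul]
    exact der2_pair hC (der2_const _)
  · simp only [m1, Function.update_of_ne h, Pi.single_eq_of_ne h]
    exact der2_const2 _

theorem der2_ma {B : M n} (hB : B.det = 1) : B * adjugate B = 1 := by
  rw [mul_adjugate, hB, one_smul]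

theorem der2_am {B : M n} (hB : B.det = 1) : adjugate B * B = 1 := by
  rw [adjugate_mul, hB, one_smul]

theorem der2_pma {B : M n} (hB : B.det = 1) (p : ℕ) : B ^ p * adjugate B ^ p = 1 := by
  rw [← adjugate_pow]
  exact der2_ma (by rw [det_pow, hB, one_pow])

theorem der2_pam {B : M n} (hB : B.det = 1) (p : ℕ) : adjugate B ^ p * B ^ p = 1 := by
  rw [← adjugate_pow]
  exact der2_am (by rw [det_pow, hB, one_pow])

theorem der2_cm {B : M n} (hB : B.det = 1) (p : ℕ) : cm (B ^ p, B) = 1 := by
  have h : B ^ p * B = B * B ^ p := by rw [← pow_succ, pow_succ']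
  simp only [cm]
  rw [h, mul_assoc B, adjugate_pow, der2_pma hB, mul_one, der2_ma hB]

theorem der2_pm {x : E g n} (h : ∀ j, cm (x j) = 1) (m : ℕ) : pm x m = 1 := by
  unfold pm
  apply List.prod_eq_one
  intro a ha
  have := List.mem_of_mem_take ha
  rw [List.mem_ofFn] at this
  obtain ⟨j, rfl⟩ := this
  exact h j

theorem der2_tw (B : Fin g → M n) {i k : Fin g} (hik : i < k) (p q : ℕ) (j : Fin g) :
    tw i p (tw k q (xB B)) j =
      (B j ^ (if j = i then p else if j = k then q else 0), B j) := by
  have hne : i ≠ k := hik.ne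
  by_cases h : j = i
  · subst h
    simp [tw, m1, xB, Function.update_of_ne hne]
  · by_cases h' : j = k
    · subst h'
      simp [tw, m1, xB, Function.update_of_ne h, h]
    · simp [tw, m1, xB, Function.update_of_ne h, Function.update_of_ne h', h, h']

theorem D2_xB {B : Fin g → M n} (hB : ∀ j, (B j).det = 1) {i k : Fin g} (hik : i < k) (p q : ℕ) :
    D2 i k p q (xB B) = adjugate (B i) ^ p * B k ^ q := by
  have h : ∀ j, cm (tw i p (tw k q (xB B)) j) = 1 := fun j => by
    rw [der2_tw B hik]; exact der2_cm (hB j) _
  have hne : k ≠ i := hik.ne'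
  simp only [D2, Dv, der2_pm h, der2_tw B hik, adjugate_one, mul_one, if_true, if_neg hne,
    adjugate_pow]

theorem der2_sa_succ (B : M n) (p : ℕ) (η : M n) :
    sa B (p + 1) η = B * sa B p η * adjugate B + η := by
  simp only [sa]
  rw [Finset.sum_range_succ', Finset.mul_sum, Finset.sum_mul]
  simp only [pow_zero, one_mul, mul_one]
  congr 1
  refine Finset.sum_congr rfl fun r _ => ?_
  rw [pow_succ' B, pow_succ (adjugate B)]
  simp only [mul_assoc]

theorem der2_sa_neg (B : M n) (p : ℕ) (η : M n) : sa B p (-η) = - sa B p η := by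
  simp [sa]

theorem der2_sa_conj (B : M n) (q : ℕ) (ξ : M n) :
    sa B q (B * ξ * adjugate B) = sa B q ξ + B ^ q * ξ * adjugate B ^ q - ξ := by
  have h1 : sa B (q + 1) ξ = sa B q ξ + B ^ q * ξ * adjugate B ^ q := by
    simp only [sa]; rw [Finset.sum_range_succ]
  have h2 : sa B (q + 1) ξ = sa B q (B * ξ * adjugate B) + ξ := by
    simp only [sa]
    rw [Finset.sum_range_succ']
    simp only [pow_zero, one_mul, mul_one]
    congr 1
    refine Finset.sum_congr rfl fun r _ => ?_
    rw [pow_succ B, pow_succ' (adjugate B)]
    simp only [mul_assoc]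
  rw [← h1, h2, add_sub_cancel_right]

theorem der2_pw {B : M n} (hB : B.det = 1) {u : ℂ → M n} {η : M n}
    (hu : HasDerivAt u (adjugate B * η) 0) (h0 : u 0 = adjugate B) (p : ℕ) :
    HasDerivAt (fun t => B ^ p * u t ^ p) (sa B p η) 0 := by
  induction p with
  | zero => simpa [sa] using der2_const (1 : M n)
  | succ p ih =>
    have h := der2_mul (der2_cl B ih) hu
    have e : (fun t => B ^ (p + 1) * u t ^ (p + 1)) = fun t => B * (B ^ p * u t ^ p) * u t := by
      funext t
      rw [pow_succ' B, pow_succ (u t)]
      simp only [mul_assoc]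
    rw [e, der2_sa_succ]
    convert h using 1
    rw [h0, der2_pma hB, mul_one, ← mul_assoc B (adjugate B) η, der2_ma hB, one_mul]

theorem m2_deriv {B : Fin g → M n} (hB : ∀ j, (B j).det = 1) {i k : Fin g} (hik : i < k) (p q : ℕ)
    {C : ℂ → M n} {ξ : M n} (hC : HasDerivAt C ξ 0) (h0 : C 0 = 1) (hξ : ξ.trace = 0) :
    ∃ v ∈ Tb B, HasDerivAt (fun t => m2 i k p q (xB B) (C t)) v 0 ∧ (fun j => (v j).1) =
      (Pi.single k (sa (B k) q ξ) : Fin g → M n) - Pi.single i (sa (B i) p ξ) := by
  have hne : k ≠ i := hik.ne'
  have hA : HasDerivAt (fun t => adjugate (C t)) (-ξ) 0 := by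
    have := adj_deriv hC (by rw [h0, det_one]) (by rw [h0, adjugate_one, one_mul, hξ])
    simpa [h0] using this
  have hAA : HasDerivAt (fun t => adjugate (adjugate (C t))) ξ 0 := by
    have := adj_deriv hA (by simp [h0]) (by simp [h0, hξ])
    simpa [h0] using this
  refine ⟨fun j => if j = i then (-sa (B i) p ξ, ξ * B i) else if j = k then
    (sa (B k) q ξ, B k * -ξ) else if i < j ∧ j < k then (0, ξ * B j - B j * ξ) else 0,
    ?_, ?_, ?_⟩
  · intro j
    have t1 : (adjugate (B j) * (ξ * B j)).trace = 0 := by
      rw [← mul_assoc, trace_mul_cycle, der2_ma (hB j), one_mul, hξ]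
    have t2 : (adjugate (B j) * (B j * ξ)).trace = 0 := by
      rw [← mul_assoc, der2_am (hB j), one_mul, hξ]
    by_cases h : j = i
    · subst h
      simpa using t1
    · by_cases h' : j = k
      · subst h'
        simp [h, t2]
      · by_cases h'' : i < j ∧ j < k
        · simp [h, h', h'', mul_sub, t1, t2]
        · simp [h, h', h'']
  · refine der2_pi fun j => ?_
    by_cases h : j = i
    · subst h
      have e : (fun t => m2 j k p q (xB B) (C t) j) =
          fun t => (B j ^ p * (adjugate (B j) * adjugate (C t)) ^ p, C t * B j) := by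
        funext t
        simp [m2, utw, m1, Function.update_of_ne hne.symm, mv, der2_tw B hik,
          adjugate_mul_distrib]
      rw [e, if_pos rfl, ← der2_sa_neg]
      exact der2_pair (der2_pw (hB j) (der2_cl _ hA) (by simp [h0]) p) (der2_cr _ hC)
    · by_cases h' : j = k
      · subst h'
        have e : (fun t => m2 i j p q (xB B) (C t) j) =
            fun t => (C t * (B j ^ q * adjugate (C t) * adjugate (B j) ^ q) *
              (B j ^ q * (adjugate (adjugate (C t)) * adjugate (B j)) ^ q),
              B j * adjugate (C t)) := by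
          funext t
          have : ∀ Y : M n, adjugate (B j) ^ q * (B j ^ q * Y) = Y := fun Y => by
            rw [← mul_assoc, der2_pam (hB j), one_mul]
          simp [m2, utw, m1, Function.update_of_ne h, mv, der2_tw B hik, h,
            adjugate_mul_distrib, mul_assoc, this]
        rw [e, if_neg h, if_pos rfl]
        refine der2_pair ?_ (der2_cl _ hA)
        have hu : HasDerivAt (fun t => adjugate (adjugate (C t)) * adjugate (B j))
            (adjugate (B j) * (B j * ξ * adjugate (B j))) 0 := by
          convert der2_cr (adjugate (B j)) hAA using 1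
          rw [← mul_assoc, ← mul_assoc, der2_am (hB j), one_mul]
        have h1 := der2_pw (hB j) hu (by simp [h0]) q
        have h2 := der2_mul (der2_mul hC (der2_cr (adjugate (B j) ^ q) (der2_cl (B j ^ q) hA))) h1
        convert h2 using 1
        simp only [h0, adjugate_one, mul_one, one_mul, der2_pma (hB j), der2_sa_conj, mul_neg,
          neg_mul]
        abel
      · by_cases h'' : i < j ∧ j < k
        · have e : (fun t => m2 i k p q (xB B) (C t) j) =
              fun t => (C t * adjugate (C t), C t * B j * adjugate (C t)) := by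
            funext t
            simp [m2, utw, m1, Function.update_of_ne h, Function.update_of_ne h', mv,
              der2_tw B hik, h, h', h'']
          rw [e, if_neg h, if_neg h', if_pos h'']
          refine der2_pair ?_ ?_
          · convert der2_mul hC hA using 1
            simp [h0]
          · convert der2_mul (der2_cr (B j) hC) hA using 1
            simp [h0, sub_eq_add_neg]
        · have e : (fun t => m2 i k p q (xB B) (C t) j) = fun _ => (1, B j) := by
            funext t
            simp [m2, utw, m1, Function.update_of_ne h, Function.update_of_ne h', mv,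
              der2_tw B hik, h, h', h'']
          rw [e, if_neg h, if_neg h', if_neg h'']
          exact der2_const2 _
  · funext j
    by_cases h : j = i
    · subst h
      simp [Pi.single_eq_of_ne hne.symm]
    · by_cases h' : j = k
      · subst h'
        simp [h, Pi.single_eq_of_ne h]
      · by_cases h'' : i < j ∧ j < k
        · simp [h, h', h'', Pi.single_eq_of_ne h, Pi.single_eq_of_ne h']
        · simp [h, h', h'', Pi.single_eq_of_ne h, Pi.single_eq_of_ne h']

end Vale.Agent.P002
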