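import Vale.Agent.P002.Poly1

open scoped Matrix.Norms.Operator Topology
open Matrix Filter

namespace Vale.Agent.P002

variable {g n : ℕ}

def mvl (U : SpecialLinearGroup (Fin n) ℂ) : M n := U.1

theorem mvl_mul (U W : SpecialLinearGroup (Fin n) ℂ) : mvl U * mvl W = mvl (U * W) := rfl

theorem mvl_adj (U : SpecialLinearGroup (Fin n) ℂ) : adjugate (mvl U) = mvl U⁻¹ := rfl

theorem mvl_pow (U : SpecialLinearGroup (Fin n) ℂ) (p : ℕ) : mvl U ^ p = mvl (U ^ p) := by
  induction p with
  | zero => rw [pow_zero, pow_zero]; rfl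
  | succ p ih => rw [pow_succ, pow_succ, ih, mvl_mul]

theorem mv_lift {A : M n} (h : A.det = 1) : ∃ U : SpecialLinearGroup (Fin n) ℂ, mvl U = A :=
  ⟨⟨A, h⟩, rfl⟩

theorem mv_succ (x : E g n) {m : ℕ} (h : m < g) : pm x (m + 1) = pm x m * cm (x ⟨m, h⟩) := by
  rw [pm, List.prod_take_succ _ _ (by simpa using h), List.getElem_ofFn]
  rfl

theorem mv_adet {A : M n} (h : A.det = 1) : (adjugate A).det = 1 := by
  rw [det_adjugate, h, one_pow]

theorem mv_det {x : E g n} (hx : x ∈ RR g n) : ∀ m ≤ g, (pm x m).det = 1 := by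
  intro m
  induction m with
  | zero => intro _; simp [pm]
  | succ m ih =>
    intro h
    rw [mv_succ x h, cm]
    simp only [det_mul, ih (by omega), mv_adet, hx.1 _, mul_one]

theorem m1_snd (i j : Fin g) (x : E g n) (C : M n) : (m1 i x C j).2 = (x j).2 := by
  by_cases h : j = i
  · rw [h, m1, Function.update_self]
  · rw [m1, Function.update_of_ne h]

theorem m1_fst (i j : Fin g) (x : E g n) (C : M n) :
    (m1 i x C j).1 = if j = i then (x j).1 * C else (x j).1 := by
  by_cases h : j = i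
  · rw [h, m1, Function.update_self, if_pos rfl]
  · rw [m1, Function.update_of_ne h, if_neg h]

theorem mv_a1 {A B C : M n} (hA : A.det = 1) (hB : B.det = 1) (hC : C.det = 1)
    (h : C * B = B * C) : cm (A * C, B) = cm (A, B) := by
  obtain ⟨A, rfl⟩ := mv_lift hA
  obtain ⟨B, rfl⟩ := mv_lift hB
  obtain ⟨C, rfl⟩ := mv_lift hC
  have h' : C * B = B * C := Subtype.ext h
  simp only [cm, mvl_mul, mvl_adj]
  congr 1
  rw [mul_assoc A C B, h']
  group

theorem mv_a2 {P A B C : M n} (hP : P.det = 1) (hA : A.det = 1) (hB : B.det = 1)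
    (hC : C.det = 1) : P * cm (A, C * B) =
      P * A * C * (adjugate A * adjugate P * (P * cm (A, B))) * adjugate C := by
  obtain ⟨P, rfl⟩ := mv_lift hP
  obtain ⟨A, rfl⟩ := mv_lift hA
  obtain ⟨B, rfl⟩ := mv_lift hB
  obtain ⟨C, rfl⟩ := mv_lift hC
  simp only [cm, mvl_mul, mvl_adj]
  congr 1
  group

theorem mv_a3 {A B C : M n} (U W Q : M n) (hA : A.det = 1) (hB : B.det = 1) (hC : C.det = 1) :
    U * (W * Q) * adjugate C * cm (C * A * adjugate C, C * B * adjugate C) =
      U * (W * (Q * cm (A, B))) * adjugate C := by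
  have : adjugate C * cm (C * A * adjugate C, C * B * adjugate C) = cm (A, B) * adjugate C := by
    obtain ⟨A, rfl⟩ := mv_lift hA
    obtain ⟨B, rfl⟩ := mv_lift hB
    obtain ⟨C, rfl⟩ := mv_lift hC
    simp only [cm, mvl_mul, mvl_adj]
    congr 1
    group
  rw [mul_assoc, this]
  simp only [mul_assoc]

theorem mv_a4 {P A Q A' B C : M n} (hP : P.det = 1) (hA : A.det = 1) (hQ : Q.det = 1)
    (hA' : A'.det = 1) (hB : B.det = 1) (hC : C.det = 1)
    (h : C * (adjugate A * adjugate P * Q * A') = adjugate A * adjugate P * Q * A' * C) :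
    P * A * C * (adjugate A * adjugate P * Q) * adjugate C *
      cm (C * A' * adjugate C, B * adjugate C) = Q * cm (A', B) := by
  obtain ⟨P, rfl⟩ := mv_lift hP
  obtain ⟨A, rfl⟩ := mv_lift hA
  obtain ⟨Q, rfl⟩ := mv_lift hQ
  obtain ⟨A', rfl⟩ := mv_lift hA'
  obtain ⟨B, rfl⟩ := mv_lift hB
  obtain ⟨C, rfl⟩ := mv_lift hC
  simp only [cm, mvl_mul, mvl_adj] at h ⊢
  have h' : C * (A⁻¹ * P⁻¹ * Q * A') = A⁻¹ * P⁻¹ * Q * A' * C := Subtype.ext h
  congr 1
  calc _ = P * A * (C * (A⁻¹ * P⁻¹ * Q * A')) * C⁻¹ * B * A'⁻¹ * B⁻¹ := by group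
    _ = _ := by rw [h']; group

theorem move1 (i : Fin g) : IsMove (fun x : E g n => (x i).2) (m1 i) := by
  refine ⟨fun V A x hx => (hx i).2, fun V A x C hx hC j => ?_, fun x _ => by simp [m1],
    fun x hx C hC h => ⟨fun j => ?_, ?_⟩⟩
  · simp only [m1_snd, m1_fst]
    refine ⟨?_, (hx j).2⟩
    by_cases h : j = i
    · simp only [if_pos h]
      exact (hx j).1.mul hC
    · simp only [if_neg h]
      exact (hx j).1
  · rw [m1_snd, m1_fst]
    refine ⟨?_, (hx.1 j).2⟩
    split_ifs
    · rw [det_mul, hC, (hx.1 j).1, mul_one]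
    · exact (hx.1 j).1
  · have : (fun j => cm (m1 i x C j)) = fun j => cm (x j) := funext fun j => by
      by_cases hj : j = i
      · rw [hj, m1, Function.update_self]
        exact mv_a1 (hx.1 i).1 (hx.1 i).2 hC h
      · rw [m1, Function.update_of_ne hj]
    rw [pm, this]
    exact hx.2

theorem movev {i k : Fin g} (hik : i < k) : IsMove (Dv i k : E g n → M n) (mv i k) := by
  refine ⟨fun V A x hx => (((hx i).1.adj.mul (hx.pm i).adj).mul (hx.pm k)).mul (hx k).1,
    fun V A x C hx hC j => ?_, fun x _ => funext fun j => by simp [mv],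
    fun x hx C hC h => ⟨fun j => ?_, ?_⟩⟩
  · by_cases h1 : j = i
    · simp only [mv, if_pos h1]
      exact ⟨(hx j).1, hC.mul (hx j).2⟩
    by_cases h2 : j = k
    · simp only [mv, if_neg h1, if_pos h2]
      exact ⟨(hC.mul (hx j).1).mul hC.adj, (hx j).2.mul hC.adj⟩
    by_cases h3 : i < j ∧ j < k
    · simp only [mv, if_neg h1, if_neg h2, if_pos h3]
      exact ⟨(hC.mul (hx j).1).mul hC.adj, (hC.mul (hx j).2).mul hC.adj⟩
    · simp only [mv, if_neg h1, if_neg h2, if_neg h3]
      exact hx j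
  · unfold mv
    split_ifs <;> simp only [det_mul, hC, mv_adet, hx.1 j, mul_one, and_self]
  · have key : ∀ m ≤ g, pm (mv i k x C) m = if i.1 < m ∧ m ≤ k.1 then
        pm x i * (x i).1 * C * (adjugate (x i).1 * adjugate (pm x i) * pm x m) * adjugate C
        else pm x m := by
      have hik' : i.1 < k.1 := hik
      intro m
      induction m with
      | zero => intro _; simp [pm]
      | succ m ih =>
        intro hm
        rw [mv_succ _ hm, mv_succ x hm, ih (by omega)]
        by_cases h1 : (⟨m, hm⟩ : Fin g) = i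
        · have e : m = i.1 := congrArg Fin.val h1
          rw [if_neg (by omega), if_pos (by omega), mv, if_pos h1, h1, e]
          exact mv_a2 (mv_det hx _ i.2.le) (hx.1 i).1 (hx.1 i).2 hC
        have e1 : m ≠ i.1 := fun e => h1 (Fin.ext e)
        by_cases h2 : (⟨m, hm⟩ : Fin g) = k
        · have e : m = k.1 := congrArg Fin.val h2
          rw [if_pos (by omega), if_neg (by omega), mv, if_neg h1, if_pos h2, h2, e]
          exact mv_a4 (mv_det hx _ i.2.le) (hx.1 i).1 (mv_det hx _ k.2.le) (hx.1 k).1 (hx.1 k).2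
            hC h
        have e2 : m ≠ k.1 := fun e => h2 (Fin.ext e)
        by_cases h3 : i < (⟨m, hm⟩ : Fin g) ∧ (⟨m, hm⟩ : Fin g) < k
        · have a1 : i.1 < m := h3.1
          have a2 : m < k.1 := h3.2
          rw [if_pos (by omega), if_pos (by omega), mv, if_neg h1, if_neg h2, if_pos h3]
          exact mv_a3 _ _ _ (hx.1 _).1 (hx.1 _).2 hC
        · have a1 : ¬(i.1 < m ∧ m < k.1) := h3
          rw [if_neg (by omega), if_neg (by omega), mv, if_neg h1, if_neg h2, if_neg h3]
    rw [key g le_rfl, if_neg (fun h => absurd k.2 (not_lt.2 h.2))]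
    exact hx.2

theorem mv_pp {B : M n} (h : B.det = 1) (p : ℕ) : B ^ p * adjugate B ^ p = 1 := by
  obtain ⟨B, rfl⟩ := mv_lift h
  rw [mvl_adj, mvl_pow, mvl_pow, mvl_mul, inv_pow, mul_inv_cancel]
  rfl

theorem tw_mem (i : Fin g) (p : ℕ) {x : E g n} (hx : x ∈ RR g n) : tw i p x ∈ RR g n :=
  (move1 i).mem x hx _ (by rw [det_pow, (hx.1 i).2, one_pow]) (Commute.pow_self _ p).eq

theorem utw_mem (i : Fin g) (p : ℕ) {x : E g n} (hx : x ∈ RR g n) : utw i p x ∈ RR g n :=
  (move1 i).mem x hx _ (by rw [det_pow, mv_adet (hx.1 i).2, one_pow])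
    (Commute.pow_left (show adjugate (x i).2 * (x i).2 = (x i).2 * adjugate (x i).2 by
      rw [adjugate_mul, mul_adjugate]) p).eq

theorem move2 {i k : Fin g} (hik : i < k) (p q : ℕ) :
    IsMove (D2 i k p q : E g n → M n) (m2 i k p q) := by
  have t1 : ∀ (V : Type) (A : Subring (V → ℂ)) (x : V → E g n) (j : Fin g) (r : ℕ), EP A x →
      EP A fun v => tw j r (x v) := fun V A x j r hx =>
    (move1 j).polym V A x _ hx ((hx j).2.pow r)
  have t2 : ∀ (V : Type) (A : Subring (V → ℂ)) (x : V → E g n) (j : Fin g) (r : ℕ), EP A x →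
      EP A fun v => utw j r (x v) := fun V A x j r hx =>
    (move1 j).polym V A x _ hx ((hx j).2.adj.pow r)
  refine ⟨fun V A x hx => (movev hik).polyD V A _ (t1 V A _ i p (t1 V A x k q hx)),
    fun V A x C hx hC => t2 V A _ i p (t2 V A _ k q
      ((movev hik).polym V A _ C (t1 V A _ i p (t1 V A x k q hx)) hC)), fun x hx => ?_,
    fun x hx C hC h => utw_mem i p (utw_mem k q
      ((movev hik).mem _ (tw_mem i p (tw_mem k q hx)) C hC h))⟩
  rw [m2, (movev hik).one _ (tw_mem i p (tw_mem k q hx))]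
  funext j
  refine Prod.ext ?_ ?_
  · simp only [utw, tw, m1_fst, m1_snd]
    by_cases h1 : j = i
    · have h2 : j ≠ k := h1 ▸ hik.ne
      simp only [if_pos h1, if_neg h2, mul_assoc, mv_pp (hx.1 i).2, mul_one]
    · by_cases h2 : j = k
      · simp only [if_neg h1, if_pos h2, mul_assoc, mv_pp (hx.1 k).2, mul_one]
      · simp only [if_neg h1, if_neg h2]
  · simp only [utw, tw, m1_snd]

end Vale.Agent.P002
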