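import Vale.Agent.P002.PkL
import Vale.Agent.P002.Der2
import Vale.Agent.P002.Mv

open scoped Matrix.Norms.Operator Topology
open Matrix Filter

namespace Vale.Agent.P002

variable {g n : ℕ} {κ : Kd g n}

theorem BasK_zero (x : E g n) : pk κ x 0 = 1 := by simp [pk]

theorem BasK_ind {x y : E g n} {r0 r : ℕ} (hr : r0 ≤ r) (h0 : pk κ x r0 = pk κ y r0)
    (h : ∀ j : Fin g, r0 ≤ j.1 → j.1 < r → it (κ j) (x j) = it (κ j) (y j)) :
    pk κ x r = pk κ y r := by
  induction r, hr using Nat.le_induction with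
  | base => exact h0
  | succ r hr ih =>
    have ih' := ih fun j h1 h2 => h j h1 (by omega)
    by_cases hg : r < g
    · have e1 := pk_succ (κ := κ) x ⟨r, hg⟩
      have e2 := pk_succ (κ := κ) y ⟨r, hg⟩
      rw [e1, e2, h ⟨r, hg⟩ hr (Nat.lt_succ_self r)]
      exact congrArg (· * _) ih'
    · have e : ∀ w : E g n, pk κ w (r + 1) = pk κ w r := fun w => by
        unfold pk
        rw [List.take_of_length_le (by simp; omega), List.take_of_length_le (by simp; omega)]
      rw [e, e, ih']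

theorem BasK_cm1 {B : M n} (hB : B.det = 1) : cm (1, B) = 1 := by
  simpa using der2_cm hB 0

theorem BasK_one {o o' : Fin g} (h : Two κ o o') (x : E g n) : pk κ x o' = cm (x o) := by
  have e := pk_succ (κ := κ) x o
  rw [h.ho, BasK_zero, one_mul, h.hk] at e
  rw [h.ho']
  exact e

theorem BasK_two {o o' : Fin g} (h : Two κ o o') (x : E g n) :
    pk κ x 2 = cm (x o) * cm (x o') := by
  have e := pk_succ (κ := κ) x o'
  rw [BasK_one h, h.ho', h.hk'] at e
  exact e

theorem BasK_ne {o o' : Fin g} (h : Two κ o o') : o ≠ o' := fun e => by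
  have h1 := h.ho
  have h2 := h.ho'
  rw [e] at h1
  omega

theorem BasK_ge {o o' : Fin g} (h : Two κ o o') {j : Fin g} (h1 : j ≠ o) (h2 : j ≠ o') :
    2 ≤ j.1 := by
  have a1 : j.1 ≠ o.1 := fun e => h1 (Fin.ext e)
  have a2 : j.1 ≠ o'.1 := fun e => h2 (Fin.ext e)
  have := h.ho
  have := h.ho'
  omega

theorem BasK_grp {X Y : M n} (hX : X.det = 1) (hY : Y.det = 1) (p q : ℕ) :
    cm (X ^ (p + 1) * (adjugate (X ^ (p + 1)) * Y ^ q * X) * adjugate (X ^ (p + 1)),
      adjugate (X ^ (p + 1))) *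
      cm (adjugate (X ^ (p + 1)) * Y ^ q * Y ^ q * adjugate (adjugate (X ^ (p + 1)) * Y ^ q),
        Y * adjugate (adjugate (X ^ (p + 1)) * Y ^ q)) = 1 ∧
    adjugate (X ^ (p + 1) * (adjugate (X ^ (p + 1)) * Y ^ q * X) * adjugate (X ^ (p + 1))) =
      X ^ p * adjugate Y ^ q := by
  obtain ⟨U, rfl⟩ := mv_lift hX
  obtain ⟨W, rfl⟩ := mv_lift hY
  simp only [cm, mvl_pow, mvl_adj, mvl_mul]
  refine ⟨(congrArg mvl ?_).trans (show mvl 1 = 1 from rfl), congrArg mvl ?_⟩
  · group
  · group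

section
variable {o o' : Fin g} (h : Two κ o o') {z : E g n} {X Y : M n} (hX : X.det = 1) (hY : Y.det = 1)

include h in
theorem BasK_tw (p q : ℕ) : tw o p (tw o' q (xK o o' z X Y)) o = (X ^ p, X) ∧
    tw o p (tw o' q (xK o o' z X Y)) o' = (Y ^ q, Y) ∧
    ∀ j, j ≠ o → j ≠ o' → tw o p (tw o' q (xK o o' z X Y)) j = z j := by
  have hne := BasK_ne h
  refine ⟨?_, ?_, fun j h1 h2 => ?_⟩
  · simp [tw, m1, xK, Function.update_of_ne hne]
  · simp [tw, m1, xK, Function.update_of_ne hne.symm]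
  · simp [tw, m1, xK, Function.update_of_ne h1, Function.update_of_ne h2]

include h hX hY

theorem BasK_Th (h1 : z o = (1, 1)) (h2 : z o' = (1, 1)) (p q : ℕ) :
    adjugate (Th κ o o' (p + 1) q (xK o o' z X Y) o).1 = X ^ p * adjugate Y ^ q ∧
    (∀ j, j ≠ o → j ≠ o' → Th κ o o' (p + 1) q (xK o o' z X Y) j = z j) ∧
    ∀ r, 2 ≤ r → pk κ (Th κ o o' (p + 1) q (xK o o' z X Y)) r = pk κ z r := by
  have hne := BasK_ne h
  obtain ⟨t1, t2, t3⟩ := BasK_tw h (z := z) (X := X) (Y := Y) (p + 1) q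
  unfold Th
  generalize tw o (p + 1) (tw o' q (xK o o' z X Y)) = y at t1 t2 t3
  have hD : Dh κ o o' y = adjugate (X ^ (p + 1)) * Y ^ q := by
    rw [Dh, Db, BasK_one h, t1, t2, der2_cm hX, mul_one]
  rw [hD]
  obtain ⟨g1, g2⟩ := BasK_grp hX hY p q
  generalize adjugate (X ^ (p + 1)) * Y ^ q = C at g1 g2
  have a1 : mh κ o o' y C o = (X ^ (p + 1), C * X) := by
    simp [mh, mb, Function.update_of_ne hne, t1]
  have a2 : mh κ o o' y C o' = (C * Y ^ q * adjugate C, Y * adjugate C) := by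
    simp [mh, t2]
  have a3 : ∀ j, j ≠ o → j ≠ o' → mh κ o o' y C j = z j := fun j j1 j2 => by
    have := BasK_ge h j1 j2
    have := h.ho'
    rw [mh, Function.update_of_ne j2, mb, if_neg j1, if_neg (by omega), t3 j j1 j2]
  generalize mh κ o o' y C = w at a1 a2 a3
  have b1 : sw o w o = (X ^ (p + 1) * (C * X) * adjugate (X ^ (p + 1)),
      adjugate (X ^ (p + 1))) := by
    simp [sw, a1]
  have b2 : sw o w o' = (C * Y ^ q * adjugate C, Y * adjugate C) := by
    rw [sw, Function.update_of_ne hne.symm, a2]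
  have b3 : ∀ j, j ≠ o → j ≠ o' → sw o w j = z j := fun j j1 j2 => by
    rw [sw, Function.update_of_ne j1, a3 j j1 j2]
  refine ⟨by rw [b1]; exact g2, b3, fun r hr => BasK_ind hr ?_ fun j j1 _ => ?_⟩
  · rw [BasK_two h, BasK_two h, b1, b2, g1, h1, h2, BasK_cm1 det_one, mul_one]
  · have := h.ho
    have := h.ho'
    rw [b3 j (by rintro rfl; omega) (by rintro rfl; omega)]

end

section
variable {o o' : Fin g} (h : Two κ o o') {z : E g n} {X Y : M n} (hX : X.det = 1) (hY : Y.det = 1)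
include h hX hY

theorem D2_xK (p q : ℕ) : D2 o o' p q (xK o o' z X Y) = adjugate X ^ p * Y ^ q := by
  have _ := hY
  obtain ⟨t1, t2, -⟩ := BasK_tw h (z := z) (X := X) (Y := Y) p q
  unfold D2
  generalize tw o p (tw o' q (xK o o' z X Y)) = y at t1 t2
  have e0 : pm y o = 1 := by rw [h.ho]; simp [pm]
  have e1 : pm y o' = 1 := by
    have := mv_succ y o.2
    rw [e0, one_mul, Fin.eta, t1, der2_cm hX, h.ho] at this
    rw [h.ho']
    exact this
  rw [Dv, e0, e1, t1, t2, adjugate_one, mul_one, mul_one, adjugate_pow]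

theorem der2K (p q : ℕ) {C : ℂ → M n} {ξ : M n} (hC : HasDerivAt C ξ 0) (h0 : C 0 = 1)
    (hξ : ξ.trace = 0) : ∃ v, HasDerivAt (fun t => m2 o o' p q (xK o o' z X Y) (C t)) v 0 ∧
      (∀ j, j ≠ o → j ≠ o' → v j = 0) ∧ (v o).1 = -sa X p ξ ∧ (v o').1 = sa Y q ξ := by
  have hne := BasK_ne h
  have hlt : o < o' := by
    rw [Fin.lt_def, h.ho, h.ho']
    exact zero_lt_one
  let B : Fin g → M n := fun j => if j = o then X else Y
  have b1 : B o = X := if_pos rfl
  have b2 : B o' = Y := if_neg hne.symm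
  obtain ⟨v, -, hv, hv1⟩ := m2_deriv (B := B) (fun j => by
    simp only [B]; split_ifs <;> assumption) hlt p q hC h0 hξ
  have hv' := (hasDerivAt_pi (E' := fun _ : Fin g => M n × M n)).1 hv
  obtain ⟨t1, t2, t3⟩ := BasK_tw h (z := z) (X := X) (Y := Y) p q
  have s1 := der2_tw B hlt p q o
  have s2 := der2_tw B hlt p q o'
  rw [if_pos rfl, b1] at s1
  rw [if_neg hne.symm, if_pos rfl, b2] at s2
  refine ⟨fun j => if j = o ∨ j = o' then v j else 0, der2_pi fun j => ?_,
    fun j j1 j2 => if_neg (by simp [j1, j2]), ?_, ?_⟩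
  · by_cases j1 : j = o
    · subst j1
      rw [if_pos (Or.inl rfl)]
      refine (hv' j).congr_of_eventuallyEq (Eventually.of_forall fun t => ?_)
      simp [m2, utw, m1, Function.update_of_ne hne, mv, t1, s1]
    · by_cases j2 : j = o'
      · subst j2
        rw [if_pos (Or.inr rfl)]
        refine (hv' j).congr_of_eventuallyEq (Eventually.of_forall fun t => ?_)
        simp [m2, utw, m1, Function.update_of_ne j1, mv, t2, s2, j1]
      · rw [if_neg (by simp [j1, j2])]
        have hj : ¬ (o < j ∧ j < o') := fun hh => by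
          have := BasK_ge h j1 j2
          have := h.ho'
          have := Fin.lt_def.1 hh.2
          omega
        refine (der2_const2 (z j)).congr_of_eventuallyEq (Eventually.of_forall fun t => ?_)
        simp only [m2, utw, m1, Function.update_of_ne j1, Function.update_of_ne j2, mv,
          if_neg j1, if_neg j2, if_neg hj, t3 j j1 j2]
  · have := congrFun hv1 o
    simp only [Pi.sub_apply, Pi.single_eq_same, Pi.single_eq_of_ne hne, zero_sub, b1] at this
    simpa using this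
  · have := congrFun hv1 o'
    simp only [Pi.sub_apply, Pi.single_eq_same, Pi.single_eq_of_ne hne.symm, sub_zero, b2] at this
    simpa using this

theorem pk_xK (h1 : z o = (1, 1)) (h2 : z o' = (1, 1)) (r : ℕ) :
    pk κ (xK o o' z X Y) r = pk κ z r := by
  have hne := BasK_ne h
  refine BasK_ind (Nat.zero_le r) (by rw [BasK_zero, BasK_zero]) fun j _ _ => ?_
  by_cases j2 : j = o'
  · rw [j2, h.hk', xK, Function.update_self, h2]
    exact (BasK_cm1 hY).trans (BasK_cm1 det_one).symm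
  · by_cases j1 : j = o
    · rw [j1, h.hk, xK, Function.update_of_ne hne, Function.update_self, h1]
      exact (BasK_cm1 hX).trans (BasK_cm1 det_one).symm
    · rw [xK, Function.update_of_ne j2, Function.update_of_ne j1]

theorem Db_xK (h1 : z o = (1, 1)) (h2 : z o' = (1, 1)) (p q : ℕ) {r : ℕ} (hr : 2 ≤ r) :
    Db κ o r (Th κ o o' (p + 1) q (xK o o' z X Y)) = X ^ p * adjugate Y ^ q * pk κ z r := by
  obtain ⟨t1, -, t3⟩ := BasK_Th h hX hY h1 h2 p q
  rw [Db, t1, t3 r hr]

theorem Dh_xK (h1 : z o = (1, 1)) (h2 : z o' = (1, 1)) (p q e : ℕ) {k : Fin g} (k1 : k ≠ o)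
    (k2 : k ≠ o') : Dh κ o k (tw k e (Th κ o o' (p + 1) q (xK o o' z X Y))) =
      X ^ p * adjugate Y ^ q * (pk κ z k * ((z k).1 * (z k).2 ^ e)) := by
  obtain ⟨t1, t2, t3⟩ := BasK_Th h hX hY h1 h2 p q
  generalize Th κ o o' (p + 1) q (xK o o' z X Y) = T at t1 t2 t3
  have e1 : pk κ (tw k e T) k = pk κ T k := by
    refine BasK_ind (Nat.zero_le _) (by rw [BasK_zero, BasK_zero]) fun j _ hj => ?_
    rw [tw, m1, Function.update_of_ne (by rintro rfl; omega)]
  rw [Dh, Db, e1, t3 k (BasK_ge h k1 k2), tw, m1, Function.update_of_ne k1.symm,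
    Function.update_self, t1, t2 k k1 k2, mul_assoc]

theorem dpk_xK {v : E g n} (hv : ∀ j, j ≠ o → j ≠ o' → (v j).1 = 0 ∧ (κ j = none → (v j).2 = 0)) :
    dpk κ (xK o o' z X Y) v =
      ((v o).1 - X * (v o).1 * adjugate X) + ((v o').1 - Y * (v o').1 * adjugate Y) := by
  have hne := BasK_ne h
  have x1 : xK o o' z X Y o = (1, X) := by rw [xK, Function.update_of_ne hne, Function.update_self]
  have x2 : xK o o' z X Y o' = (1, Y) := by rw [xK, Function.update_self]
  have hd : ∀ {B : M n}, B.det = 1 → ∀ w : M n × M n,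
      dit none (1, B) w = w.1 - B * w.1 * adjugate B := by
    intro B hB w
    simp only [dit, dcm, BasK_cm1 hB, adjugate_one, mul_one, one_mul]
    abel
  rw [dpk, Finset.sum_eq_add o o' hne ?_ (by simp) (by simp), BasK_one h, h.ho, BasK_zero, x1, x2,
    h.hk, h.hk', BasK_cm1 hX, hd hX, hd hY, adjugate_one, one_mul, mul_one, one_mul, mul_one]
  intro j _ hj
  obtain ⟨v1, v2⟩ := hv j hj.1 hj.2
  have : dit (κ j) (xK o o' z X Y j) (v j) = 0 := by
    cases hk : κ j with
    | none => simp [dit, dcm, v1, v2 hk]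
    | some J => simp [dit, v1]
  rw [this, mul_zero, zero_mul]
end

end Vale.Agent.P002
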