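import Vale.Agent.P002.ZCom

open scoped Matrix.Norms.Operator Topology
open Matrix Filter

namespace Vale.Agent.P002

variable {g n : ℕ}

theorem BaseT_conj {D Q : M n} (h1 : D * Q = 1) (h2 : Q * D = 1) (l : List (M n)) :
    (l.map fun J => D * J * Q).prod = D * l.prod * Q := by
  induction l with
  | nil => simp [h1]
  | cons a l ih =>
    rw [List.map_cons, List.prod_cons, List.prod_cons, ih]
    calc D * a * Q * (D * l.prod * Q) = D * a * (Q * D) * l.prod * Q := by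
          simp only [mul_assoc]
      _ = D * (a * l.prod) * Q := by rw [h2, mul_one, mul_assoc D a]

theorem BaseT_tri {L : IntermediateField ℚ ℂ} {N m : ℕ} (hm : 0 < m) {J : M n}
    (hJ : Tri L N J) :
    Tri L N (diagonal (fun i : Fin n => ((m : ℂ) ^ i.1)⁻¹) * J *
      diagonal (fun i : Fin n => (m : ℂ) ^ i.1)) := by
  obtain ⟨a1, a2, a3, a4⟩ := hJ
  have hm0 : (m : ℂ) ≠ 0 := Nat.cast_ne_zero.2 hm.ne'
  have hi : ∀ i : Fin n, ((m : ℂ) ^ i.1)⁻¹ * (m : ℂ) ^ i.1 = 1 := fun i =>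
    inv_mul_cancel₀ (pow_ne_zero _ hm0)
  refine ⟨fun i j => ?_, ((blockTriangular_diagonal _).mul a2).mul (blockTriangular_diagonal _),
    ?_, fun i => ?_⟩
  · rw [mul_diagonal, diagonal_mul]
    rcases lt_or_ge j i with h | h
    · rw [a2 (show id j < id i from h), mul_zero, zero_mul]
      exact zero_mem _
    · obtain ⟨k, hk⟩ := Nat.exists_eq_add_of_le (show i.1 ≤ j.1 from h)
      have e : ((m : ℂ) ^ i.1)⁻¹ * J i j * (m : ℂ) ^ j.1 = J i j * (m : ℂ) ^ k := by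
        rw [hk, pow_add]
        calc ((m : ℂ) ^ i.1)⁻¹ * J i j * ((m : ℂ) ^ i.1 * (m : ℂ) ^ k)
            = (((m : ℂ) ^ i.1)⁻¹ * (m : ℂ) ^ i.1) * (J i j * (m : ℂ) ^ k) := by ring
          _ = J i j * (m : ℂ) ^ k := by rw [hi, one_mul]
      rw [e]
      exact mul_mem (a1 i j) (pow_mem (natCast_mem _ m) k)
  · rw [det_mul, det_mul, a3, mul_one, ← det_mul, diagonal_mul_diagonal]
    simp only [hi, diagonal_one, det_one]
  · rw [mul_diagonal, diagonal_mul, mul_right_comm, hi, one_mul, a4]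

theorem baseT {N : ℕ} (hN : 0 < N) (hn : 0 < n) {L : IntermediateField ℚ ℂ}
    (hL : FiniteDimensional ℚ L) (hR : Roots L (2 * N * n * n)) {s : ℕ} (hg : 3 ≤ g)
    (J : Fin s → M n) (hJ : ∀ i, Tri L N (J i)) :
    ∃ D Q : M n, D * Q = 1 ∧ (∀ i, Tri L N (D * J i * Q)) ∧
      ∃ z ∈ SK L (kap g fun i => D * J i * Q), ∀ j : Fin (g + s), j.1 < 2 → z j = (1, 1) := by
  obtain ⟨c1, c2, c3, c4⟩ := BaseZ_prod (List.ofFn J) (List.forall_mem_ofFn_iff.2 hJ)
  set c := (List.ofFn J).prod with hc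
  have e1 : adjugate c * c = 1 := by rw [adjugate_mul, c3, one_smul]
  have t1 : (adjugate c).BlockTriangular id := by
    have := invertibleOfLeftInverse _ _ e1
    rw [← inv_eq_left_inv e1]
    exact blockTriangular_inv_of_blockTriangular c2
  have d1 : ∀ i, adjugate c i i * c i i = 1 := fun i => by
    rw [← BaseZ_diag t1 c2, e1, one_apply_eq]
  have d2 : ∀ i, adjugate c i i ^ N = 1 := fun i => by
    have := congrArg (· ^ N) (d1 i)
    simpa only [mul_pow, c4, mul_one, one_pow] using this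
  have d3 : (adjugate c).det = 1 := by
    have := congrArg det e1
    rwa [det_mul, c3, mul_one, det_one] at this
  have n1 : Ent (OO L) (adjugate c) := (mp_unit _ _).1 ((mp_unit _ _).2 c1).adj
  obtain ⟨m, hm, a, a1, a2, a3, a4, a5⟩ := zcom hN hn hL hR (c := adjugate c) ⟨n1, t1, d3, d2⟩
  have hm0 : (m : ℂ) ≠ 0 := Nat.cast_ne_zero.2 hm.ne'
  have hT := fun i => BaseT_tri hm (hJ i)
  have hDQ : diagonal (fun i : Fin n => ((m : ℂ) ^ i.1)⁻¹) *
      diagonal (fun i : Fin n => (m : ℂ) ^ i.1) = (1 : M n) := by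
    rw [diagonal_mul_diagonal]
    have hi : ∀ i : Fin n, ((m : ℂ) ^ i.1)⁻¹ * (m : ℂ) ^ i.1 = 1 := fun i =>
      inv_mul_cancel₀ (pow_ne_zero _ hm0)
    simp only [hi, diagonal_one]
  generalize diagonal (fun i : Fin n => ((m : ℂ) ^ i.1)⁻¹) = D at a5 hT hDQ
  generalize diagonal (fun i : Fin n => (m : ℂ) ^ i.1) = Q at a5 hT hDQ
  have hQD : Q * D = 1 := mul_eq_one_comm.1 hDQ
  have hP : (List.ofFn fun i => D * J i * Q).prod = D * c * Q := by
    rw [hc, ← BaseT_conj hDQ hQD, List.map_ofFn]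
    rfl
  have key : cm a * (List.ofFn fun i => D * J i * Q).prod = 1 := by
    rw [a5, hP]
    calc D * adjugate c * Q * (D * c * Q) = D * (adjugate c * (Q * D) * c) * Q := by
          simp only [mul_assoc]
      _ = 1 := by rw [hQD, mul_one, e1, mul_one, hDQ]
  obtain ⟨g', rfl⟩ : ∃ g', g = g' + 3 := ⟨g - 3, by omega⟩
  have hp : ∀ P : M n × M n → Prop, P a → P (1, 1) → ∀ j : Fin (g' + 3 + s),
      P (if j.1 = 2 then a else (1, 1)) := by
    intro P h1 h3 j
    split_ifs <;> assumption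
  refine ⟨D, Q, hDQ, hT, fun j => if j.1 = 2 then a else (1, 1), ⟨⟨?_, ?_⟩, ?_⟩, ?_⟩
  · exact hp (fun x => x.1.det = 1 ∧ x.2.det = 1) ⟨a1, a2⟩ ⟨det_one, det_one⟩
  · have h1 : cm ((1, 1) : M n × M n) = 1 := by simp [cm]
    have h2 : ∀ i : ℕ, ¬ (i + 1 + 1 + 1 = 2) := fun i => by omega
    have h4 : ∀ i : ℕ, ¬ (g' + 3 + i = 2) := fun i => by omega
    rw [pk_kap]
    simp only [List.ofFn_succ, Fin.val_castAdd, Fin.val_natAdd, Fin.val_succ, Fin.val_zero, h2,
      h4, if_false, List.prod_cons, h1, adjugate_one, one_mul, mul_one, List.ofFn_const,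
      List.prod_replicate, one_pow]
    simpa [h1] using key
  · exact hp (fun x => Ent (OO L) x.1 ∧ Ent (OO L) x.2) ⟨a3, a4⟩ ⟨BaseZ_one _, BaseZ_one _⟩
  · intro j hj
    beta_reduce
    rw [if_neg (by omega)]

end Vale.Agent.P002
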