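import Vale.Agent.P002.PkL
import Vale.Agent.P002.Abs1
import Vale.Agent.P002.Abs2

open scoped Matrix.Norms.Operator Topology
open Matrix Filter

namespace Vale.Agent.P002

variable {g n : ℕ} {κ : Kd g n}

theorem BaseZ_diag {A B : M n} (hA : A.BlockTriangular id) (hB : B.BlockTriangular id)
    (i : Fin n) : (A * B) i i = A i i * B i i := by
  rw [mul_apply, Finset.sum_eq_single i _ (by simp)]
  intro k _ hk
  rcases lt_or_gt_of_ne hk with h | h
  · rw [hA (show id k < id i from h), zero_mul]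
  · rw [hB (show id i < id k from h), mul_zero]

theorem BaseZ_mul {O : Subring ℂ} {A B : M n} (hA : Ent O A) (hB : Ent O B) : Ent O (A * B) :=
  (mp_unit _ _).1 (((mp_unit _ _).2 hA).mul ((mp_unit _ _).2 hB))

theorem BaseZ_one (O : Subring ℂ) : Ent O (1 : M n) := (mp_unit _ _).1 MP.one

theorem BaseZ_prod {L : IntermediateField ℚ ℂ} {N : ℕ} (l : List (M n))
    (h : ∀ c ∈ l, Tri L N c) : Tri L N l.prod := by
  induction l with
  | nil => exact ⟨BaseZ_one _, blockTriangular_one, det_one, fun i => by simp⟩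
  | cons a l ih =>
    obtain ⟨a1, a2, a3, a4⟩ := h a List.mem_cons_self
    obtain ⟨b1, b2, b3, b4⟩ := ih fun c hc => h c (List.mem_cons_of_mem _ hc)
    rw [List.prod_cons]
    exact ⟨BaseZ_mul a1 b1, a2.mul b2, by rw [det_mul, a3, b3, one_mul],
      fun i => by rw [BaseZ_diag a2 b2, mul_pow, a4, b4, one_mul]⟩

theorem pk_kap {s : ℕ} (J : Fin s → M n) (x : E (g + s) n) : pk (kap g J) x (g + s) =
    (List.ofFn fun i : Fin g => cm (x (Fin.castAdd s i))).prod *
      (List.ofFn fun i : Fin s =>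
        (x (Fin.natAdd g i)).1 * J i * adjugate (x (Fin.natAdd g i)).1).prod := by
  rw [pk, List.take_of_length_le (by simp), List.ofFn_add, List.prod_append]
  have h1 : ∀ i : Fin g, Fin.castLE (Nat.le_add_right g s) i = Fin.castAdd s i := fun _ => rfl
  simp only [h1, kap, Fin.addCases_left, Fin.addCases_right, it]

theorem baseZ {N : ℕ} (hN : 0 < N) (hn : 0 < n) : ∃ K, ∀ L : IntermediateField ℚ ℂ, Roots L K →
    ∀ g s : ℕ, 4 ≤ g → ∀ J : Fin s → M n, (∀ i, Tri L N (J i)) →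
      ∃ z ∈ SK L (kap g J), ∀ j : Fin (g + s), j.1 < 2 → z j = (1, 1) := by
  obtain ⟨K, hK⟩ := abs2 n
  refine ⟨max K (2 * N * n), fun L hL g s hg J hJ => ?_⟩
  obtain ⟨c1, c2, c3, c4⟩ := BaseZ_prod (List.ofFn J) (List.forall_mem_ofFn_iff.2 hJ)
  set c := (List.ofFn J).prod with hc
  have e1 : adjugate c * c = 1 := by rw [adjugate_mul, c3, one_smul]
  have t1 : (adjugate c).BlockTriangular id := by
    have := invertibleOfLeftInverse _ _ e1
    rw [← inv_eq_left_inv e1]
    exact blockTriangular_inv_of_blockTriangular c2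
  have d1 : ∀ i, adjugate c i i * c i i = 1 := fun i => by
    rw [← BaseZ_diag t1 c2, e1, one_apply_eq]
  have d2 : ∀ i, adjugate c i i ^ N = 1 := fun i => by
    have := congrArg (· ^ N) (d1 i)
    simpa only [mul_pow, c4, mul_one, one_pow] using this
  have d3 : ∏ i, adjugate c i i = 1 := by
    have := congrArg det e1
    rwa [det_mul, c3, mul_one, det_one, det_of_isUpperTriangular t1] at this
  have n1 : Ent (OO L) (adjugate c) := (mp_unit _ _).1 ((mp_unit _ _).2 c1).adj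
  obtain ⟨a, a1, a2, a3, a4, a5⟩ := abs1 hN hn (L := L)
    (fun k h0 hk => hL k h0 (hk.trans (le_max_right _ _))) d2 d3
  obtain ⟨b, b1, b2, b3, b4, b5⟩ := hK L (fun k h0 hk => hL k h0 (hk.trans (le_max_left _ _)))
    (diagonal (fun i => c i i) * adjugate c)
    (fun i j => by rw [diagonal_mul]; exact mul_mem (c1 i i) (n1 i j))
    ((blockTriangular_diagonal _).mul t1) (fun i => by rw [diagonal_mul, mul_comm, d1])
  have key : cm a * (cm b * c) = 1 := by
    rw [a5, b5, ← mul_assoc, ← mul_assoc, diagonal_mul_diagonal]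
    simp only [d1, diagonal_one, one_mul, e1]
  obtain ⟨g', rfl⟩ : ∃ g', g = g' + 4 := ⟨g - 4, by omega⟩
  have hp : ∀ P : M n × M n → Prop, P a → P b → P (1, 1) → ∀ j : Fin (g' + 4 + s),
      P (if j.1 = 2 then a else if j.1 = 3 then b else (1, 1)) := by
    intro P h1 h2 h3 j
    split_ifs <;> assumption
  refine ⟨fun j => if j.1 = 2 then a else if j.1 = 3 then b else (1, 1), ⟨⟨?_, ?_⟩, ?_⟩, ?_⟩
  · exact hp (fun x => x.1.det = 1 ∧ x.2.det = 1) ⟨a1, a2⟩ ⟨b1, b2⟩ ⟨det_one, det_one⟩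
  · have h1 : cm ((1, 1) : M n × M n) = 1 := by simp [cm]
    have h2 : ∀ i : ℕ, ¬ (i + 1 + 1 + 1 + 1 = 2) := fun i => by omega
    have h3 : ∀ i : ℕ, ¬ (i + 1 + 1 + 1 + 1 = 3) := fun i => by omega
    have h4 : ∀ i : ℕ, ¬ (g' + 4 + i = 2) := fun i => by omega
    have h5 : ∀ i : ℕ, ¬ (g' + 4 + i = 3) := fun i => by omega
    rw [pk_kap]
    simp only [List.ofFn_succ, Fin.val_castAdd, Fin.val_natAdd, Fin.val_succ, Fin.val_zero, h2, h3,
      h4, h5, if_false, List.prod_cons, h1, adjugate_one, one_mul, mul_one, List.ofFn_const,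
      List.prod_replicate, one_pow]
    simpa [h1, mul_assoc] using key
  · exact hp (fun x => Ent (OO L) x.1 ∧ Ent (OO L) x.2) ⟨a3, a4⟩ ⟨b3, b4⟩
      ⟨BaseZ_one _, BaseZ_one _⟩
  · intro j hj
    beta_reduce
    rw [if_neg (by omega), if_neg (by omega)]

end Vale.Agent.P002
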