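import Vale.Agent.P002.Stmt

/-! Representations of a surface group times a free abelian group. -/

namespace Vale.Agent.P002

/-- the last `h` pairs of generators have central image -/
def Cen {g h n : ℕ} (ρ : Rep (g + h) n) : Prop :=
  ∀ (j : Fin h) (b : Bool) γ, ρ (PresentedGroup.of (Fin.natAdd g j, b)) * ρ γ =
    ρ γ * ρ (PresentedGroup.of (Fin.natAdd g j, b))

end Vale.Agent.P002
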