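import Vale.Agent.P002.Main2
import Vale.Agent.P002.Abs1
import Vale.Agent.P002.StmtC

open scoped Matrix.Norms.Operator Topology
open Matrix Filter

namespace Vale.Agent.P002

variable {g n c : ℕ}

def Cp (a b : M n × M n) : Prop := a.1 * b.1 = b.1 * a.1 ∧ a.1 * b.2 = b.2 * a.1 ∧
  a.2 * b.1 = b.1 * a.2 ∧ a.2 * b.2 = b.2 * a.2

def ZC (c : ℕ) (x : E g n) : Prop := ∀ j i : Fin g, c ≤ j.1 → Cp (x j) (x i)

def InvC (c : ℕ) (f : E g n → ℂ) : Prop :=
  ∀ P Q : M n, P * Q = 1 → ∀ x ∈ RR g n, ZC c x → f (cj P Q x) = f x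

def DenseC (c : ℕ) (L : IntermediateField ℚ ℂ) (g n : ℕ) : Prop :=
  ∀ f ∈ Pol (E g n), InvC c f → (∀ s ∈ SS L g n, ZC c s → f s = 0) →
    ∀ x ∈ RR g n, ZC c x → f x = 0

theorem blk_of {k l : ℕ} {a a' : M k} {b b' : M l} (h : a * a' = a' * a) (h' : b * b' = b' * b)
    (s t s' t' : ℂ) : blk (s • a) 0 (t • b) * blk (s' • a') 0 (t' • b') =
      blk (s' • a') 0 (t' • b') * blk (s • a) 0 (t • b) := by
  simp only [red3_mul, smul_mul_smul_comm, h, h', mul_comm s, mul_comm t]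

theorem blk_to {k l : ℕ} {a a' : M k} {b b' : M l} {d d' : Matrix (Fin k) (Fin l) ℂ}
    {s s' : ℂ} (hs : s ≠ 0) (hs' : s' ≠ 0)
    (h : blk (s ^ l • a) d (s⁻¹ ^ k • b) * blk (s' ^ l • a') d' (s'⁻¹ ^ k • b') =
      blk (s' ^ l • a') d' (s'⁻¹ ^ k • b') * blk (s ^ l • a) d (s⁻¹ ^ k • b)) :
    a * a' = a' * a ∧ b * b' = b' * b := by
  rw [red2_mul, red2_mul] at h
  have h1 := fromBlocks_inj.1 ((reindex finSumFinEquiv finSumFinEquiv).injective h)
  have e1 := h1.1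
  have e2 := h1.2.2.2
  rw [smul_mul_smul_comm, smul_mul_smul_comm, mul_comm (s' ^ l)] at e1
  rw [smul_mul_smul_comm, smul_mul_smul_comm, mul_comm (s'⁻¹ ^ k)] at e2
  exact ⟨smul_right_injective _ (mul_ne_zero (pow_ne_zero _ hs) (pow_ne_zero _ hs')) e1,
    smul_right_injective _ (mul_ne_zero (pow_ne_zero _ (inv_ne_zero hs))
      (pow_ne_zero _ (inv_ne_zero hs'))) e2⟩

theorem zc_bs {k l : ℕ} (τ : Fin g → ℂ × ℂ) {y : E g k} {z : E g l} (hy : ZC c y) (hz : ZC c z) :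
    ZC c (bs τ y z) := fun j i h =>
  ⟨blk_of (hy j i h).1 (hz j i h).1 _ _ _ _, blk_of (hy j i h).2.1 (hz j i h).2.1 _ _ _ _,
    blk_of (hy j i h).2.2.1 (hz j i h).2.2.1 _ _ _ _,
    blk_of (hy j i h).2.2.2 (hz j i h).2.2.2 _ _ _ _⟩

theorem zc_cj {P Q : M n} (h : P * Q = 1) {x : E g n} (hx : ZC c x) : ZC c (cj P Q x) := by
  have h' : Q * P = 1 := mul_eq_one_comm.1 h
  have k : ∀ a b : M n, a * b = b * a → P * a * Q * (P * b * Q) = P * b * Q * (P * a * Q) :=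
    fun a b e => by
      have k1 : ∀ a b : M n, P * a * Q * (P * b * Q) = P * (a * b) * Q := fun a b => by
        calc _ = P * a * (Q * P) * b * Q := by simp only [mul_assoc]
          _ = _ := by rw [h', mul_one, mul_assoc P]
      rw [k1, k1, e]
  exact fun j i e => ⟨k _ _ (hx j i e).1, k _ _ (hx j i e).2.1, k _ _ (hx j i e).2.2.1,
    k _ _ (hx j i e).2.2.2⟩

theorem red2C {k l : ℕ} (hk : 0 < k) (hl : 0 < l) {x : E g (k + l)} (hx : x ∈ RR g (k + l)) (hc : ZC c x)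
    (h : ∀ j (a b : Fin (k + l)), k ≤ a.1 → b.1 < k → (x j).1 a b = 0 ∧ (x j).2 a b = 0) :
    ∃ τ : Fin g → ℂ × ℂ, (∀ j, (τ j).1 ≠ 0 ∧ (τ j).2 ≠ 0) ∧ ∃ y ∈ RR g k, ∃ z ∈ RR g l,
      (ZC c y ∧ ZC c z) ∧ ∀ f ∈ Pol (E g (k + l)), InvC c f → f x = f (bs τ y z) := by
  choose τ1 y1 c1 z1 a1 a2 a3 a4 using fun j =>
    red2_of hk hl (hx.1 j).1 fun a b h1 h2 => (h j a b h1 h2).1
  choose τ2 y2 c2 z2 b1 b2 b3 b4 using fun j =>
    red2_of hk hl (hx.1 j).2 fun a b h1 h2 => (h j a b h1 h2).2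
  have e : x = red2bt (fun j => (τ1 j, τ2 j)) (fun j => (y1 j, y2 j)) (fun j => (c1 j, c2 j))
      fun j => (z1 j, z2 j) := funext fun j => Prod.ext (a4 j) (b4 j)
  obtain ⟨d, -, hd⟩ := red2_pm (τ := fun j => (τ1 j, τ2 j)) (y := fun j => (y1 j, y2 j))
    (z := fun j => (z1 j, z2 j)) (fun j => ⟨a1 j, b1 j⟩) (fun j => ⟨a2 j, b2 j⟩)
    (fun j => ⟨a3 j, b3 j⟩) (fun j => (c1 j, c2 j)) g le_rfl
  rw [← e, hx.2, ← red2_one] at hd
  have hd' := fromBlocks_inj.1 ((reindex finSumFinEquiv finSumFinEquiv).injective hd)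
  refine ⟨fun j => (τ1 j, τ2 j), fun j => ⟨a1 j, b1 j⟩, fun j => (y1 j, y2 j),
    ⟨fun j => ⟨a2 j, b2 j⟩, hd'.1.symm⟩, fun j => (z1 j, z2 j),
    ⟨fun j => ⟨a3 j, b3 j⟩, hd'.2.2.2.symm⟩, ?_, fun f hf hi => ?_⟩
  · have k1 := fun j i e => blk_to (a1 j) (a1 i) (a4 j ▸ a4 i ▸ (hc j i e).1)
    have k2 := fun j i e => blk_to (a1 j) (b1 i) (a4 j ▸ b4 i ▸ (hc j i e).2.1)
    have k3 := fun j i e => blk_to (b1 j) (a1 i) (b4 j ▸ a4 i ▸ (hc j i e).2.2.1)
    have k4 := fun j i e => blk_to (b1 j) (b1 i) (b4 j ▸ b4 i ▸ (hc j i e).2.2.2)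
    exact ⟨fun j i e => ⟨(k1 j i e).1, (k2 j i e).1, (k3 j i e).1, (k4 j i e).1⟩,
      fun j i e => ⟨(k1 j i e).2, (k2 j i e).2, (k3 j i e).2, (k4 j i e).2⟩⟩
  set x0 := bs (fun j => (τ1 j, τ2 j)) (fun j => (y1 j, y2 j)) fun j => (z1 j, z2 j) with hx0
  let w : E g (k + l) := fun j => (blk 0 (c1 j) 0, blk 0 (c2 j) 0)
  have cc : Continuous fun t : ℂ => f (x0 + t • w) :=
    (pol_contDiff hf).continuous.comp (continuous_const.add (continuous_id.smul continuous_const))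
  have := Continuous.ext_on (dense_compl_singleton (0 : ℂ)) cc (continuous_const (y := f x))
    fun t ht => by
      have ht' : t ≠ 0 := ht
      rw [← hi (blk (t • (1 : M k)) 0 (1 : M l)) (blk (t⁻¹ • (1 : M k)) 0 (1 : M l)) (by
        rw [red2_mul, smul_mul_smul_comm, mul_inv_cancel₀ ht']
        simp [red2_one]) x hx hc]
      refine congrArg f (funext fun j => Prod.ext ?_ ?_)
      · rw [cj, a4 j]
        exact (red2_cj ht' _ _ _).symm
      · rw [cj, b4 j]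
        exact (red2_cj ht' _ _ _).symm
  simpa using (congrFun this 0).symm

theorem red3C {L : IntermediateField ℚ ℂ} (hL : GoodL L) {k l : ℕ} (hk : DenseC c L g k)
    (hl : DenseC c L g l) {f : E g (k + l) → ℂ} (hf : f ∈ Pol (E g (k + l))) (hi : InvC c f)
    (h0 : ∀ s ∈ SS L g (k + l), ZC c s → f s = 0) {τ : Fin g → ℂ × ℂ}
    (hτ : ∀ j, (τ j).1 ≠ 0 ∧ (τ j).2 ≠ 0) {y : E g k} (hy : y ∈ RR g k) {z : E g l}
    (hz : z ∈ RR g l) (cy : ZC c y) (cz : ZC c z) : f (bs τ y z) = 0 := by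
  obtain ⟨ε, e1, e2, e3, e4⟩ := exists_eps hL
  have hT : (Set.range fun m : ℕ => ε ^ m).Infinite := Set.infinite_range_of_injective fun a b h => by
    have := congrArg norm h
    simp only [norm_pow] at this
    exact pow_right_injective₀ (norm_pos_iff.2 e3) e4 this
  have s1 : ∀ y ∈ SS L g k, ZC c y → ∀ z ∈ SS L g l, ZC c z → f (bs τ y z) = 0 :=
      fun y hy cy z hz cz => by
    obtain ⟨Ω, hΩ⟩ : ∃ Ω : Set (Fin g → ℂ × ℂ), Ω = {τ | ∀ j, (τ j).1 ≠ 0 ∧ (τ j).2 ≠ 0} := ⟨_, rfl⟩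
    have cc : ∀ j, (fun v : Fin g → ℂ × ℂ => (v j).1) ∈ Rat Ω ∧
        (fun v : Fin g → ℂ × ℂ => (v j).2) ∈ Rat Ω := fun j =>
      ⟨pol_le_rat Ω (Algebra.subset_adjoin
        ⟨⟨⟨fun v : Fin g → ℂ × ℂ => (v j).1, fun _ _ => rfl⟩, fun _ _ => rfl⟩, rfl⟩),
      pol_le_rat Ω (Algebra.subset_adjoin
        ⟨⟨⟨fun v : Fin g → ℂ × ℂ => (v j).2, fun _ _ => rfl⟩, fun _ _ => rfl⟩, rfl⟩)⟩
    obtain ⟨a, ha, b, -, hab⟩ := comp_mem (red3_bs (A := (Rat Ω).toSubring) (τ := fun v => v) cc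
      (fun j => ⟨rat_inv (cc j).1 fun p hp => ((hΩ ▸ hp) j).1,
        rat_inv (cc j).2 fun p hp => ((hΩ ▸ hp) j).2⟩) (red3_const y) (red3_const z)).lin hf
    have a0 := red3_pol ha hT (fun σ hσ => by
      have m : ∀ t ∈ Set.range fun m : ℕ => ε ^ m, t ≠ 0 ∧ t ∈ OO L ∧ t⁻¹ ∈ OO L := by
        rintro _ ⟨m, rfl⟩
        exact ⟨pow_ne_zero _ e3, pow_mem e1 m, by rw [← inv_pow]; exact pow_mem e2 m⟩
      have n0 : ∀ j, (σ j).1 ≠ 0 ∧ (σ j).2 ≠ 0 := fun j => ⟨(m _ (hσ j).1).1, (m _ (hσ j).2).1⟩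
      rw [← (hab σ (hΩ ▸ n0)).2]
      refine mul_eq_zero_of_left (h0 _ ⟨bs_RR n0 hy.1 hz.1, ?_⟩ (zc_bs _ cy cz)) _
      exact red3_bs (A := (OO L).comap (Pi.evalRingHom (fun _ : Unit => ℂ) ())) (τ := fun _ => σ)
        (y := fun _ => y) (z := fun _ => z) (fun j => ⟨(m _ (hσ j).1).2.1, (m _ (hσ j).2).2.1⟩)
        (fun j => ⟨(m _ (hσ j).1).2.2, (m _ (hσ j).2).2.2⟩) hy.2 hz.2) τ
    obtain ⟨b1, b2⟩ := hab τ (hΩ ▸ hτ)
    rw [a0] at b2
    exact (mul_eq_zero.1 b2).resolve_right b1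
  have s2 : ∀ z ∈ SS L g l, ZC c z → f (bs τ y z) = 0 := fun z hz cz => by
    refine hk (fun y => f (bs τ y z)) (comp_mem (red3_bs (A := (Pol (E g k)).toSubring)
      (τ := fun _ => τ) (fun j => ⟨(Pol _).algebraMap_mem _, (Pol _).algebraMap_mem _⟩)
      (fun j => ⟨(Pol _).algebraMap_mem _, (Pol _).algebraMap_mem _⟩) (ep_lin LinearMap.id)
      (red3_const z)).lin hf) (fun P Q h x hx cx => ?_) (fun s hs cs => s1 s hs cs z hz cz) y hy cy
    have := red3_cj τ P Q 1 1 x z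
    rw [red3_cj1] at this
    simp only [this]
    exact hi _ _ (by rw [red3_mul, h, mul_one, red3_one]) _ (bs_RR hτ hx hz.1) (zc_bs _ cx cz)
  refine hl (fun z => f (bs τ y z)) (comp_mem (red3_bs (A := (Pol (E g l)).toSubring)
    (τ := fun _ => τ) (fun j => ⟨(Pol _).algebraMap_mem _, (Pol _).algebraMap_mem _⟩)
    (fun j => ⟨(Pol _).algebraMap_mem _, (Pol _).algebraMap_mem _⟩) (red3_const y)
    (ep_lin LinearMap.id)).lin hf) (fun P Q h x hx cx => ?_) s2 z hz cz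
  have := red3_cj τ 1 1 P Q y x
  rw [red3_cj1] at this
  simp only [this]
  exact hi _ _ (by rw [red3_mul, h, mul_one, red3_one]) _ (bs_RR hτ hy hx) (zc_bs _ cy cx)

theorem pm_add {h : ℕ} (x : E (g + h) n) (e : ∀ i, cm (x (Fin.natAdd g i)) = 1) :
    pm x (g + h) = pm (fun j => x (Fin.castAdd h j)) g := by
  rw [pm, pm, List.take_of_length_le (by simp), List.take_of_length_le (by simp), List.ofFn_add,
    List.prod_append]
  have h1 : ∀ i : Fin g, Fin.castLE (Nat.le_add_right g h) i = Fin.castAdd h i := fun _ => rfl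
  simp [h1, e]

theorem schC {h : ℕ} (hn : 2 ≤ n) {L : IntermediateField ℚ ℂ} (hL : GoodL L) (hR : Roots L n)
    {f : E (g + h) n → ℂ} (hf : f ∈ Pol (E (g + h) n))
    (h0 : ∀ s ∈ SS L (g + h) n, ZC g s → f s = 0) {x : E (g + h) n} (hx : x ∈ RR (g + h) n)
    (hc : ZC g x) (hS : Sch x) : f x = 0 := by
  have hn0 : 0 < n := by omega
  choose a ha using fun i : Fin h => hS (x (Fin.natAdd g i)).1 fun j =>
    ⟨(hc _ j (by simp)).1, (hc _ j (by simp)).2.1⟩
  choose b hb using fun i : Fin h => hS (x (Fin.natAdd g i)).2 fun j =>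
    ⟨(hc _ j (by simp)).2.2.1, (hc _ j (by simp)).2.2.2⟩
  have hcm : ∀ i, cm (x (Fin.natAdd g i)) = 1 := fun i => by
    have e := (hc (Fin.natAdd g i) (Fin.natAdd g i) (by simp)).2.1
    have d := hx.1 (Fin.natAdd g i)
    rw [cm, e, mul_assoc _ (x _).1, mul_adjugate, d.1, one_smul, mul_one, mul_adjugate, d.2,
      one_smul]
  have ent : ∀ t : ℂ, (t • (1 : M n)).det = 1 → Ent (OO L) (t • (1 : M n)) := fun t ht i j => by
    rw [det_smul, det_one, mul_one, Fintype.card_fin] at ht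
    have := Abs1_root hR hn0 le_rfl ht
    by_cases e : i = j
    · simpa [e] using this
    · simpa [e] using zero_mem _
  let ι : E g n → E (g + h) n := fun y j => Fin.addCases y (fun i => x (Fin.natAdd g i)) j
  have i1 : ∀ y j, ι y (Fin.castAdd h j) = y j := fun y j => Fin.addCases_left _
  have i2 : ∀ y j, ι y (Fin.natAdd g j) = x (Fin.natAdd g j) := fun y j => Fin.addCases_right _
  have hx' : (fun j => x (Fin.castAdd h j)) ∈ RR g n :=
    ⟨fun j => hx.1 _, (pm_add x hcm).symm.trans hx.2⟩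
  have hS' : Sch fun j => x (Fin.castAdd h j) := fun ξ hξ => hS ξ fun j => by
    refine Fin.addCases (fun i => hξ i) (fun i => ?_) j
    rw [ha, hb]
    simp
  have e : ι (fun j => x (Fin.castAdd h j)) = x := funext fun j =>
    Fin.addCases (fun i => i1 _ i) (fun i => i2 _ i) j
  have hp : EP (Pol (E g n)).toSubring ι := fun j => by
    refine Fin.addCases (fun i => ?_) (fun i => ?_) j
    · simp only [i1]
      exact ep_lin LinearMap.id i
    · simp only [i2]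
      exact red3_const x _
  rw [← e]
  refine dense_sch (not_lt.1 fun hg => not_sch hg hn hx' hS') hn hL (hR n hn0 le_rfl) hx' hS'
    (fun y => f (ι y)) (comp_mem hp.lin hf) fun s hs => h0 _ ⟨⟨fun j => ?_, ?_⟩, fun j => ?_⟩
      fun j i hj => ?_
  · refine Fin.addCases (fun i => ?_) (fun i => ?_) j
    · rw [i1]; exact hs.1.1 i
    · rw [i2]; exact hx.1 _
  · rw [pm_add _ fun i => by rw [i2, hcm]]
    simpa only [i1] using hs.1.2
  · refine Fin.addCases (fun i => ?_) (fun i => ?_) j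
    · rw [i1]; exact hs.2 i
    · rw [i2]
      have d := hx.1 (Fin.natAdd g i)
      rw [ha, hb] at d ⊢
      exact ⟨ent _ d.1, ent _ d.2⟩
  · revert hj
    refine Fin.addCases (fun k hk => absurd k.2 (not_lt.2 hk)) (fun k _ => ?_) j
    simp [Cp, i2, ha, hb]

theorem dense_C {h : ℕ} {L : IntermediateField ℚ ℂ} (hL : GoodL L) (n : ℕ) :
    0 < n → Roots L n → DenseC g L (g + h) n := by
  induction n using Nat.strong_induction_on with
  | _ n ih =>
    intro hn hR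
    rcases Nat.lt_or_ge n 2 with h | h
    · obtain rfl : n = 1 := by omega
      intro f _ _ h0 x hx hc
      refine h0 x ⟨hx, fun j => ⟨fun a b => ?_, fun a b => ?_⟩⟩ hc
      · have := (hx.1 j).1
        rw [det_unique] at this
        rw [Subsingleton.elim a default, Subsingleton.elim b default, this]
        exact one_mem _
      · have := (hx.1 j).2
        rw [det_unique] at this
        rw [Subsingleton.elim a default, Subsingleton.elim b default, this]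
        exact one_mem _
    intro f hf hi h0 x hx hc
    by_cases hS : Sch x
    · exact schC h hL hR hf h0 hx hc hS
    obtain ⟨k, hk, hkn, P, Q, hPQ, hb⟩ := red1 hS
    obtain ⟨l, rfl⟩ := Nat.exists_eq_add_of_le hkn.le
    have hl : 0 < l := by omega
    obtain ⟨τ, hτ, y, hy, z, hz, ⟨cy, cz⟩, he⟩ := red2C hk hl (cj_RR hPQ hx) (zc_cj hPQ hc) hb
    rw [← hi P Q hPQ x hx hc, he f hf hi]
    exact red3C hL (ih k hkn hk fun m h1 h2 => hR m h1 (by omega))
      (ih l (by omega) hl fun m h1 h2 => hR m h1 (by omega)) hf hi h0 hτ hy hz cy cz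

theorem cen_iff {h : ℕ} (ρ : Rep (g + h) n) : Cen ρ ↔ ZC g (toE ρ) := by
  refine ⟨fun H j i hj => ?_, fun H j b γ => ?_⟩
  · revert hj
    refine Fin.addCases (fun k hk => absurd k.2 (not_lt.2 hk)) (fun k _ => ?_) j
    exact ⟨congrArg Subtype.val (H k false _), congrArg Subtype.val (H k false _),
      congrArg Subtype.val (H k true _), congrArg Subtype.val (H k true _)⟩
  · have : γ ∈ (Subgroup.centralizer {ρ (PresentedGroup.of (Fin.natAdd g j, b))}).comap ρ :=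
      PresentedGroup.generated_by _ _ (by
        rintro ⟨k, d⟩
        have := H (Fin.natAdd g j) k (by simp)
        rw [Subgroup.mem_comap, Subgroup.mem_centralizer_singleton_iff]
        cases b <;> cases d
        exacts [Subtype.ext this.1.symm, Subtype.ext this.2.1.symm, Subtype.ext this.2.2.1.symm,
          Subtype.ext this.2.2.2.symm]) γ
    exact (Subgroup.mem_centralizer_singleton_iff.1 this).symm

theorem final_C {h : ℕ} (hn : 0 < n) {L : IntermediateField ℚ ℂ} (hL : GoodL L)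
    (hR : Roots L n) (f : MvPolynomial ((Fin (g + h) × Bool) × Fin n × Fin n) ℂ)
    (hi : ∀ (ρ : Rep (g + h) n) (u : SpecialLinearGroup (Fin n) ℂ), Cen ρ →
      MvPolynomial.eval (ev ((MulAut.conj u).toMonoidHom.comp ρ)) f = MvPolynomial.eval (ev ρ) f)
    (h0 : ∀ σ : Rep (g + h) n, Integral L σ → Cen σ → MvPolynomial.eval (ev σ) f = 0) 
    (ρ : Rep (g + h) n) (hρ : Cen ρ) :
    MvPolynomial.eval (ev ρ) f = 0 := by
  rw [← co_toE]
  refine dense_C hL n hn hR _ (eval_mem f) (fun P Q hPQ x hx cx => ?_)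
    (fun s hs cs => ?_) _ (toE_mem ρ) ((cen_iff ρ).1 hρ)
  swap
  · obtain ⟨σ, rfl⟩ := exists_rep hs.1
    rw [co_toE]
    exact h0 σ (integral_of hs) ((cen_iff σ).2 cs)
  obtain ⟨σ, rfl⟩ := exists_rep hx
  have hd : P.det ≠ 0 := fun h => by simpa [h] using congrArg det hPQ
  obtain ⟨c, hc⟩ := IsAlgClosed.exists_pow_nat_eq P.det hn
  have hc0 : c ≠ 0 := by
    rintro rfl
    exact hd (by rw [← hc, zero_pow hn.ne'])
  let u : SpecialLinearGroup (Fin n) ℂ := ⟨c⁻¹ • P, by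
    rw [det_smul, Fintype.card_fin, inv_pow, hc, inv_mul_cancel₀ hd]⟩
  have hu : (u⁻¹).1 = c • Q := by
    have e1 : (u⁻¹).1 * u.1 = 1 := congrArg Subtype.val (inv_mul_cancel u)
    have e2 : u.1 * (c • Q) = 1 := by
      show (c⁻¹ • P) * (c • Q) = 1
      rw [Matrix.smul_mul, Matrix.mul_smul, smul_smul, inv_mul_cancel₀ hc0, one_smul, hPQ]
    calc (u⁻¹).1 = (u⁻¹).1 * (u.1 * (c • Q)) := by rw [e2, mul_one]
      _ = c • Q := by rw [← mul_assoc, e1, one_mul]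
  have key : ∀ a : SpecialLinearGroup (Fin n) ℂ, (u * a * u⁻¹).1 = P * a.1 * Q := fun a => by
    show (c⁻¹ • P) * a.1 * (u⁻¹).1 = _
    rw [hu, Matrix.smul_mul, Matrix.smul_mul, Matrix.mul_smul, smul_smul, inv_mul_cancel₀ hc0,
      one_smul]
  have e : cj P Q (toE σ) = toE ((MulAut.conj u).toMonoidHom.comp σ) :=
    funext fun j => Prod.ext (key _).symm (key _).symm
  simp only [e, co_toE]
  exact hi σ u ((cen_iff σ).2 cx)

end Vale.Agent.P002
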