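import Vale.Agent.P002.Defs

open scoped Matrix.Norms.Operator Topology
open Matrix Filter

namespace Vale.Agent.P002

variable {g n : ℕ}

/-- the entry map as a continuous linear map -/
noncomputable def der1Ent (i j : Fin n) : M n →L[ℂ] ℂ :=
  LinearMap.toContinuousLinearMap (Matrix.entryLinearMap ℂ ℂ i j)

theorem der1_ent {u : ℂ → M n} {u' : M n} {s : ℂ} (hu : HasDerivAt u u' s) (i j : Fin n) :
    HasDerivAt (fun t => u t i j) (u' i j) s :=
  (der1Ent i j).hasFDerivAt.comp_hasDerivAt s hu

theorem der1_sum (a : M n) : a = ∑ i, ∑ j, a i j • (Matrix.single i j 1 : M n) := by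
  conv_lhs => rw [Matrix.matrix_eq_sum_single a]
  simp only [Matrix.smul_single, smul_eq_mul, mul_one]

theorem der1_of_ent {u : ℂ → M n} {s : ℂ} (hu : ∀ i j, DifferentiableAt ℂ (fun t => u t i j) s) :
    DifferentiableAt ℂ u s := by
  have e : u = fun t => ∑ i, ∑ j, u t i j • (Matrix.single i j 1 : M n) :=
    funext fun t => der1_sum (u t)
  rw [e]
  exact DifferentiableAt.fun_sum fun i _ => DifferentiableAt.fun_sum fun j _ =>
    (hu i j).smul_const _

theorem der1_det {X : Type} [NormedAddCommGroup X] [NormedSpace ℂ X] {w : X → M n} {x : X}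
    (h : ∀ i j, DifferentiableAt ℂ (fun t => w t i j) x) :
    DifferentiableAt ℂ (fun t => (w t).det) x := by
  simp only [Matrix.det_apply']
  refine DifferentiableAt.fun_sum fun σ _ => DifferentiableAt.const_mul ?_ _
  exact (HasFDerivAt.finsetProd (u := Finset.univ) (g := fun i t => w t (σ i) i)
    fun i _ => (h (σ i) i).hasFDerivAt).differentiableAt

theorem der1_line (Y : M n) : HasDerivAt (fun t : ℂ => (1 : M n) + t • Y) Y 0 := by
  have h := ((hasDerivAt_id' (0 : ℂ)).smul_const Y).const_add (1 : M n)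
  rw [one_smul] at h
  exact h

theorem der1_detline (Y : M n) : HasDerivAt (fun t : ℂ => ((1 : M n) + t • Y).det) Y.trace 0 := by
  obtain ⟨p, hp⟩ : ∃ p : Polynomial ℂ, ∀ t : ℂ,
      ((1 : M n) + t • Y).det = 1 + Y.trace * t + p.eval t * t ^ 2 :=
    ⟨_, fun t => Matrix.det_one_add_smul t Y⟩
  simp only [hp]
  have h := (((hasDerivAt_id' (0 : ℂ)).const_mul Y.trace).const_add 1).fun_add
    ((p.hasDerivAt 0).fun_mul (hasDerivAt_pow 2 (0 : ℂ)))
  exact h.congr_deriv (by simp)

theorem der1_det_one {v : ℂ → M n} {v' : M n} (hv : HasDerivAt v v' 0) (h1 : v 0 = 1) :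
    HasDerivAt (fun t => (v t).det) v'.trace 0 := by
  have hd : DifferentiableAt ℂ (fun a : M n => a.det) 1 :=
    der1_det (w := fun a : M n => a) fun i j => (der1Ent i j).differentiableAt
  have a1 := hd.hasFDerivAt.comp_hasDerivAt_of_eq (0 : ℂ) hv h1.symm
  have a2 := hd.hasFDerivAt.comp_hasDerivAt_of_eq (0 : ℂ) (der1_line v') (by simp)
  have e := a2.unique (der1_detline v')
  rw [e] at a1
  exact a1

theorem Ct_zero (Y : M n) : Ct 0 Y = 1 := by simp [Ct]

theorem Ct_det {t : ℂ} {Y : M n} (h : (1 + t • Y).det ≠ 0) : (Ct t Y).det = 1 := by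
  rw [Ct, Matrix.det_smul, Matrix.det_pow, Fintype.card_fin, ← mul_pow, inv_mul_cancel₀ h, one_pow]

theorem der1_pow (Y : M n) (k : ℕ) :
    HasDerivAt (fun t : ℂ => ((1 : M n) + t • Y) ^ k) ((k : ℂ) • Y) 0 := by
  induction k with
  | zero =>
    simp only [pow_zero, Nat.cast_zero, zero_smul]
    exact hasDerivAt_const (0 : ℂ) (1 : M n)
  | succ k ih =>
    have h := ih.fun_mul (der1_line Y)
    simp only [zero_smul, add_zero, mul_one, one_pow, one_mul] at h
    simp only [pow_succ]
    refine h.congr_deriv ?_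
    push_cast
    rw [add_smul, one_smul]

theorem Ct_deriv (Y : M n) : HasDerivAt (fun t => Ct t Y) (tl Y) 0 := by
  have h1 := (der1_detline Y).fun_inv (by simp)
  have h := h1.fun_smul (der1_pow Y n)
  simp only [zero_smul, add_zero, Matrix.det_one, inv_one, one_smul, one_pow, div_one] at h
  unfold Ct tl
  refine h.congr_deriv ?_
  rw [neg_smul, sub_eq_add_neg]

theorem tl_trace (Y : M n) : (tl Y).trace = 0 := by
  simp [tl, mul_comm]

theorem det_deriv {u : ℂ → M n} {u' : M n} (hu : HasDerivAt u u' 0) (h1 : (u 0).det = 1) :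
    HasDerivAt (fun t => (u t).det) (adjugate (u 0) * u').trace 0 := by
  have e0 : adjugate (u 0) * u 0 = 1 := by rw [Matrix.adjugate_mul, h1, one_smul]
  have e1 : (adjugate (u 0)).det = 1 := by
    have := congrArg Matrix.det e0
    rwa [Matrix.det_mul, h1, mul_one, Matrix.det_one] at this
  have h := der1_det_one (hu.const_mul (adjugate (u 0))) e0
  simpa only [Matrix.det_mul, e1, one_mul] using h

theorem adj_deriv {u : ℂ → M n} {u' : M n} (hu : HasDerivAt u u' 0) (h1 : (u 0).det = 1)
    (ht : (adjugate (u 0) * u').trace = 0) :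
    HasDerivAt (fun t => adjugate (u t)) (-(adjugate (u 0) * u' * adjugate (u 0))) 0 := by
  have hd : DifferentiableAt ℂ (fun t => adjugate (u t)) 0 := by
    refine der1_of_ent fun i j => ?_
    simp only [Matrix.adjugate_apply]
    refine der1_det fun a b => ?_
    simp only [Matrix.updateRow_apply]
    split_ifs
    · exact differentiableAt_const _
    · exact (der1_ent hu a b).differentiableAt
  obtain ⟨a', a1⟩ : ∃ a', HasDerivAt (fun t => adjugate (u t)) a' 0 := ⟨_, hd.hasDerivAt⟩
  have a2 := a1.fun_mul hu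
  simp only [Matrix.adjugate_mul] at a2
  have a3 := (det_deriv hu h1).smul_const (1 : M n)
  have e := a2.unique a3
  rw [ht, zero_smul] at e
  have e0 : u 0 * adjugate (u 0) = 1 := by rw [Matrix.mul_adjugate, h1, one_smul]
  have e2 : a' = -(adjugate (u 0) * u' * adjugate (u 0)) := by
    have e3 : a' * u 0 = -(adjugate (u 0) * u') := eq_neg_of_add_eq_zero_left e
    calc a' = a' * u 0 * adjugate (u 0) := by rw [mul_assoc, e0, mul_one]
      _ = _ := by rw [e3, neg_mul]
  rw [← e2]
  exact a1

end Vale.Agent.P002
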