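import Vale.Agent.P002.Def2
import Vale.Agent.P002.Der1

open scoped Matrix.Norms.Operator Topology
open Matrix Filter

namespace Vale.Agent.P002

variable {g n : ℕ}

theorem GG_contDiff : ContDiff ℂ 1 (GG : E g n → _) := by
  have hx : EP (Pol (E g n)).toSubring (LinearMap.id : E g n →ₗ[ℂ] E g n) := ep_lin _
  refine ContDiff.prodMk (contDiff_pi.mpr fun j => ContDiff.prodMk ?_ ?_) ?_
  · exact pol_contDiff (hx j).1.det
  · exact pol_contDiff (hx j).2.det
  · have h : ContDiff ℂ 1 fun x : E g n => pm x g := contDiff_iff_contDiffAt.mpr fun x =>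
      MP.contDiffAt (h := 1) (one_mem _) one_ne_zero fun i j => pol_le_loc _ (hx.pm g i j)
    exact (h.const_smul (n : ℂ)).sub ((pol_contDiff (hx.pm g).trace).smul contDiff_const)

theorem DG_succ (x : E g n) {m : ℕ} (h : m < g) : pm x (m + 1) = pm x m * cm (x ⟨m, h⟩) := by
  rw [pm, List.prod_take_succ _ _ (by simpa using h), List.getElem_ofFn]
  rfl

theorem DG_cm {a : M n × M n} (h : a.1.det = 1 ∧ a.2.det = 1) : (cm a).det = 1 := by
  simp [cm, det_adjugate, h.1, h.2]

theorem DG_det {x : E g n} (hx : ∀ j, (x j).1.det = 1 ∧ (x j).2.det = 1) :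
    ∀ m ≤ g, (pm x m).det = 1 := by
  intro m
  induction m with
  | zero => intro _; simp [pm]
  | succ m ih => intro h; rw [DG_succ x h, det_mul, ih (by omega), DG_cm (hx _), one_mul]

theorem DG_line {W : Type} [NormedAddCommGroup W] [NormedSpace ℂ W] (a b : W) :
    HasDerivAt (fun t : ℂ => a + t • b) b 0 := by
  simpa using ((hasDerivAt_id (0 : ℂ)).smul_const b).const_add a

theorem DG_GG (x v : E g n) : HasDerivAt (fun t : ℂ => GG (x + t • v)) (fderiv ℂ GG x v) 0 := by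
  have h1 : HasFDerivAt GG (fderiv ℂ GG x) (x + (0 : ℂ) • v) := by
    rw [zero_smul, add_zero]
    exact (GG_contDiff.differentiable one_ne_zero _).hasFDerivAt
  exact h1.comp_hasDerivAt (0 : ℂ) (DG_line x v)

theorem GG_fst {x : E g n} (hx : x ∈ RR g n) (v : E g n) (j : Fin g) : (fderiv ℂ GG x v).1 j =
    ((adjugate (x j).1 * (v j).1).trace, (adjugate (x j).2 * (v j).2).trace) := by
  have hF : HasDerivAt (fun t : ℂ => (GG (x + t • v)).1) (fderiv ℂ GG x v).1 0 := (DG_GG x v).fst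
  have h1 := det_deriv (DG_line (x j).1 (v j).1) (by simpa using (hx.1 j).1)
  have h2 := det_deriv (DG_line (x j).2 (v j).2) (by simpa using (hx.1 j).2)
  simp only [zero_smul, add_zero] at h1 h2
  exact (hasDerivAt_pi.mp hF j).unique (h1.prodMk h2)

theorem DG_inv {A : M n} (h : A.det = 1) : (∀ X, adjugate A * (A * X) = X) ∧
    (∀ X, A * (adjugate A * X) = X) ∧ adjugate A * A = 1 ∧ A * adjugate A = 1 := by
  simp [← mul_assoc, adjugate_mul, mul_adjugate, h]

theorem DG_dcm {a v : M n × M n} (h : a.1.det = 1 ∧ a.2.det = 1)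
    (hv : (adjugate a.1 * v.1).trace = 0 ∧ (adjugate a.2 * v.2).trace = 0) :
    HasDerivAt (fun t : ℂ => cm (a + t • v)) (dcm a v * cm a) 0 ∧ (dcm a v).trace = 0 := by
  obtain ⟨a1, a2, a3, a4⟩ := DG_inv h.1
  obtain ⟨b1, b2, b3, b4⟩ := DG_inv h.2
  obtain ⟨-, -, c3, -⟩ := DG_inv (DG_cm h)
  constructor
  · have h1 := (((DG_line a.1 v.1).fun_mul (DG_line a.2 v.2)).fun_mul
      (adj_deriv (DG_line a.1 v.1) (by simpa using h.1) (by simpa using hv.1))).fun_mul
      (adj_deriv (DG_line a.2 v.2) (by simpa using h.2) (by simpa using hv.2))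
    simp only [zero_smul, add_zero] at h1
    refine HasDerivAt.congr_deriv h1 ?_
    rw [dcm, sub_mul, mul_assoc _ (adjugate (cm a)), c3]
    simp only [cm, add_mul, sub_mul, mul_neg, neg_mul, mul_assoc, a1, a2, b1, mul_one]
    abel
  · have e : a.1 * adjugate a.2 * adjugate a.1 * (a.1 * a.2 * adjugate a.1) = 1 := by
      simp only [mul_assoc, a1, b1, a4]
    simp only [dcm, trace_sub, trace_add]
    rw [trace_mul_cycle, a3, trace_mul_cycle (a.1 * a.2 * _), e, trace_mul_cycle (cm a), c3]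
    simp

theorem GG_snd {x : E g n} (hx : x ∈ RR g n) {v : E g n} (hv : Tr0 x v) :
    (fderiv ℂ GG x v).2 = (n : ℂ) • dpm x v := by
  have hF : HasDerivAt (fun t : ℂ => (GG (x + t • v)).2) (fderiv ℂ GG x v).2 0 := (DG_GG x v).snd
  obtain ⟨F, hF'⟩ : ∃ F : ℕ → M n, ∀ j : Fin g,
      F j = pm x j * dcm (x j) (v j) * adjugate (pm x j) :=
    ⟨fun j => if h : j < g then pm x j * dcm (x ⟨j, h⟩) (v ⟨j, h⟩) * adjugate (pm x j) else 0,
      fun j => dif_pos j.2⟩
  have key : ∀ m ≤ g, HasDerivAt (fun t : ℂ => pm (x + t • v) m)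
      ((∑ j ∈ Finset.range m, F j) * pm x m) 0 := fun m => by
    induction m with
    | zero =>
      intro _
      rw [Finset.sum_range_zero, zero_mul]
      exact hasDerivAt_const (0 : ℂ) (1 : M n)
    | succ m ih =>
      intro h
      have h1 := (ih (by omega)).fun_mul (DG_dcm (hx.1 ⟨m, h⟩) (hv ⟨m, h⟩)).1
      simp only [zero_smul, add_zero] at h1
      simp only [DG_succ _ h]
      refine HasDerivAt.congr_deriv h1 ?_
      rw [Finset.sum_range_succ, hF' ⟨m, h⟩]
      simp only [add_mul, mul_assoc, (DG_inv (DG_det hx.1 m (by omega))).1]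
  have h1 := key g le_rfl
  rw [hx.2, mul_one, Finset.sum_range, Finset.sum_congr rfl fun j _ => hF' j] at h1
  have h2 := (LinearMap.toContinuousLinearMap
    (traceLinearMap (Fin n) ℂ ℂ)).hasFDerivAt.comp_hasDerivAt (0 : ℂ) h1
  have h3 : (dpm x v).trace = 0 := by
    rw [dpm, trace_sum]
    refine Finset.sum_eq_zero fun j _ => ?_
    rw [trace_mul_cycle, (DG_inv (DG_det hx.1 j j.2.le)).2.2.1, one_mul,
      (DG_dcm (hx.1 j) (hv j)).2]
  refine (hF.unique ((h1.const_smul (n : ℂ)).sub (h2.smul_const (1 : M n)))).trans ?_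
  change (n : ℂ) • dpm x v - (dpm x v).trace • (1 : M n) = _
  rw [h3, zero_smul, sub_zero]

theorem GG_near (hn : 0 < n) {x : E g n} (hx : x ∈ RR g n) :
    ∀ᶠ y in 𝓝 x, GG y = GG x → y ∈ RR g n := by
  have hp : EP (Pol (E g n)).toSubring (LinearMap.id : E g n →ₗ[ℂ] E g n) := ep_lin _
  have hn' : (n : ℂ) ≠ 0 := Nat.cast_ne_zero.mpr hn.ne'
  have hc : Continuous fun y : E g n => ∑ k ∈ Finset.range n, pm y g ⟨0, hn⟩ ⟨0, hn⟩ ^ k :=
    continuous_finsetSum _ fun k _ => (pol_contDiff (hp.pm g _ _)).continuous.pow k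
  have he : ∀ᶠ y in 𝓝 x, ∑ k ∈ Finset.range n, pm y g ⟨0, hn⟩ ⟨0, hn⟩ ^ k ≠ 0 :=
    hc.continuousAt.eventually_ne (by simpa [hx.2] using hn.ne')
  filter_upwards [he] with y hy h
  have h1 : ∀ j, (y j).1.det = 1 ∧ (y j).2.det = 1 := fun j => by
    have := congrFun (congrArg Prod.fst h) j
    simpa only [GG, Prod.mk.injEq, (hx.1 j).1, (hx.1 j).2] using this
  have h2 : tl (pm y g) = tl (pm x g) := congrArg Prod.snd h
  have h3 : pm y g = ((n : ℂ)⁻¹ * (pm y g).trace) • (1 : M n) := by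
    rw [hx.2, tl, tl, trace_one, Fintype.card_fin, sub_self, sub_eq_zero] at h2
    rw [mul_smul, ← h2, inv_smul_smul₀ hn']
  generalize (n : ℂ)⁻¹ * (pm y g).trace = c at h3
  have h4 := DG_det h1 g le_rfl
  rw [h3, det_smul, det_one, mul_one, Fintype.card_fin] at h4
  have h5 := geom_sum_mul c n
  rw [h3, Matrix.smul_apply, one_apply_eq, smul_eq_mul, mul_one] at hy
  rw [h4, sub_self, mul_eq_zero, sub_eq_zero] at h5
  exact ⟨h1, by rw [h3, h5.resolve_left hy, one_smul]⟩

end Vale.Agent.P002
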