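import Vale.Agent.P002.AbN
import Vale.Agent.P002.DG

open scoped Matrix.Norms.Operator Topology
open Matrix Filter

namespace Vale.Agent.P002

variable {g n : ℕ}

theorem Cnt2_null {V V' : Type} [AddCommGroup V] [Module ℂ V] [AddCommGroup V'] [Module ℂ V']
    [FiniteDimensional ℂ V] (f : V →ₗ[ℂ] V') (W : Submodule ℂ V) :
    Module.finrank ℂ (W ⊓ LinearMap.ker f : Submodule ℂ V) + Module.finrank ℂ (W.map f) =
      Module.finrank ℂ W := by
  have := LinearMap.finrank_range_add_finrank_ker (f.domRestrict W)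
  rw [LinearMap.range_domRestrict, LinearMap.ker_domRestrict,
    ← Submodule.finrank_map_subtype_eq, Submodule.map_comap_subtype] at this
  omega

theorem cnt2 (hn : 0 < n) (o : Fin g) {x : E g n} (hx : x ∈ RR g n)
    (h : ∀ v ∈ TT x, (v o).1 ∈ EE (x o).1) :
    Module.finrank ℂ (TT x ⊓ LinearMap.ker (pr o) : Submodule ℂ (E g n)) + 2 ≤ n * n + n := by
  have hn' : (n : ℂ) ≠ 0 := Nat.cast_ne_zero.mpr hn.ne'
  obtain ⟨a1, a2, a3, a4⟩ := DG_inv (hx.1 o).1
  obtain ⟨b1, b2, b3, b4⟩ := DG_inv (hx.1 o).2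
  obtain ⟨-, -, c3, -⟩ := DG_inv (DG_cm (hx.1 o))
  obtain ⟨p1, -, p3, -⟩ := DG_inv (DG_det hx.1 o o.2.le)
  set W := TT x ⊓ LinearMap.ker (pr o)
  let f : E g n →ₗ[ℂ] M n := LinearMap.fst ℂ _ _ ∘ₗ LinearMap.proj o
  let ψ : E g n →ₗ[ℂ] M n :=
    LinearMap.mulLeft ℂ (adjugate (x o).2) ∘ₗ LinearMap.snd ℂ _ _ ∘ₗ LinearMap.proj o
  have hz : ∀ v ∈ W, ∀ j, j ≠ o → v j = 0 := fun v hv j hj => by
    have : Function.update v o 0 j = 0 := congrFun hv.2 j
    rwa [Function.update_of_ne hj] at this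
  have e1 := Cnt2_null f W
  have e2 := Cnt2_null ψ (W ⊓ LinearMap.ker f)
  have e3 : W ⊓ LinearMap.ker f ⊓ LinearMap.ker ψ = ⊥ := by
    rw [eq_bot_iff]
    intro v hv
    refine funext fun j => ?_
    by_cases hj : j = o
    · have h2 : adjugate (x o).2 * (v o).2 = 0 := hv.2
      rw [hj]
      exact Prod.ext hv.1.2 (by rw [← b2 (v o).2, h2, mul_zero]; rfl)
    · exact hz v hv.1.1 j hj
  have e4 : W.map f < EE (x o).1 := by
    refine lt_of_le_of_ne ?_ fun e => ?_
    · rintro _ ⟨v, hv, rfl⟩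
      exact h v hv.1
    · have : (x o).1 ∈ W.map f := e ▸ fun ζ hζ => ⟨0, by simp [hζ]⟩
      obtain ⟨v, hv, e'⟩ := this
      have h2 := (hv.1.1 o).1
      rw [show (v o).1 = (x o).1 from e', a3, trace_one, Fintype.card_fin] at h2
      exact hn' h2
  have e5 : (W ⊓ LinearMap.ker f).map ψ < LinearMap.ker (adL (x o).1 : M n →ₗ[ℂ] M n) := by
    refine lt_of_le_of_ne ?_ fun e => ?_
    · rintro _ ⟨v, hv, rfl⟩
      have h1 : (v o).1 = 0 := hv.2
      have h2 := hv.1.1.2
      rw [dpm, Finset.sum_eq_single o (fun j _ hj => by simp [hz v hv.1 j hj, dcm]) (by simp)] at h2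
      have h3 := congrArg (fun z => (x o).1 * (adjugate (x o).2 * (adjugate (x o).1 *
        (adjugate (pm x o) * (z * pm x o) * cm (x o) * ((x o).2 * (x o).1))))) h2
      simp only [mul_assoc (_ * _) (adjugate (pm x o)), p3, mul_one, p1] at h3
      rw [dcm, sub_mul, mul_assoc _ (adjugate (cm (x o))), c3] at h3
      simp only [h1, cm, zero_mul, mul_zero, zero_add, sub_zero, sub_mul, mul_sub, mul_assoc, a1, a2,
        b1, a3, mul_one] at h3
      change (x o).1 * (adjugate (x o).2 * (v o).2) - adjugate (x o).2 * (v o).2 * (x o).1 = 0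
      rw [mul_assoc]
      exact h3
    · have : (1 : M n) ∈ (W ⊓ LinearMap.ker f).map ψ := e ▸ by
        change (x o).1 * 1 - 1 * (x o).1 = 0
        simp
      obtain ⟨v, hv, e'⟩ := this
      have h2 := (hv.1.1.1 o).2
      rw [show adjugate (x o).2 * (v o).2 = 1 from e', trace_one, Fintype.card_fin] at h2
      exact hn' h2
  have e6 := Submodule.finrank_lt_finrank_of_lt e4
  have e7 := Submodule.finrank_lt_finrank_of_lt e5
  have e8 := abn (x o).1
  have e9 := LinearMap.finrank_range_add_finrank_ker (adL (x o).1 : M n →ₗ[ℂ] M n)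
  rw [Module.finrank_matrix, Fintype.card_fin, Module.finrank_self, mul_one] at e9
  rw [e3, finrank_bot] at e2
  unfold rk at e8
  omega

end Vale.Agent.P002
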