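import Vale.Agent.P002.Def2

open scoped Matrix.Norms.Operator Topology
open Matrix Filter

namespace Vale.Agent.P002

variable {g n : ℕ}

theorem Rk_ex {ξ : M n} (h : ∀ c : ℂ, ξ ≠ c • 1) :
    ∃ α v : Fin n → ℂ, α ⬝ᵥ v = 0 ∧ α ⬝ᵥ (ξ *ᵥ v) ≠ 0 := by
  by_contra hc
  push Not at hc
  have h1 : ∀ i j, i ≠ j → ξ i j = 0 := fun i j hij => by
    have := hc (Pi.single i 1) (Pi.single j 1) (by simp [Pi.single_apply, hij])
    simpa using this
  have h2 : ∀ i j, ξ i i = ξ j j := fun i j => by
    by_cases hij : i = j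
    · rw [hij]
    · have := hc (Pi.single i 1 - Pi.single j 1) (Pi.single i 1 + Pi.single j 1)
        (by simp [Pi.single_apply, hij, Ne.symm hij, sub_dotProduct])
      simp [mulVec_add, sub_dotProduct, h1 i j hij, h1 j i (Ne.symm hij)] at this
      exact sub_eq_zero.1 this
  rcases Nat.eq_zero_or_pos n with rfl | hn
  · exact h 0 (Subsingleton.elim _ _)
  · refine h (ξ ⟨0, hn⟩ ⟨0, hn⟩) ?_
    ext i j
    by_cases hij : i = j
    · subst hij
      simp [h2 i ⟨0, hn⟩]
    · simp [h1 i j hij, hij]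

theorem rk_ad {ξ : M n} (h : ∀ c : ℂ, ξ ≠ c • 1) : 2 * n ≤ rk (adL ξ) + 2 := by
  obtain ⟨α, v, h0, hs⟩ := Rk_ex h
  let A : M n →ₗ[ℂ] M n := (adL ξ : M n →L[ℂ] M n)
  let T : (Fin n → ℂ) × (Fin n → ℂ) →ₗ[ℂ] M n :=
    { toFun := fun p => vecMulVec v p.1 + vecMulVec p.2 α
      map_add' := fun a b => by
        ext i j
        simp only [Matrix.add_apply, vecMulVec_apply, Prod.fst_add, Prod.snd_add, Pi.add_apply]
        ring
      map_smul' := fun c a => by
        ext i j
        simp only [Matrix.add_apply, Matrix.smul_apply, vecMulVec_apply, Prod.smul_fst,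
          Prod.smul_snd, Pi.smul_apply, smul_eq_mul, RingHom.id_apply]
        ring }
  let D : (Fin n → ℂ) × (Fin n → ℂ) →ₗ[ℂ] ℂ × ℂ :=
    { toFun := fun p => (p.1 ⬝ᵥ v, p.1 ⬝ᵥ (ξ *ᵥ v))
      map_add' := fun a b => by simp only [Prod.fst_add, add_dotProduct, Prod.mk_add_mk]
      map_smul' := fun c a => by
        simp only [Prod.smul_fst, smul_dotProduct, Prod.smul_mk, RingHom.id_apply] }
  have hinj : Function.Injective ((A.rangeRestrict ∘ₗ T).prod D) := by
    rw [← LinearMap.ker_eq_bot, LinearMap.ker_eq_bot']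
    rintro ⟨w, w'⟩ hp
    have e1 : ξ * (vecMulVec v w + vecMulVec w' α) - (vecMulVec v w + vecMulVec w' α) * ξ = 0 :=
      congrArg (fun q => (q.1 : M n)) hp
    have e2 : w ⬝ᵥ v = 0 := congrArg (fun q => q.2.1) hp
    have e3 : w ⬝ᵥ (ξ *ᵥ v) = 0 := congrArg (fun q => q.2.2) hp
    have e4 := congrArg (fun X : M n => X *ᵥ v) e1
    simp only [sub_mulVec, ← mulVec_mulVec, add_mulVec, vecMulVec_mulVec, e2, e3, h0, op_smul_eq_smul,
      zero_smul, add_zero, mulVec_zero, zero_add, zero_sub, zero_mulVec, neg_eq_zero,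
      smul_eq_zero, hs, false_or] at e4
    subst e4
    have e5 := congrArg (fun X : M n => α ᵥ* X) e1
    simp only [zero_vecMulVec, add_zero, vecMul_sub, ← vecMul_vecMul, vecMul_vecMulVec, h0,
      zero_smul, zero_vecMul, sub_zero, vecMul_zero, ← dotProduct_mulVec, smul_eq_zero, hs,
      false_or] at e5
    rw [e5]
    rfl
  have := LinearMap.finrank_le_finrank_of_injective hinj
  simp only [Module.finrank_prod, Module.finrank_fin_fun, Module.finrank_self] at this
  have e6 : rk (adL ξ) = Module.finrank ℂ (LinearMap.range A) := rfl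
  omega

theorem Rk_tr {a : M n × M n} (h1 : a.1.det = 1) (h2 : a.2.det = 1) (v : M n × M n) :
    (dcm a v).trace = 0 := by
  have a1 : adjugate a.1 * a.1 = 1 := by rw [adjugate_mul, h1, one_smul]
  have a2 : adjugate a.2 * a.2 = 1 := by rw [adjugate_mul, h2, one_smul]
  have a3 : a.1 * adjugate a.1 = 1 := by rw [mul_adjugate, h1, one_smul]
  have a4 : adjugate (cm a) * cm a = 1 := by
    rw [adjugate_mul, cm]
    simp only [det_mul, det_adjugate, h1, h2, one_pow, mul_one, one_smul]
  have a5 : a.1 * adjugate a.2 * adjugate a.1 * (a.1 * a.2 * adjugate a.1) = 1 := by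
    calc _ = a.1 * (adjugate a.2 * (adjugate a.1 * a.1) * a.2) * adjugate a.1 := by
          simp only [mul_assoc]
      _ = 1 := by rw [a1, mul_one, a2, mul_one, a3]
  rw [dcm, trace_sub, trace_sub, trace_add, trace_mul_cycle a.1, a1, one_mul,
    trace_mul_cycle (a.1 * a.2 * adjugate a.1), a5, one_mul, trace_mul_cycle (cm a), a4, one_mul]
  ring

theorem cnt1 (hn : 0 < n) {x : E g n} (hx : x ∈ RR g n) :
    2 * g * (n * n) + 1 ≤ Module.finrank ℂ (TT x) + 2 * g + n * n := by
  let L : E g n →ₗ[ℂ] (Fin g → ℂ × ℂ) × M n :=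
    { toFun := fun v => (fun j => ((adjugate (x j).1 * (v j).1).trace,
        (adjugate (x j).2 * (v j).2).trace), dpm x v)
      map_add' := fun a b => by
        refine Prod.ext (funext fun j => ?_) ?_
        · simp only [Pi.add_apply, Prod.fst_add, Prod.snd_add, mul_add, trace_add, Prod.mk_add_mk]
        · simp only [Prod.snd_add]
          rw [dpm, dpm, dpm, ← Finset.sum_add_distrib]
          refine Finset.sum_congr rfl fun j _ => ?_
          simp only [dcm, Pi.add_apply, Prod.fst_add, Prod.snd_add]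
          noncomm_ring
      map_smul' := fun c a => by
        refine Prod.ext (funext fun j => ?_) ?_
        · simp only [Pi.smul_apply, Prod.smul_fst, Prod.smul_snd, Matrix.mul_smul, trace_smul,
            Prod.smul_mk, RingHom.id_apply]
        · simp only [Prod.smul_snd, RingHom.id_apply]
          rw [dpm, dpm, Finset.smul_sum]
          refine Finset.sum_congr rfl fun j _ => ?_
          simp only [dcm, Pi.smul_apply, Prod.smul_fst, Prod.smul_snd, Matrix.mul_smul,
            Matrix.smul_mul, ← smul_add, ← smul_sub] }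
  have hk : LinearMap.ker L ≤ TT x := fun v hv =>
    ⟨fun j => ⟨congrArg (fun q => (q.1 j).1) hv, congrArg (fun q => (q.1 j).2) hv⟩,
      congrArg (fun q => q.2) hv⟩
  have hr : LinearMap.range L ≠ ⊤ := fun ht => by
    obtain ⟨v, hv⟩ : ((0, 1) : (Fin g → ℂ × ℂ) × M n) ∈ LinearMap.range L := ht ▸ Submodule.mem_top
    have e1 : dpm x v = 1 := congrArg (fun q => q.2) hv
    have e2 : (dpm x v).trace = 0 := by
      rw [dpm, trace_sum]
      refine Finset.sum_eq_zero fun j _ => ?_
      rw [trace_mul_cycle, adjugate_mul, Matrix.smul_mul, one_mul, trace_smul,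
        Rk_tr (hx.1 j).1 (hx.1 j).2, smul_zero]
    rw [e1, trace_one, Fintype.card_fin, Nat.cast_eq_zero] at e2
    omega
  have e1 := Submodule.finrank_mono hk
  have e2 := Submodule.finrank_lt hr
  have e3 := LinearMap.finrank_range_add_finrank_ker L
  simp only [Module.finrank_prod, Module.finrank_pi_fintype, Module.finrank_self,
    Module.finrank_matrix, Fintype.card_fin, Finset.sum_const, Finset.card_univ, smul_eq_mul,
    mul_one] at e2 e3
  nlinarith

end Vale.Agent.P002
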