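import Vale.Agent.P002.PkL
import Vale.Agent.P002.Rk
import Vale.Agent.P002.Cnt2

open scoped Matrix.Norms.Operator Topology
open Matrix Filter

namespace Vale.Agent.P002

variable {g n : ℕ} {κ : Kd g n}

theorem Cnt2K_tr {k : Option (M n)} {a : M n × M n} (hk : ∀ J, k = some J → J.det = 1)
    (h : a.1.det = 1 ∧ a.2.det = 1) (v : M n × M n) : (dit k a v).trace = 0 := by
  cases k with
  | none => exact Rk_tr h.1 h.2 v
  | some J =>
    have e : (it (some J) a).det = 1 := by
      simp only [it, det_mul, det_adjugate, h.1, hk J rfl, one_pow, mul_one]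
    rw [dit, trace_sub, trace_mul_cycle (it (some J) a), adjugate_mul, e, one_smul, one_mul,
      sub_self]

theorem cnt1K (hn : 0 < n) (hd : KD κ) {x : E g n} (hx : x ∈ RK κ) :
    2 * g * (n * n) + 1 ≤ Module.finrank ℂ (TK κ x) + 2 * g + n * n := by
  let L0 : E g n →ₗ[ℂ] (Fin g → ℂ × ℂ) :=
    { toFun := fun v j => ((adjugate (x j).1 * (v j).1).trace, (adjugate (x j).2 * (v j).2).trace)
      map_add' := fun a b => funext fun j => by
        simp only [Pi.add_apply, Prod.fst_add, Prod.snd_add, mul_add, trace_add, Prod.mk_add_mk]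
      map_smul' := fun c a => funext fun j => by
        simp only [Pi.smul_apply, Prod.smul_fst, Prod.smul_snd, Matrix.mul_smul, trace_smul,
          Prod.smul_mk, RingHom.id_apply] }
  let L := L0.prod (dpkL κ x)
  have hk : LinearMap.ker L ≤ TK κ x := fun v hv =>
    ⟨fun j => ⟨congrArg (fun q => (q.1 j).1) hv, congrArg (fun q => (q.1 j).2) hv⟩,
      congrArg (fun q => q.2) hv⟩
  have hr : LinearMap.range L ≠ ⊤ := fun ht => by
    obtain ⟨v, hv⟩ : ((0, 1) : (Fin g → ℂ × ℂ) × M n) ∈ LinearMap.range L := ht ▸ Submodule.mem_top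
    have e1 : dpk κ x v = 1 := congrArg (fun q => q.2) hv
    have e2 : (dpk κ x v).trace = 0 := by
      rw [dpk, trace_sum]
      refine Finset.sum_eq_zero fun j _ => ?_
      rw [trace_mul_cycle, adjugate_mul, Matrix.smul_mul, one_mul, trace_smul,
        Cnt2K_tr (hd j) (hx.1 j), smul_zero]
    rw [e1, trace_one, Fintype.card_fin, Nat.cast_eq_zero] at e2
    omega
  have e1 := Submodule.finrank_mono hk
  have e2 := Submodule.finrank_lt hr
  have e3 := LinearMap.finrank_range_add_finrank_ker L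
  simp only [Module.finrank_prod, Module.finrank_pi_fintype, Module.finrank_self,
    Module.finrank_matrix, Fintype.card_fin, Finset.sum_const, Finset.card_univ, smul_eq_mul,
    mul_one] at e2 e3
  nlinarith

theorem Cnt2K_zero (k : Option (M n)) (a : M n × M n) : dit k a 0 = 0 := by
  have := dit_smul k a 0 0
  rwa [zero_smul, zero_smul] at this

theorem cnt2K (hn : 0 < n) (hd : KD κ) {o : Fin g} (hk : κ o = none) {x : E g n} (hx : x ∈ RK κ)
    (h : ∀ v ∈ TK κ x, (v o).1 ∈ EE (x o).1) :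
    Module.finrank ℂ (TK κ x ⊓ LinearMap.ker (pr o) : Submodule ℂ (E g n)) + 2 ≤ n * n + n := by
  have hn' : (n : ℂ) ≠ 0 := Nat.cast_ne_zero.mpr hn.ne'
  obtain ⟨a1, a2, a3, a4⟩ := DG_inv (hx.1 o).1
  obtain ⟨b1, b2, b3, b4⟩ := DG_inv (hx.1 o).2
  obtain ⟨-, -, c3, -⟩ := DG_inv (DG_cm (hx.1 o))
  obtain ⟨p1, -, p3, -⟩ := DG_inv (pk_det hd hx.1 o)
  set W := TK κ x ⊓ LinearMap.ker (pr o)
  let f : E g n →ₗ[ℂ] M n := LinearMap.fst ℂ _ _ ∘ₗ LinearMap.proj o
  let ψ : E g n →ₗ[ℂ] M n :=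
    LinearMap.mulLeft ℂ (adjugate (x o).2) ∘ₗ LinearMap.snd ℂ _ _ ∘ₗ LinearMap.proj o
  have hz : ∀ v ∈ W, ∀ j, j ≠ o → v j = 0 := fun v hv j hj => by
    have : Function.update v o 0 j = 0 := congrFun hv.2 j
    rwa [Function.update_of_ne hj] at this
  have e1 := Cnt2_null f W
  have e2 := Cnt2_null ψ (W ⊓ LinearMap.ker f)
  have e3 : W ⊓ LinearMap.ker f ⊓ LinearMap.ker ψ = ⊥ := by
    rw [eq_bot_iff]
    intro v hv
    refine funext fun j => ?_
    by_cases hj : j = o
    · have h2 : adjugate (x o).2 * (v o).2 = 0 := hv.2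
      rw [hj]
      exact Prod.ext hv.1.2 (by rw [← b2 (v o).2, h2, mul_zero]; rfl)
    · exact hz v hv.1.1 j hj
  have e4 : W.map f < EE (x o).1 := by
    refine lt_of_le_of_ne ?_ fun e => ?_
    · rintro _ ⟨v, hv, rfl⟩
      exact h v hv.1
    · have : (x o).1 ∈ W.map f := e ▸ fun ζ hζ => ⟨0, by simp [hζ]⟩
      obtain ⟨v, hv, e'⟩ := this
      have h2 := (hv.1.1 o).1
      rw [show (v o).1 = (x o).1 from e', a3, trace_one, Fintype.card_fin] at h2
      exact hn' h2
  have e5 : (W ⊓ LinearMap.ker f).map ψ < LinearMap.ker (adL (x o).1 : M n →ₗ[ℂ] M n) := by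
    refine lt_of_le_of_ne ?_ fun e => ?_
    · rintro _ ⟨v, hv, rfl⟩
      have h1 : (v o).1 = 0 := hv.2
      have h2 := hv.1.1.2
      rw [dpk, Finset.sum_eq_single o (fun j _ hj => by simp [hz v hv.1 j hj, Cnt2K_zero])
        (by simp), hk, dit] at h2
      have h3 := congrArg (fun z => (x o).1 * (adjugate (x o).2 * (adjugate (x o).1 *
        (adjugate (pk κ x o) * (z * pk κ x o) * cm (x o) * ((x o).2 * (x o).1))))) h2
      simp only [mul_assoc (_ * _) (adjugate (pk κ x o)), p3, mul_one, p1] at h3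
      rw [dcm, sub_mul, mul_assoc _ (adjugate (cm (x o))), c3] at h3
      simp only [h1, cm, zero_mul, mul_zero, zero_add, sub_zero, sub_mul, mul_sub, mul_assoc, a1, a2,
        b1, a3, mul_one] at h3
      change (x o).1 * (adjugate (x o).2 * (v o).2) - adjugate (x o).2 * (v o).2 * (x o).1 = 0
      rw [mul_assoc]
      exact h3
    · have : (1 : M n) ∈ (W ⊓ LinearMap.ker f).map ψ := e ▸ by
        change (x o).1 * 1 - 1 * (x o).1 = 0
        simp
      obtain ⟨v, hv, e'⟩ := this
      have h2 := (hv.1.1.1 o).2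
      rw [show adjugate (x o).2 * (v o).2 = 1 from e', trace_one, Fintype.card_fin] at h2
      exact hn' h2
  have e6 := Submodule.finrank_lt_finrank_of_lt e4
  have e7 := Submodule.finrank_lt_finrank_of_lt e5
  have e8 := abn (x o).1
  have e9 := LinearMap.finrank_range_add_finrank_ker (adL (x o).1 : M n →ₗ[ℂ] M n)
  rw [Module.finrank_matrix, Fintype.card_fin, Module.finrank_self, mul_one] at e9
  rw [e3, finrank_bot] at e2
  unfold rk at e8
  omega

end Vale.Agent.P002
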