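import Vale.Agent.P002.AbN

open scoped Matrix.Norms.Operator Topology
open Matrix Filter

namespace Vale.Agent.P002

variable {g n : ℕ}

/-- commuting with `ξ` and tangent to the determinant at `A` -/
noncomputable def cnt3K (ξ A : M n) : Submodule ℂ (M n) :=
  LinearMap.ker ((adL ξ : M n →L[ℂ] M n) : M n →ₗ[ℂ] M n) ⊓
    LinearMap.ker (Matrix.traceLinearMap (Fin n) ℂ ℂ ∘ₗ LinearMap.mulLeft ℂ (adjugate A))

theorem cnt3_mem {ξ A u : M n} (h1 : ξ * u = u * ξ) (h2 : (adjugate A * u).trace = 0) :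
    u ∈ cnt3K ξ A := ⟨sub_eq_zero.2 h1, h2⟩

theorem cnt3_lt (hn : 0 < n) {ξ A : M n} (hA : A.det = 1) (h : ξ * A = A * ξ) :
    Module.finrank ℂ (cnt3K ξ A) + 1 ≤
      Module.finrank ℂ (LinearMap.ker ((adL ξ : M n →L[ℂ] M n) : M n →ₗ[ℂ] M n)) := by
  refine Submodule.finrank_lt_finrank_of_lt (lt_of_le_of_ne inf_le_left fun e => ?_)
  have h1 : A ∈ cnt3K ξ A := by
    rw [e]
    exact sub_eq_zero.2 h
  have h2 : (adjugate A * A).trace = 0 := h1.2
  rw [adjugate_mul, hA, one_smul, trace_one, Fintype.card_fin] at h2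
  exact hn.ne' (by exact_mod_cast h2)

theorem cnt3_two (hn : 0 < n) {ξ : M n} (hξ : ∀ c : ℂ, ξ ≠ c • 1) {K : Submodule ℂ (M n)}
    (k1 : (1 : M n) ∈ K) (k2 : ξ ∈ K) : 2 ≤ Module.finrank ℂ K := by
  have li : LinearIndependent ℂ ![(1 : M n), ξ] := by
    refine LinearIndependent.pair_iff.2 fun s t h1 => ?_
    have ht : t = 0 := by
      by_contra ht
      refine hξ (-(t⁻¹ * s)) ?_
      have h2 := congrArg (fun u => t⁻¹ • u) h1
      simp only [smul_add, smul_smul, inv_mul_cancel₀ ht, one_smul, smul_zero] at h2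
      rw [neg_smul]
      exact eq_neg_of_add_eq_zero_right h2
    refine ⟨?_, ht⟩
    rw [ht, zero_smul, add_zero] at h1
    simpa using congrFun (congrFun h1 ⟨0, hn⟩) ⟨0, hn⟩
  have e := finrank_span_eq_card li
  rw [Fintype.card_fin] at e
  refine e.ge.trans (Submodule.finrank_mono (Submodule.span_le.2 ?_))
  rintro _ ⟨i, rfl⟩
  fin_cases i
  · exact k1
  · exact k2

theorem cnt3 (hn : 0 < n) (o : Fin g) {x : E g n} (hx : x ∈ RR g n) {ξ : M n}
    (hξ : ∀ c : ℂ, ξ ≠ c • 1)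
    (hc : ∀ j, j ≠ o → ξ * (x j).1 = (x j).1 * ξ ∧ ξ * (x j).2 = (x j).2 * ξ)
    (h : ∀ v ∈ TT x, ∃ ξ' ∈ EE ξ, ∀ j, j ≠ o → adL (v j).1 ξ + adL (x j).1 ξ' = 0 ∧
      adL (v j).2 ξ + adL (x j).2 ξ' = 0) :
    Module.finrank ℂ ((TT x).map (pr o)) + 2 * (g - 1) * (rk (adL ξ) + 1) + 2 ≤
      2 * (g - 1) * (n * n) + rk (adL ξ) + n := by
  classical
  let Φ : E g n →ₗ[ℂ] E g n :=
    { toFun := fun u j => (adL (u j).1 ξ, adL (u j).2 ξ)
      map_add' := fun a b => by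
        funext j
        simp only [Pi.add_apply, Prod.fst_add, Prod.snd_add, map_add,
          ContinuousLinearMap.add_apply, Prod.mk_add_mk]
      map_smul' := fun c a => by
        funext j
        simp only [Pi.smul_apply, Prod.smul_fst, Prod.smul_snd, map_smul,
          ContinuousLinearMap.smul_apply, Prod.smul_mk, RingHom.id_apply] }
  let Ψ0 : M n →ₗ[ℂ] E g n :=
    { toFun := fun η j => (adL (x j).1 η, adL (x j).2 η)
      map_add' := fun a b => by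
        funext j
        simp only [Pi.add_apply, map_add, Prod.mk_add_mk]
      map_smul' := fun c a => by
        funext j
        simp only [Pi.smul_apply, map_smul, Prod.smul_mk, RingHom.id_apply] }
  let Ψ := (pr o ∘ₗ Ψ0).domRestrict (EE ξ)
  have hΨ : ∀ (η : EE ξ) j, j ≠ o → Ψ η j = (adL (x j).1 η, adL (x j).2 η) := fun η j hj =>
    Function.update_of_ne hj _ _
  have hΨo : ∀ (η : EE ξ), Ψ η o = 0 := fun η => Function.update_self _ _ _
  have hpr : ∀ (v : E g n) j, j ≠ o → pr o v j = v j := fun v j hj => Function.update_of_ne hj _ _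
  have hpo : ∀ (v : E g n), pr o v o = 0 := fun v => Function.update_self _ _ _
  let Φ' := Φ.domRestrict ((TT x).map (pr o))
  have e1 := LinearMap.finrank_range_add_finrank_ker Φ'
  have e2 := LinearMap.finrank_range_add_finrank_ker Ψ
  have e3 := abn ξ
  have e4 : Module.finrank ℂ (LinearMap.range Φ') ≤ Module.finrank ℂ (LinearMap.range Ψ) := by
    refine Submodule.finrank_mono ?_
    rintro _ ⟨⟨_, v, hv, rfl⟩, rfl⟩
    obtain ⟨ξ', h1, h2⟩ := h v hv
    refine ⟨-⟨ξ', h1⟩, ?_⟩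
    rw [map_neg]
    funext j
    change -(Ψ ⟨ξ', h1⟩ j) = (adL (pr o v j).1 ξ, adL (pr o v j).2 ξ)
    by_cases hj : j = o
    · subst hj
      rw [hΨo, hpo]
      simp [Prod.ext_iff]
    · rw [hΨ _ j hj, hpr v j hj, Prod.neg_mk]
      exact Prod.ext (neg_eq_of_add_eq_zero_left (h2 j hj).1)
        (neg_eq_of_add_eq_zero_left (h2 j hj).2)
  have e5 : 2 ≤ Module.finrank ℂ (LinearMap.ker Ψ) := by
    have m1 : (1 : M n) ∈ EE ξ := fun ζ _ => ⟨0, by simp⟩
    have m2 : ξ ∈ EE ξ := fun ζ _ => ⟨ζ, rfl⟩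
    have k1 : (⟨1, m1⟩ : EE ξ) ∈ LinearMap.ker Ψ := by
      rw [LinearMap.mem_ker]
      funext j
      by_cases hj : j = o
      · subst hj
        exact hΨo _
      · rw [hΨ _ j hj]
        simp [adL_apply]
    have k2 : (⟨ξ, m2⟩ : EE ξ) ∈ LinearMap.ker Ψ := by
      rw [LinearMap.mem_ker]
      funext j
      by_cases hj : j = o
      · subst hj
        exact hΨo _
      · rw [hΨ _ j hj]
        simp [adL_apply, (hc j hj).1, (hc j hj).2]
    rw [← Submodule.finrank_map_subtype_eq]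
    exact cnt3_two hn hξ ⟨_, k1, rfl⟩ ⟨_, k2, rfl⟩
  have mem : ∀ u : LinearMap.ker Φ', ∀ j, j ≠ o →
      (u.1.1 j).1 ∈ cnt3K ξ (x j).1 ∧ (u.1.1 j).2 ∈ cnt3K ξ (x j).2 := by
    rintro ⟨⟨_, v, hv, rfl⟩, hu⟩ j hj
    have h1 : (adL (pr o v j).1 ξ, adL (pr o v j).2 ξ) = 0 := congrFun hu j
    change (pr o v j).1 ∈ _ ∧ (pr o v j).2 ∈ _
    rw [hpr v j hj] at h1 ⊢
    exact ⟨cnt3_mem (sub_eq_zero.1 (congrArg Prod.fst h1)).symm (hv.1 j).1,
      cnt3_mem (sub_eq_zero.1 (congrArg Prod.snd h1)).symm (hv.1 j).2⟩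
  let f : LinearMap.ker Φ' →ₗ[ℂ] ∀ j : {j // j ≠ o}, cnt3K ξ (x j).1 × cnt3K ξ (x j).2 :=
    { toFun := fun u j => (⟨_, (mem u j j.2).1⟩, ⟨_, (mem u j j.2).2⟩)
      map_add' := fun _ _ => rfl
      map_smul' := fun _ _ => rfl }
  have hf : Function.Injective f := by
    rw [injective_iff_map_eq_zero]
    rintro ⟨⟨_, v, hv, rfl⟩, hu⟩ h0
    refine Subtype.ext (Subtype.ext ?_)
    funext j
    by_cases hj : j = o
    · subst hj
      exact hpo v
    · have h1 := congrFun h0 ⟨j, hj⟩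
      exact Prod.ext (congrArg (fun u => u.1.1) h1) (congrArg (fun u => u.2.1) h1)
  have e6 := LinearMap.finrank_le_finrank_of_injective hf
  rw [Module.finrank_pi_fintype] at e6
  have e7 := LinearMap.finrank_range_add_finrank_ker ((adL ξ : M n →L[ℂ] M n) : M n →ₗ[ℂ] M n)
  have e8 : Module.finrank ℂ (M n) = n * n := by simp [Module.finrank_matrix]
  obtain ⟨d, hd⟩ : ∃ d, d =
    Module.finrank ℂ (LinearMap.ker ((adL ξ : M n →L[ℂ] M n) : M n →ₗ[ℂ] M n)) := ⟨_, rfl⟩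
  have e9 : ∑ j : {j // j ≠ o}, (Module.finrank ℂ (cnt3K ξ (x j).1 × cnt3K ξ (x j).2) + 2) ≤
      ∑ j : {j // j ≠ o}, 2 * d := by
    refine Finset.sum_le_sum fun j _ => ?_
    have a1 := cnt3_lt hn (hx.1 j).1 (hc j j.2).1
    have a2 := cnt3_lt hn (hx.1 j).2 (hc j j.2).2
    rw [Module.finrank_prod]
    omega
  have c : Fintype.card {j // j ≠ o} = g - 1 := by simp
  rw [Finset.sum_add_distrib, Finset.sum_const, Finset.sum_const, Finset.card_univ, c, smul_eq_mul,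
    smul_eq_mul] at e9
  have e10 : rk (adL ξ) + d = n * n := by rw [hd, ← e8, ← e7]; rfl
  rw [← e10]
  have r1 : 2 * (g - 1) * (rk (adL ξ) + 1) = 2 * ((g - 1) * rk (adL ξ)) + (g - 1) * 2 := by ring
  have r2 : 2 * (g - 1) * (rk (adL ξ) + d) = 2 * ((g - 1) * rk (adL ξ)) + (g - 1) * (2 * d) := by
    ring
  omega

end Vale.Agent.P002
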