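import Vale.Agent.P002.PkL
import Vale.Agent.P002.Cnt3

open scoped Matrix.Norms.Operator Topology
open Matrix Filter

namespace Vale.Agent.P002

variable {g n : ℕ} {κ : Kd g n}

theorem cntK3_rng (hn : 0 < n) {a : M n × M n} {ξ : M n} (hξ : ∀ c : ℂ, ξ ≠ c • 1)
    (hc : Cm none a ξ) (R : Submodule ℂ (M n × M n))
    (h : ∀ r ∈ R, ∃ ξ' ∈ EE ξ, r.1 + adL a.1 ξ' = 0 ∧ r.2 + adL a.2 ξ' = 0) :
    Module.finrank ℂ R + 2 ≤ rk (adL ξ) + n := by
  let Ψ0 : M n →ₗ[ℂ] M n × M n :=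
    { toFun := fun η => (adL a.1 η, adL a.2 η)
      map_add' := fun a b => by simp only [map_add, Prod.mk_add_mk]
      map_smul' := fun c a => by simp only [map_smul, Prod.smul_mk, RingHom.id_apply] }
  let Ψ := Ψ0.domRestrict (EE ξ)
  have hΨ : ∀ η : EE ξ, Ψ η = (adL a.1 η, adL a.2 η) := fun η => rfl
  have e2 := LinearMap.finrank_range_add_finrank_ker Ψ
  have e3 := abn ξ
  have e4 : Module.finrank ℂ R ≤ Module.finrank ℂ (LinearMap.range Ψ) := by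
    refine Submodule.finrank_mono fun r hr => ?_
    obtain ⟨ξ', h1, h2⟩ := h r hr
    refine ⟨-⟨ξ', h1⟩, ?_⟩
    rw [map_neg, hΨ, Prod.neg_mk]
    exact Prod.ext (neg_eq_of_add_eq_zero_left h2.1) (neg_eq_of_add_eq_zero_left h2.2)
  have e5 : 2 ≤ Module.finrank ℂ (LinearMap.ker Ψ) := by
    have m1 : (1 : M n) ∈ EE ξ := fun ζ _ => ⟨0, by simp⟩
    have m2 : ξ ∈ EE ξ := fun ζ _ => ⟨ζ, rfl⟩
    have k1 : (⟨1, m1⟩ : EE ξ) ∈ LinearMap.ker Ψ := by
      rw [LinearMap.mem_ker, hΨ]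
      simp [adL_apply]
    have k2 : (⟨ξ, m2⟩ : EE ξ) ∈ LinearMap.ker Ψ := by
      rw [LinearMap.mem_ker, hΨ]
      simp [adL_apply, hc.1, hc.2]
    rw [← Submodule.finrank_map_subtype_eq]
    exact cnt3_two hn hξ ⟨_, k1, rfl⟩ ⟨_, k2, rfl⟩
  omega

theorem cntK3_one (hn : 0 < n) {ξ A : M n} (hA : A.det = 1) (h : ξ * A = A * ξ) :
    Module.finrank ℂ (cnt3K ξ A) + 1 + rk (adL ξ) ≤ n * n := by
  have e8 : Module.finrank ℂ (M n) = n * n := by simp [Module.finrank_matrix]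
  rw [← e8, ← LinearMap.finrank_range_add_finrank_ker ((adL ξ : M n →L[ℂ] M n) : M n →ₗ[ℂ] M n),
    add_comm]
  exact Nat.add_le_add_left (cnt3_lt hn hA h) _

theorem cntK3_pi (o : Fin g) (K K' : Fin g → Submodule ℂ (M n)) (S : Submodule ℂ (E g n))
    (h0 : ∀ u ∈ S, u o = 0) (mem : ∀ u ∈ S, ∀ j, j ≠ o → (u j).1 ∈ K j ∧ (u j).2 ∈ K' j) :
    Module.finrank ℂ S ≤
      ∑ j : {j // j ≠ o}, (Module.finrank ℂ (K j) + Module.finrank ℂ (K' j)) := by
  let f : S →ₗ[ℂ] ∀ j : {j // j ≠ o}, K j × K' j :=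
    { toFun := fun u j => (⟨_, (mem u u.2 j j.2).1⟩, ⟨_, (mem u u.2 j j.2).2⟩)
      map_add' := fun _ _ => rfl
      map_smul' := fun _ _ => rfl }
  have hf : Function.Injective f := by
    rw [injective_iff_map_eq_zero]
    intro u hu
    refine Subtype.ext ?_
    funext j
    by_cases hj : j = o
    · subst hj
      exact h0 u u.2
    · have h1 := congrFun hu ⟨j, hj⟩
      exact Prod.ext (congrArg (fun u => u.1.1) h1) (congrArg (fun u => u.2.1) h1)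
  have e6 := LinearMap.finrank_le_finrank_of_injective hf
  rw [Module.finrank_pi_fintype] at e6
  simpa only [Module.finrank_prod] using e6

theorem cntK3_num (o : Fin g) (a r : Fin g → ℕ) {N s : ℕ} (h : ∀ j, a j + 2 + 2 * r j ≤ 2 * N)
    (hs : s ≤ ∑ j : {j // j ≠ o}, a j) {o' : Fin g} (hne : o ≠ o') :
    s + 2 * (g - 1) + 2 * r o' ≤ 2 * (g - 1) * N := by
  have e9 : ∑ j : {j // j ≠ o}, (a j + 2 + 2 * r j) ≤ ∑ j : {j // j ≠ o}, 2 * N :=
    Finset.sum_le_sum fun j _ => h j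
  have c : Fintype.card {j // j ≠ o} = g - 1 := by simp
  have e10 : 2 * r o' ≤ ∑ j : {j // j ≠ o}, 2 * r j :=
    Finset.single_le_sum (f := fun j : {j // j ≠ o} => 2 * r j)
      (fun _ _ => Nat.zero_le _) (Finset.mem_univ ⟨o', hne.symm⟩)
  rw [Finset.sum_add_distrib, Finset.sum_add_distrib, Finset.sum_const, Finset.sum_const,
    Finset.card_univ, c, smul_eq_mul, smul_eq_mul] at e9
  have r2 : 2 * (g - 1) * N = (g - 1) * (2 * N) := by ring
  omega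

theorem cntK3_ker (hn : 0 < n) (o : Fin g) {x : E g n}
    (hx : ∀ j, (x j).1.det = 1 ∧ (x j).2.det = 1) (ζ : Fin g → M n) (hζ : ∀ j, Cm none (x j) (ζ j))
    (S : Submodule ℂ (E g n)) (h0 : ∀ u ∈ S, u o = 0)
    (mem : ∀ u ∈ S, ∀ j, j ≠ o →
      (u j).1 ∈ cnt3K (ζ j) (x j).1 ∧ (u j).2 ∈ cnt3K (ζ j) (x j).2) {o' : Fin g} (hne : o ≠ o') :
    Module.finrank ℂ S + 2 * (g - 1) + 2 * rk (adL (ζ o')) ≤ 2 * (g - 1) * (n * n) := by
  refine cntK3_num o (fun j => Module.finrank ℂ (cnt3K (ζ j) (x j).1) +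
    Module.finrank ℂ (cnt3K (ζ j) (x j).2)) (fun j => rk (adL (ζ j))) (fun j => ?_)
    (cntK3_pi o (fun j => cnt3K (ζ j) (x j).1) (fun j => cnt3K (ζ j) (x j).2) S h0 mem) hne
  have a1 := cntK3_one hn (hx j).1 (hζ j).1
  have a2 := cntK3_one hn (hx j).2 (hζ j).2
  have := Nat.add_le_add a1 a2
  refine le_trans (le_of_eq ?_) (this.trans (two_mul _).ge)
  ring

theorem cntK3 (hn : 0 < n) {o o' : Fin g} (hne : o ≠ o') {x : E g n} (hx : x ∈ RK κ) {ξ : M n}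
    (hξ : ∀ c : ℂ, ξ ≠ c • 1) (hc : Cm none (x o') ξ)
    (h : ∀ v ∈ TK κ x, ∃ ξ' ∈ EE ξ, adL (v o').1 ξ + adL (x o').1 ξ' = 0 ∧
      adL (v o').2 ξ + adL (x o').2 ξ' = 0) :
    Module.finrank ℂ ((TK κ x).map (pr o)) + 2 * (g - 1) + rk (adL ξ) + 2 ≤
      2 * (g - 1) * (n * n) + n := by
  classical
  let Φ : E g n →ₗ[ℂ] M n × M n :=
    { toFun := fun u => (adL (u o').1 ξ, adL (u o').2 ξ)
      map_add' := fun a b => by
        simp only [Pi.add_apply, Prod.fst_add, Prod.snd_add, map_add,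
          ContinuousLinearMap.add_apply, Prod.mk_add_mk]
      map_smul' := fun c a => by
        simp only [Pi.smul_apply, Prod.smul_fst, Prod.smul_snd, map_smul,
          ContinuousLinearMap.smul_apply, Prod.smul_mk, RingHom.id_apply] }
  have hpr : ∀ (v : E g n) j, j ≠ o → pr o v j = v j := fun v j hj => Function.update_of_ne hj _ _
  have hpo : ∀ (v : E g n), pr o v o = 0 := fun v => Function.update_self _ _ _
  let Φ' := Φ.domRestrict ((TK κ x).map (pr o))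
  have e1 := LinearMap.finrank_range_add_finrank_ker Φ'
  have e2 := cntK3_rng hn hξ hc (LinearMap.range Φ') (by
    rintro _ ⟨⟨_, v, hv, rfl⟩, rfl⟩
    obtain ⟨ξ', h1, h2⟩ := h v hv
    refine ⟨ξ', h1, ?_⟩
    change adL (pr o v o').1 ξ + _ = 0 ∧ adL (pr o v o').2 ξ + _ = 0
    rw [hpr v o' hne.symm]
    exact h2)
  obtain ⟨ζ, hζ, hζ'⟩ : ∃ ζ : Fin g → M n, ζ o' = ξ ∧ ∀ j, j ≠ o' → ζ j = 0 :=
    ⟨fun j => if j = o' then ξ else 0, if_pos rfl, fun j hj => if_neg hj⟩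
  have e3 := cntK3_ker hn o hx.1 ζ (fun j => by
      by_cases hj' : j = o'
      · rw [hj', hζ]
        exact hc
      · rw [hζ' j hj']
        exact ⟨by simp, by simp⟩)
    ((LinearMap.ker Φ').map ((TK κ x).map (pr o)).subtype) (by
      rintro _ ⟨⟨_, v, hv, rfl⟩, -, rfl⟩
      exact hpo v) (by
      rintro _ ⟨⟨_, v, hv, rfl⟩, hu, rfl⟩ j hj
      have h1 : (adL (pr o v o').1 ξ, adL (pr o v o').2 ξ) = 0 := hu
      change (pr o v j).1 ∈ _ ∧ (pr o v j).2 ∈ _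
      rw [hpr v o' hne.symm] at h1
      rw [hpr v j hj]
      by_cases hj' : j = o'
      · rw [hj', hζ]
        exact ⟨cnt3_mem (sub_eq_zero.1 (congrArg Prod.fst h1)).symm (hv.1 o').1,
          cnt3_mem (sub_eq_zero.1 (congrArg Prod.snd h1)).symm (hv.1 o').2⟩
      · rw [hζ' j hj']
        exact ⟨cnt3_mem (by simp) (hv.1 j).1, cnt3_mem (by simp) (hv.1 j).2⟩) hne
  rw [Submodule.finrank_map_subtype_eq, hζ] at e3
  omega

end Vale.Agent.P002
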