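import Vale.Agent.P002.Def4

open scoped Matrix.Norms.Operator Topology
open Matrix Filter

namespace Vale.Agent.P002

variable {g n : ℕ}

/-- the corner -/
def CocKP (e f : M n) : Submodule ℂ (M n) where
  carrier := {u | e * u * f = u}
  add_mem' := fun {a b} ha hb => by
    show e * (a + b) * f = a + b
    rw [mul_add, add_mul, ha, hb]
  zero_mem' := by simp
  smul_mem' := fun c a ha => by
    show e * (c • a) * f = c • a
    rw [Matrix.mul_smul, Matrix.smul_mul, ha]

theorem CocK_L {e f a u : M n} (h : Commute e a) (hu : u ∈ CocKP e f) : a * u ∈ CocKP e f := by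
  show e * (a * u) * f = a * u
  rw [← mul_assoc e, h.eq, mul_assoc a, mul_assoc a, show e * u * f = u from hu]

theorem CocK_R {e f a u : M n} (h : Commute f a) (hu : u ∈ CocKP e f) : u * a ∈ CocKP e f := by
  show e * (u * a) * f = u * a
  rw [← mul_assoc e, mul_assoc _ a, ← h.eq, ← mul_assoc, show e * u * f = u from hu]

theorem CocK_adj {e a : M n} (ha : a.det = 1) (h : Commute e a) : Commute e (adjugate a) := by
  have h1 : adjugate a * a = 1 := by rw [adjugate_mul, ha, one_smul]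
  have h2 : a * adjugate a = 1 := by rw [mul_adjugate, ha, one_smul]
  show e * adjugate a = adjugate a * e
  calc e * adjugate a = adjugate a * (a * e) * adjugate a := by
        rw [← mul_assoc, h1, one_mul]
    _ = adjugate a * e := by rw [← h.eq, mul_assoc, mul_assoc, h2, mul_one]

theorem CocK_cm {e : M n} {a : M n × M n} (ha : a.1.det = 1 ∧ a.2.det = 1)
    (h : e * a.1 = a.1 * e ∧ e * a.2 = a.2 * e) : Commute e (cm a) :=
  ((Commute.mul_right h.1 h.2).mul_right (CocK_adj ha.1 h.1)).mul_right (CocK_adj ha.2 h.2)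

theorem CocK_pk {κ : Kd g n} (hd : KD κ) {x : E g n} (hx : x ∈ RK κ) {e : M n} (hz : Zc κ x e)
    (m : ℕ) : Commute e (pk κ x m) ∧ (pk κ x m).det = 1 := by
  refine List.prod_induction (fun A : M n => Commute e A ∧ A.det = 1)
    (fun a b ha hb => ⟨ha.1.mul_right hb.1, by rw [det_mul, ha.2, hb.2, mul_one]⟩)
    ⟨Commute.one_right e, det_one⟩ fun A hA => ?_
  obtain ⟨j, rfl⟩ := List.mem_ofFn.1 (List.mem_of_mem_take hA)
  have h1 := hz j
  have h2 := hd j
  cases h : κ j with
  | none =>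
    rw [h] at h1
    exact ⟨CocK_cm (hx.1 j) h1, by simp [it, cm, det_adjugate, (hx.1 j).1, (hx.1 j).2]⟩
  | some J =>
    rw [h] at h1
    exact ⟨h1, by simp [it, det_adjugate, (hx.1 j).1, h2 J h]⟩

theorem CocK_mem {κ : Kd g n} (hd : KD κ) {x : E g n} (hx : x ∈ RK κ) {e f : M n}
    (hze : Zc κ x e) (hzf : Zc κ x f) {v : E g n} (hv : Cor κ e f v) :
    dpk κ x v ∈ CocKP e f := by
  refine Submodule.sum_mem _ fun j _ => CocK_R
    (CocK_adj (CocK_pk hd hx hzf j).2 (CocK_pk hd hx hzf j).1) (CocK_L (CocK_pk hd hx hze j).1 ?_)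
  have h1 := hze j
  have h2 := hzf j
  obtain ⟨v1, v2, v3⟩ := hv j
  cases h : κ j with
  | none =>
    rw [h] at h1 h2
    obtain ⟨d1, d2⟩ := hx.1 j
    have e1 : Commute e (x j).1 := h1.1
    have e2 : Commute e (x j).2 := h1.2
    have f1 : Commute f (x j).1 := h2.1
    have f2 : Commute f (x j).2 := h2.2
    have a1 := CocK_R (CocK_adj d1 f1) (u := (v j).1) v1
    have a2 := CocK_R (CocK_adj d2 f2) (u := (v j).2) v2
    have d3 : (cm (x j)).det = 1 := by simp [cm, det_adjugate, d1, d2]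
    refine sub_mem (sub_mem (add_mem a1 (CocK_R (CocK_adj d1 f1) (CocK_L e1 a2))) ?_) ?_
    · exact CocK_R ((f1.mul_right (CocK_adj d2 f2)).mul_right (CocK_adj d1 f1))
        (CocK_L ((e1.mul_right e2).mul_right (CocK_adj d1 e1)) a1)
    · exact CocK_R (CocK_adj d3 (CocK_cm ⟨d1, d2⟩ h2)) (CocK_L (CocK_cm ⟨d1, d2⟩ h1) a2)
  | some J =>
    rw [v3 (by rw [h]; exact Option.some_ne_none J)]
    simp [dit]

theorem CocK_cor {e f a b u : M n} (he : e * a = a * e) (hf : f * a = a * f)
    (hu : u ∈ CocKP e f) (h : u = a * b - b * a) : u = a * (e * b * f) - e * b * f * a := by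
  rw [← show e * u * f = u from hu, h, mul_sub, sub_mul, ← mul_assoc e a, he]
  simp only [mul_assoc, hf]

theorem cocK {κ : Kd g n} (hd : KD κ) {o p : Fin g} (hop : o ≠ p) (ho : κ o = none)
    (hp : κ p = none) {x : E g n} (hx : x ∈ RK κ) {e f : M n} (he : e * e = e) (hf : f * f = f)
    (he0 : e ≠ 0) (hf0 : f ≠ 0) (hze : Zc κ x e) (hzf : Zc κ x f) :
    ∃ v, Cor κ e f v ∧ dpk κ x v = 0 ∧ ¬ Cob κ x v := by
  by_contra hcon
  have hP : ∀ b, e * b * f ∈ CocKP e f := fun b => by
    show e * (e * b * f) * f = e * b * f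
    rw [← mul_assoc, ← mul_assoc, he, mul_assoc _ f, hf]
  have hpos : 1 ≤ Module.finrank ℂ (CocKP e f) := by
    rw [Submodule.one_le_finrank_iff]
    intro h0
    obtain ⟨i, k, h1⟩ : ∃ i k, e i k ≠ 0 := by
      by_contra h
      exact he0 (Matrix.ext fun i k => by
        by_contra h'
        exact h ⟨i, k, h'⟩)
    obtain ⟨l, j, h2⟩ : ∃ l j, f l j ≠ 0 := by
      by_contra h
      exact hf0 (Matrix.ext fun i k => by
        by_contra h'
        exact h ⟨i, k, h'⟩)
    have h3 := hP (Matrix.single k l 1)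
    rw [h0, Submodule.mem_bot] at h3
    have h4 := congrFun (congrFun h3 i) j
    simp [mul_apply, Matrix.single_apply, ite_and] at h4
    exact h4.elim h1 h2
  let s : (CocKP e f × CocKP e f) →ₗ[ℂ] M n × M n :=
    (CocKP e f).subtype.prodMap (CocKP e f).subtype
  let J := s.prodMap s
  have hs : Function.Injective s := fun a b h =>
    Prod.ext (Subtype.ext (congrArg Prod.fst h)) (Subtype.ext (congrArg Prod.snd h))
  have hJ : Function.Injective J := fun a b h =>
    Prod.ext (hs (congrArg Prod.fst h)) (hs (congrArg Prod.snd h))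
  let ι : ((M n × M n) × (M n × M n)) →ₗ[ℂ] E g n :=
    (LinearMap.single ℂ (fun _ => M n × M n) o).coprod (LinearMap.single ℂ (fun _ => M n × M n) p)
  have i1 : ∀ w, ι w o = w.1 := fun w => by simp [ι, hop]
  have i2 : ∀ w, ι w p = w.2 := fun w => by simp [ι, hop.symm]
  have i3 : ∀ w j, j ≠ o → j ≠ p → ι w j = 0 := fun w j h1 h2 => by simp [ι, h1, h2]
  have hc : ∀ w, Cor κ e f (ι (J w)) := fun w j => by
    by_cases h1 : j = o
    · rw [h1, i1]
      exact ⟨w.1.1.2, w.1.2.2, fun h => absurd ho h⟩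
    · by_cases h2 : j = p
      · rw [h2, i2]
        exact ⟨w.2.1.2, w.2.2.2, fun h => absurd hp h⟩
      · rw [i3 _ j h1 h2]
        simp
  let Φ := (dpkL κ x).comp (ι.comp J)
  let ad : M n → M n →ₗ[ℂ] M n := fun a => LinearMap.mulLeft ℂ a - LinearMap.mulRight ℂ a
  let ψ := (((ad (x o).1).prod (ad (x o).2)).prod ((ad (x p).1).prod (ad (x p).2))).comp
    (CocKP e f).subtype
  have r1 : Module.finrank ℂ (LinearMap.range Φ) ≤ Module.finrank ℂ (CocKP e f) := by
    refine Submodule.finrank_mono ?_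
    rintro _ ⟨w, rfl⟩
    exact CocK_mem hd hx hze hzf (hc w)
  have r2 : (LinearMap.ker Φ).map J ≤ LinearMap.range ψ := by
    rintro _ ⟨w, hw, rfl⟩
    have hb : Cob κ x (ι (J w)) := by
      by_contra h
      exact hcon ⟨_, hc w, hw, h⟩
    obtain ⟨b, hb⟩ := hb
    have b1 := hb o ho
    have b2 := hb p hp
    rw [i1] at b1
    rw [i2] at b2
    have z1 := hze o
    have z2 := hzf o
    have z3 := hze p
    have z4 := hzf p
    rw [ho] at z1 z2
    rw [hp] at z3 z4
    refine ⟨⟨_, hP b⟩, Prod.ext (Prod.ext ?_ ?_) (Prod.ext ?_ ?_)⟩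
    · exact (CocK_cor z1.1 z2.1 w.1.1.2 (congrArg Prod.fst b1)).symm
    · exact (CocK_cor z1.2 z2.2 w.1.2.2 (congrArg Prod.snd b1)).symm
    · exact (CocK_cor z3.1 z4.1 w.2.1.2 (congrArg Prod.fst b2)).symm
    · exact (CocK_cor z3.2 z4.2 w.2.2.2 (congrArg Prod.snd b2)).symm
  have r3 := (Submodule.finrank_mono r2).trans (LinearMap.finrank_range_le ψ)
  rw [← (Submodule.equivMapOfInjective J hJ _).finrank_eq] at r3
  have r4 := LinearMap.finrank_range_add_finrank_ker Φ
  simp only [Module.finrank_prod] at r4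
  omega

end Vale.Agent.P002
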