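import Vale.Agent.P002.Def2
import Vale.Agent.P002.Mv

open scoped Matrix.Norms.Operator Topology
open Matrix Filter

namespace Vale.Agent.P002

variable {g n : ℕ}

open ComplexOrder in
theorem Sur_zero {N : M n} (h0 : N.trace = 0) (h : ∀ α : M n, α.trace = 0 → (N * α).trace = 0) :
    N = 0 :=
  trace_mul_conjTranspose_self_eq_zero_iff.1 (h _ (by rw [trace_conjTranspose, h0, star_zero]))

theorem Sur_conj {ξ X X' Y Y' : M n} (hX : X * X' = 1) (hY : Y * Y' = 1)
    (h : ∀ α : M n, α.trace = 0 → (ξ * (X * α * X' - Y * α * Y')).trace = 0) :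
    X' * ξ * X = Y' * ξ * Y := by
  refine sub_eq_zero.1 (Sur_zero ?_ fun α hα => ?_)
  · rw [trace_sub, trace_mul_cycle, hX, trace_mul_cycle Y', hY, sub_self]
  · rw [← h α hα, sub_mul, mul_sub, trace_sub, trace_sub]
    congr 1
    · rw [← mul_assoc ξ, trace_mul_comm _ X']
      simp only [mul_assoc]
    · rw [← mul_assoc ξ, trace_mul_comm _ Y']
      simp only [mul_assoc]

theorem Sur_cm {A B : M n} (hA : A.det = 1) (hB : B.det = 1) : (cm (A, B)).det = 1 := by
  simp only [cm, det_mul, hA, hB, mv_adet hA, mv_adet hB, mul_one]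

theorem Sur_core {ξ A B : M n} (hA : A.det = 1) (hB : B.det = 1)
    (h1 : ∀ α : M n, α.trace = 0 → (ξ * dcm (A, B) (α * A, 0)).trace = 0)
    (h2 : ∀ α : M n, α.trace = 0 → (ξ * dcm (A, B) (0, α * B)).trace = 0) :
    Commute ξ A ∧ Commute ξ B := by
  have a1 : A * adjugate A = 1 := by rw [mul_adjugate, hA, one_smul]
  have a2 : adjugate A * A = 1 := by rw [adjugate_mul, hA, one_smul]
  have b1 : B * adjugate B = 1 := by rw [mul_adjugate, hB, one_smul]
  have b2 : adjugate B * B = 1 := by rw [adjugate_mul, hB, one_smul]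
  have c1 : cm (A, B) * adjugate (cm (A, B)) = 1 := by rw [mul_adjugate, Sur_cm hA hB, one_smul]
  let a : (M n)ˣ := ⟨A, adjugate A, a1, a2⟩
  let b : (M n)ˣ := ⟨B, adjugate B, b1, b2⟩
  have u1 : (A * B * adjugate A) * (A * adjugate B * adjugate A) = 1 :=
    congrArg Units.val (show (a * b * a⁻¹) * (a * b⁻¹ * a⁻¹) = 1 by group)
  have e1 := Sur_conj (ξ := ξ) (mul_one (1 : M n)) u1 fun α hα => by
    rw [← h1 α hα]
    simp only [dcm, mul_assoc α A, a1, mul_one, one_mul, zero_mul, mul_zero, add_zero, sub_zero]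
  have e2 := Sur_conj (ξ := ξ) a1 c1 fun α hα => by
    rw [← h2 α hα]
    simp only [dcm, mul_assoc α B, b1, mul_one, zero_mul, mul_zero, zero_add, sub_zero]
  have k1 : Commute ξ ((a * b * a⁻¹ : (M n)ˣ) : M n) := by
    change ξ * (A * B * adjugate A) = A * B * adjugate A * ξ
    conv_rhs => rw [← one_mul ξ, ← mul_one (1 * ξ), e1]
    rw [← mul_assoc (A * B * adjugate A), ← mul_assoc (A * B * adjugate A), u1, one_mul]
  have k2 : Commute ξ ((a * b * a⁻¹ * b⁻¹ * a⁻¹ : (M n)ˣ) : M n) := by
    change ξ * (cm (A, B) * adjugate A) = cm (A, B) * adjugate A * ξ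
    calc ξ * (cm (A, B) * adjugate A)
        = cm (A, B) * (adjugate (cm (A, B)) * ξ * cm (A, B)) * adjugate A := by
          rw [← mul_assoc (cm (A, B)), ← mul_assoc (cm (A, B)), c1, one_mul, mul_assoc]
      _ = cm (A, B) * adjugate A * ξ * (A * adjugate A) := by
          rw [← e2]; simp only [mul_assoc]
      _ = _ := by rw [a1, mul_one]
  have k3 := k1.units_inv_right.mul_right k2
  rw [← Units.val_mul, show (a * b * a⁻¹)⁻¹ * (a * b * a⁻¹ * b⁻¹ * a⁻¹) = b⁻¹ * a⁻¹ by group] at k3
  have k4 := (k3.mul_right k1)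
  rw [← Units.val_mul, show b⁻¹ * a⁻¹ * (a * b * a⁻¹) = a⁻¹ by group] at k4
  have k5 := k4.mul_right k3.units_inv_right
  rw [← Units.val_mul, show a⁻¹ * (b⁻¹ * a⁻¹)⁻¹ = b by group] at k5
  exact ⟨by simpa using k4.units_inv_right, k5⟩

theorem Sur_single (x : E g n) (j : Fin g) (w : M n × M n) :
    dpm x (Pi.single j w) = pm x j * dcm (x j) w * adjugate (pm x j) := by
  rw [dpm, Finset.sum_eq_single j (fun i _ hi => by simp [Pi.single_eq_of_ne hi, dcm]) (by simp),
    Pi.single_eq_same]

theorem sur {x : E g n} (hx : x ∈ RR g n) (J : Fin g → Prop) (hJ : ∀ i j, i ≤ j → J i → J j)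
    (hS : ∀ ξ : M n, (∀ j, J j → ξ * (x j).1 = (x j).1 * ξ ∧ ξ * (x j).2 = (x j).2 * ξ) →
      ∃ c : ℂ, ξ = c • 1) {m : M n} (hm : m.trace = 0) :
    ∃ v, Tr0 x v ∧ (∀ j, ¬ J j → v j = 0) ∧ dpm x v = m := by
  let W : Submodule ℂ (M n) :=
    { carrier := {m | ∃ v, Tr0 x v ∧ (∀ j, ¬ J j → v j = 0) ∧ dpm x v = m}
      add_mem' := by
        rintro _ _ ⟨a, ha, ha', rfl⟩ ⟨b, hb, hb', rfl⟩
        refine ⟨a + b, fun j => ?_, fun j hj => by simp [ha' j hj, hb' j hj], ?_⟩
        · simp only [Pi.add_apply, Prod.fst_add, Prod.snd_add, mul_add, trace_add, ha j, hb j,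
            add_zero, and_self]
        · rw [dpm, dpm, dpm, ← Finset.sum_add_distrib]
          refine Finset.sum_congr rfl fun j _ => ?_
          simp only [dcm, Pi.add_apply, Prod.fst_add, Prod.snd_add]
          noncomm_ring
      zero_mem' := ⟨0, fun j => by simp, fun _ _ => rfl, by simp [dpm, dcm]⟩
      smul_mem' := by
        rintro c _ ⟨a, ha, ha', rfl⟩
        refine ⟨c • a, fun j => ?_, fun j hj => by simp [ha' j hj], ?_⟩
        · simp only [Pi.smul_apply, Prod.smul_fst, Prod.smul_snd, Matrix.mul_smul, trace_smul, ha j,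
            smul_zero, and_self]
        · rw [dpm, dpm, Finset.smul_sum]
          refine Finset.sum_congr rfl fun j _ => ?_
          simp only [dcm, Pi.smul_apply, Prod.smul_fst, Prod.smul_snd, Matrix.mul_smul,
            Matrix.smul_mul, ← smul_add, ← smul_sub] }
  by_contra hc
  obtain ⟨f, hf, hW⟩ := W.exists_dual_map_eq_bot_of_notMem (x := m) hc inferInstance
  let ξ : M n := of fun i j => f (single j i 1)
  have hξ : ∀ u : M n, (ξ * u).trace = f u := fun u => by
    conv_rhs => rw [matrix_eq_sum_single u]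
    simp only [trace, diag, mul_apply, ξ, of_apply, map_sum]
    rw [Finset.sum_comm]
    refine Finset.sum_congr rfl fun i _ => Finset.sum_congr rfl fun j _ => ?_
    rw [show single i j (u i j) = u i j • single i j (1 : ℂ) by simp, map_smul, smul_eq_mul,
      mul_comm]
  have key : ∀ j, J j → ∀ w : M n × M n, (adjugate (x j).1 * w.1).trace = 0 →
      (adjugate (x j).2 * w.2).trace = 0 →
      (adjugate (pm x j) * ξ * pm x j * dcm (x j) w).trace = 0 := fun j hj w h1 h2 => by
    have hw : dpm x (Pi.single j w) ∈ W := ⟨_, fun i => by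
      by_cases hi : i = j
      · subst hi
        rw [Pi.single_eq_same]
        exact ⟨h1, h2⟩
      · simp [Pi.single_eq_of_ne hi],
      fun i hi => Pi.single_eq_of_ne (fun e : i = j => hi (by rw [e]; exact hj)) _, rfl⟩
    have h0 : f (dpm x (Pi.single j w)) = 0 := by
      have := Submodule.mem_map_of_mem (f := f) hw
      rwa [hW, Submodule.mem_bot] at this
    rw [← hξ, Sur_single, ← mul_assoc, trace_mul_comm] at h0
    simpa only [mul_assoc] using h0
  have com : ∀ j, J j → Commute (adjugate (pm x j) * ξ * pm x j) (x j).1 ∧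
      Commute (adjugate (pm x j) * ξ * pm x j) (x j).2 := fun j hj => by
    refine Sur_core (hx.1 j).1 (hx.1 j).2 (fun α hα => key j hj _ ?_ (by simp))
      fun α hα => key j hj _ (by simp) ?_
    · rw [trace_mul_comm, mul_assoc, mul_adjugate, (hx.1 j).1, one_smul, mul_one, hα]
    · rw [trace_mul_comm, mul_assoc, mul_adjugate, (hx.1 j).2, one_smul, mul_one, hα]
  have ind : ∀ d i : ℕ, i + d = g → (∀ j : Fin g, i ≤ j → J j) →
      adjugate (pm x i) * ξ * pm x i = ξ := fun d => by
    induction d with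
    | zero =>
      intro i hi _
      rw [show i = g from hi, hx.2, adjugate_one, one_mul, mul_one]
    | succ d ih =>
      intro i hi hj
      have hig : i < g := by omega
      have h1 := ih (i + 1) (by omega) fun j h => hj j (by omega)
      obtain ⟨h2, h3⟩ := com ⟨i, hig⟩ (hj _ le_rfl)
      have inv : ∀ {η A : M n}, A.det = 1 → Commute η A → Commute η (adjugate A) := by
        intro η A hA h
        exact Commute.units_inv_right (u := ⟨A, adjugate A, by rw [mul_adjugate, hA, one_smul],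
          by rw [adjugate_mul, hA, one_smul]⟩) h
      have h4 : Commute (adjugate (pm x i) * ξ * pm x i) (cm (x ⟨i, hig⟩)) :=
        ((h2.mul_right h3).mul_right (inv (hx.1 _).1 h2)).mul_right (inv (hx.1 _).2 h3)
      rw [mv_succ x hig, adjugate_mul_distrib] at h1
      calc _ = adjugate (cm (x ⟨i, hig⟩)) * cm (x ⟨i, hig⟩) * (adjugate (pm x i) * ξ * pm x i) := by
            rw [adjugate_mul, Sur_cm (hx.1 _).1 (hx.1 _).2, one_smul, one_mul]
        _ = _ := by
            rw [mul_assoc (adjugate (cm _)), ← h4.eq]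
            simpa only [mul_assoc] using h1
  obtain ⟨c, hc⟩ := hS ξ fun j hj => by
    have := com j hj
    rw [ind (g - j) j (by omega) fun i hi => hJ j i hi hj] at this
    exact this
  exact hf (by rw [← hξ, hc, Matrix.smul_mul, one_mul, trace_smul, hm, smul_zero])

end Vale.Agent.P002
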