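import Vale.Agent.P002.IF
import Vale.Agent.P002.DG
import Vale.Agent.P002.Sur
import Vale.Agent.P002.Der1

open scoped Matrix.Norms.Operator Topology
open Matrix Filter

namespace Vale.Agent.P002

variable {g n : ℕ}

theorem Curve_tr (x v : E g n) : (fderiv ℂ GG x v).2.trace = 0 := by
  let l : ((Fin g → ℂ × ℂ) × M n) →L[ℂ] ℂ := LinearMap.toContinuousLinearMap
    ((traceLinearMap (Fin n) ℂ ℂ).comp (LinearMap.snd ℂ _ _))
  have h1 : HasFDerivAt (fun y : E g n => l (GG y)) (l.comp (fderiv ℂ GG x)) x :=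
    l.hasFDerivAt.comp x (GG_contDiff.differentiable one_ne_zero x).hasFDerivAt
  have h2 : (fun y : E g n => l (GG y)) = fun _ => 0 := funext fun y => tl_trace _
  rw [h2] at h1
  exact congrArg (fun T => T v) (h1.unique (hasFDerivAt_const 0 x))

/-- correct a vector on the handles in `J` -/
theorem Curve_hit (hn : 0 < n) {x : E g n} (hx : x ∈ RR g n) (J : Fin g → Prop)
    (hJ : ∀ i j, i ≤ j → J i → J j)
    (hS : ∀ ξ : M n, (∀ j, J j → ξ * (x j).1 = (x j).1 * ξ ∧ ξ * (x j).2 = (x j).2 * ξ) →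
      ∃ c : ℂ, ξ = c • 1) (v0 : E g n) (d : Fin g → ℂ × ℂ) {m : M n} (hm : m.trace = 0) :
    ∃ v : E g n, (∀ j, ¬ J j → v j = v0 j) ∧ (∀ j, J j → (fderiv ℂ GG x v).1 j = d j) ∧
      (fderiv ℂ GG x v).2 = m := by
  classical
  have hn' : (n : ℂ) ≠ 0 := Nat.cast_ne_zero.2 hn.ne'
  let v1 : E g n := fun j => if J j then (((d j).1 / n) • (x j).1, ((d j).2 / n) • (x j).2)
    else v0 j
  obtain ⟨v2, h1, h2, h3⟩ := sur hx J hJ hS
    (m := (n : ℂ)⁻¹ • (m - (fderiv ℂ GG x v1).2)) (by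
      rw [trace_smul, trace_sub, hm, Curve_tr, sub_zero, smul_zero])
  refine ⟨v1 + v2, fun j hj => ?_, fun j hj => ?_, ?_⟩
  · simp [v1, hj, h2 j hj]
  · rw [map_add, Prod.fst_add, Pi.add_apply, GG_fst hx, GG_fst hx, (h1 j).1, (h1 j).2]
    simp [v1, hj, adjugate_mul, (hx.1 j).1, (hx.1 j).2, hn']
  · rw [map_add, Prod.snd_add, GG_snd hx h1, h3, smul_smul, mul_inv_cancel₀ hn', one_smul,
      add_sub_cancel]

theorem curve (hn : 0 < n) {x : E g n} (hx : x ∈ RR g n) (hS : Sch x) {v : E g n}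
    (hv : v ∈ TT x) :
    ∃ γ : ℂ → E g n, γ 0 = x ∧ HasDerivAt γ v 0 ∧ ∀ᶠ t in 𝓝 (0 : ℂ), γ t ∈ RR g n := by
  obtain ⟨γ, h0, h1, h2⟩ := (ift (G := GG) (x := x) GG_contDiff.contDiffAt
    (LinearMap.ker ((traceLinearMap (Fin n) ℂ ℂ).comp (LinearMap.snd ℂ _ _))) (fun y => by
      show (tl (pm y g) - tl (pm x g)).trace = 0
      rw [trace_sub, tl_trace, tl_trace, sub_zero]) (fun w hw => by
      obtain ⟨v, -, h2, h3⟩ := Curve_hit hn hx (fun _ => True) (fun _ _ _ h => h)
        (fun ξ h => hS ξ fun j => h j trivial) 0 w.1 (m := w.2) hw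
      exact ⟨v, Prod.ext (funext fun j => h2 j trivial) h3⟩)).1 v (by
      refine Prod.ext (funext fun j => ?_) ?_
      · refine (GG_fst hx v j).trans ?_
        rw [(hv.1 j).1, (hv.1 j).2]
        rfl
      · refine (GG_snd hx hv.1).trans ?_
        rw [hv.2, smul_zero]
        rfl)
  refine ⟨γ, h0, h1, ?_⟩
  have ht : Tendsto γ (𝓝 0) (𝓝 x) := h0 ▸ h1.continuousAt.tendsto
  filter_upwards [h2, ht.eventually (GG_near hn hx)] with t a b using b a

/-- forget the determinants of handle `o` -/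
def Curve_k (o : Fin g) : ((Fin g → ℂ × ℂ) × M n) →ₗ[ℂ] ((Fin g → ℂ × ℂ) × M n) where
  toFun w := (fun j => if j = o then 0 else w.1 j, w.2)
  map_add' a b := Prod.ext (funext fun j => by by_cases h : j = o <;> simp [h]) rfl
  map_smul' c a := Prod.ext (funext fun j => by by_cases h : j = o <;> simp [h]) rfl

theorem subm (hn : 0 < n) {o : Fin g} (ho : o.1 = 0) {x : E g n} (hx : x ∈ RR g n)
    (hS : Sch' o x) {s : Set (E g n)} (hs : s ∈ 𝓝 x) : ∀ᶠ a in 𝓝 (x o),
      a.1.det = 1 → a.2.det = 1 → ∃ y ∈ s, y ∈ RR g n ∧ y o = a := by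
  let k := LinearMap.toContinuousLinearMap (Curve_k (n := n) o)
  let e : E g n →L[ℂ] M n × M n := ContinuousLinearMap.proj o
  let G : E g n → ((Fin g → ℂ × ℂ) × M n) × M n × M n := fun y => (k (GG y), e y)
  have hG : ContDiffAt ℂ 1 G x :=
    ((k.contDiff.comp GG_contDiff).prodMk e.contDiff).contDiffAt
  have hd : HasFDerivAt G ((k.comp (fderiv ℂ GG x)).prod e) x :=
    (k.hasFDerivAt.comp x (GG_contDiff.differentiable one_ne_zero x).hasFDerivAt).prodMk
      e.hasFDerivAt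
  let U : Submodule ℂ (((Fin g → ℂ × ℂ) × M n) × M n × M n) :=
    LinearMap.ker ((LinearMap.proj o).comp ((LinearMap.fst ℂ _ _).comp (LinearMap.fst ℂ _ _))) ⊓
    LinearMap.ker ((traceLinearMap (Fin n) ℂ ℂ).comp
      ((LinearMap.snd ℂ _ _).comp (LinearMap.fst ℂ _ _)))
  have key := (ift hG U (fun y => ⟨by
      show (if o = o then (0 : ℂ × ℂ) else _) - (if o = o then 0 else _) = 0
      simp, by
      show (tl (pm y g) - tl (pm x g)).trace = 0
      rw [trace_sub, tl_trace, tl_trace, sub_zero]⟩) (fun w hw => by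
      obtain ⟨v, h1, h2, h3⟩ := Curve_hit hn hx (fun j => j ≠ o) (fun i j hij hi hj => hi (by
        subst hj
        exact Fin.ext (by have : i.1 ≤ j.1 := hij; omega))) hS (fun _ => w.2) w.1.1
        (m := w.1.2) hw.2
      refine ⟨v, (congrArg (fun T => T v) hd.fderiv).trans ?_⟩
      refine Prod.ext (Prod.ext (funext fun j => ?_) h3) (h1 o fun h => h rfl)
      show (if j = o then 0 else (fderiv ℂ GG x v).1 j) = w.1.1 j
      split_ifs with h
      · rw [h]
        exact (show w.1.1 o = 0 from hw.1).symm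
      · exact h2 j h)).2 _ (inter_mem hs (GG_near hn hx))
  have hc : Tendsto (fun a : M n × M n => (k (GG x), a)) (𝓝 (x o)) (𝓝 (G x)) :=
    (continuous_const.prodMk continuous_id).tendsto (x o)
  filter_upwards [hc.eventually key] with a ha h1 h2
  obtain ⟨y, hy, e1⟩ := ha ⟨by
    show (k (GG x) - k (GG x)).1 o = 0
    simp, by
    show (k (GG x) - k (GG x)).2.trace = 0
    simp⟩
  have e2 : y o = a := congrArg Prod.snd e1
  have e3 : k (GG y) = k (GG x) := congrArg Prod.fst e1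
  refine ⟨y, hy.1, hy.2 (Prod.ext (funext fun j => ?_) (congrArg Prod.snd e3 :)), e2⟩
  by_cases h : j = o
  · subst h
    show ((y j).1.det, (y j).2.det) = ((x j).1.det, (x j).2.det)
    rw [e2, h1, h2, (hx.1 j).1, (hx.1 j).2]
  · have : (if j = o then 0 else (GG y).1 j) = if j = o then 0 else (GG x).1 j :=
      congrFun (congrArg Prod.fst e3) j
    rwa [if_neg h, if_neg h] at this

end Vale.Agent.P002
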