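import Vale.Agent.P002.PkL
import Vale.Agent.P002.Sur

open scoped Matrix.Norms.Operator Topology
open Matrix Filter

namespace Vale.Agent.P002

variable {g n : ℕ} {κ : Kd g n}

theorem SurK_it (hd : KD κ) {x : E g n} (h : ∀ j, (x j).1.det = 1 ∧ (x j).2.det = 1) (j : Fin g) :
    (it (κ j) (x j)).det = 1 := by
  cases hk : κ j with
  | none => exact Sur_cm (h j).1 (h j).2
  | some J => simp only [it, det_mul, (h j).1, mv_adet (h j).1, hd j J hk, mul_one]

theorem SurK_single (x : E g n) (j : Fin g) (w : M n × M n) :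
    dpk κ x (Pi.single j w) = pk κ x j * dit (κ j) (x j) w * adjugate (pk κ x j) := by
  rw [dpk, Finset.sum_eq_single j (fun i _ hi => by
    rw [Pi.single_eq_of_ne hi, ← zero_smul ℂ (0 : M n × M n), dit_smul, zero_smul, mul_zero,
      zero_mul]) (by simp), Pi.single_eq_same]

theorem SurK_gen (hd : KD κ) {x : E g n} (hx : x ∈ RK κ) (J : Fin g → Prop)
    (hS : ∀ ξ : M n, (∀ j, J j → Cm (κ j) (x j) (adjugate (pk κ x j) * ξ * pk κ x j)) →
      ∃ c : ℂ, ξ = c • 1) {m : M n} (hm : m.trace = 0) :
    ∃ v, Tr0 x v ∧ (∀ j, ¬ J j → v j = 0) ∧ dpk κ x v = m := by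
  let W : Submodule ℂ (M n) :=
    { carrier := {m | ∃ v, Tr0 x v ∧ (∀ j, ¬ J j → v j = 0) ∧ dpk κ x v = m}
      add_mem' := by
        rintro _ _ ⟨a, ha, ha', rfl⟩ ⟨b, hb, hb', rfl⟩
        refine ⟨a + b, fun j => ?_, fun j hj => by simp [ha' j hj, hb' j hj],
          (dpkL κ x).map_add a b⟩
        simp only [Pi.add_apply, Prod.fst_add, Prod.snd_add, mul_add, trace_add, ha j, hb j,
          add_zero, and_self]
      zero_mem' := ⟨0, fun j => by simp, fun _ _ => rfl, (dpkL κ x).map_zero⟩
      smul_mem' := by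
        rintro c _ ⟨a, ha, ha', rfl⟩
        refine ⟨c • a, fun j => ?_, fun j hj => by simp [ha' j hj], (dpkL κ x).map_smul c a⟩
        simp only [Pi.smul_apply, Prod.smul_fst, Prod.smul_snd, Matrix.mul_smul, trace_smul, ha j,
          smul_zero, and_self] }
  by_contra hc
  obtain ⟨f, hf, hW⟩ := W.exists_dual_map_eq_bot_of_notMem (x := m) hc inferInstance
  let ξ : M n := of fun i j => f (single j i 1)
  have hξ : ∀ u : M n, (ξ * u).trace = f u := fun u => by
    conv_rhs => rw [matrix_eq_sum_single u]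
    simp only [trace, diag, mul_apply, ξ, of_apply, map_sum]
    rw [Finset.sum_comm]
    refine Finset.sum_congr rfl fun i _ => Finset.sum_congr rfl fun j _ => ?_
    rw [show single i j (u i j) = u i j • single i j (1 : ℂ) by simp, map_smul, smul_eq_mul,
      mul_comm]
  have key : ∀ j, J j → ∀ w : M n × M n, (adjugate (x j).1 * w.1).trace = 0 →
      (adjugate (x j).2 * w.2).trace = 0 →
      (adjugate (pk κ x j) * ξ * pk κ x j * dit (κ j) (x j) w).trace = 0 := fun j hj w h1 h2 => by
    have hw : dpk κ x (Pi.single j w) ∈ W := ⟨_, fun i => by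
      by_cases hi : i = j
      · subst hi
        rw [Pi.single_eq_same]
        exact ⟨h1, h2⟩
      · simp [Pi.single_eq_of_ne hi],
      fun i hi => Pi.single_eq_of_ne (fun e : i = j => hi (by rw [e]; exact hj)) _, rfl⟩
    have h0 : f (dpk κ x (Pi.single j w)) = 0 := by
      have := Submodule.mem_map_of_mem (f := f) hw
      rwa [hW, Submodule.mem_bot] at this
    rw [← hξ, SurK_single, ← mul_assoc, trace_mul_comm] at h0
    simpa only [mul_assoc] using h0
  have t1 : ∀ j, ∀ α : M n, α.trace = 0 → (adjugate (x j).1 * (α * (x j).1)).trace = 0 :=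
    fun j α hα => by
      rw [trace_mul_comm, mul_assoc, mul_adjugate, (hx.1 j).1, one_smul, mul_one, hα]
  have t2 : ∀ j, ∀ α : M n, α.trace = 0 → (adjugate (x j).2 * (α * (x j).2)).trace = 0 :=
    fun j α hα => by
      rw [trace_mul_comm, mul_assoc, mul_adjugate, (hx.1 j).2, one_smul, mul_one, hα]
  have com : ∀ j, J j → Cm (κ j) (x j) (adjugate (pk κ x j) * ξ * pk κ x j) := fun j hj => by
    have kj := key j hj
    have dj := SurK_it hd hx.1 j
    generalize adjugate (pk κ x j) * ξ * pk κ x j = η at kj ⊢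
    generalize κ j = k at kj dj ⊢
    cases k with
    | none =>
      exact Sur_core (hx.1 j).1 (hx.1 j).2 (fun α hα => kj (α * (x j).1, 0) (t1 j α hα) (by simp))
        fun α hα => kj (0, α * (x j).2) (by simp) (t2 j α hα)
    | some P =>
      have c1 : it (some P) (x j) * adjugate (it (some P) (x j)) = 1 := by
        rw [mul_adjugate, dj, one_smul]
      have a1 : (x j).1 * adjugate (x j).1 = 1 := by rw [mul_adjugate, (hx.1 j).1, one_smul]
      have e1 := Sur_conj (ξ := η) (mul_one (1 : M n)) c1 fun α hα => by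
        rw [← kj (α * (x j).1, 0) (t1 j α hα) (by simp)]
        simp only [dit, mul_assoc α (x j).1, a1, mul_one, one_mul]
      rw [one_mul, mul_one] at e1
      show η * it (some P) (x j) = it (some P) (x j) * η
      conv_rhs => rw [e1, ← mul_assoc, ← mul_assoc, c1, one_mul]
  obtain ⟨c, hc⟩ := hS ξ com
  exact hf (by rw [← hξ, hc, Matrix.smul_mul, one_mul, trace_smul, hm, smul_zero])

theorem SurK_comm {k : Option (M n)} {a : M n × M n} {η : M n} (h1 : a.1.det = 1) (h2 : a.2.det = 1)
    (h : Cm k a η) : Commute η (it k a) := by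
  cases k with
  | none =>
    have inv : ∀ {η A : M n}, A.det = 1 → Commute η A → Commute η (adjugate A) := by
      intro η A hA h
      exact Commute.units_inv_right (u := ⟨A, adjugate A, by rw [mul_adjugate, hA, one_smul],
        by rw [adjugate_mul, hA, one_smul]⟩) h
    have h3 : Commute η a.1 := h.1
    have h4 : Commute η a.2 := h.2
    exact ((h3.mul_right h4).mul_right (inv h1 h3)).mul_right (inv h2 h4)
  | some P => exact h

theorem surK (hd : KD κ) {x : E g n} (hx : x ∈ RK κ) (hS : SchK κ x) {m : M n}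
    (hm : m.trace = 0) : ∃ v, Tr0 x v ∧ dpk κ x v = m := by
  obtain ⟨v, h1, -, h2⟩ := SurK_gen hd hx (fun _ => True) (fun ξ com => by
    have ind : ∀ d i : ℕ, i + d = g → adjugate (pk κ x i) * ξ * pk κ x i = ξ := fun d => by
      induction d with
      | zero =>
        intro i hi
        rw [show i = g from hi, hx.2, adjugate_one, one_mul, mul_one]
      | succ d ih =>
        intro i hi
        have hig : i < g := by omega
        have h1 := ih (i + 1) (by omega)
        have h4 : Commute (adjugate (pk κ x i) * ξ * pk κ x i) (it (κ ⟨i, hig⟩) (x ⟨i, hig⟩)) :=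
          SurK_comm (hx.1 _).1 (hx.1 _).2 (com ⟨i, hig⟩ trivial)
        have h5 : pk κ x (i + 1) = pk κ x i * it (κ ⟨i, hig⟩) (x ⟨i, hig⟩) := pk_succ x ⟨i, hig⟩
        rw [h5, adjugate_mul_distrib] at h1
        calc _ = adjugate (it (κ ⟨i, hig⟩) (x ⟨i, hig⟩)) * it (κ ⟨i, hig⟩) (x ⟨i, hig⟩) *
              (adjugate (pk κ x i) * ξ * pk κ x i) := by
              rw [adjugate_mul, SurK_it hd hx.1, one_smul, one_mul]
          _ = _ := by
              rw [mul_assoc (adjugate (it _ _)), ← h4.eq]
              simpa only [mul_assoc] using h1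
    refine hS ξ fun j => ?_
    have := com j trivial
    rwa [ind (g - j) j (by omega)] at this) hm
  exact ⟨v, h1, h2⟩

theorem sur1 (hd : KD κ) {x : E g n} (hx : x ∈ RK κ) {o : Fin g} (hk : κ o = none)
    (hS : S1 (x o)) {m : M n} (hm : m.trace = 0) :
    ∃ v, Tr0 x v ∧ (∀ j, j ≠ o → v j = 0) ∧ dpk κ x v = m := by
  refine SurK_gen hd hx (fun j => j = o) (fun ξ com => ?_) hm
  have h1 := com o rfl
  rw [hk] at h1
  obtain ⟨c, hc⟩ := hS _ h1
  have p1 : pk κ x o * adjugate (pk κ x o) = 1 := by
    rw [mul_adjugate, pk_det hd hx.1, one_smul]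
  refine ⟨c, ?_⟩
  calc ξ = pk κ x o * (adjugate (pk κ x o) * ξ * pk κ x o) * adjugate (pk κ x o) := by
        rw [← mul_assoc, ← mul_assoc, p1, one_mul, mul_assoc, p1, mul_one]
    _ = c • 1 := by rw [hc, Matrix.mul_smul, mul_one, Matrix.smul_mul, p1]

end Vale.Agent.P002
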