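import Vale.Agent.P002.DGK
import Vale.Agent.P002.SurK
import Vale.Agent.P002.Curve

open scoped Matrix.Norms.Operator Topology
open Matrix Filter

namespace Vale.Agent.P002

variable {g n : ℕ} {κ : Kd g n}

theorem CurveK_tr (x v : E g n) : (fderiv ℂ (GK κ) x v).2.trace = 0 := by
  let l : ((Fin g → ℂ × ℂ) × M n) →L[ℂ] ℂ := LinearMap.toContinuousLinearMap
    ((traceLinearMap (Fin n) ℂ ℂ).comp (LinearMap.snd ℂ _ _))
  have h1 : HasFDerivAt (fun y : E g n => l (GK κ y)) (l.comp (fderiv ℂ (GK κ) x)) x :=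
    l.hasFDerivAt.comp x (GK_contDiff.differentiable one_ne_zero x).hasFDerivAt
  have h2 : (fun y : E g n => l (GK κ y)) = fun _ => 0 := funext fun y => tl_trace _
  rw [h2] at h1
  exact congrArg (fun T => T v) (h1.unique (hasFDerivAt_const 0 x))

/-- correct a vector on the handles in `J` -/
theorem CurveK_hit (hn : 0 < n) (hd : KD κ) {x : E g n} (hx : x ∈ RK κ) (J : Fin g → Prop)
    (hS : ∀ m : M n, m.trace = 0 → ∃ v, Tr0 x v ∧ (∀ j, ¬ J j → v j = 0) ∧ dpk κ x v = m)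
    (v0 : E g n) (d : Fin g → ℂ × ℂ) {m : M n} (hm : m.trace = 0) :
    ∃ v : E g n, (∀ j, ¬ J j → v j = v0 j) ∧ (∀ j, J j → (fderiv ℂ (GK κ) x v).1 j = d j) ∧
      (fderiv ℂ (GK κ) x v).2 = m := by
  classical
  have hn' : (n : ℂ) ≠ 0 := Nat.cast_ne_zero.2 hn.ne'
  let v1 : E g n := fun j => if J j then (((d j).1 / n) • (x j).1, ((d j).2 / n) • (x j).2)
    else v0 j
  obtain ⟨v2, h1, h2, h3⟩ := hS
    ((n : ℂ)⁻¹ • (m - (fderiv ℂ (GK κ) x v1).2)) (by
      rw [trace_smul, trace_sub, hm, CurveK_tr, sub_zero, smul_zero])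
  refine ⟨v1 + v2, fun j hj => ?_, fun j hj => ?_, ?_⟩
  · simp [v1, hj, h2 j hj]
  · rw [map_add, Prod.fst_add, Pi.add_apply, GK_fst hx, GK_fst hx, (h1 j).1, (h1 j).2]
    simp [v1, hj, adjugate_mul, (hx.1 j).1, (hx.1 j).2, hn']
  · rw [map_add, Prod.snd_add, GK_snd hd hx h1, h3, smul_smul, mul_inv_cancel₀ hn', one_smul,
      add_sub_cancel]

theorem curveK (hn : 0 < n) (hd : KD κ) {x : E g n} (hx : x ∈ RK κ) (hS : SchK κ x) {v : E g n}
    (hv : v ∈ TK κ x) :
    ∃ γ : ℂ → E g n, γ 0 = x ∧ HasDerivAt γ v 0 ∧ ∀ᶠ t in 𝓝 (0 : ℂ), γ t ∈ RK κ := by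
  obtain ⟨γ, h0, h1, h2⟩ := (ift (G := GK κ) (x := x) GK_contDiff.contDiffAt
    (LinearMap.ker ((traceLinearMap (Fin n) ℂ ℂ).comp (LinearMap.snd ℂ _ _))) (fun y => by
      show (tl (pk κ y g) - tl (pk κ x g)).trace = 0
      rw [trace_sub, tl_trace, tl_trace, sub_zero]) (fun w hw => by
      obtain ⟨v, -, h2, h3⟩ := CurveK_hit hn hd hx (fun _ => True) (fun m hm => by
        obtain ⟨v, h1, h2⟩ := surK hd hx hS hm
        exact ⟨v, h1, fun j h => (h trivial).elim, h2⟩) 0 w.1 (m := w.2) hw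
      exact ⟨v, Prod.ext (funext fun j => h2 j trivial) h3⟩)).1 v (by
      refine Prod.ext (funext fun j => ?_) ?_
      · refine (GK_fst hx v j).trans ?_
        rw [(hv.1 j).1, (hv.1 j).2]
        rfl
      · refine (GK_snd hd hx hv.1).trans ?_
        rw [hv.2, smul_zero]
        rfl)
  refine ⟨γ, h0, h1, ?_⟩
  have ht : Tendsto γ (𝓝 0) (𝓝 x) := h0 ▸ h1.continuousAt.tendsto
  filter_upwards [h2, ht.eventually (GK_near hn hd hx)] with t a b using b a

theorem submK (hn : 0 < n) (hd : KD κ) {o o' : Fin g} (hne : o ≠ o') (hk : κ o' = none)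
    {x : E g n} (hx : x ∈ RK κ) (hS : S1 (x o')) {s : Set (E g n)} (hs : s ∈ 𝓝 x) :
    ∀ᶠ a in 𝓝 (x o), a.1.det = 1 → a.2.det = 1 → ∃ y ∈ s, y ∈ RK κ ∧ y o = a := by
  let k := LinearMap.toContinuousLinearMap (Curve_k (n := n) o)
  let e : E g n →L[ℂ] M n × M n := ContinuousLinearMap.proj o
  let G : E g n → ((Fin g → ℂ × ℂ) × M n) × M n × M n := fun y => (k (GK κ y), e y)
  have hG : ContDiffAt ℂ 1 G x :=
    ((k.contDiff.comp GK_contDiff).prodMk e.contDiff).contDiffAt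
  have hdG : HasFDerivAt G ((k.comp (fderiv ℂ (GK κ) x)).prod e) x :=
    (k.hasFDerivAt.comp x (GK_contDiff.differentiable one_ne_zero x).hasFDerivAt).prodMk
      e.hasFDerivAt
  let U : Submodule ℂ (((Fin g → ℂ × ℂ) × M n) × M n × M n) :=
    LinearMap.ker ((LinearMap.proj o).comp ((LinearMap.fst ℂ _ _).comp (LinearMap.fst ℂ _ _))) ⊓
    LinearMap.ker ((traceLinearMap (Fin n) ℂ ℂ).comp
      ((LinearMap.snd ℂ _ _).comp (LinearMap.fst ℂ _ _)))
  have key := (ift hG U (fun y => ⟨by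
      show (if o = o then (0 : ℂ × ℂ) else _) - (if o = o then 0 else _) = 0
      simp, by
      show (tl (pk κ y g) - tl (pk κ x g)).trace = 0
      rw [trace_sub, tl_trace, tl_trace, sub_zero]⟩) (fun w hw => by
      obtain ⟨v, h1, h2, h3⟩ := CurveK_hit hn hd hx (fun j => j ≠ o) (fun m hm => by
        obtain ⟨v, h1, h2, h3⟩ := sur1 hd hx hk hS hm
        exact ⟨v, h1, fun j hj => h2 j (not_not.1 hj ▸ hne), h3⟩) (fun _ => w.2) w.1.1
        (m := w.1.2) hw.2
      refine ⟨v, (congrArg (fun T => T v) hdG.fderiv).trans ?_⟩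
      refine Prod.ext (Prod.ext (funext fun j => ?_) h3) (h1 o fun h => h rfl)
      show (if j = o then 0 else (fderiv ℂ (GK κ) x v).1 j) = w.1.1 j
      split_ifs with h
      · rw [h]
        exact (show w.1.1 o = 0 from hw.1).symm
      · exact h2 j h)).2 _ (inter_mem hs (GK_near hn hd hx))
  have hc : Tendsto (fun a : M n × M n => (k (GK κ x), a)) (𝓝 (x o)) (𝓝 (G x)) :=
    (continuous_const.prodMk continuous_id).tendsto (x o)
  filter_upwards [hc.eventually key] with a ha h1 h2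
  obtain ⟨y, hy, e1⟩ := ha ⟨by
    show (k (GK κ x) - k (GK κ x)).1 o = 0
    simp, by
    show (k (GK κ x) - k (GK κ x)).2.trace = 0
    simp⟩
  have e2 : y o = a := congrArg Prod.snd e1
  have e3 : k (GK κ y) = k (GK κ x) := congrArg Prod.fst e1
  refine ⟨y, hy.1, hy.2 (Prod.ext (funext fun j => ?_) (congrArg Prod.snd e3 :)), e2⟩
  by_cases h : j = o
  · subst h
    show ((y j).1.det, (y j).2.det) = ((x j).1.det, (x j).2.det)
    rw [e2, h1, h2, (hx.1 j).1, (hx.1 j).2]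
  · have : (if j = o then 0 else (GK κ y).1 j) = if j = o then 0 else (GK κ x).1 j :=
      congrFun (congrArg Prod.fst e3) j
    rwa [if_neg h, if_neg h] at this

end Vale.Agent.P002
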