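import Vale.Agent.P002.PkL
import Vale.Agent.P002.DG

open scoped Matrix.Norms.Operator Topology
open Matrix Filter

namespace Vale.Agent.P002

variable {g n : ℕ} {κ : Kd g n}

theorem DGK_mp (κ : Kd g n) : MP (Pol (E g n)).toSubring fun x : E g n => pk κ x g :=
  EP.pk (KA_alg _ κ) (ep_lin (LinearMap.id : E g n →ₗ[ℂ] E g n)) g

theorem DGK_pk (κ : Kd g n) : ContDiff ℂ 1 fun x : E g n => pk κ x g :=
  contDiff_iff_contDiffAt.mpr fun _ =>
    MP.contDiffAt (h := 1) (one_mem _) one_ne_zero fun i j => pol_le_loc _ (DGK_mp κ i j)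

theorem DGK_dets : ContDiff ℂ 1 fun (x : E g n) (j : Fin g) => ((x j).1.det, (x j).2.det) := by
  have hx : EP (Pol (E g n)).toSubring (LinearMap.id : E g n →ₗ[ℂ] E g n) := ep_lin _
  refine contDiff_pi.mpr fun j => ContDiff.prodMk ?_ ?_
  · exact pol_contDiff (hx j).1.det
  · exact pol_contDiff (hx j).2.det

theorem GK_contDiff : ContDiff ℂ 1 (GK κ) :=
  ContDiff.prodMk DGK_dets (((DGK_pk κ).const_smul (n : ℂ)).sub
    ((pol_contDiff (DGK_mp κ).trace).smul contDiff_const))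

theorem FK_contDiff : ContDiff ℂ 1 (FK κ) := ContDiff.prodMk DGK_dets (DGK_pk κ)

theorem DGK_line {W : Type} [NormedAddCommGroup W] [NormedSpace ℂ W] {F : E g n → W}
    (hF : ContDiff ℂ 1 F) (x v : E g n) :
    HasDerivAt (fun t : ℂ => F (x + t • v)) (fderiv ℂ F x v) 0 := by
  have h1 : HasFDerivAt F (fderiv ℂ F x) (x + (0 : ℂ) • v) := by
    rw [zero_smul, add_zero]
    exact (hF.differentiable one_ne_zero _).hasFDerivAt
  exact h1.comp_hasDerivAt (0 : ℂ) (DG_line x v)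

theorem DGK_fst {x : E g n} (hx : x ∈ RK κ) (v : E g n) {d : Fin g → ℂ × ℂ}
    (hF : HasDerivAt (fun (t : ℂ) (j : Fin g) =>
      (((x + t • v) j).1.det, ((x + t • v) j).2.det)) d 0) (j : Fin g) :
    d j = ((adjugate (x j).1 * (v j).1).trace, (adjugate (x j).2 * (v j).2).trace) := by
  have h1 := det_deriv (DG_line (x j).1 (v j).1) (by simpa using (hx.1 j).1)
  have h2 := det_deriv (DG_line (x j).2 (v j).2) (by simpa using (hx.1 j).2)
  simp only [zero_smul, add_zero] at h1 h2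
  exact (hasDerivAt_pi.mp hF j).unique (h1.prodMk h2)

theorem GK_fst {x : E g n} (hx : x ∈ RK κ) (v : E g n) (j : Fin g) : (fderiv ℂ (GK κ) x v).1 j =
    ((adjugate (x j).1 * (v j).1).trace, (adjugate (x j).2 * (v j).2).trace) :=
  DGK_fst hx v (DGK_line GK_contDiff x v).fst j

theorem DGK_dit {k : Option (M n)} (hk : ∀ J, k = some J → J.det = 1) {a v : M n × M n}
    (h : a.1.det = 1 ∧ a.2.det = 1)
    (hv : (adjugate a.1 * v.1).trace = 0 ∧ (adjugate a.2 * v.2).trace = 0) :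
    HasDerivAt (fun t : ℂ => it k (a + t • v)) (dit k a v * it k a) 0 ∧ (dit k a v).trace = 0 := by
  cases k with
  | none => exact DG_dcm h hv
  | some J =>
    obtain ⟨a1, a2, a3, a4⟩ := DG_inv h.1
    have hc : (it (some J) a).det = 1 := by simp [it, det_adjugate, h.1, hk J rfl]
    obtain ⟨-, -, c3, -⟩ := DG_inv hc
    constructor
    · have h1 := ((DG_line a.1 v.1).mul_const J).fun_mul
        (adj_deriv (DG_line a.1 v.1) (by simpa using h.1) (by simpa using hv.1))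
      simp only [zero_smul, add_zero] at h1
      refine HasDerivAt.congr_deriv h1 ?_
      rw [dit, sub_mul, mul_assoc _ (adjugate (it (some J) a)), c3]
      simp only [it, mul_neg, neg_mul, mul_assoc, a1, a2, mul_one]
      abel
    · simp only [dit, trace_sub]
      rw [trace_mul_cycle (it (some J) a), c3]
      simp

theorem DGK_key (hd : KD κ) {x : E g n} (hx : x ∈ RK κ) {v : E g n} (hv : Tr0 x v) :
    HasDerivAt (fun t : ℂ => pk κ (x + t • v) g) (dpk κ x v) 0 ∧ (dpk κ x v).trace = 0 := by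
  obtain ⟨F, hF'⟩ : ∃ F : ℕ → M n, ∀ j : Fin g,
      F j = pk κ x j * dit (κ j) (x j) (v j) * adjugate (pk κ x j) :=
    ⟨fun j => if h : j < g then pk κ x j * dit (κ ⟨j, h⟩) (x ⟨j, h⟩) (v ⟨j, h⟩) *
      adjugate (pk κ x j) else 0, fun j => dif_pos j.2⟩
  have key : ∀ m ≤ g, HasDerivAt (fun t : ℂ => pk κ (x + t • v) m)
      ((∑ j ∈ Finset.range m, F j) * pk κ x m) 0 := fun m => by
    induction m with
    | zero =>
      intro _
      rw [Finset.sum_range_zero, zero_mul]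
      exact hasDerivAt_const (0 : ℂ) (1 : M n)
    | succ m ih =>
      intro h
      have h1 := (ih (by omega)).fun_mul (DGK_dit (hd ⟨m, h⟩) (hx.1 ⟨m, h⟩) (hv ⟨m, h⟩)).1
      simp only [zero_smul, add_zero] at h1
      have e : ∀ y : E g n, pk κ y (m + 1) = pk κ y m * it (κ ⟨m, h⟩) (y ⟨m, h⟩) := fun y =>
        pk_succ y ⟨m, h⟩
      simp only [e]
      refine HasDerivAt.congr_deriv h1 ?_
      rw [Finset.sum_range_succ, hF' ⟨m, h⟩]
      simp only [add_mul, mul_assoc, (DG_inv (pk_det hd hx.1 m)).1]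
  have h1 := key g le_rfl
  rw [hx.2, mul_one, Finset.sum_range, Finset.sum_congr rfl fun j _ => hF' j] at h1
  refine ⟨h1, ?_⟩
  rw [dpk, trace_sum]
  refine Finset.sum_eq_zero fun j _ => ?_
  rw [trace_mul_cycle, (DG_inv (pk_det hd hx.1 j)).2.2.1, one_mul,
    (DGK_dit (hd j) (hx.1 j) (hv j)).2]

theorem GK_snd (hd : KD κ) {x : E g n} (hx : x ∈ RK κ) {v : E g n} (hv : Tr0 x v) :
    (fderiv ℂ (GK κ) x v).2 = (n : ℂ) • dpk κ x v := by
  have hF : HasDerivAt (fun t : ℂ => (GK κ (x + t • v)).2) (fderiv ℂ (GK κ) x v).2 0 :=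
    (DGK_line GK_contDiff x v).snd
  obtain ⟨h1, h3⟩ := DGK_key hd hx hv
  have h2 := (LinearMap.toContinuousLinearMap
    (traceLinearMap (Fin n) ℂ ℂ)).hasFDerivAt.comp_hasDerivAt (0 : ℂ) h1
  refine (hF.unique ((h1.const_smul (n : ℂ)).sub (h2.smul_const (1 : M n)))).trans ?_
  change (n : ℂ) • dpk κ x v - (dpk κ x v).trace • (1 : M n) = _
  rw [h3, zero_smul, sub_zero]

theorem GK_near (hn : 0 < n) (hd : KD κ) {x : E g n} (hx : x ∈ RK κ) :
    ∀ᶠ y in 𝓝 x, GK κ y = GK κ x → y ∈ RK κ := by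
  have hn' : (n : ℂ) ≠ 0 := Nat.cast_ne_zero.mpr hn.ne'
  have hc : Continuous fun y : E g n => ∑ k ∈ Finset.range n, pk κ y g ⟨0, hn⟩ ⟨0, hn⟩ ^ k :=
    continuous_finsetSum _ fun k _ => (pol_contDiff (DGK_mp κ _ _)).continuous.pow k
  have he : ∀ᶠ y in 𝓝 x, ∑ k ∈ Finset.range n, pk κ y g ⟨0, hn⟩ ⟨0, hn⟩ ^ k ≠ 0 :=
    hc.continuousAt.eventually_ne (by simpa [hx.2] using hn.ne')
  filter_upwards [he] with y hy h
  have h1 : ∀ j, (y j).1.det = 1 ∧ (y j).2.det = 1 := fun j => by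
    have := congrFun (congrArg Prod.fst h) j
    simpa only [GK, Prod.mk.injEq, (hx.1 j).1, (hx.1 j).2] using this
  have h2 : tl (pk κ y g) = tl (pk κ x g) := congrArg Prod.snd h
  have h3 : pk κ y g = ((n : ℂ)⁻¹ * (pk κ y g).trace) • (1 : M n) := by
    rw [hx.2, tl, tl, trace_one, Fintype.card_fin, sub_self, sub_eq_zero] at h2
    rw [mul_smul, ← h2, inv_smul_smul₀ hn']
  generalize (n : ℂ)⁻¹ * (pk κ y g).trace = c at h3
  have h4 := pk_det hd h1 g
  rw [h3, det_smul, det_one, mul_one, Fintype.card_fin] at h4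
  have h5 := geom_sum_mul c n
  rw [h3, Matrix.smul_apply, one_apply_eq, smul_eq_mul, mul_one] at hy
  rw [h4, sub_self, mul_eq_zero, sub_eq_zero] at h5
  exact ⟨h1, by rw [h3, h5.resolve_left hy, one_smul]⟩

theorem ker_FK (hd : KD κ) {x : E g n} (hx : x ∈ RK κ) {v : E g n}
    (hv : fderiv ℂ (FK κ) x v = 0) : v ∈ TK κ x := by
  have hF : HasDerivAt (fun t : ℂ => FK κ (x + t • v)) 0 0 :=
    (DGK_line (FK_contDiff (κ := κ)) x v).congr_deriv hv
  have h0 : Tr0 x v := fun j => by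
    have := DGK_fst hx v hF.fst j
    exact ⟨(congrArg Prod.fst this).symm, (congrArg Prod.snd this).symm⟩
  exact ⟨h0, (DGK_key hd hx h0).1.unique hF.snd⟩

theorem vel_TK (hd : KD κ) {Z : Set (E g n)} (hZ : Z ⊆ RK κ) {x : E g n} (hx : x ∈ Z) {v : E g n}
    (hv : v ∈ Vel Z x) : v ∈ TK κ x := by
  obtain ⟨φ, -, h2, h3, h4⟩ := hv
  refine ker_FK hd (hZ hx) ?_
  have h5 : HasFDerivAt (FK κ) (fderiv ℂ (FK κ) x) (φ (0, x)) := by
    rw [h2 x hx]
    exact ((FK_contDiff (κ := κ)).differentiable one_ne_zero _).hasFDerivAt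
  have h6 := h5.comp_hasDerivAt (0 : ℂ) h3
  have h7 : ∀ᶠ t : ℂ in 𝓝 0, φ (t, x) ∈ Z :=
    ((Continuous.prodMk_left x).tendsto (0 : ℂ)).eventually h4 |>.mono fun t ht => ht hx
  have h8 : ∀ y ∈ Z, FK κ y = (fun _ => (1, 1), 1) := fun y hy => by
    refine Prod.ext (funext fun j => Prod.ext ((hZ hy).1 j).1 ((hZ hy).1 j).2) (hZ hy).2
  refine h6.unique ((hasDerivAt_const (0 : ℂ) ((fun _ => (1, 1), 1) :
    (Fin g → ℂ × ℂ) × M n)).congr_of_eventuallyEq (h7.mono fun t ht => h8 _ ht))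

end Vale.Agent.P002
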