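import Vale.Agent.P002.Poly2

/-! More definitions for P002. -/

open scoped Matrix.Norms.Operator Topology
open Matrix Filter

namespace Vale.Agent.P002

variable {g n : ℕ}

/-- only scalars commute with all the matrices -/
def Sch (x : E g n) : Prop :=
  ∀ ξ : M n, (∀ j, ξ * (x j).1 = (x j).1 * ξ ∧ ξ * (x j).2 = (x j).2 * ξ) → ∃ c : ℂ, ξ = c • 1

/-- the same without handle `o` -/
def Sch' (o : Fin g) (x : E g n) : Prop :=
  ∀ ξ : M n, (∀ j, j ≠ o → ξ * (x j).1 = (x j).1 * ξ ∧ ξ * (x j).2 = (x j).2 * ξ) →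
    ∃ c : ℂ, ξ = c • 1

def GG (x : E g n) : (Fin g → ℂ × ℂ) × M n := (fun j => ((x j).1.det, (x j).2.det), tl (pm x g))

/-- zero derivative of the determinants -/
def Tr0 (x v : E g n) : Prop :=
  ∀ j, (adjugate (x j).1 * (v j).1).trace = 0 ∧ (adjugate (x j).2 * (v j).2).trace = 0

/-- right trivialised derivative of the commutator -/
def dcm (a v : M n × M n) : M n :=
  v.1 * adjugate a.1 + a.1 * (v.2 * adjugate a.2) * adjugate a.1 -
    a.1 * a.2 * adjugate a.1 * (v.1 * adjugate a.1) * (a.1 * adjugate a.2 * adjugate a.1) -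
    cm a * (v.2 * adjugate a.2) * adjugate (cm a)

def dpm (x v : E g n) : M n := ∑ j : Fin g, pm x j * dcm (x j) (v j) * adjugate (pm x j)

def TT (x : E g n) : Submodule ℂ (E g n) where
  carrier := {v | Tr0 x v ∧ dpm x v = 0}
  add_mem' := fun {a b} ha hb => ⟨fun j => by
      simp only [Pi.add_apply, Prod.fst_add, Prod.snd_add, mul_add, trace_add, ha.1 j, hb.1 j,
        add_zero, and_self], by
      rw [← add_zero (0 : M n)]
      nth_rewrite 1 [← ha.2]
      rw [← hb.2, dpm, dpm, dpm, ← Finset.sum_add_distrib]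
      refine Finset.sum_congr rfl fun j _ => ?_
      simp only [dcm, Pi.add_apply, Prod.fst_add, Prod.snd_add]
      noncomm_ring⟩
  zero_mem' := ⟨fun j => by simp, by simp [dpm, dcm]⟩
  smul_mem' := fun c a ha => ⟨fun j => by
      simp only [Pi.smul_apply, Prod.smul_fst, Prod.smul_snd, Matrix.mul_smul, trace_smul, ha.1 j,
        smul_zero, and_self], by
      rw [← smul_zero c, ← ha.2, dpm, dpm, Finset.smul_sum]
      refine Finset.sum_congr rfl fun j _ => ?_
      simp only [dcm, Pi.smul_apply, Prod.smul_fst, Prod.smul_snd, Matrix.mul_smul,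
        Matrix.smul_mul, ← smul_add, ← smul_sub]⟩

/-- forget handle `o` -/
def pr (o : Fin g) : E g n →ₗ[ℂ] E g n where
  toFun v := Function.update v o 0
  map_add' a b := by
    funext j
    by_cases h : j = o
    · subst h; simp
    · simp [Function.update_of_ne h]
  map_smul' c a := by
    funext j
    by_cases h : j = o
    · subst h; simp
    · simp [Function.update_of_ne h]

def VP {V : Type} (A : Subring (V → ℂ)) (u : V → Fin n → ℂ) : Prop := ∀ i, (fun v => u v i) ∈ A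

/-- `N θ - θ N` -/
noncomputable def adL : M n →L[ℂ] M n →L[ℂ] M n :=
  ContinuousLinearMap.mul ℂ (M n) - (ContinuousLinearMap.mul ℂ (M n)).flip

theorem adL_apply (N θ : M n) : adL N θ = N * θ - θ * N := rfl

noncomputable def rk {V W : Type} [NormedAddCommGroup V] [NormedSpace ℂ V] [NormedAddCommGroup W]
    [NormedSpace ℂ W] (T : V →L[ℂ] W) : ℕ := Module.finrank ℂ (LinearMap.range (T : V →ₗ[ℂ] W))

def EE (N : M n) : Submodule ℂ (M n) where
  carrier := {η | ∀ ζ : M n, N * ζ = ζ * N → ∃ θ : M n, η * ζ - ζ * η = N * θ - θ * N}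
  add_mem' := fun {a b} ha hb ζ h => by
    obtain ⟨s, hs⟩ := ha ζ h
    obtain ⟨t, ht⟩ := hb ζ h
    exact ⟨s + t, by rw [mul_add, add_mul, mul_add, add_mul, ← sub_add_sub_comm, hs, ht,
      sub_add_sub_comm]⟩
  zero_mem' := fun ζ _ => ⟨0, by simp⟩
  smul_mem' := fun c a ha ζ h => by
    obtain ⟨s, hs⟩ := ha ζ h
    exact ⟨c • s, by
      rw [Matrix.smul_mul, Matrix.mul_smul, Matrix.mul_smul, Matrix.smul_mul, ← smul_sub, hs,
        smul_sub]⟩

/-- rational functions that are regular on `Ω` -/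
def Rat {V : Type} [AddCommGroup V] [Module ℂ V] (Ω : Set V) : Subalgebra ℂ (V → ℂ) where
  carrier := {F | ∃ a ∈ Pol V, ∃ b ∈ Pol V, ∀ p ∈ Ω, b p ≠ 0 ∧ F p * b p = a p}
  mul_mem' := by
    rintro F G ⟨a, ha, b, hb, h⟩ ⟨c, hc, d, hd, k⟩
    refine ⟨a * c, mul_mem ha hc, b * d, mul_mem hb hd, fun p hp =>
      ⟨mul_ne_zero (h p hp).1 (k p hp).1, ?_⟩⟩
    simp only [Pi.mul_apply, ← (h p hp).2, ← (k p hp).2]
    ring
  add_mem' := by
    rintro F G ⟨a, ha, b, hb, h⟩ ⟨c, hc, d, hd, k⟩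
    refine ⟨a * d + c * b, add_mem (mul_mem ha hd) (mul_mem hc hb), b * d, mul_mem hb hd,
      fun p hp => ⟨mul_ne_zero (h p hp).1 (k p hp).1, ?_⟩⟩
    simp only [Pi.mul_apply, Pi.add_apply, ← (h p hp).2, ← (k p hp).2]
    ring
  algebraMap_mem' c := ⟨_, (Pol V).algebraMap_mem c, 1, one_mem _, fun p _ => by simp⟩

/-- normalise the determinant by scaling row `i` -/
noncomputable def nrm (i : Fin n) (X : M n) : M n := X.updateRow i ((X.det)⁻¹ • X i)

def Lm (u : Fin n → ℂ) (N C : M n) : M n := Matrix.of fun i j =>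
  if i.1 = 0 then (adjugate N *ᵥ u) j
  else ((adjugate ((i.1 : ℂ) • 1 - N) - C * adjugate ((i.1 : ℂ) • 1 - N * C)) *ᵥ u) j

def rv (N C : M n) : Fin n → ℂ := fun i =>
  if i.1 = 0 then 1 - N.det else ((i.1 : ℂ) • 1 - N).det - ((i.1 : ℂ) • 1 - N * C).det

noncomputable def Nh (u : Fin n → ℂ) (N C : M n) : M n :=
  N + vecMulVec u (((Lm u N C).det)⁻¹ • (adjugate (Lm u N C) *ᵥ rv N C))

/-- Krylov matrix -/
def Kr (N : M n) (w : Fin n → ℂ) : M n := Matrix.of fun i k => (N ^ k.1 *ᵥ w) i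

def Good (a : M n × M n) : Prop :=
  ∃ u w : Fin n → ℂ, (Lm u (adjugate a.1) (cm a)).det ≠ 0 ∧ (Kr (adjugate a.1) w).det ≠ 0

/-- scale the second matrix of handle `o` -/
def sc (o : Fin g) (τ : ℂ) (x : E g n) : E g n := Function.update x o ((x o).1, τ • (x o).2)

def cj (P Q : M n) (x : E g n) : E g n := fun j => (P * (x j).1 * Q, P * (x j).2 * Q)

def Inv (f : E g n → ℂ) : Prop := ∀ P Q : M n, P * Q = 1 → ∀ x ∈ RR g n, f (cj P Q x) = f x

def blk {k l : ℕ} (a : M k) (c : Matrix (Fin k) (Fin l) ℂ) (b : M l) : M (k + l) :=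
  reindex finSumFinEquiv finSumFinEquiv (fromBlocks a c 0 b)

/-- twisted block sum -/
noncomputable def bs {k l : ℕ} (τ : Fin g → ℂ × ℂ) (x : E g k) (y : E g l) : E g (k + l) :=
  fun j => (blk ((τ j).1 ^ l • (x j).1) 0 ((τ j).1⁻¹ ^ k • (y j).1),
    blk ((τ j).2 ^ l • (x j).2) 0 ((τ j).2⁻¹ ^ k • (y j).2))

def Roots (L : IntermediateField ℚ ℂ) (n : ℕ) : Prop :=
  ∀ k, 0 < k → k ≤ n → ∃ ω ∈ L, IsPrimitiveRoot ω k

/-- invariant polynomials vanishing on integral points vanish -/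
def DenseInv (L : IntermediateField ℚ ℂ) (g n : ℕ) : Prop :=
  ∀ f ∈ Pol (E g n), Inv f → (∀ s ∈ SS L g n, f s = 0) → ∀ x ∈ RR g n, f x = 0

end Vale.Agent.P002
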