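import Vale.Agent.P002.Def2

/-! Definitions for P002 with punctures. -/

open scoped Matrix.Norms.Operator Topology
open Matrix Filter

namespace Vale.Agent.P002

variable {g n : ℕ}

/-- `none` is a handle, `some J` a puncture with class of `J` -/
abbrev Kd (g n : ℕ) := Fin g → Option (M n)

def it : Option (M n) → M n × M n → M n
  | none, a => cm a
  | some J, a => a.1 * J * adjugate a.1

def pk (κ : Kd g n) (x : E g n) (m : ℕ) : M n :=
  ((List.ofFn fun j => it (κ j) (x j)).take m).prod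

def KD (κ : Kd g n) : Prop := ∀ j J, κ j = some J → J.det = 1

def KA {V : Type} (A : Subring (V → ℂ)) (κ : Kd g n) : Prop :=
  ∀ j J, κ j = some J → MP A fun _ => J

def KI (L : IntermediateField ℚ ℂ) (κ : Kd g n) : Prop := ∀ j J, κ j = some J → Ent (OO L) J

def RK (κ : Kd g n) : Set (E g n) :=
  {x | (∀ j, (x j).1.det = 1 ∧ (x j).2.det = 1) ∧ pk κ x g = 1}

def SK (L : IntermediateField ℚ ℂ) (κ : Kd g n) : Set (E g n) :=
  {x | x ∈ RK κ ∧ ∀ j, Ent (OO L) (x j).1 ∧ Ent (OO L) (x j).2}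

def Cm : Option (M n) → M n × M n → M n → Prop
  | none, a, ξ => ξ * a.1 = a.1 * ξ ∧ ξ * a.2 = a.2 * ξ
  | some J, a, ξ => ξ * it (some J) a = it (some J) a * ξ

def SchK (κ : Kd g n) (x : E g n) : Prop := ∀ ξ : M n, (∀ j, Cm (κ j) (x j) ξ) → ∃ c : ℂ, ξ = c • 1

def S1 (a : M n × M n) : Prop := ∀ ξ : M n, Cm none a ξ → ∃ c : ℂ, ξ = c • 1

def GK (κ : Kd g n) (x : E g n) : (Fin g → ℂ × ℂ) × M n :=
  (fun j => ((x j).1.det, (x j).2.det), tl (pk κ x g))

def FK (κ : Kd g n) (x : E g n) : (Fin g → ℂ × ℂ) × M n :=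
  (fun j => ((x j).1.det, (x j).2.det), pk κ x g)

def dit : Option (M n) → M n × M n → M n × M n → M n
  | none, a, v => dcm a v
  | some J, a, v => v.1 * adjugate a.1 -
      it (some J) a * (v.1 * adjugate a.1) * adjugate (it (some J) a)

def dpk (κ : Kd g n) (x v : E g n) : M n :=
  ∑ j : Fin g, pk κ x j * dit (κ j) (x j) (v j) * adjugate (pk κ x j)

theorem dit_add (k : Option (M n)) (a u v : M n × M n) : dit k a (u + v) = dit k a u + dit k a v := by
  cases k <;> simp only [dit, dcm, Prod.fst_add, Prod.snd_add] <;> noncomm_ring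

theorem dit_smul (k : Option (M n)) (a : M n × M n) (c : ℂ) (v : M n × M n) :
    dit k a (c • v) = c • dit k a v := by
  cases k <;> simp only [dit, dcm, Prod.smul_fst, Prod.smul_snd, Matrix.mul_smul,
    Matrix.smul_mul, ← smul_add, ← smul_sub]

def dpkL (κ : Kd g n) (x : E g n) : E g n →ₗ[ℂ] M n where
  toFun := dpk κ x
  map_add' u v := by
    simp only [dpk, Pi.add_apply, dit_add, mul_add, add_mul, Finset.sum_add_distrib]
  map_smul' c v := by
    simp only [dpk, Pi.smul_apply, dit_smul, Matrix.mul_smul, Matrix.smul_mul, Finset.smul_sum,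
      RingHom.id_apply]

def TK (κ : Kd g n) (x : E g n) : Submodule ℂ (E g n) where
  carrier := {v | Tr0 x v ∧ dpk κ x v = 0}
  add_mem' := fun {a b} ha hb => ⟨fun j => by
      simp only [Pi.add_apply, Prod.fst_add, Prod.snd_add, mul_add, trace_add, ha.1 j, hb.1 j,
        add_zero, and_self], ((dpkL κ x).map_add a b).trans (by
      show dpk κ x a + dpk κ x b = 0
      rw [ha.2, hb.2, add_zero])⟩
  zero_mem' := ⟨fun j => by simp, (dpkL κ x).map_zero⟩
  smul_mem' := fun c a ha => ⟨fun j => by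
      simp only [Pi.smul_apply, Prod.smul_fst, Prod.smul_snd, Matrix.mul_smul, trace_smul, ha.1 j,
        smul_zero, and_self], ((dpkL κ x).map_smul c a).trans (by
      show c • dpk κ x a = 0
      rw [ha.2, smul_zero])⟩

structure IsMoveK (κ : Kd g n) (D : E g n → M n) (m : E g n → M n → E g n) : Prop where
  polyD : ∀ (V : Type) (A : Subring (V → ℂ)) (x : V → E g n), KA A κ → EP A x →
    MP A fun v => D (x v)
  polym : ∀ (V : Type) (A : Subring (V → ℂ)) (x : V → E g n) (C : V → M n), KA A κ → EP A x →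
    MP A C → EP A fun v => m (x v) (C v)
  one : ∀ x ∈ RK κ, m x 1 = x
  mem : ∀ x ∈ RK κ, ∀ C : M n, C.det = 1 → C * D x = D x * C → m x C ∈ RK κ

/-- a polynomial self map of `RK` with a left inverse -/
structure IsAut (κ : Kd g n) (Θ Θ' : E g n → E g n) : Prop where
  poly : ∀ (V : Type) (A : Subring (V → ℂ)) (x : V → E g n), KA A κ → EP A x →
    EP A fun v => Θ (x v)
  poly' : ∀ (V : Type) (A : Subring (V → ℂ)) (x : V → E g n), KA A κ → EP A x →
    EP A fun v => Θ' (x v)
  mem : ∀ x ∈ RK κ, Θ x ∈ RK κ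
  mem' : ∀ x ∈ RK κ, Θ' x ∈ RK κ
  inv : ∀ x ∈ RK κ, Θ' (Θ x) = x

/-- conjugate an item -/
def cq : Option (M n) → M n → M n × M n → M n × M n
  | none, C, a => (C * a.1 * adjugate C, C * a.2 * adjugate C)
  | some _, C, a => (C * a.1, a.2)

/-- its derivative -/
def dcq : Option (M n) → M n → M n × M n → M n × M n
  | none, ξ, a => (ξ * a.1 - a.1 * ξ, ξ * a.2 - a.2 * ξ)
  | some _, ξ, a => (ξ * a.1, 0)

/-- block move: handle `o` is the first index, items `o < j < r` are conjugated -/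
def mb (κ : Kd g n) (o : Fin g) (r : ℕ) (x : E g n) (C : M n) : E g n := fun j =>
  if j = o then ((x j).1, C * (x j).2) else if j.1 < r then cq (κ j) C (x j) else x j

def Db (κ : Kd g n) (o : Fin g) (r : ℕ) (x : E g n) : M n := adjugate (x o).1 * pk κ x r

/-- move through the handle `k` -/
def mh (κ : Kd g n) (o k : Fin g) (x : E g n) (C : M n) : E g n :=
  Function.update (mb κ o k x C) k (C * (x k).1 * adjugate C, (x k).2 * adjugate C)

def Dh (κ : Kd g n) (o k : Fin g) (x : E g n) : M n := Db κ o k x * (x k).1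

def sw (o : Fin g) (x : E g n) : E g n :=
  Function.update x o ((x o).1 * (x o).2 * adjugate (x o).1, adjugate (x o).1)

def sw' (o : Fin g) (x : E g n) : E g n :=
  Function.update x o (adjugate (x o).2, (x o).2 * (x o).1 * adjugate (x o).2)

/-- twists, a Dehn twist and a swap on the first two handles -/
def Th (κ : Kd g n) (o o' : Fin g) (p q : ℕ) (x : E g n) : E g n :=
  sw o (mh κ o o' (tw o p (tw o' q x)) (Dh κ o o' (tw o p (tw o' q x))))

def Th' (κ : Kd g n) (o o' : Fin g) (p q : ℕ) (x : E g n) : E g n :=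
  utw o' q (utw o p (mh κ o o' (sw' o x) (adjugate (Dh κ o o' (sw' o x)))))

/-- base points -/
def xK (o o' : Fin g) (z : E g n) (X Y : M n) : E g n :=
  Function.update (Function.update z o (1, X)) o' (1, Y)

def HK (κ : Kd g n) (o o' : Fin g) (z : E g n) : Set (E g n) :=
  {x | (x o).1 = 1 ∧ (x o').1 = 1 ∧ (∀ j, (x j).2.det = 1) ∧
    ∀ j, j ≠ o → j ≠ o' → (x j).1 = (z j).1 ∧ (κ j = none → (x j).2 = (z j).2)}

/-- the first two indices are handles -/
structure Two (κ : Kd g n) (o o' : Fin g) : Prop where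
  ho : o.1 = 0
  ho' : o'.1 = 1
  hk : κ o = none
  hk' : κ o' = none
  hd : KD κ

/-- `g` handles followed by `s` punctures -/
def kap (g : ℕ) {s : ℕ} (J : Fin s → M n) : Kd (g + s) n :=
  fun j => Fin.addCases (fun _ => none) (fun i => some (J i)) j

def Tri (L : IntermediateField ℚ ℂ) (N : ℕ) (c : M n) : Prop :=
  Ent (OO L) c ∧ c.BlockTriangular id ∧ c.det = 1 ∧ ∀ i, c i i ^ N = 1

end Vale.Agent.P002
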