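import Vale.Agent.P002.Def3

/-! Definitions for reducible points. -/

open scoped Matrix.Norms.Operator Topology
open Matrix Filter

namespace Vale.Agent.P002

variable {g n : ℕ}

/-- the commutant -/
def Zc (κ : Kd g n) (x : E g n) (ξ : M n) : Prop := ∀ j, Cm (κ j) (x j) ξ

/-- complete system of orthogonal idempotents -/
structure Sys {m : ℕ} (e : Fin (m + 1) → M n) : Prop where
  ne : ∀ i, e i ≠ 0
  idem : ∀ i, e i * e i = e i
  orth : ∀ i j, i ≠ j → e i * e j = 0
  sum : ∑ i, e i = 1

/-- `v` vanishes on punctures and lies in the corner `e M f` -/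
def Cor (κ : Kd g n) (e f : M n) (v : E g n) : Prop :=
  ∀ j, e * (v j).1 * f = (v j).1 ∧ e * (v j).2 * f = (v j).2 ∧ (κ j ≠ none → v j = 0)

/-- `v` is a coboundary on the handles -/
def Cob (κ : Kd g n) (x v : E g n) : Prop :=
  ∃ b : M n, ∀ j, κ j = none →
    v j = ((x j).1 * b - b * (x j).1, (x j).2 * b - b * (x j).2)

end Vale.Agent.P002
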