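import Mathlib

/-! Definitions for P002. -/

open scoped Matrix.Norms.Operator Topology
open Matrix Filter

namespace Vale.Agent.P002

abbrev M (n : ℕ) := Matrix (Fin n) (Fin n) ℂ

abbrev E (g n : ℕ) := Fin g → M n × M n

/-- polynomial functions on a vector space -/
def Pol (V : Type) [AddCommGroup V] [Module ℂ V] : Subalgebra ℂ (V → ℂ) :=
  Algebra.adjoin ℂ (Set.range fun l : V →ₗ[ℂ] ℂ => (l : V → ℂ))

/-- polynomial functions with the function `h` inverted -/
def Loc {V : Type} [AddCommGroup V] [Module ℂ V] (h : V → ℂ) : Subalgebra ℂ (V → ℂ) :=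
  Algebra.adjoin ℂ (insert (fun x => (h x)⁻¹) (Set.range fun l : V →ₗ[ℂ] ℂ => (l : V → ℂ)))

/-- Zariski closure -/
def cl {V : Type} [AddCommGroup V] [Module ℂ V] (S : Set V) : Set V :=
  {x | ∀ f ∈ Pol V, (∀ s ∈ S, f s = 0) → f x = 0}

/-- matrix valued function with entries in `A` -/
def MP {V : Type} {n : ℕ} (A : Subring (V → ℂ)) (u : V → M n) : Prop :=
  ∀ i j, (fun v => u v i j) ∈ A

def EP {V : Type} {g n : ℕ} (A : Subring (V → ℂ)) (x : V → E g n) : Prop :=
  ∀ j, MP A (fun v => (x v j).1) ∧ MP A (fun v => (x v j).2)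

/-- velocities at `x0` of local flows that preserve `Z` -/
def Vel {V : Type} [NormedAddCommGroup V] [NormedSpace ℂ V] (Z : Set V) (x0 : V) : Set V :=
  {v | ∃ φ : ℂ × V → V, ContDiffAt ℂ 1 φ (0, x0) ∧ (∀ x ∈ Z, φ (0, x) = x) ∧
    HasDerivAt (fun t => φ (t, x0)) v 0 ∧ ∀ᶠ y in 𝓝 ((0 : ℂ), x0), y.2 ∈ Z → φ y ∈ Z}

variable {g n : ℕ}

def cm (a : M n × M n) : M n := a.1 * a.2 * adjugate a.1 * adjugate a.2

/-- product of the first `m` commutators -/
def pm (x : E g n) (m : ℕ) : M n := ((List.ofFn fun j => cm (x j)).take m).prod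

def RR (g n : ℕ) : Set (E g n) :=
  {x | (∀ j, (x j).1.det = 1 ∧ (x j).2.det = 1) ∧ pm x g = 1}

/-- the defining equations -/
def FF (x : E g n) : (Fin g → ℂ × ℂ) × M n := (fun j => ((x j).1.det, (x j).2.det), pm x g)

/-- ring of integers of `L` -/
noncomputable def OO (L : IntermediateField ℚ ℂ) : Subring ℂ :=
  L.toSubfield.toSubring ⊓ (integralClosure ℤ ℂ).toSubring

def Ent (O : Subring ℂ) (u : M n) : Prop := ∀ a b, u a b ∈ O

def SS (L : IntermediateField ℚ ℂ) (g n : ℕ) : Set (E g n) :=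
  {x | x ∈ RR g n ∧ ∀ j, Ent (OO L) (x j).1 ∧ Ent (OO L) (x j).2}

def HH (g n : ℕ) : Set (E g n) := {x | ∀ j, (x j).1 = 1 ∧ (x j).2.det = 1}

def GoodL (L : IntermediateField ℚ ℂ) : Prop :=
  FiniteDimensional ℚ L ∧ (∃ z ∈ L, (starRingEnd ℂ) z ≠ z) ∧ 3 ≤ Module.finrank ℚ L

/-- nonzero iff the eigenvalues are distinct -/
noncomputable def dl (D : M n) : ℂ := (Matrix.of fun i j : Fin n => (D ^ (i.1 + j.1)).trace).det

noncomputable def Ct (t : ℂ) (Y : M n) : M n := ((1 + t • Y).det)⁻¹ • (1 + t • Y) ^ n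

/-- traceless multiple -/
def tl (Y : M n) : M n := (n : ℂ) • Y - Y.trace • (1 : M n)

structure IsMove (D : E g n → M n) (m : E g n → M n → E g n) : Prop where
  polyD : ∀ (V : Type) (A : Subring (V → ℂ)) (x : V → E g n), EP A x → MP A fun v => D (x v)
  polym : ∀ (V : Type) (A : Subring (V → ℂ)) (x : V → E g n) (C : V → M n), EP A x → MP A C →
    EP A fun v => m (x v) (C v)
  one : ∀ x ∈ RR g n, m x 1 = x
  mem : ∀ x ∈ RR g n, ∀ C : M n, C.det = 1 → C * D x = D x * C → m x C ∈ RR g n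

/-- multiply the first matrix of handle `i` on the right -/
def m1 (i : Fin g) (x : E g n) (C : M n) : E g n := Function.update x i ((x i).1 * C, (x i).2)

def Dv (i k : Fin g) (x : E g n) : M n :=
  adjugate (x i).1 * adjugate (pm x i) * pm x k * (x k).1

def mv (i k : Fin g) (x : E g n) (C : M n) : E g n := fun j =>
  if j = i then ((x j).1, C * (x j).2)
  else if j = k then (C * (x j).1 * adjugate C, (x j).2 * adjugate C)
  else if i < j ∧ j < k then (C * (x j).1 * adjugate C, C * (x j).2 * adjugate C) else x j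

def tw (i : Fin g) (p : ℕ) (x : E g n) : E g n := m1 i x ((x i).2 ^ p)

def utw (i : Fin g) (p : ℕ) (x : E g n) : E g n := m1 i x (adjugate (x i).2 ^ p)

def D2 (i k : Fin g) (p q : ℕ) (x : E g n) : M n := Dv i k (tw i p (tw k q x))

def m2 (i k : Fin g) (p q : ℕ) (x : E g n) (C : M n) : E g n :=
  utw i p (utw k q (mv i k (tw i p (tw k q x)) C))

/-- base point -/
def xB (B : Fin g → M n) : E g n := fun j => (1, B j)

def Tb (B : Fin g → M n) : Submodule ℂ (E g n) where
  carrier := {v | ∀ j, (adjugate (B j) * (v j).2).trace = 0}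
  add_mem' := fun {a b} ha hb j => by
    simp only [Pi.add_apply, Prod.snd_add, mul_add, trace_add, ha j, hb j, add_zero]
  zero_mem' := fun j => by simp
  smul_mem' := fun c a ha j => by
    simp only [Pi.smul_apply, Prod.smul_snd, Matrix.mul_smul, trace_smul, ha j, smul_zero]

/-- `∑ r < p, X ^ r ξ X ^ (-r)` -/
def sa (X : M n) (p : ℕ) (ξ : M n) : M n := ∑ r ∈ Finset.range p, X ^ r * ξ * adjugate X ^ r

def JJ (n : ℕ) : M n := Matrix.of fun _ _ => 1

def PJ (n c : ℕ) : M n := 1 + (c : ℂ) • JJ n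

noncomputable def QJ (n c : ℕ) : M n := 1 - ((c : ℂ) / (1 + c * n)) • JJ n

noncomputable def Bm (c : ℕ) (y : Fin n → ℂ) : M n := PJ n c * diagonal y * QJ n c

def Perp (c : ℕ) (η : M n) : Prop := ∀ i, (QJ n c * η * PJ n c) i i = 0

/-- good eigenvalue vectors -/
def GY (y : Fin n → ℂ) : Prop := Function.Injective y ∧ ∏ i, y i = 1

/-- the chosen matrices -/
noncomputable def BB (g : ℕ) (y : ℕ → Fin n → ℂ) : Fin g → M n := fun j =>
  Bm (min j.1 2) (y (min j.1 2))

end Vale.Agent.P002
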