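import Vale.Agent.P002.AutK
import Vale.Agent.P002.Der2

open scoped Matrix.Norms.Operator Topology
open Matrix Filter

namespace Vale.Agent.P002

variable {g n : ℕ} {κ : Kd g n}

/-- functions differentiable at `0` -/
def derkA : Subalgebra ℂ (ℂ → ℂ) where
  carrier := {f | DifferentiableAt ℂ f 0}
  mul_mem' := fun ha hb => DifferentiableAt.mul ha hb
  add_mem' := fun ha hb => DifferentiableAt.add ha hb
  algebraMap_mem' c := differentiableAt_const c

theorem derk_key {f : ℂ → E g n} (hf : EP derkA.toSubring f) :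
    ∃ v, HasDerivAt f v 0 ∧ ∀ j w, HasDerivAt (fun t => f t j) w 0 → v j = w := by
  have h : ∀ j, HasDerivAt (fun t => f t j)
      (deriv (fun t => (f t j).1) 0, deriv (fun t => (f t j).2) 0) 0 := fun j =>
    der2_pair (der1_of_ent (hf j).1).hasDerivAt (der1_of_ent (hf j).2).hasDerivAt
  exact ⟨_, der2_pi h, fun j w hw => (h j).unique hw⟩

theorem derk_c (x : E g n) : EP derkA.toSubring fun _ : ℂ => x := fun _ =>
  ⟨fun _ _ => differentiableAt_const _, fun _ _ => differentiableAt_const _⟩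

theorem derk_Th {o o' j : Fin g} (h : Two κ o o') (h1 : j ≠ o) (h2 : j ≠ o') (p q : ℕ)
    (x : E g n) : Th κ o o' p q x j = x j ∧ Th' κ o o' p q x j = x j := by
  have h3 : ¬j.1 < o'.1 := by
    have : j.1 ≠ o.1 := fun e => h1 (Fin.ext e)
    have := h.ho
    have := h.ho'
    omega
  simp only [Th, Th', sw, sw', mh, mb, tw, utw, m1, Function.update_of_ne h1,
    Function.update_of_ne h2, if_neg h1, if_neg h3, and_self]

theorem derk_adj {C : ℂ → M n} {ξ : M n} (hC : HasDerivAt C ξ 0) (h0 : C 0 = 1)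
    (hξ : ξ.trace = 0) : HasDerivAt (fun t => adjugate (C t)) (-ξ) 0 := by
  simpa [h0] using adj_deriv hC (by simp [h0]) (by simp [h0, hξ])

theorem derk_cq {C : ℂ → M n} {ξ : M n} (hC : HasDerivAt C ξ 0) (h0 : C 0 = 1)
    (hξ : ξ.trace = 0) (k : Option (M n)) (a : M n × M n) :
    HasDerivAt (fun t => cq k (C t) a) (dcq k ξ a) 0 := by
  have hA := derk_adj hC h0 hξ
  have h : ∀ u : M n, HasDerivAt (fun t => C t * u * adjugate (C t)) (ξ * u - u * ξ) 0 := fun u =>
    (der2_mul (der2_cr u hC) hA).congr_deriv (by simp [h0, sub_eq_add_neg])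
  cases k with
  | none => exact der2_pair (h _) (h _)
  | some J => exact der2_pair (der2_cr _ hC) (der2_const _)

theorem derb {o o' : Fin g} (h : Two κ o o') (x : E g n) (p q : ℕ) {r : ℕ} (hr : 1 ≤ r)
    {C : ℂ → M n} {ξ : M n} (hC : HasDerivAt C ξ 0) (h0 : C 0 = 1) (hξ : ξ.trace = 0) :
    ∃ v, HasDerivAt (fun t => Th' κ o o' p q (mb κ o r (Th κ o o' p q x) (C t))) v 0 ∧
      ∀ j, j ≠ o → j ≠ o' → v j = if j.1 < r then dcq (κ j) ξ (x j) else 0 := by
  have hK := KA_alg derkA κ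
  have hM : MP derkA.toSubring C := fun i j => (der1_ent hC i j).differentiableAt
  obtain ⟨v, hv, hj⟩ := derk_key ((aut_Th h p q).poly' ℂ _ _ hK
    ((moveb h.hd h.ho h.hk hr).polym ℂ _ _ C hK (derk_c (Th κ o o' p q x)) hM))
  refine ⟨v, hv, fun j h1 h2 => hj j _ ?_⟩
  simp only [fun y => (derk_Th h h1 h2 p q y).2, mb, if_neg h1, (derk_Th h h1 h2 p q x).1]
  split_ifs
  exacts [derk_cq hC h0 hξ _ _, der2_const2 _]

theorem derh {o o' k : Fin g} (h : Two κ o o') (h1 : k ≠ o) (h2 : k ≠ o') (hk : κ k = none)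
    {x : E g n} (hx : (x k).2.det = 1) (p q : ℕ) {e : ℕ} (he : e ≤ 1)
    {C : ℂ → M n} {ξ : M n} (hC : HasDerivAt C ξ 0) (h0 : C 0 = 1) (hξ : ξ.trace = 0) :
    ∃ v, HasDerivAt
        (fun t => Th' κ o o' p q (utw k e (mh κ o k (tw k e (Th κ o o' p q x)) (C t)))) v 0 ∧
      (∀ j, j ≠ o → j ≠ o' → j ≠ k → v j = if j < k then dcq (κ j) ξ (x j) else 0) ∧
      v k = (if e = 0 then ξ * (x k).1 - (x k).1 * ξ else ξ * (x k).1, -((x k).2 * ξ)) := by
  have hK := KA_alg derkA κ
  have hM : MP derkA.toSubring C := fun i j => (der1_ent hC i j).differentiableAt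
  obtain ⟨v, hv, hj⟩ := derk_key ((aut_Th h p q).poly' ℂ _ _ hK ((aut_tw hk e).poly' ℂ _ _ hK
    ((moveh h.hd h.ho h.hk h1 hk).polym ℂ _ _ C hK (derk_c (tw k e (Th κ o o' p q x))) hM)))
  have hA := derk_adj hC h0 hξ
  refine ⟨v, hv, fun j j1 j2 j3 => hj j _ ?_, hj k _ ?_⟩
  · simp only [fun y => (derk_Th h j1 j2 p q y).2, mh, mb, tw, utw, m1, Function.update_of_ne j3,
      if_neg j1, (derk_Th h j1 j2 p q x).1, Fin.val_fin_lt]
    split_ifs
    exacts [derk_cq hC h0 hξ _ _, der2_const2 _]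
  · simp only [fun y => (derk_Th h h1 h2 p q y).2, mh, tw, utw, m1, Function.update_self,
      (derk_Th h h1 h2 p q x).1]
    refine der2_pair ?_ ((der2_cl _ hA).congr_deriv (by simp))
    have hAA := derk_adj hA (by simp [h0]) (by simp [hξ])
    obtain rfl | rfl : e = 0 ∨ e = 1 := by omega
    · simp only [pow_zero, mul_one, if_true]
      exact (der2_mul (der2_cr _ hC) hA).congr_deriv (by simp [h0, sub_eq_add_neg])
    · simp only [pow_one, adjugate_mul_distrib, one_ne_zero, if_false]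
      exact (der2_mul (der2_mul (der2_cr _ hC) hA) (der2_cr _ hAA)).congr_deriv (by
        simp [h0, add_mul, mul_assoc, der2_ma hx])

end Vale.Agent.P002
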