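import Vale.Agent.P002.Defs

open scoped Matrix.Norms.Operator Topology
open Matrix Filter

namespace Vale.Agent.P002

variable {g n : ℕ}

theorem Dg_pow {P Q : M n} (h : P * Q = 1) (y : Fin n → ℂ) (k : ℕ) :
    (P * diagonal y * Q) ^ k = P * diagonal y ^ k * Q := by
  induction k with
  | zero => simp [h]
  | succ k ih =>
    rw [pow_succ, ih, pow_succ]
    simp only [mul_assoc]
    rw [← mul_assoc Q P, mul_eq_one_comm.mp h, one_mul]

theorem dg1 {P Q : M n} (h : P * Q = 1) {y : Fin n → ℂ} (hy : Function.Injective y) :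
    dl (P * diagonal y * Q) ≠ 0 := by
  have e : (Matrix.of fun i j : Fin n => ((P * diagonal y * Q) ^ (i.1 + j.1)).trace) =
      (vandermonde y)ᵀ * vandermonde y := by
    ext i j
    rw [of_apply, Dg_pow h, trace_mul_cycle, mul_eq_one_comm.mp h, one_mul, diagonal_pow,
      trace_diagonal, mul_apply]
    simp [pow_add]
  rw [dl, e, det_mul, det_transpose]
  exact mul_self_ne_zero.mpr (det_vandermonde_ne_zero_iff.mpr hy)

open Polynomial in
theorem Dg_nil {D : M n} (h : dl D ≠ 0) {s : ℂ[X]} (hs : s.natDegree < n)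
    (hn : IsNilpotent (aeval D s)) : s = 0 := by
  have e := eq_zero_of_vecMul_eq_zero h (v := fun i : Fin n => s.coeff i) (by
    funext j
    have h1 : IsNilpotent (aeval D s * D ^ j.1) := by
      refine Commute.isNilpotent_mul_right ?_ hn
      have := (Commute.all s (X ^ j.1)).map (aeval D)
      rwa [map_pow, aeval_X] at this
    have h2 := (isNilpotent_trace_of_isNilpotent h1).eq_zero
    rw [aeval_eq_sum_range' hs, Finset.sum_mul, trace_sum, Finset.sum_range] at h2
    simpa [vecMul, dotProduct, pow_add] using h2)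
  ext i
  by_cases hi : i < n
  · exact congrFun e ⟨i, hi⟩
  · exact coeff_eq_zero_of_natDegree_lt (by omega)

open Polynomial in
theorem dg2 {D : M n} (h : dl D ≠ 0) :
    ∃ (P Q : M n) (α : Fin n → ℂ), P * Q = 1 ∧ Function.Injective α ∧
      D = P * diagonal α * Q := by
  classical
  have h1 : D.charpoly ∣ (∏ a ∈ D.charpoly.roots.toFinset, (X - C a)) ^ D.charpoly.roots.card := by
    have := Multiset.prod_dvd_prod_of_dvd (S := D.charpoly.roots) (fun a => X - C a)
      (fun _ => ∏ a ∈ D.charpoly.roots.toFinset, (X - C a))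
      fun a ha => Finset.dvd_prod_of_mem _ (Multiset.mem_toFinset.mpr ha)
    rwa [← (IsAlgClosed.splits D.charpoly).eq_prod_roots_of_monic D.charpoly_monic,
      Multiset.map_const', Multiset.prod_replicate] at this
  have h2 : n ≤ D.charpoly.roots.toFinset.card := by
    by_contra hc
    refine (monic_prod_X_sub_C id D.charpoly.roots.toFinset).ne_zero (Dg_nil h ?_
      ⟨D.charpoly.roots.card, ?_⟩)
    · rw [natDegree_finsetProd_X_sub_C_eq_card]
      omega
    · obtain ⟨r, hr⟩ := h1
      rw [← map_pow]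
      simp only [id]
      rw [hr, map_mul, aeval_self_charpoly, zero_mul]
  obtain ⟨α, hα⟩ := Function.Embedding.exists_of_card_le_finset (α := Fin n) (by simpa using h2)
  have h3 : ∀ i, ∃ v : Fin n → ℂ, v ≠ 0 ∧ D *ᵥ v = α i • v := fun i => by
    have h4 := isRoot_of_mem_roots (Multiset.mem_toFinset.mp (hα ⟨i, rfl⟩))
    rw [IsRoot, eval_charpoly] at h4
    obtain ⟨v, hv, e⟩ := exists_mulVec_eq_zero_iff.mpr h4
    refine ⟨v, hv, ?_⟩
    rw [sub_mulVec, sub_eq_zero] at e
    rw [← e]
    ext a
    simp [mulVec_diagonal]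
  choose v hv0 hv using h3
  have h5 := Module.End.eigenvectors_linearIndependent' (toLin' D) α α.injective v fun i =>
    ⟨Module.End.mem_eigenspace_iff.mpr (hv i), hv0 i⟩
  have h6 : IsUnit (Matrix.of v)ᵀ := linearIndependent_cols_iff_isUnit.mp h5
  have h7 := mul_nonsing_inv _ ((isUnit_iff_isUnit_det _).mp h6)
  refine ⟨_, _, α, h7, α.injective, ?_⟩
  have h8 : D * (Matrix.of v)ᵀ = (Matrix.of v)ᵀ * diagonal α := by
    ext a i
    rw [mul_diagonal, mul_comm]
    exact congrFun (hv i) a
  rw [← h8, mul_assoc, h7, mul_one]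

end Vale.Agent.P002
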