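import Vale.Agent.P002.Poly1

open scoped Matrix.Norms.Operator Topology
open Matrix Filter

namespace Vale.Agent.P002

variable {g n : ℕ}

section
variable {V W : Type} [AddCommGroup V] [Module ℂ V] [AddCommGroup W] [Module ℂ W]

theorem pol_le_loc (h : V → ℂ) : Pol V ≤ Loc h := Algebra.adjoin_mono (Set.subset_insert _ _)

theorem inv_mem_loc (h : V → ℂ) : (fun x => (h x)⁻¹) ∈ Loc h :=
  Algebra.subset_adjoin (Set.mem_insert _ _)

theorem comp_mem {U : Type} {A : Subalgebra ℂ (U → ℂ)} {φ : U → W}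
    (hφ : ∀ l : W →ₗ[ℂ] ℂ, (fun v => l (φ v)) ∈ A) {f : W → ℂ} (hf : f ∈ Pol W) :
    (fun v => f (φ v)) ∈ A := by
  induction hf using Algebra.adjoin_induction with
  | mem f hf =>
    obtain ⟨l, rfl⟩ := hf
    exact hφ l
  | algebraMap r => exact A.algebraMap_mem r
  | add f f' _ _ a b => exact A.add_mem a b
  | mul f f' _ _ a b => exact A.mul_mem a b

theorem subset_cl (S : Set V) : S ⊆ cl S := fun x hx _ _ h => h x hx

theorem poly2_clear {h : V → ℂ} (hh : h ∈ Pol V) {F : V → ℂ} (hF : F ∈ Loc h) :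
    ∃ k : ℕ, ∃ p ∈ Pol V, ∀ x, h x ≠ 0 → F x * h x ^ k = p x := by
  induction hF using Algebra.adjoin_induction with
  | mem f hf =>
    rcases hf with rfl | hf
    · exact ⟨1, 1, one_mem _, fun x hx => by simp [hx]⟩
    · exact ⟨0, f, Algebra.subset_adjoin hf, fun x _ => by simp⟩
  | algebraMap r => exact ⟨0, _, (Pol V).algebraMap_mem r, fun x _ => by simp⟩
  | add f f' _ _ a b =>
    obtain ⟨k, p, p1, p2⟩ := a
    obtain ⟨k', p', q1, q2⟩ := b
    refine ⟨k + k', p * h ^ k' + p' * h ^ k,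
      add_mem (mul_mem p1 (pow_mem hh _)) (mul_mem q1 (pow_mem hh _)), fun x hx => ?_⟩
    simp only [Pi.add_apply, Pi.mul_apply, Pi.pow_apply, ← p2 x hx, ← q2 x hx]
    ring
  | mul f f' _ _ a b =>
    obtain ⟨k, p, p1, p2⟩ := a
    obtain ⟨k', p', q1, q2⟩ := b
    refine ⟨k + k', p * p', mul_mem p1 q1, fun x hx => ?_⟩
    simp only [Pi.mul_apply, ← p2 x hx, ← q2 x hx]
    ring

theorem cl_map {h e : V → ℂ} (hh : h ∈ Pol V) (he : e ∈ Pol V) {φ : V → W}
    (hφ : ∀ l : W →ₗ[ℂ] ℂ, (fun v => l (φ v)) ∈ Loc h) {S : Set V} {T : Set W}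
    (hS : ∀ s ∈ S, h s ≠ 0 → e s ≠ 0 → φ s ∈ cl T) {x : V} (hx : x ∈ cl S) (h1 : h x ≠ 0)
    (h2 : e x ≠ 0) : φ x ∈ cl T := by
  intro f hf h0
  obtain ⟨k, p, p1, p2⟩ := poly2_clear hh (comp_mem hφ hf)
  have a := hx (p * h * e) (mul_mem (mul_mem p1 hh) he) fun s hs => by
    by_cases b1 : h s = 0
    · simp [b1]
    by_cases b2 : e s = 0
    · simp [b2]
    simp [← p2 s b1, hS s hs b1 b2 f hf h0]
  simpa [← p2 x h1, h1, h2] using a

theorem cl_map' {φ : V → W} (hφ : ∀ l : W →ₗ[ℂ] ℂ, (fun v => l (φ v)) ∈ Pol V) {S : Set V}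
    {T : Set W} (hS : ∀ s ∈ S, φ s ∈ cl T) {x : V} (hx : x ∈ cl S) : φ x ∈ cl T :=
  fun f hf h0 => hx _ (comp_mem hφ hf) fun s hs => hS s hs f hf h0
end

theorem cl_RR {S : Set (E g n)} (hS : S ⊆ RR g n) : cl S ⊆ RR g n := by
  intro x hx
  have k : ∀ (f : E g n → ℂ) (c : ℂ), f ∈ (Pol (E g n)).toSubring → (∀ s ∈ S, f s = c) →
      f x = c := fun f c hf h => sub_eq_zero.1 (hx (f - algebraMap ℂ _ c)
        (sub_mem hf ((Pol _).algebraMap_mem c)) fun s hs => sub_eq_zero.2 (h s hs))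
  have e : EP (Pol (E g n)).toSubring fun x : E g n => x := ep_lin LinearMap.id
  refine ⟨fun j => ⟨k _ 1 (e j).1.det fun s hs => ((hS hs).1 j).1,
    k _ 1 (e j).2.det fun s hs => ((hS hs).1 j).2⟩, Matrix.ext fun a b => ?_⟩
  exact k _ _ (e.pm g a b) fun s hs => congrFun (congrFun (hS hs).2 a) b

section
variable {V : Type} [NormedAddCommGroup V] [NormedSpace ℂ V] [FiniteDimensional ℂ V]

theorem poly2_pol {f : V → ℂ} (hf : f ∈ Pol V) : ContDiff ℂ 1 f := by
  induction hf using Algebra.adjoin_induction with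
  | mem f hf =>
    obtain ⟨l, rfl⟩ := hf
    exact (LinearMap.toContinuousLinearMap l).contDiff
  | algebraMap r => exact contDiff_const
  | add f f' _ _ a b => exact a.add b
  | mul f f' _ _ a b => exact a.mul b

theorem loc_contDiffAt {h : V → ℂ} (hh : h ∈ Pol V) {x : V} (hx : h x ≠ 0) {f : V → ℂ}
    (hf : f ∈ Loc h) : ContDiffAt ℂ 1 f x := by
  induction hf using Algebra.adjoin_induction with
  | mem f hf =>
    rcases hf with rfl | hf
    · exact (poly2_pol hh).contDiffAt.inv hx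
    · exact (poly2_pol (Algebra.subset_adjoin hf)).contDiffAt
  | algebraMap r => exact contDiffAt_const
  | add f f' _ _ a b => exact a.add b
  | mul f f' _ _ a b => exact a.mul b

theorem pol_contDiff {f : V → ℂ} (hf : f ∈ Pol V) : ContDiff ℂ 1 f := poly2_pol hf

theorem MP.contDiffAt {h : V → ℂ} (hh : h ∈ Pol V) {x : V} (hx : h x ≠ 0) {u : V → M n}
    (hu : MP (Loc h).toSubring u) : ContDiffAt ℂ 1 u x := by
  have e : u = fun v => ∑ i, ∑ j, u v i j • (Matrix.single i j 1 : M n) := by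
    funext v
    conv_lhs => rw [Matrix.matrix_eq_sum_single (u v)]
    simp
  rw [e]
  exact ContDiffAt.sum fun i _ => ContDiffAt.sum fun j _ =>
    (loc_contDiffAt hh hx (hu i j)).smul contDiffAt_const

theorem EP.contDiffAt {h : V → ℂ} (hh : h ∈ Pol V) {x : V} (hx : h x ≠ 0) {φ : V → E g n}
    (hφ : EP (Loc h).toSubring φ) : ContDiffAt ℂ 1 φ x :=
  contDiffAt_pi.2 fun j => ((hφ j).1.contDiffAt hh hx).prodMk ((hφ j).2.contDiffAt hh hx)
end

end Vale.Agent.P002
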