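import Vale.Agent.P002.Sp0
import Vale.Agent.P002.Dg
import Vale.Agent.P002.Poly2

open scoped Matrix.Norms.Operator Topology
open Matrix Filter

namespace Vale.Agent.P002

variable {g n : ℕ}

/-- a one parameter family of eigenvalue vectors -/
noncomputable def ExY (n : ℕ) (s : ℝ) : Fin n → ℂ :=
  fun i => ((Real.exp (s * (2 * (i : ℕ) + 1 - n)) : ℝ) : ℂ)

lemma Ex_sum (n : ℕ) : ∑ i ∈ Finset.range n, (2 * (i : ℝ) + 1) = (n : ℝ) * n := by
  induction n with
  | zero => simp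
  | succ n ih => rw [Finset.sum_range_succ, ih]; push_cast; ring

lemma Ex_gy {s : ℝ} (hs : s ≠ 0) : GY (ExY n s) := by
  constructor
  · intro i j h
    have h1 := mul_left_cancel₀ hs (Real.exp_injective (Complex.ofReal_injective h))
    have h2 : ((i : ℕ) : ℝ) = (j : ℕ) := by linarith
    exact Fin.ext (by exact_mod_cast h2)
  · simp only [ExY]
    rw [← Complex.ofReal_prod, ← Real.exp_sum, ← Finset.mul_sum, Finset.sum_sub_distrib,
      Fin.sum_univ_eq_sum_range (fun i => 2 * (i : ℝ) + 1), Ex_sum]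
    simp

lemma Ex_cont : Continuous (dl : M n → ℂ) := by
  unfold dl
  refine Continuous.matrix_det (continuous_matrix fun i j => ?_)
  exact (continuous_id.pow _).matrix_trace

lemma Ex_ev (c c' : ℕ) {s : ℝ} (hs : s ≠ 0) : ∀ᶠ t in 𝓝 (0 : ℝ), ∀ p q : ℕ, 0 < p → p ≤ n →
    q ≤ n → dl (adjugate (Bm c (ExY n s)) ^ p * Bm c' (ExY n t) ^ q) ≠ 0 := by
  have key : ∀ p q : ℕ, ∀ᶠ t in 𝓝 (0 : ℝ), 0 < p →
      dl (adjugate (Bm c (ExY n s)) ^ p * Bm c' (ExY n t) ^ q) ≠ 0 := by
    intro p q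
    rcases Nat.eq_zero_or_pos p with hp | hp
    · exact Eventually.of_forall fun t h => by omega
    have h1 : Continuous fun t : ℝ => Bm c' (ExY n t) := by
      have h0 : Continuous fun t : ℝ => (diagonal (ExY n t) : M n) := by
        refine Continuous.matrix_diagonal ?_
        unfold ExY
        fun_prop
      exact (continuous_const.mul h0).mul continuous_const
    have h2 : Continuous fun t : ℝ =>
        dl (adjugate (Bm c (ExY n s)) ^ p * Bm c' (ExY n t) ^ q) :=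
      Ex_cont.comp (continuous_const.mul (h1.pow q))
    have h3 : Bm c' (ExY n 0) = 1 := by
      have : ExY n 0 = 1 := by
        funext i
        simp [ExY]
      rw [Bm, this, ← PQ (n := n) c']
      congr 1
      exact mul_one _
    have h4 : dl (adjugate (Bm c (ExY n s)) ^ p * Bm c' (ExY n 0) ^ q) ≠ 0 := by
      rw [h3, one_pow, mul_one, Bm_adj c (Ex_gy hs), Bm_pow]
      have e : (fun i => (ExY n s i)⁻¹ ^ p) = ExY n (-(p * s)) := by
        funext i
        simp only [ExY]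
        rw [← Complex.ofReal_inv, ← Complex.ofReal_pow, ← Real.exp_neg, ← Real.exp_nat_mul]
        congr 2
        ring
      rw [e]
      have hp' : (p : ℝ) ≠ 0 := by exact_mod_cast hp.ne'
      exact dg1 (PQ c) (Ex_gy (neg_ne_zero.mpr (mul_ne_zero hp' hs))).1
    filter_upwards [h2.continuousAt.eventually_ne h4] with t ht _ using ht
  have h5 : ∀ᶠ t in 𝓝 (0 : ℝ), ∀ p ∈ Finset.range (n + 1), ∀ q ∈ Finset.range (n + 1), 0 < p →
      dl (adjugate (Bm c (ExY n s)) ^ p * Bm c' (ExY n t) ^ q) ≠ 0 := by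
    simp only [eventually_all_finset]
    exact fun p _ q _ => key p q
  filter_upwards [h5] with t ht p q h1 h2 h3
  exact ht p (Finset.mem_range.mpr (by omega)) q (Finset.mem_range.mpr (by omega)) h1

lemma Ex_pick {P : ℝ → Prop} (h : ∀ᶠ t in 𝓝 (0 : ℝ), P t) : ∃ t, t ≠ 0 ∧ P t := by
  obtain ⟨t, h1, h2⟩ := ((h.filter_mono (nhdsWithin_le_nhds (s := {(0 : ℝ)}ᶜ))).and
    self_mem_nhdsWithin).exists
  exact ⟨t, h2, h1⟩

theorem ex_y (n : ℕ) : ∃ y : ℕ → Fin n → ℂ, (∀ c, GY (y c)) ∧ ∀ c c' p q : ℕ, c < c' → c' ≤ 2 →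
    0 < p → p ≤ n → 0 < q → q ≤ n →
      dl (adjugate (Bm c (y c)) ^ p * Bm c' (y c') ^ q) ≠ 0 := by
  obtain ⟨t1, a1, b1⟩ := Ex_pick (Ex_ev (n := n) 0 1 one_ne_zero)
  obtain ⟨t2, a2, b2, b3⟩ := Ex_pick ((Ex_ev (n := n) 0 2 one_ne_zero).and (Ex_ev (n := n) 1 2 a1))
  refine ⟨fun c => ExY n (if c = 0 then 1 else if c = 1 then t1 else t2), fun c => Ex_gy ?_, ?_⟩
  · split_ifs
    exacts [one_ne_zero, a1, a2]
  · intro c c' p q h1 h2 h3 h4 _ h6
    interval_cases c'
    · omega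
    · interval_cases c
      exact b1 p q h3 h4 h6
    · interval_cases c
      · exact b2 p q h3 h4 h6
      · exact b3 p q h3 h4 h6

end Vale.Agent.P002
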