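import Vale.Agent.P002.Def2

open scoped Matrix.Norms.Operator Topology
open Matrix Filter

namespace Vale.Agent.P002

variable {g n : ℕ}

theorem MP.sub {V : Type} {A : Subring (V → ℂ)} {u w : V → M n} (hu : MP A u) (hw : MP A w) :
    MP A fun v => u v - w v := fun i j => A.sub_mem (hu i j) (hw i j)

theorem MP.mulVec {V : Type} {A : Subring (V → ℂ)} {N : V → M n} {u : V → Fin n → ℂ}
    (hN : MP A N) (hu : VP A u) : VP A fun p => N p *ᵥ u p := fun i => by
  simp only [Matrix.mulVec, dotProduct]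
  exact sum_fn_mem _ fun j _ => A.mul_mem (hN i j) (hu j)

theorem MP.nat {V : Type} {A : Subring (V → ℂ)} (k : ℕ) :
    MP A fun _ => ((k : ℂ) • 1 : M n) := MP.smul (f := fun _ => (k : ℂ)) (natCast_mem A k) MP.one

theorem MP.Lm {V : Type} {A : Subring (V → ℂ)} {u : V → Fin n → ℂ} {N C : V → M n} (hu : VP A u)
    (hN : MP A N) (hC : MP A C) : MP A fun p => Lm (u p) (N p) (C p) := fun i j => by
  simp only [P002.Lm, of_apply]
  split_ifs
  · exact hN.adj.mulVec hu j
  · exact (((MP.nat _).sub hN).adj.sub (hC.mul ((MP.nat _).sub (hN.mul hC)).adj)).mulVec hu j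

section
variable {V : Type} [AddCommGroup V] [Module ℂ V] {Ω : Set V}

theorem pol_le_rat (Ω : Set V) : Pol V ≤ Rat Ω := fun f hf =>
  ⟨f, hf, 1, one_mem _, fun p _ => by simp⟩

theorem rat_mono {Ω' : Set V} (h : Ω' ⊆ Ω) : Rat Ω ≤ Rat Ω' := by
  rintro F ⟨a, ha, b, hb, k⟩
  exact ⟨a, ha, b, hb, fun p hp => k p (h hp)⟩

theorem rat_inv {F : V → ℂ} (hF : F ∈ Rat Ω) (h : ∀ p ∈ Ω, F p ≠ 0) :
    (fun p => (F p)⁻¹) ∈ Rat Ω := by
  obtain ⟨a, ha, b, hb, k⟩ := hF
  refine ⟨b, hb, a, ha, fun p hp => ?_⟩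
  rw [← (k p hp).2]
  exact ⟨mul_ne_zero (h p hp) (k p hp).1, by rw [← mul_assoc, inv_mul_cancel₀ (h p hp), one_mul]⟩

theorem MP.nrm {u : V → M n} (hu : MP (Rat Ω).toSubring u) (h : ∀ p ∈ Ω, (u p).det ≠ 0)
    (i : Fin n) : MP (Rat Ω).toSubring fun p => nrm i (u p) := fun a b => by
  by_cases e : a = i
  · subst e
    simp only [P002.nrm, updateRow_self, Pi.smul_apply, smul_eq_mul]
    exact (Rat Ω).toSubring.mul_mem (rat_inv hu.det h) (hu a b)
  · simp only [P002.nrm, updateRow_ne e]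
    exact hu a b

theorem MP.Nh {u : V → Fin n → ℂ} {N C : V → M n} (hu : VP (Rat Ω).toSubring u)
    (hN : MP (Rat Ω).toSubring N) (hC : MP (Rat Ω).toSubring C)
    (h : ∀ p ∈ Ω, (P002.Lm (u p) (N p) (C p)).det ≠ 0) :
    MP (Rat Ω).toSubring fun p => Nh (u p) (N p) (C p) := by
  have hL := MP.Lm hu hN hC
  have hr : VP (Rat Ω).toSubring fun p => rv (N p) (C p) := fun i => by
    simp only [rv]
    split_ifs
    · exact (Rat Ω).toSubring.sub_mem (one_mem _) hN.det
    · exact (Rat Ω).toSubring.sub_mem ((MP.nat _).sub hN).det ((MP.nat _).sub (hN.mul hC)).det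
  refine hN.add fun a b => ?_
  simp only [vecMulVec_apply, Pi.smul_apply, smul_eq_mul]
  exact (Rat Ω).toSubring.mul_mem (hu a)
    ((Rat Ω).toSubring.mul_mem (rat_inv hL.det h) (hL.adj.mulVec hr b))
end

theorem MP.Kr {V : Type} {A : Subring (V → ℂ)} {w : V → Fin n → ℂ} {N : V → M n} (hN : MP A N)
    (hw : VP A w) : MP A fun p => Kr (N p) (w p) := fun i k => (hN.pow k.1).mulVec hw i

theorem vp_lin {V : Type} [AddCommGroup V] [Module ℂ V] (f : V →ₗ[ℂ] (Fin n → ℂ)) :
    VP (Pol V).toSubring f := fun i =>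
  Algebra.subset_adjoin ⟨(LinearMap.proj i).comp f, rfl⟩

theorem nrm_det (i : Fin n) {X : M n} (h : X.det ≠ 0) : (nrm i X).det = 1 := by
  rw [nrm, det_updateRow_smul, updateRow_eq_self, inv_mul_cancel₀ h]

theorem nrm_eq (i : Fin n) {X : M n} (h : X.det = 1) : nrm i X = X := by
  rw [nrm, h, inv_one, one_smul, updateRow_eq_self]

section
variable {V : Type} [NormedAddCommGroup V] [NormedSpace ℂ V] [FiniteDimensional ℂ V] {Ω : Set V}

theorem pol_analytic {f : V → ℂ} (hf : f ∈ Pol V) (p : V) : AnalyticAt ℂ f p := by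
  induction hf using Algebra.adjoin_induction with
  | mem f hf =>
    obtain ⟨l, rfl⟩ := hf
    exact (LinearMap.toContinuousLinearMap l).analyticAt p
  | algebraMap a => exact analyticAt_const
  | add f h _ _ hf hh => exact hf.add hh
  | mul f h _ _ hf hh => exact hf.mul hh

theorem pol_zero {f : V → ℂ} (hf : f ∈ Pol V) {p : V} (h : ∀ᶠ q in 𝓝 p, f q = 0) (q : V) :
    f q = 0 :=
  congrFun (AnalyticOnNhd.eq_of_eventuallyEq (f := f) (g := fun _ => 0)
    (fun z _ => pol_analytic hf z) (fun _ _ => analyticAt_const) h) q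

theorem rat_zero {F : V → ℂ} (hF : F ∈ Rat Ω) {p : V} (h : ∀ᶠ q in 𝓝 p, q ∈ Ω ∧ F q = 0) :
    ∀ q ∈ Ω, F q = 0 := by
  obtain ⟨a, ha, b, hb, k⟩ := hF
  have := pol_zero ha (p := p) (h.mono fun q hq => by rw [← (k q hq.1).2, hq.2, zero_mul])
  intro q hq
  exact (mul_eq_zero.1 ((k q hq).2.trans (this q))).resolve_right (k q hq).1

theorem rat_cont {F : V → ℂ} (hF : F ∈ Rat Ω) : ContinuousOn F Ω := by
  obtain ⟨a, ha, b, hb, k⟩ := hF
  refine ((pol_contDiff ha).continuous.continuousOn.div (pol_contDiff hb).continuous.continuousOn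
    fun p hp => (k p hp).1).congr fun p hp => ?_
  exact (eq_div_iff (k p hp).1).2 (k p hp).2

theorem EP.continuousOn {φ : V → E g n} (hφ : EP (Rat Ω).toSubring φ) : ContinuousOn φ Ω :=
  continuousOn_pi.2 fun j =>
    (continuousOn_pi.2 fun a => continuousOn_pi.2 fun b => rat_cont ((hφ j).1 a b)).prodMk
      (continuousOn_pi.2 fun a => continuousOn_pi.2 fun b => rat_cont ((hφ j).2 a b))

theorem cl_closed (S : Set V) : IsClosed (cl S) := by
  simp only [cl, Set.setOf_forall]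
  exact isClosed_iInter fun f => isClosed_iInter fun hf => isClosed_iInter fun _ =>
    isClosed_eq (pol_contDiff hf).continuous continuous_const
end

end Vale.Agent.P002
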