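import Vale.Agent.P002.Def3
import Vale.Agent.P002.RatL
import Vale.Agent.P002.Ex

open scoped Matrix.Norms.Operator Topology
open Matrix Filter

namespace Vale.Agent.P002

variable {g n : ℕ} {κ : Kd g n}

theorem ExK_res {f : M n → ℂ}
    (hf : f ∈ Pol (M n)) {v : M n} (hv : f v ≠ 0) : ∀ᶠ X in residual (M n), f X ≠ 0 := by
  refine residual_of_dense_open (isOpen_ne_fun (pol_contDiff hf).continuous continuous_const)
    fun p => mem_closure_iff_frequently.2 fun h => hv (pol_zero hf (p := p) ?_ v)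
  exact h.mono fun q hq => not_not.1 hq

theorem ExK_ex {P : M n → Prop} (h : ∀ᶠ X in residual (M n), P X) : ∃ X, P X := by
  have : BaireSpace (M n) := inferInstanceAs (BaireSpace (Fin n → Fin n → ℂ))
  exact (dense_of_mem_residual h).nonempty

theorem ExK_smul {c : ℂ} (hc : c ≠ 0) {D : M n} (h : dl D ≠ 0) : dl (c • D) ≠ 0 := by
  obtain ⟨P, Q, α, h1, h2, rfl⟩ := dg2 h
  rw [← Matrix.smul_mul, ← Matrix.mul_smul, ← diagonal_smul]
  exact dg1 h1 fun i j e => h2 (mul_left_cancel₀ hc e)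

theorem ExK_X {ι : Type} [Fintype ι] (τ : ι → M n) (hτ : ∀ i, (τ i).det = 1) :
    ∃ X : M n, X.det ≠ 0 ∧ dl X ≠ 0 ∧ ∀ p, 0 < p → dl (adjugate X ^ p) ≠ 0 ∧
      ∀ i, dl (X ^ p * τ i) ≠ 0 := by
  have hid : MP (Pol (M n)).toSubring fun X => X := mp_lin LinearMap.id
  have hc : ∀ i, MP (Pol (M n)).toSubring fun _ => τ i := fun i a b =>
    (Pol (M n)).algebraMap_mem (τ i a b)
  have hy := Ex_gy (n := n) one_ne_zero
  have hD : dl (Bm 0 (ExY n 1)) ≠ 0 := dg1 (PQ 0) hy.1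
  have h1 : ∀ᶠ X in residual (M n), dl X ≠ 0 := ExK_res hid.dl hD
  have h2 : ∀ᶠ X in residual (M n), ∀ p, 0 < p → dl (adjugate X ^ p) ≠ 0 ∧
      ∀ i, dl (X ^ p * τ i) ≠ 0 := by
    refine eventually_countable_forall.2 fun p => ?_
    rcases Nat.eq_zero_or_pos p with hp | hp
    · exact Eventually.of_forall fun _ h => by omega
    refine (Eventually.and ?_ (eventually_all.2 fun i => ?_)).mono fun _ h _ => h
    · refine ExK_res (hid.adj.pow p).dl (v := Bm 0 (ExY n 1)) ?_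
      rw [Bm_adj 0 hy, Bm_pow]
      have e : (fun i => (ExY n 1 i)⁻¹ ^ p) = ExY n (-p) := by
        funext i
        simp only [ExY]
        rw [← Complex.ofReal_inv, ← Complex.ofReal_pow, ← Real.exp_neg, ← Real.exp_nat_mul]
        congr 2
        ring
      rw [e]
      exact dg1 (PQ 0) (Ex_gy (neg_ne_zero.mpr (by exact_mod_cast hp.ne'))).1
    · obtain ⟨R, r1, r2⟩ := ExK_ex (h1.and (ExK_res (hid.mul (hc i)).dl
        (v := Bm 0 (ExY n 1) * adjugate (τ i)) (by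
          rwa [Matrix.mul_assoc, adjugate_mul, hτ, one_smul, Matrix.mul_one])))
      obtain ⟨P, Q, α, k1, -, rfl⟩ := dg2 r1
      choose b hb using fun j => IsAlgClosed.exists_pow_nat_eq (α j) hp
      refine ExK_res ((hid.pow p).mul (hc i)).dl (v := P * diagonal b * Q) ?_
      have e : b ^ p = α := funext hb
      rwa [Dg_pow k1, diagonal_pow, e]
  obtain ⟨X, ⟨a1, a2⟩, a3⟩ :=
    ExK_ex (((ExK_res hid.det (v := 1) (by simp)).and h1).and h2)
  exact ⟨X, a1, a2, a3⟩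

theorem exK {ι : Type} [Fintype ι] (τ : ι → M n) (hτ : ∀ i, (τ i).det = 1) :
    ∃ (Q Q' : M n) (y y' : Fin n → ℂ), Q * Q' = 1 ∧ GY y ∧ GY y' ∧
      ∀ p q : ℕ, 0 < p → p ≤ n → 0 < q → q ≤ n →
        dl (adjugate (Q * Bm 0 y * Q') ^ p * (Q * Bm 1 y' * Q') ^ q) ≠ 0 ∧
        ∀ i, dl ((Q * Bm 0 y * Q') ^ p * adjugate (Q * Bm 1 y' * Q') ^ q * τ i) ≠ 0 := by
  rcases Nat.eq_zero_or_pos n with hn | hn
  · exact ⟨1, 1, ExY n 1, ExY n 1, mul_one _, Ex_gy one_ne_zero, Ex_gy one_ne_zero,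
      fun p q h1 h2 => by omega⟩
  obtain ⟨X, a1, a2, a3⟩ := ExK_X τ hτ
  obtain ⟨c, hc⟩ := IsAlgClosed.exists_pow_nat_eq X.det⁻¹ hn
  have hc0 : c ≠ 0 := fun h => inv_ne_zero a1 (by rw [← hc, h, zero_pow hn.ne'])
  obtain ⟨P, P', y, k1, k2, k3⟩ := dg2 (ExK_smul hc0 a2)
  have hy : GY y := ⟨k2, by
    have e := congrArg det k3
    rw [det_smul, Fintype.card_fin, hc, inv_mul_cancel₀ a1, det_mul, det_mul, mul_right_comm,
      ← det_mul, k1, det_one, one_mul, det_diagonal] at e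
    exact e.symm⟩
  have hQ : P * QJ n 0 * (PJ n 0 * P') = 1 := by
    rw [Matrix.mul_assoc, ← Matrix.mul_assoc (QJ n 0), QP, Matrix.one_mul, k1]
  have hX : P * QJ n 0 * Bm 0 y * (PJ n 0 * P') = c • X := by
    rw [k3, Bm]
    calc _ = P * (QJ n 0 * PJ n 0) * diagonal y * (QJ n 0 * PJ n 0) * P' := by
          simp only [Matrix.mul_assoc]
      _ = _ := by rw [QP, Matrix.mul_one, Matrix.mul_one]
  generalize P * QJ n 0 = Q at hQ hX
  generalize PJ n 0 * P' = Q' at hQ hX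
  have h1 : Continuous fun t : ℝ => Q * Bm 1 (ExY n t) * Q' := by
    have h0 : Continuous fun t : ℝ => (diagonal (ExY n t) : M n) := by
      refine Continuous.matrix_diagonal ?_
      unfold ExY
      fun_prop
    exact (continuous_const.mul ((continuous_const.mul h0).mul continuous_const)).mul
      continuous_const
  have h3 : Q * Bm 1 (ExY n 0) * Q' = 1 := by
    have : ExY n 0 = fun _ => 1 := by
      funext i
      simp [ExY]
    rw [this, Sp0_one, Matrix.mul_one, hQ]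
  have h5 : ∀ᶠ t in 𝓝 (0 : ℝ), ∀ p ∈ Finset.Icc 1 n, ∀ q ∈ Finset.Icc 1 n,
      dl (adjugate (c • X) ^ p * (Q * Bm 1 (ExY n t) * Q') ^ q) ≠ 0 ∧
      ∀ i, dl ((c • X) ^ p * adjugate (Q * Bm 1 (ExY n t) * Q') ^ q * τ i) ≠ 0 := by
    simp only [eventually_all_finset, eventually_and, eventually_all]
    intro p hp q _
    obtain ⟨b1, b2⟩ := a3 p (Finset.mem_Icc.1 hp).1
    refine ⟨(Ex_cont.comp (continuous_const.mul (h1.pow q))).continuousAt.eventually_ne ?_,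
      fun i => (Ex_cont.comp ((continuous_const.mul (h1.matrix_adjugate.pow q)).mul
        continuous_const)).continuousAt.eventually_ne ?_⟩
    · change dl (adjugate (c • X) ^ p * (Q * Bm 1 (ExY n 0) * Q') ^ q) ≠ 0
      rw [h3, one_pow, mul_one, adjugate_smul, smul_pow]
      exact ExK_smul (pow_ne_zero _ (pow_ne_zero _ hc0)) b1
    · change dl ((c • X) ^ p * adjugate (Q * Bm 1 (ExY n 0) * Q') ^ q * τ i) ≠ 0
      rw [h3, adjugate_one, one_pow, mul_one, smul_pow, Matrix.smul_mul]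
      exact ExK_smul (pow_ne_zero _ hc0) (b2 i)
  obtain ⟨t, t1, t2⟩ := Ex_pick h5
  refine ⟨Q, Q', y, ExY n t, hQ, hy, Ex_gy t1, fun p q p1 p2 q1 q2 => ?_⟩
  rw [hX]
  exact t2 p (Finset.mem_Icc.2 ⟨p1, p2⟩) q (Finset.mem_Icc.2 ⟨q1, q2⟩)

end Vale.Agent.P002
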