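import Vale.Agent.P002.Def2

open scoped Matrix.Norms.Operator Topology
open Matrix Filter

namespace Vale.Agent.P002

variable {g n : ℕ}

section
variable {V W : Type} [NormedAddCommGroup V] [NormedSpace ℂ V] [FiniteDimensional ℂ V]
  [NormedAddCommGroup W] [NormedSpace ℂ W] [FiniteDimensional ℂ W]

theorem KER_gi (A : V →L[ℂ] W) : ∃ S : W →L[ℂ] V, ∀ v, A (S (A v)) = A v := by
  obtain ⟨σ, hσ⟩ := (A : V →ₗ[ℂ] W).rangeRestrict.exists_rightInverse_of_surjective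
    (LinearMap.range_rangeRestrict _)
  obtain ⟨S, hS⟩ := LinearMap.exists_extend σ
  refine ⟨LinearMap.toContinuousLinearMap S, fun v => ?_⟩
  have h1 := LinearMap.congr_fun hS ⟨A v, v, rfl⟩
  have h2 := congrArg Subtype.val (LinearMap.congr_fun hσ ⟨A v, v, rfl⟩)
  change S (A v) = _ at h1
  change A (S (A v)) = A v
  rw [h1]
  exact h2

omit [FiniteDimensional ℂ W] in
theorem KER_rk (A : V →L[ℂ] W) :
    rk A + Module.finrank ℂ (LinearMap.ker (A : V →ₗ[ℂ] W)) = Module.finrank ℂ V :=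
  LinearMap.finrank_range_add_finrank_ker _

omit [FiniteDimensional ℂ V] [FiniteDimensional ℂ W] in
theorem KER_map {A B : V →L[ℂ] W} {S : W →L[ℂ] V} (hS : ∀ v, A (S (A v)) = A v)
    (hU : IsUnit (1 + S ∘L (B - A))) :
    (LinearMap.ker (B : V →ₗ[ℂ] W)).map ((1 + S ∘L (B - A) : V →L[ℂ] V) : V →ₗ[ℂ] V) ≤
        LinearMap.ker (A : V →ₗ[ℂ] W) ∧
      Module.finrank ℂ ((LinearMap.ker (B : V →ₗ[ℂ] W)).map
        ((1 + S ∘L (B - A) : V →L[ℂ] V) : V →ₗ[ℂ] V)) =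
        Module.finrank ℂ (LinearMap.ker (B : V →ₗ[ℂ] W)) := by
  constructor
  · rintro _ ⟨v, hv, rfl⟩
    have hv' : B v = 0 := hv
    change A (v + S (B v - A v)) = 0
    rw [hv', zero_sub, map_neg, map_add, map_neg, hS, add_neg_cancel]
  · refine (LinearEquiv.finrank_eq (Submodule.equivMapOfInjective _ (fun a b h => ?_) _)).symm
    have h1 := congrArg (fun v => Ring.inverse (1 + S ∘L (B - A) : V →L[ℂ] V) v) h
    have h2 : ∀ v, Ring.inverse (1 + S ∘L (B - A)) ((1 + S ∘L (B - A)) v) = v := fun v =>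
      ContinuousLinearMap.ext_iff.1 (Ring.inverse_mul_cancel _ hU) v
    exact (h2 a).symm.trans (h1.trans (h2 b))

omit [FiniteDimensional ℂ W] in
theorem KER_unit {X : Type} [TopologicalSpace X] {T : X → V →L[ℂ] W} {x : X}
    (hT : ContinuousAt T x) (S : W →L[ℂ] V) :
    ∀ᶠ y in 𝓝 x, IsUnit (1 + S ∘L (T y - T x)) := by
  have := FiniteDimensional.complete ℂ V
  have h1 : ContinuousAt (fun y => 1 + S ∘L (T y - T x)) x :=
    continuousAt_const.add (continuousAt_const.clm_comp (hT.sub continuousAt_const))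
  refine h1.eventually (Units.isOpen.mem_nhds ?_)
  simp

theorem rk_lsc {X : Type} [TopologicalSpace X] {T : X → V →L[ℂ] W} {x : X}
    (hT : ContinuousAt T x) : ∀ᶠ y in 𝓝 x, rk (T x) ≤ rk (T y) := by
  obtain ⟨S, hS⟩ := KER_gi (T x)
  filter_upwards [KER_unit hT S] with y hy
  obtain ⟨h1, h2⟩ := KER_map hS hy
  have h3 := Submodule.finrank_mono h1
  have h4 := KER_rk (T x)
  have h5 := KER_rk (T y)
  omega

theorem ker_fam {T : ℂ → V →L[ℂ] W} (hT : DifferentiableAt ℂ T 0)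
    (hr : ∀ᶠ t in 𝓝 (0 : ℂ), rk (T t) ≤ rk (T 0)) {η : V} (h : T 0 η = 0) :
    ∃ (ξ : ℂ → V) (ξ' : V), ξ 0 = η ∧ HasDerivAt ξ ξ' 0 ∧
      ∀ᶠ t in 𝓝 (0 : ℂ), T t (ξ t) = 0 := by
  have := FiniteDimensional.complete ℂ V
  obtain ⟨S, hS⟩ := KER_gi (T 0)
  have h1 : DifferentiableAt ℂ (fun t => 1 + S ∘L (T t - T 0)) 0 :=
    (differentiableAt_const _).add ((differentiableAt_const _).clm_comp (hT.sub_const _))
  have h2 : DifferentiableAt ℂ (fun t => Ring.inverse (1 + S ∘L (T t - T 0)) η) 0 :=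
    (h1.inverse (by simp)).clm_apply (differentiableAt_const _)
  refine ⟨_, _, by simp, h2.hasDerivAt, ?_⟩
  filter_upwards [KER_unit hT.continuousAt S, hr] with t ht h3
  obtain ⟨h4, h5⟩ := KER_map hS ht
  have h6 := KER_rk (T 0)
  have h7 := KER_rk (T t)
  have h8 := Submodule.eq_of_le_of_finrank_le h4 (by omega)
  obtain ⟨v, hv, e⟩ := h8.ge (show η ∈ LinearMap.ker (T 0 : V →ₗ[ℂ] W) from h)
  have h9 : Ring.inverse (1 + S ∘L (T t - T 0)) ((1 + S ∘L (T t - T 0)) v) = v :=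
    ContinuousLinearMap.ext_iff.1 (Ring.inverse_mul_cancel _ ht) v
  have e' : (1 + S ∘L (T t - T 0)) v = η := e
  rw [e'] at h9
  rw [h9]
  exact hv
end

theorem ee_of {N : ℂ → M n} {N' : M n} (hN : HasDerivAt N N' 0)
    (hr : ∀ᶠ t in 𝓝 (0 : ℂ), rk (adL (N t)) ≤ rk (adL (N 0))) : N' ∈ EE (N 0) := by
  intro ζ hζ
  obtain ⟨ξ, ξ', h0, h1, h2⟩ := ker_fam (T := fun t => adL (N t))
    ((adL (n := n)).differentiableAt.comp 0 hN.differentiableAt) hr (η := ζ)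
    (sub_eq_zero.2 hζ)
  have h3 := (hN.fun_mul h1).fun_sub (h1.fun_mul hN)
  have h4 := h3.unique ((hasDerivAt_const (0 : ℂ) (0 : M n)).congr_of_eventuallyEq h2)
  rw [h0] at h4
  refine ⟨-ξ', ?_⟩
  rw [← sub_eq_zero, ← h4]
  noncomm_ring

theorem sch_open {x : E g n} (hx : Sch x) : ∀ᶠ y in 𝓝 x, Sch y := by
  let T : E g n → M n →L[ℂ] E g n := fun y =>
    ContinuousLinearMap.pi fun j => (adL (y j).1).prod (adL (y j).2)
  have hk : ∀ y ξ, ξ ∈ LinearMap.ker (T y : M n →ₗ[ℂ] E g n) ↔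
      ∀ j, ξ * (y j).1 = (y j).1 * ξ ∧ ξ * (y j).2 = (y j).2 * ξ := fun y ξ => by
    change (fun j => ((y j).1 * ξ - ξ * (y j).1, (y j).2 * ξ - ξ * (y j).2)) = 0 ↔ _
    simp only [funext_iff, Pi.zero_apply, Prod.mk_eq_zero, sub_eq_zero, eq_comm (a := ξ * _)]
  have hT : Continuous T := continuous_clm_apply.2 fun ξ => by
    change Continuous fun y : E g n =>
      fun j => ((y j).1 * ξ - ξ * (y j).1, (y j).2 * ξ - ξ * (y j).2)
    fun_prop
  filter_upwards [rk_lsc hT.continuousAt (x := x)] with y hy ξ hξ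
  have h1 : LinearMap.ker (T x : M n →ₗ[ℂ] E g n) ≤ Submodule.span ℂ {1} := fun ζ hζ => by
    obtain ⟨c, hc⟩ := hx ζ ((hk x ζ).1 hζ)
    exact Submodule.mem_span_singleton.2 ⟨c, hc.symm⟩
  have h2 : Submodule.span ℂ {1} ≤ LinearMap.ker (T y : M n →ₗ[ℂ] E g n) :=
    Submodule.span_le.2 (Set.singleton_subset_iff.2 ((hk y 1).2 fun j => by simp))
  have h3 := Submodule.finrank_mono h1
  have h4 := KER_rk (T x)
  have h5 := KER_rk (T y)
  obtain ⟨c, hc⟩ := Submodule.mem_span_singleton.1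
    ((Submodule.eq_of_le_of_finrank_le h2 (by omega)).ge ((hk y ξ).2 hξ))
  exact ⟨c, hc.symm⟩

end Vale.Agent.P002
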