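import Vale.Agent.P002.Def3
import Vale.Agent.P002.RatL
import Vale.Agent.P002.KerF

open scoped Matrix.Norms.Operator Topology
open Matrix Filter

namespace Vale.Agent.P002

variable {g n : ℕ} {κ : Kd g n}

theorem EP.pk {V : Type} {A : Subring (V → ℂ)} {x : V → E g n} (hκ : KA A κ) (hx : EP A x)
    (m : ℕ) : MP A fun v => pk κ (x v) m := by
  have := list_mp ((List.finRange g).take m) (f := fun j v => it (κ j) (x v j)) fun j => by
    cases h : κ j with
    | none => exact (((hx j).1.mul (hx j).2).mul (hx j).1.adj).mul (hx j).2.adj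
    | some J => exact ((hx j).1.mul (hκ j J h)).mul (hx j).1.adj
  simpa only [P002.pk, List.ofFn_eq_map, List.map_take] using this

theorem KA_alg {V : Type} (A : Subalgebra ℂ (V → ℂ)) (κ : Kd g n) : KA A.toSubring κ :=
  fun _ J _ a b => A.algebraMap_mem (J a b)

theorem cl_RK {S : Set (E g n)} (hS : S ⊆ RK κ) : cl S ⊆ RK κ := by
  intro x hx
  have k : ∀ (f : E g n → ℂ) (c : ℂ), f ∈ (Pol (E g n)).toSubring → (∀ s ∈ S, f s = c) →
      f x = c := fun f c hf h => sub_eq_zero.1 (hx (f - algebraMap ℂ _ c)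
        (sub_mem hf ((Pol _).algebraMap_mem c)) fun s hs => sub_eq_zero.2 (h s hs))
  have e : EP (Pol (E g n)).toSubring fun x : E g n => x := ep_lin LinearMap.id
  refine ⟨fun j => ⟨k _ 1 (e j).1.det fun s hs => ((hS hs).1 j).1,
    k _ 1 (e j).2.det fun s hs => ((hS hs).1 j).2⟩, Matrix.ext fun a b => ?_⟩
  exact k _ _ (EP.pk (KA_alg _ κ) e g a b) fun s hs => congrFun (congrFun (hS hs).2 a) b

theorem pk_det (hd : KD κ) {x : E g n} (h : ∀ j, (x j).1.det = 1 ∧ (x j).2.det = 1) (m : ℕ) :
    (pk κ x m).det = 1 := by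
  refine List.prod_induction (fun A : M n => A.det = 1) (fun a b ha hb => ?_) det_one
    fun A hA => ?_
  · rw [det_mul, ha, hb, mul_one]
  · obtain ⟨j, rfl⟩ := List.mem_ofFn.1 (List.mem_of_mem_take hA)
    cases hj : κ j with
    | none => simp [it, cm, det_adjugate, (h j).1, (h j).2]
    | some J => simp [it, det_adjugate, (h j).1, hd j J hj]

theorem pk_succ (x : E g n) (j : Fin g) : pk κ x (j.1 + 1) = pk κ x j * it (κ j) (x j) := by
  unfold pk
  rw [List.prod_take_succ _ _ (by simp)]
  simp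

theorem pk_split {o : Fin g} (ho : o.1 = 0) (hk : κ o = none) (x : E g n) :
    pk κ x g = cm (x o) * pk κ (Function.update x o (1, 1)) g := by
  obtain ⟨g, rfl⟩ : ∃ g', g = g' + 1 := ⟨g - 1, by have := o.2; omega⟩
  obtain rfl : o = 0 := Fin.ext ho
  unfold pk
  rw [List.ofFn_succ, List.ofFn_succ, List.take_succ_cons, List.take_succ_cons, List.prod_cons,
    List.prod_cons, Function.update_self, hk]
  simp [it, cm, Function.update_of_ne (Fin.succ_ne_zero _)]

theorem sc_SK (hn : 0 < n) {o : Fin g} (hk : κ o = none) {L : IntermediateField ℚ ℂ} {ω : ℂ}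
    (hL : ω ∈ L) (hω : IsPrimitiveRoot ω n) {s : E g n} (hs : s ∈ SK L κ) :
    sc o ω s ∈ SK L κ := by
  have hO : ω ∈ OO L := ⟨hL, (hω.isIntegral hn)⟩
  have e : (fun j => it (κ j) (sc o ω s j)) = fun j => it (κ j) (s j) := by
    funext j
    by_cases h : j = o
    · subst h
      have : ω ^ (n - 1) * ω = 1 := by rw [← pow_succ, Nat.sub_add_cancel hn, hω.pow_eq_one]
      rw [hk]
      simp [it, sc, cm, adjugate_smul, smul_smul, this]
    · simp [sc, h]
  refine ⟨⟨fun j => ?_, ?_⟩, fun j => ?_⟩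
  · by_cases h : j = o
    · subst h
      simp [sc, hs.1.1 j, hω.pow_eq_one]
    · simpa [sc, h] using hs.1.1 j
  · rw [pk, e]
    exact hs.1.2
  · by_cases h : j = o
    · subst h
      simp only [sc, Function.update_self]
      exact ⟨(hs.2 j).1, fun a b => mul_mem hO ((hs.2 j).2 a b)⟩
    · simpa [sc, h] using hs.2 j

def pklP : Option (M n) → M n × M n → M n × M n
  | none, a => a
  | some J, a => (a.1 * J * adjugate a.1, a.1 * J * adjugate a.1)

theorem pkl_cm (k : Option (M n)) (a : M n × M n) (ξ : M n) :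
    Cm k a ξ ↔ ξ * (pklP k a).1 = (pklP k a).1 * ξ ∧ ξ * (pklP k a).2 = (pklP k a).2 * ξ := by
  cases k with
  | none => exact Iff.rfl
  | some J => exact and_self_iff.symm

theorem pkl_sch (x : E g n) : SchK κ x ↔ Sch fun j => pklP (κ j) (x j) := by
  simp only [SchK, Sch, pkl_cm]

theorem pkl_cont (k : Option (M n)) : Continuous (pklP k) := by
  cases k with
  | none => exact continuous_id
  | some J =>
    have : Continuous fun a : M n × M n => a.1 * J * adjugate a.1 :=
      (continuous_fst.matrix_mul continuous_const).matrix_mul continuous_fst.matrix_adjugate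
    exact this.prodMk this

theorem schK_open {x : E g n} (hx : SchK κ x) : ∀ᶠ y in 𝓝 x, SchK κ y := by
  have hc : Continuous fun (y : E g n) (j : Fin g) => pklP (κ j) (y j) :=
    continuous_pi fun j => (pkl_cont (κ j)).comp (continuous_apply j)
  exact (hc.continuousAt.eventually (sch_open ((pkl_sch x).1 hx))).mono
    fun y hy => (pkl_sch y).2 hy

end Vale.Agent.P002
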