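import Vale.Agent.P002.Def4
import Vale.Agent.P002.PkL
import Vale.Agent.P002.Mv

open scoped Matrix.Norms.Operator Topology
open Matrix Filter

namespace Vale.Agent.P002

variable {g n : ℕ}

def ExN (e u : M n) : Prop := e * u = u ∧ u * e = 0

theorem ExN.add {e u w : M n} (hu : ExN e u) (hw : ExN e w) : ExN e (u + w) :=
  ⟨by rw [mul_add, hu.1, hw.1], by rw [add_mul, hu.2, hw.2, add_zero]⟩

theorem ExN.neg {e u : M n} (hu : ExN e u) : ExN e (-u) :=
  ⟨by rw [mul_neg, hu.1], by rw [neg_mul, hu.2, neg_zero]⟩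

theorem ExN.left {e u a : M n} (hu : ExN e u) (ha : Commute e a) : ExN e (a * u) :=
  ⟨by rw [← mul_assoc, ha.eq, mul_assoc, hu.1], by rw [mul_assoc, hu.2, mul_zero]⟩

theorem ExN.right {e u a : M n} (hu : ExN e u) (ha : Commute e a) : ExN e (u * a) :=
  ⟨by rw [← mul_assoc, hu.1], by rw [mul_assoc, ← ha.eq, ← mul_assoc, hu.2, zero_mul]⟩

theorem ExN.mul {e u w : M n} (hu : ExN e u) (hw : ExN e w) :
    (1 + u) * (1 + w) = 1 + (u + w) := by
  have : u * w = 0 := by rw [← hw.1, ← mul_assoc, hu.2, zero_mul]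
  rw [add_mul, one_mul, mul_add, mul_one, this, add_zero, add_assoc, add_comm w]

theorem ExN_of {e u : M n} (he : e * e = e) (h : e * u * (1 - e) = u) : ExN e u :=
  ⟨by rw [← h, ← mul_assoc, ← mul_assoc, he],
    by rw [← h, mul_assoc, sub_mul, one_mul, he, sub_self, mul_zero]⟩

theorem Ex_l {a : M n} (h : a.det = 1) : adjugate a * a = 1 := by rw [adjugate_mul, h, one_smul]

theorem Ex_r {a : M n} (h : a.det = 1) : a * adjugate a = 1 := by rw [mul_adjugate, h, one_smul]

theorem Ex_adj {e a : M n} (h : a.det = 1) (ha : Commute e a) : Commute e (adjugate a) := by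
  calc e * adjugate a = adjugate a * a * e * adjugate a := by rw [Ex_l h, one_mul]
    _ = adjugate a * e * (a * adjugate a) := by
        rw [mul_assoc (adjugate a), ← ha.eq]
        simp only [mul_assoc]
    _ = _ := by rw [Ex_r h, mul_one]

theorem Ex_mv {c c' : M n} (h : c' * c = 1) (Z : M n) : c * (1 + Z) = (1 + c * Z * c') * c := by
  rw [mul_add, add_mul, mul_one, one_mul, mul_assoc (c * Z), h, mul_one]

theorem Ex_one {e a u : M n} (h : a.det = 1) (ha : Commute e a) (hu : ExN e u) :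
    a + u = (1 + u * adjugate a) * a ∧ (a + u).det = 1 ∧
      adjugate (a + u) = adjugate a * (1 + -(u * adjugate a)) := by
  have hU := hu.right (Ex_adj h ha)
  have h1 : a + u = (1 + u * adjugate a) * a := by
    rw [add_mul, one_mul, mul_assoc, Ex_l h, mul_one]
  have h2 : (a + u).det = 1 := by
    rw [h1, det_mul, h, mul_one, ← hU.1, det_one_add_mul_comm, hU.2, add_zero, det_one]
  refine ⟨h1, h2, ?_⟩
  have h3 : (a + u) * (adjugate a * (1 + -(u * adjugate a))) = 1 := by
    rw [h1, mul_assoc, ← mul_assoc a, Ex_r h, one_mul, hU.mul hU.neg, add_neg_cancel, add_zero]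
  calc adjugate (a + u) = adjugate (a + u) * ((a + u) * (adjugate a * (1 + -(u * adjugate a)))) := by
        rw [h3, mul_one]
    _ = _ := by rw [← mul_assoc, Ex_l h2, one_mul]

theorem Ex_cm {e A B u w : M n} (hA : A.det = 1) (hB : B.det = 1) (ha : Commute e A)
    (hb : Commute e B) (hu : ExN e u) (hw : ExN e w) :
    ExN e (dcm (A, B) (u, w)) ∧ cm (A + u, B + w) = (1 + dcm (A, B) (u, w)) * cm (A, B) := by
  have ha' := Ex_adj hA ha
  have hb' := Ex_adj hB hb
  have hC : (cm (A, B)).det = 1 := by simp only [cm, det_mul, mv_adet, hA, hB, mul_one]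
  have hc : Commute e (cm (A, B)) := ((ha.mul_right hb).mul_right ha').mul_right hb'
  have z1 := hu.right ha'
  have z0 := hw.right hb'
  have z2 := (z0.left ha).right ha'
  have z3 := (z1.neg.left ((ha.mul_right hb).mul_right ha')).right ((ha.mul_right hb').mul_right ha')
  have z4 := (z0.neg.left hc).right (Ex_adj hC hc)
  have e0 : dcm (A, B) (u, w) = u * adjugate A + (A * (w * adjugate B) * adjugate A +
      (A * B * adjugate A * -(u * adjugate A) * (A * adjugate B * adjugate A) +
        cm (A, B) * -(w * adjugate B) * adjugate (cm (A, B)))) := by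
    simp only [dcm, mul_neg, neg_mul]
    abel
  have h1 := Ex_mv (Ex_l hA) (w * adjugate B)
  have h2 := Ex_mv (c := A * B * adjugate A) (c' := A * adjugate B * adjugate A) (by
    calc _ = A * (adjugate B * ((adjugate A * A) * B)) * adjugate A := by simp only [mul_assoc]
      _ = 1 := by rw [Ex_l hA, one_mul, Ex_l hB, mul_one, Ex_r hA]) (-(u * adjugate A))
  have h3 := Ex_mv (Ex_l hC) (-(w * adjugate B))
  obtain ⟨a1, -, a2⟩ := Ex_one hA ha hu
  obtain ⟨b1, -, b2⟩ := Ex_one hB hb hw
  refine ⟨e0 ▸ z1.add (z2.add (z3.add z4)), ?_⟩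
  rw [e0, ← z1.mul (z2.add (z3.add z4)), ← z2.mul (z3.add z4), ← z3.mul z4, mul_assoc, mul_assoc,
    mul_assoc (1 + _), ← h3]
  calc cm (A + u, B + w) = (1 + u * adjugate A) * (A * (1 + w * adjugate B) * (B * adjugate A *
        (1 + -(u * adjugate A)) * (adjugate B * (1 + -(w * adjugate B))))) := by
        simp only [cm]
        rw [a2, b2, a1, b1]
        simp only [mul_assoc]
    _ = (1 + u * adjugate A) * ((1 + A * (w * adjugate B) * adjugate A) *
        (A * B * adjugate A * (1 + -(u * adjugate A)) *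
          (adjugate B * (1 + -(w * adjugate B))))) := by
        rw [h1]
        simp only [mul_assoc]
    _ = _ := by
        rw [h2]
        simp only [cm, mul_assoc]

theorem extK {κ : Kd g n} (hd : KD κ) {x v : E g n} (hx : x ∈ RK κ) {e : M n}
    (he : e * e = e) (hz : Zc κ x e) (hv : Cor κ e (1 - e) v) (h0 : dpk κ x v = 0) :
    x + v ∈ RK κ := by
  have hj : ∀ j, (((x + v) j).1.det = 1 ∧ ((x + v) j).2.det = 1) ∧ Commute e (it (κ j) (x j)) ∧
      ExN e (dit (κ j) (x j) (v j)) ∧
      it (κ j) ((x + v) j) = (1 + dit (κ j) (x j) (v j)) * it (κ j) (x j) := fun j => by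
    have h1 := hz j
    obtain ⟨h2, h3, h4⟩ := hv j
    cases hk : κ j with
    | none =>
      rw [hk] at h1
      have hA := (hx.1 j).1
      have hB := (hx.1 j).2
      have ha : Commute e (x j).1 := h1.1
      have hb : Commute e (x j).2 := h1.2
      exact ⟨⟨(Ex_one hA ha (ExN_of he h2)).2.1, (Ex_one hB hb (ExN_of he h3)).2.1⟩,
        ((ha.mul_right hb).mul_right (Ex_adj hA ha)).mul_right (Ex_adj hB hb),
        Ex_cm hA hB ha hb (ExN_of he h2) (ExN_of he h3)⟩
    | some J =>
      rw [hk] at h1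
      have h5 : v j = 0 := h4 (by rw [hk]; exact Option.some_ne_none J)
      rw [Pi.add_apply, h5, add_zero]
      exact ⟨hx.1 j, h1, by simp [dit, ExN], by simp [dit]⟩
  let t : ℕ → M n := fun k => if h : k < g then
    pk κ x k * dit (κ ⟨k, h⟩) (x ⟨k, h⟩) (v ⟨k, h⟩) * adjugate (pk κ x k) else 0
  have key : ∀ m ≤ g, Commute e (pk κ x m) ∧ ExN e (∑ k ∈ Finset.range m, t k) ∧
      pk κ (x + v) m = (1 + ∑ k ∈ Finset.range m, t k) * pk κ x m := by
    intro m
    induction m with
    | zero => intro _; simp [pk, ExN]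
    | succ m ih =>
      intro hm
      obtain ⟨i1, i2, i3⟩ := ih (by omega)
      obtain ⟨-, j1, j2, j3⟩ := hj ⟨m, hm⟩
      have e1 := pk_succ (κ := κ) (x + v) ⟨m, hm⟩
      have e2 := pk_succ (κ := κ) x ⟨m, hm⟩
      have e3 : t m = pk κ x m * dit (κ ⟨m, hm⟩) (x ⟨m, hm⟩) (v ⟨m, hm⟩) * adjugate (pk κ x m) :=
        dif_pos hm
      have hP := pk_det hd hx.1 m
      have z := (j2.left i1).right (Ex_adj hP i1)
      simp only at e1 e2
      rw [Finset.sum_range_succ, e3, e1, e2]
      refine ⟨i1.mul_right j1, i2.add z, ?_⟩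
      rw [i3, j3, ← i2.mul z, mul_assoc, mul_assoc, ← mul_assoc (pk κ x m), Ex_mv (Ex_l hP),
        mul_assoc]
  refine ⟨fun j => (hj j).1, ?_⟩
  have e : ∑ k ∈ Finset.range g, t k = dpk κ x v := by
    rw [← Fin.sum_univ_eq_sum_range]
    exact Finset.sum_congr rfl fun j _ => dif_pos j.2
  rw [(key g le_rfl).2.2, e, h0, add_zero, one_mul]
  exact hx.2

end Vale.Agent.P002
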