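import Vale.Agent.P002.TD
import Vale.Agent.P002.Der1

open scoped Matrix.Norms.Operator Topology
open Matrix Filter

namespace Vale.Agent.P002

variable {g n : ℕ}

theorem flow_ct {V : Type} {A : Subring (V → ℂ)} {τ : V → ℂ} {Y : V → M n} (hτ : τ ∈ A)
    (hY : MP A Y) (hi : (fun v => ((1 + τ v • Y v).det)⁻¹) ∈ A) :
    MP A fun v => Ct (τ v) (Y v) :=
  MP.smul hi ((MP.one.add (MP.smul hτ hY)).pow n)

theorem flow_det {t : ℂ} {Y : M n} (h : (1 + t • Y).det ≠ 0) : (Ct t Y).det = 1 := by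
  rw [Ct, det_smul, det_pow, Fintype.card_fin, ← mul_pow, inv_mul_cancel₀ h, one_pow]

theorem flow_comm (t : ℂ) (X : M n) (k : ℕ) : Ct t (X ^ k) * X = X * Ct t (X ^ k) := by
  have h : Commute (1 + t • X ^ k) X :=
    (Commute.one_left X).add_left (((Commute.refl X).pow_left k).smul_left t)
  exact ((h.pow_left n).smul_left _).eq

theorem flow_ep_mono {V : Type} {A B : Subring (V → ℂ)} (h : A ≤ B) {x : V → E g n}
    (hx : EP A x) : EP B x := fun j => ⟨fun a b => h ((hx j).1 a b), fun a b => h ((hx j).2 a b)⟩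

theorem flow_ep_const {V : Type} (A : Subalgebra ℂ (V → ℂ)) (s : E g n) :
    EP A.toSubring fun _ : V => s :=
  fun _ => ⟨fun _ _ => A.algebraMap_mem _, fun _ _ => A.algebraMap_mem _⟩

theorem flow_int {L : IntermediateField ℚ ℂ} (hL : GoodL L) {D : E g n → M n}
    {m : E g n → M n → E g n} (hm : IsMove D m) {s : E g n} (hs : s ∈ SS L g n)
    (h2 : dl (D s) ≠ 0) {C : M n} (hC : C * D s = D s * C) (h1 : C.det = 1) :
    m s C ∈ cl (SS L g n) := by
  have hsE : EP ((OO L).comap (Pi.evalRingHom (fun _ : Unit => ℂ) ())) fun _ : Unit => s :=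
    fun j => ⟨(mp_unit _ _).2 (hs.2 j).1, (mp_unit _ _).2 (hs.2 j).2⟩
  have hD : Ent (OO L) (D s) := (mp_unit _ _).1 (hm.polyD _ _ _ hsE)
  refine cl_map' (φ := fun u => m s u) (fun l => ?_) (fun u hu => subset_cl _ ?_)
    (td hL hD h2 hC h1)
  · exact EP.lin (hm.polym _ _ (fun _ => s) (fun u => u) (flow_ep_const _ s)
      (mp_lin LinearMap.id)) l
  · obtain ⟨u1, u2, u3⟩ := hu
    have := hm.polym _ _ (fun _ => s) (fun _ => u) hsE ((mp_unit _ _).2 u1)
    exact ⟨hm.mem s hs.1 u u2 u3, fun j => ⟨(mp_unit _ _).1 (this j).1, (mp_unit _ _).1 (this j).2⟩⟩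

theorem flow_mem {L : IntermediateField ℚ ℂ} (hL : GoodL L) {D : E g n → M n}
    {m : E g n → M n → E g n} (hm : IsMove D m) (k : ℕ) (t : ℂ) {x : E g n}
    (hx : x ∈ cl (SS L g n)) (h1 : (1 + t • D x ^ k).det ≠ 0) (h2 : dl (D x) ≠ 0) :
    m x (Ct t (D x ^ k)) ∈ cl (SS L g n) := by
  have hid : EP (Pol (E g n)).toSubring fun v : E g n => v := ep_lin LinearMap.id
  have hD := hm.polyD _ _ _ hid
  have ht : (fun _ : E g n => t) ∈ (Pol (E g n)).toSubring := (Pol (E g n)).algebraMap_mem t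
  have hh : (fun v : E g n => (1 + t • D v ^ k).det) ∈ Pol (E g n) :=
    (MP.one.add (MP.smul ht (hD.pow k))).det
  have hle := pol_le_loc fun v : E g n => (1 + t • D v ^ k).det
  have hid' := flow_ep_mono (B := (Loc fun v : E g n => (1 + t • D v ^ k).det).toSubring) hle hid
  refine cl_map (φ := fun v => m v (Ct t (D v ^ k))) hh hD.dl (fun l => ?_)
    (fun s hs a1 a2 => flow_int hL hm hs a2 (flow_comm _ _ _) (flow_det a1)) hx h1 h2
  exact EP.lin (hm.polym _ _ _ _ hid'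
    (flow_ct (hle ht) ((hm.polyD _ _ _ hid').pow k) (inv_mem_loc _))) l

theorem vel_move {L : IntermediateField ℚ ℂ} (hL : GoodL L) {D : E g n → M n}
    {m : E g n → M n → E g n} (hm : IsMove D m) (k : ℕ) {x0 v : E g n} (h2 : dl (D x0) ≠ 0)
    (hv : HasDerivAt (fun t => m x0 (Ct t (D x0 ^ k))) v 0) : v ∈ Vel (cl (SS L g n)) x0 := by
  have hid : EP (Pol (ℂ × E g n)).toSubring fun y : ℂ × E g n => y.2 :=
    ep_lin (LinearMap.snd ℂ ℂ (E g n))
  have hD := hm.polyD _ _ _ hid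
  have ht : (fun y : ℂ × E g n => y.1) ∈ (Pol (ℂ × E g n)).toSubring :=
    Algebra.subset_adjoin ⟨LinearMap.fst ℂ ℂ (E g n), rfl⟩
  have hh : (fun y : ℂ × E g n => (1 + y.1 • D y.2 ^ k).det) ∈ Pol (ℂ × E g n) :=
    (MP.one.add (MP.smul ht (hD.pow k))).det
  have hle := pol_le_loc fun y : ℂ × E g n => (1 + y.1 • D y.2 ^ k).det
  have hid' := flow_ep_mono
    (B := (Loc fun y : ℂ × E g n => (1 + y.1 • D y.2 ^ k).det).toSubring) hle hid
  have h0 : (fun y : ℂ × E g n => (1 + y.1 • D y.2 ^ k).det) (0, x0) ≠ 0 := by simp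
  refine ⟨fun y => m y.2 (Ct y.1 (D y.2 ^ k)), ?_, fun x hx => ?_, hv, ?_⟩
  · exact EP.contDiffAt hh h0 (hm.polym _ _ _ _ hid'
      (flow_ct (hle ht) ((hm.polyD _ _ _ hid').pow k) (inv_mem_loc _)))
  · have : Ct 0 (D x ^ k) = 1 := by simp [Ct]
    show m x (Ct 0 (D x ^ k)) = x
    rw [this]
    exact hm.one x (cl_RR (fun s hs => hs.1) hx)
  · have e1 := (pol_contDiff hh).continuous.continuousAt.eventually_ne h0
    have e2 := (pol_contDiff (V := ℂ × E g n) hD.dl).continuous.continuousAt.eventually_ne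
      (x := ((0 : ℂ), x0)) h2
    filter_upwards [e1, e2] with y a1 a2 hy
    exact flow_mem hL hm k y.1 hy a1 a2

end Vale.Agent.P002
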