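import Vale.Agent.P002.PkL
import Vale.Agent.P002.Flow

open scoped Matrix.Norms.Operator Topology
open Matrix Filter

namespace Vale.Agent.P002

variable {g n : ℕ} {κ : Kd g n}

theorem flowK_int {L : IntermediateField ℚ ℂ} (hL : GoodL L) (hI : KI L κ) {D : E g n → M n}
    {m : E g n → M n → E g n} (hm : IsMoveK κ D m) {s : E g n} (hs : s ∈ SK L κ)
    (h2 : dl (D s) ≠ 0) {C : M n} (hC : C * D s = D s * C) (h1 : C.det = 1) :
    m s C ∈ cl (SK L κ) := by
  have hsE : EP ((OO L).comap (Pi.evalRingHom (fun _ : Unit => ℂ) ())) fun _ : Unit => s :=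
    fun j => ⟨(mp_unit _ _).2 (hs.2 j).1, (mp_unit _ _).2 (hs.2 j).2⟩
  have hK : KA ((OO L).comap (Pi.evalRingHom (fun _ : Unit => ℂ) ())) κ :=
    fun j J h => (mp_unit _ _).2 (hI j J h)
  have hD : Ent (OO L) (D s) := (mp_unit _ _).1 (hm.polyD _ _ _ hK hsE)
  refine cl_map' (φ := fun u => m s u) (fun l => ?_) (fun u hu => subset_cl _ ?_)
    (td hL hD h2 hC h1)
  · exact EP.lin (hm.polym _ _ (fun _ => s) (fun u => u) (KA_alg _ κ) (flow_ep_const _ s)
      (mp_lin LinearMap.id)) l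
  · obtain ⟨u1, u2, u3⟩ := hu
    have := hm.polym _ _ (fun _ => s) (fun _ => u) hK hsE ((mp_unit _ _).2 u1)
    exact ⟨hm.mem s hs.1 u u2 u3, fun j => ⟨(mp_unit _ _).1 (this j).1, (mp_unit _ _).1 (this j).2⟩⟩

theorem flowK_mem {L : IntermediateField ℚ ℂ} (hL : GoodL L) (hI : KI L κ) {D : E g n → M n}
    {m : E g n → M n → E g n} (hm : IsMoveK κ D m) (k : ℕ) (t : ℂ) {x : E g n}
    (hx : x ∈ cl (SK L κ)) (h1 : (1 + t • D x ^ k).det ≠ 0) (h2 : dl (D x) ≠ 0) :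
    m x (Ct t (D x ^ k)) ∈ cl (SK L κ) := by
  have hid : EP (Pol (E g n)).toSubring fun v : E g n => v := ep_lin LinearMap.id
  have hD := hm.polyD _ _ _ (KA_alg _ κ) hid
  have ht : (fun _ : E g n => t) ∈ (Pol (E g n)).toSubring := (Pol (E g n)).algebraMap_mem t
  have hh : (fun v : E g n => (1 + t • D v ^ k).det) ∈ Pol (E g n) :=
    (MP.one.add (MP.smul ht (hD.pow k))).det
  have hle := pol_le_loc fun v : E g n => (1 + t • D v ^ k).det
  have hid' := flow_ep_mono (B := (Loc fun v : E g n => (1 + t • D v ^ k).det).toSubring) hle hid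
  refine cl_map (φ := fun v => m v (Ct t (D v ^ k))) hh hD.dl (fun l => ?_)
    (fun s hs a1 a2 => flowK_int hL hI hm hs a2 (flow_comm _ _ _) (flow_det a1)) hx h1 h2
  exact EP.lin (hm.polym _ _ _ _ (KA_alg _ κ) hid'
    (flow_ct (hle ht) ((hm.polyD _ _ _ (KA_alg _ κ) hid').pow k) (inv_mem_loc _))) l

theorem vel_moveK {L : IntermediateField ℚ ℂ} (hL : GoodL L) (hI : KI L κ) {D : E g n → M n}
    {m : E g n → M n → E g n} (hm : IsMoveK κ D m) (k : ℕ) {x0 v : E g n} (h2 : dl (D x0) ≠ 0)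
    (hv : HasDerivAt (fun t => m x0 (Ct t (D x0 ^ k))) v 0) : v ∈ Vel (cl (SK L κ)) x0 := by
  have hid : EP (Pol (ℂ × E g n)).toSubring fun y : ℂ × E g n => y.2 :=
    ep_lin (LinearMap.snd ℂ ℂ (E g n))
  have hD := hm.polyD _ _ _ (KA_alg _ κ) hid
  have ht : (fun y : ℂ × E g n => y.1) ∈ (Pol (ℂ × E g n)).toSubring :=
    Algebra.subset_adjoin ⟨LinearMap.fst ℂ ℂ (E g n), rfl⟩
  have hh : (fun y : ℂ × E g n => (1 + y.1 • D y.2 ^ k).det) ∈ Pol (ℂ × E g n) :=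
    (MP.one.add (MP.smul ht (hD.pow k))).det
  have hle := pol_le_loc fun y : ℂ × E g n => (1 + y.1 • D y.2 ^ k).det
  have hid' := flow_ep_mono
    (B := (Loc fun y : ℂ × E g n => (1 + y.1 • D y.2 ^ k).det).toSubring) hle hid
  have h0 : (fun y : ℂ × E g n => (1 + y.1 • D y.2 ^ k).det) (0, x0) ≠ 0 := by simp
  refine ⟨fun y => m y.2 (Ct y.1 (D y.2 ^ k)), ?_, fun x hx => ?_, hv, ?_⟩
  · exact EP.contDiffAt hh h0 (hm.polym _ _ _ _ (KA_alg _ κ) hid'
      (flow_ct (hle ht) ((hm.polyD _ _ _ (KA_alg _ κ) hid').pow k) (inv_mem_loc _)))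
  · have : Ct 0 (D x ^ k) = 1 := by simp [Ct]
    show m x (Ct 0 (D x ^ k)) = x
    rw [this]
    exact hm.one x (cl_RK (fun s hs => hs.1) hx)
  · have e1 := (pol_contDiff hh).continuous.continuousAt.eventually_ne h0
    have e2 := (pol_contDiff (V := ℂ × E g n) hD.dl).continuous.continuousAt.eventually_ne
      (x := ((0 : ℂ), x0)) h2
    filter_upwards [e1, e2] with y a1 a2 hy
    exact flowK_mem hL hI hm k y.1 hy a1 a2

end Vale.Agent.P002
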