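import Vale.Agent.P002.RedK
import Vale.Agent.P002.BaseT

open scoped Matrix.Norms.Operator Topology
open Matrix Filter

namespace Vale.Agent.P002

variable {g s n : ℕ} (J : Fin s → SpecialLinearGroup (Fin n) ℂ)

theorem coreK2 (hn : 3 ≤ n) (hg : 2 ≤ g) {L : IntermediateField ℚ ℂ} (hL : GoodL L)
    (hR : ∃ ω ∈ L, IsPrimitiveRoot ω n) (hJ : ∀ i, Ent (OO L) (J i).1)
    (hz : ∃ z ∈ SK L (kJ J g), ∀ j : Fin (g + s), j.1 < 2 → z j = (1, 1)) {ρ : RepK g s n}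
    (hb : Bdry J ρ) (hi : Irred ρ)
    (f : MvPolynomial (((Fin g × Bool) ⊕ Fin s) × Fin n × Fin n) ℂ)
    (hf : ∀ σ : RepK g s n, IntegralK L σ → Bdry J σ → Irred σ →
      MvPolynomial.eval (evK σ) f = 0) : MvPolynomial.eval (evK ρ) f = 0 := by
  obtain ⟨x, hx, rfl⟩ := exists_repOf J hb
  obtain ⟨z, hz, hz'⟩ := hz
  obtain ⟨F, hF, h1⟩ := eval_pol J f
  obtain ⟨H, hH, h2, h3⟩ := irred_pol J hi
  have hT : Two (kJ J g) (Fin.castAdd s ⟨0, by omega⟩) (Fin.castAdd s ⟨1, by omega⟩) :=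
    ⟨rfl, rfl, Fin.addCases_left _, Fin.addCases_left _, fun j c h => by
      obtain ⟨i, rfl⟩ := kJ_some J h
      exact (J i).2⟩
  have key := dense_schK hT hn hL (fun j c h => by
    obtain ⟨i, rfl⟩ := kJ_some J h
    exact hJ i) hR hz (hz' _ (by simp)) (hz' _ (by simp)) hx (irred_sch J hi) (F * H)
    (mul_mem hF hH) fun y hy => by
      by_cases h : H y = 0
      · simp [h]
      rw [Pi.mul_apply, ← h1 y hy.1, hf _ (fun γ i j => ?_) (repOf_bdry J y hy.1) (h3 y hy.1 h),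
        zero_mul]
      obtain ⟨u, hu, e⟩ := word_mp J (V := Unit)
        (A := (OO L).comap (Pi.evalRingHom (fun _ : Unit => ℂ) ())) (x := fun _ => y)
        (fun i => (mp_unit _ _).2 (hJ i))
        (fun j => ⟨(mp_unit _ _).2 (hy.2 j).1, (mp_unit _ _).2 (hy.2 j).2⟩) γ
      rw [e () hy.1]
      exact hu i j
  rw [h1]
  exact (mul_eq_zero.1 key).resolve_right h2

theorem coreS2 (hn : 3 ≤ n) (hg : 2 ≤ g) {L : IntermediateField ℚ ℂ} (hL : GoodL L)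
    (hR : ∃ ω ∈ L, IsPrimitiveRoot ω n) (hJ : ∀ i, Ent (OO L) (J i).1)
    (hz : ∃ z ∈ SK L (kJ J g), ∀ j : Fin (g + s), j.1 < 2 → z j = (1, 1)) {ρ : RepK g s n}
    (hb : Bdry J ρ) (hi : Ssimp ρ)
    (f : MvPolynomial (((Fin g × Bool) ⊕ Fin s) × Fin n × Fin n) ℂ)
    (hf : ∀ σ : RepK g s n, IntegralK L σ → Bdry J σ → Irred σ →
      MvPolynomial.eval (evK σ) f = 0) : MvPolynomial.eval (evK ρ) f = 0 := by
  have hn0 : 0 < n := by omega
  obtain ⟨x, hx, rfl⟩ := exists_repOf J hb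
  obtain ⟨F, hF, h1⟩ := eval_pol J f
  have hT : Two (kJ J g) (Fin.castAdd s ⟨0, by omega⟩) (Fin.castAdd s ⟨1, by omega⟩) :=
    ⟨rfl, rfl, Fin.addCases_left _, Fin.addCases_left _, fun j c h => by
      obtain ⟨i, rfl⟩ := kJ_some J h
      exact (J i).2⟩
  let S : Set (E (g + s) n) := {y | ∃ hy : y ∈ RK (kJ J g), Irred (repOf J y hy)}
  obtain ⟨X, Y, hX, hY, hXY⟩ := irr_ex hn0
  obtain ⟨ω, hω1, hω2⟩ := hR
  obtain ⟨z, hz, hz'⟩ := hz
  have h0 := cl_RK (fun x hx => hx.1) (HK_sub (by omega) hT hz (hz' _ (by simp)) (hz' _ (by simp))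
    (xK_mem hT hz.1 hX hY))
  have hI : Irred (repOf J _ h0) := irred_of hXY
    (a := PresentedGroup.of (Sum.inl (⟨0, by omega⟩, true)))
    (b := PresentedGroup.of (Sum.inl (⟨1, by omega⟩, true)))
    (by rw [repOf_of]; exact congrArg Prod.snd (xK_o hT (z := z) (X := X) (Y := Y)))
    (by rw [repOf_of]; exact congrArg Prod.snd (xK_o' (z := z) (X := X) (Y := Y)))
  obtain ⟨H, hH, h2, h3⟩ := irred_pol J hI
  have hV : ∀ᶠ y in 𝓝 _, y ∈ RK (kJ J g) → y ∈ cl S :=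
    ((pol_contDiff hH).continuous.continuousAt.eventually_ne h2).mono fun y hy hy' =>
      subset_cl _ ⟨hy', h3 y hy' hy⟩
  obtain ⟨x1, a1, a2, a3⟩ := near_goodK hT hn0 h0 (irred_sch J hI) hV.eventually_nhds
  have key : x ∈ cl S := by
    rw [← (cl_closed S).closure_eq, mem_closure_iff_nhds]
    intro t ht
    obtain ⟨u, hut, huo, hxu⟩ := mem_nhds_iff.1 ht
    obtain ⟨w, hw1, hw2, hw3⟩ := approxK hn0 hT.hd hT.ne hT.hk hT.hk' hx (fun ξ hξ => by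
      obtain ⟨η, b1, b2⟩ := ss_reg (Set.range fun γ => (repOf J x hx γ).1) (fun U hU => by
        obtain ⟨W, c1, c2⟩ := hi U fun γ => hU _ ⟨γ, rfl⟩
        exact ⟨W, c1, by rintro _ ⟨γ, rfl⟩; exact c2 γ⟩) ξ (by
          rintro _ ⟨γ, rfl⟩; exact zc_all J hx hξ γ)
      exact ⟨η, zc_of J hx fun γ => b1 _ ⟨γ, rfl⟩, b2⟩) (huo.mem_nhds hxu)
    obtain ⟨y, hy1, hy2, hy3⟩ := near_goodK hT hn0 hw2 hw3 (huo.mem_nhds hw1)
    refine ⟨y, hut hy1, scale hn0 _ hω2 (fun s hs => (hs.1.1 _).2) (fun y hy => ?_) (hy2.1 _).2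
      (parK hn0 hT.hd hT.ho hT.hk hy2 a2 hy3 a3 a1)⟩
    obtain ⟨hy, hy'⟩ := hy
    have := sc_RK hn0 hT.hk hω2 hy
    exact ⟨this, irred_sc J hy' _ (hω2.ne_zero hn0.ne') this⟩
  rw [h1]
  refine key F hF ?_
  rintro y ⟨hy, hy'⟩
  rw [← h1 y hy]
  exact coreK2 J hn hg hL ⟨ω, hω1, hω2⟩ hJ ⟨z, hz, hz'⟩ (repOf_bdry J y hy) hy' f hf

theorem conj_SL (hn : 0 < n) (c : SpecialLinearGroup (Fin n) ℂ) {P Q : M n} (hPQ : P * Q = 1) :
    ∃ c' : SpecialLinearGroup (Fin n) ℂ, IsConj c c' ∧ c'.1 = P * c.1 * Q := by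
  have hd : P.det ≠ 0 := fun h => by simpa [h] using congrArg det hPQ
  obtain ⟨t, ht⟩ := IsAlgClosed.exists_pow_nat_eq P.det hn
  have hc0 : t ≠ 0 := by
    rintro rfl
    exact hd (by rw [← ht, zero_pow hn.ne'])
  let u : SpecialLinearGroup (Fin n) ℂ := ⟨t⁻¹ • P, by
    rw [det_smul, Fintype.card_fin, inv_pow, ht, inv_mul_cancel₀ hd]⟩
  have hu : (u⁻¹).1 = t • Q := by
    have e1 : (u⁻¹).1 * u.1 = 1 := congrArg Subtype.val (inv_mul_cancel u)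
    have e2 : u.1 * (t • Q) = 1 := by
      show (t⁻¹ • P) * (t • Q) = 1
      rw [Matrix.smul_mul, Matrix.mul_smul, smul_smul, inv_mul_cancel₀ hc0, one_smul, hPQ]
    calc (u⁻¹).1 = (u⁻¹).1 * (u.1 * (t • Q)) := by rw [e2, mul_one]
      _ = t • Q := by rw [← mul_assoc, e1, one_mul]
  have key : (u * c * u⁻¹).1 = P * c.1 * Q := by
    show (t⁻¹ • P) * c.1 * (u⁻¹).1 = _
    rw [hu, Matrix.smul_mul, Matrix.smul_mul, Matrix.mul_smul, smul_smul, inv_mul_cancel₀ hc0,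
      one_smul]
  exact ⟨u * c * u⁻¹, isConj_iff.2 ⟨u, rfl⟩, key⟩

theorem finalT {L : IntermediateField ℚ ℂ} {N : ℕ} (hn : 3 ≤ n) (hN : 0 < N) (hL : GoodL L)
    (hR : Roots L (2 * N * n * n)) (hg : 3 ≤ g)
    (hJ : ∀ i μ, (J i).1.charpoly.IsRoot μ → μ ^ N = 1) (ρ : RepK g s n) (hb : Bdry J ρ)
    (hi : Ssimp ρ) (f : MvPolynomial (((Fin g × Bool) ⊕ Fin s) × Fin n × Fin n) ℂ)
    (hf : ∀ σ : RepK g s n, IntegralK L σ → Bdry J σ → Irred σ →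
      MvPolynomial.eval (evK σ) f = 0) : MvPolynomial.eval (evK ρ) f = 0 := by
  have hn0 : 0 < n := by omega
  have b1 : N ≤ 2 * N * n * n :=
    Nat.le_of_dvd (by positivity) ⟨2 * n * n, by ring⟩
  have b2 : n ≤ 2 * N * n * n :=
    Nat.le_of_dvd (by positivity) ⟨2 * N * n, by ring⟩
  choose J' h1 h2 using fun i => tri_SL hn0 hN (L := L)
    (fun k k1 k2 => hR k k1 (k2.trans b1)) (J i) (hJ i)
  obtain ⟨D, Q, hDQ, h3, h4⟩ := baseT hN hn0 hL.1 hR hg (fun i => (J' i).1) h2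
  choose J2 h5 h6 using fun i => conj_SL hn0 (J' i) hDQ
  have e : (fun i => D * (J' i).1 * Q) = fun i => (J2 i).1 := funext fun i => (h6 i).symm
  rw [e] at h4
  exact coreS2 J2 hn (by omega) hL (hR n hn0 b2) (fun i => h6 i ▸ (h3 i).1) h4
    (fun i => ((h1 i).trans (h5 i)).symm.trans (hb i)) hi f
    fun σ a b c => hf σ a (fun i => ((h1 i).trans (h5 i)).trans (b i)) c

end Vale.Agent.P002
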