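import Vale.Agent.P002.Rk
import Vale.Agent.P002.Cnt2
import Vale.Agent.P002.Cnt3
import Vale.Agent.P002.KerF
import Vale.Agent.P002.Curve

open scoped Matrix.Norms.Operator Topology
open Matrix Filter

namespace Vale.Agent.P002

variable {g n : ℕ}

theorem cnt (hg : 2 ≤ g) (hn : 0 < n) (o : Fin g) {x : E g n} (hx : x ∈ RR g n) {ξ : M n}
    (hξ : ∀ c : ℂ, ξ ≠ c • 1)
    (hc : ∀ j, j ≠ o → ξ * (x j).1 = (x j).1 * ξ ∧ ξ * (x j).2 = (x j).2 * ξ)
    (h1 : ∀ v ∈ TT x, (v o).1 ∈ EE (x o).1)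
    (h : ∀ v ∈ TT x, ∃ ξ' ∈ EE ξ, ∀ j, j ≠ o → adL (v j).1 ξ + adL (x j).1 ξ' = 0 ∧
      adL (v j).2 ξ + adL (x j).2 ξ' = 0) : False := by
  have a1 := cnt1 hn hx
  have a2 := cnt2 hn o hx h1
  have a3 := cnt3 hn o hx hξ hc h
  have a4 := rk_ad hξ
  have a5 := LinearMap.finrank_range_add_finrank_ker ((pr o).domRestrict (TT x))
  rw [LinearMap.range_domRestrict, LinearMap.ker_domRestrict,
    ← Submodule.finrank_map_subtype_eq (TT x) (Submodule.comap _ _),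
    Submodule.map_comap_subtype] at a5
  obtain ⟨k, rfl⟩ := Nat.exists_eq_add_of_le hg
  rw [show 2 + k - 1 = k + 1 by omega] at a3
  nlinarith [Nat.zero_le (k * rk (adL ξ))]

theorem Gen_max {X : Type} (P : X → Prop) (φ : X → ℕ) (B : ℕ) (hB : ∀ x, φ x ≤ B)
    (h : ∃ x, P x) : ∃ x, P x ∧ ∀ y, P y → φ y ≤ φ x := by
  obtain ⟨x, hx⟩ := h
  have hb : BddAbove (φ '' {x | P x}) := ⟨B, by
    rintro _ ⟨y, -, rfl⟩
    exact hB y⟩
  obtain ⟨y, hy, e⟩ := Nat.sSup_mem (s := φ '' {x | P x}) ⟨_, x, hx, rfl⟩ hb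
  exact ⟨y, hy, fun z hz => e ▸ le_csSup hb ⟨z, hz, rfl⟩⟩

theorem Gen_le {W : Type} [NormedAddCommGroup W] [NormedSpace ℂ W] (T : M n →L[ℂ] W) :
    rk T ≤ Module.finrank ℂ (M n) := LinearMap.finrank_range_le _

/-- commutators with all the matrices outside handle `o` -/
noncomputable def Gen_zl (o : Fin g) : E g n →ₗ[ℂ] (M n →L[ℂ] E g n) where
  toFun y := ContinuousLinearMap.pi fun j =>
    if j = o then 0 else (adL (y j).1).prod (adL (y j).2)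
  map_add' a b := by
    refine ContinuousLinearMap.ext fun ξ => funext fun j => ?_
    by_cases h : j = o <;> simp [h]
  map_smul' c a := by
    refine ContinuousLinearMap.ext fun ξ => funext fun j => ?_
    by_cases h : j = o <;> simp [h]

/-- continuous version -/
noncomputable def Gen_z (o : Fin g) : E g n →L[ℂ] (M n →L[ℂ] E g n) :=
  LinearMap.toContinuousLinearMap (Gen_zl o)

theorem Gen_app {o j : Fin g} (h : j ≠ o) (y : E g n) (ξ : M n) :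
    Gen_z o y ξ j = (adL (y j).1 ξ, adL (y j).2 ξ) := by
  simp [Gen_z, Gen_zl, h]

theorem Gen_ker (o : Fin g) (y : E g n) (ξ : M n) : Gen_z o y ξ = 0 ↔
    ∀ j, j ≠ o → ξ * (y j).1 = (y j).1 * ξ ∧ ξ * (y j).2 = (y j).2 * ξ := by
  constructor
  · intro h j hj
    have := congrFun h j
    rw [Gen_app hj, Pi.zero_apply, Prod.mk_eq_zero, adL_apply, adL_apply, sub_eq_zero,
      sub_eq_zero] at this
    exact ⟨this.1.symm, this.2.symm⟩
  · intro h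
    funext j
    by_cases hj : j = o
    · simp [Gen_z, Gen_zl, hj]
    · rw [Gen_app hj, adL_apply, adL_apply, (h j hj).1, (h j hj).2]
      simp

theorem Gen_d {X V W : Type} [NormedAddCommGroup X] [NormedSpace ℂ X] [NormedAddCommGroup V]
    [NormedSpace ℂ V] [NormedAddCommGroup W] [NormedSpace ℂ W] (Z : X →L[ℂ] V →L[ℂ] W)
    {γ : ℂ → X} {v : X} (h : HasDerivAt γ v 0) : HasDerivAt (fun t => Z (γ t)) (Z v) 0 :=
  Z.hasFDerivAt.comp_hasDerivAt 0 h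

theorem gen (hg : 2 ≤ g) (hn : 0 < n) (o : Fin g) {x : E g n} (hx : x ∈ RR g n) (hS : Sch x)
    {s : Set (E g n)} (hs : s ∈ 𝓝 x) : ∃ y ∈ s, y ∈ RR g n ∧ Sch' o y := by
  by_contra hne
  push Not at hne
  obtain ⟨t, ht, hto, hxt⟩ := mem_nhds_iff.1 (inter_mem hs (sch_open hS))
  obtain ⟨y0, ⟨hy0, hy0R⟩, hmax⟩ := Gen_max (fun y => y ∈ t ∧ y ∈ RR g n)
    (fun y => rk (adL (y o).1) + rk (Gen_z o y)) _
    (fun y => add_le_add (Gen_le _) (Gen_le _)) ⟨x, hxt, hx⟩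
  have c1 : Continuous fun y : E g n => adL (y o).1 := adL.continuous.comp (by fun_prop)
  obtain ⟨u, hu, huo, hyu⟩ := mem_nhds_iff.1 (inter_mem (hto.mem_nhds hy0)
    ((rk_lsc (x := y0) c1.continuousAt).and (rk_lsc (x := y0) (Gen_z o).continuous.continuousAt)))
  have hconst : ∀ y ∈ u, y ∈ RR g n →
      rk (adL (y o).1) = rk (adL (y0 o).1) ∧ rk (Gen_z o y) = rk (Gen_z o y0) := fun y hy hR => by
    have k1 := hmax y ⟨(hu hy).1, hR⟩
    have k2 : rk (adL (y0 o).1) ≤ rk (adL (y o).1) := (hu hy).2.1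
    have k3 : rk (Gen_z o y0) ≤ rk (Gen_z o y) := (hu hy).2.2
    beta_reduce at k1
    omega
  obtain ⟨⟨y1, ξ1⟩, ⟨hy1, hy1R, hz1⟩, hmax2⟩ := Gen_max
    (fun p : E g n × M n => p.1 ∈ u ∧ p.1 ∈ RR g n ∧ Gen_z o p.1 p.2 = 0)
    (fun p => rk (adL p.2)) _ (fun _ => Gen_le _) ⟨(y0, 0), hyu, hy0R, map_zero _⟩
  have hξ : ∀ c : ℂ, ξ1 ≠ c • 1 := by
    have h0 := hne y0 (ht hy0).1 hy0R
    unfold Sch' at h0
    push Not at h0
    obtain ⟨ξ0, h1, h2⟩ := h0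
    have k1 := rk_ad h2
    have k2 : rk (adL ξ0) ≤ rk (adL ξ1) := hmax2 (y0, ξ0) ⟨hyu, hy0R, (Gen_ker o _ _).2 h1⟩
    have k3 : 2 ≤ n := by
      by_contra hlt
      obtain rfl : n = 1 := by omega
      refine h2 (ξ0 0 0) ?_
      ext i j
      rw [Subsingleton.elim i 0, Subsingleton.elim j 0]
      simp
    rintro c rfl
    have k4 : adL (c • (1 : M n)) = 0 := ContinuousLinearMap.ext fun θ => by simp [adL_apply]
    rw [k4] at k2
    have k5 : rk (0 : M n →L[ℂ] M n) = 0 := by simp [rk]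
    omega
  have hcur : ∀ v ∈ TT y1, ∃ γ : ℂ → E g n, γ 0 = y1 ∧ HasDerivAt γ v 0 ∧
      ∀ᶠ t in 𝓝 (0 : ℂ), γ t ∈ u ∧ γ t ∈ RR g n := fun v hv => by
    obtain ⟨γ, h0, h1, h2⟩ := curve hn hy1R (ht (hu hy1).1).2 hv
    exact ⟨γ, h0, h1, (h1.continuousAt.eventually (huo.mem_nhds (h0 ▸ hy1))).and h2⟩
  refine cnt hg hn o hy1R hξ ((Gen_ker o _ _).1 hz1) (fun v hv => ?_) fun v hv => ?_
  · obtain ⟨γ, h0, h1, h2⟩ := hcur v hv
    have d1 : HasDerivAt (fun t => (γ t o).1) (v o).1 0 := (hasDerivAt_pi.1 h1 o).fst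
    have := ee_of d1 (h2.mono fun t ht => by
      rw [(hconst _ ht.1 ht.2).1, h0, (hconst _ hy1 hy1R).1])
    rwa [h0] at this
  · obtain ⟨γ, h0, h1, h2⟩ := hcur v hv
    have d1 := Gen_d (X := E g n) (V := M n) (W := E g n) (Gen_z o) h1
    obtain ⟨ξ, ξ', e0, e1, e2⟩ := ker_fam (T := fun t => Gen_z o (γ t)) d1.differentiableAt
      (h2.mono fun t ht => by rw [(hconst _ ht.1 ht.2).2, h0, (hconst _ hy1 hy1R).2])
      (η := ξ1) (by rw [h0]; exact hz1)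
    have e3 := ee_of e1 ((h2.and e2).mono fun t ht => by
      rw [e0]
      exact hmax2 (γ t, ξ t) ⟨ht.1.1, ht.1.2, ht.2⟩)
    have e4 := (d1.clm_apply e1).unique
      ((hasDerivAt_const (0 : ℂ) (0 : E g n)).congr_of_eventuallyEq e2)
    rw [e0] at e3
    rw [e0, h0] at e4
    refine ⟨ξ', e3, fun j hj => ?_⟩
    have e5 : Gen_z o v ξ1 j + Gen_z o y1 ξ' j = 0 := congrFun e4 j
    rw [Gen_app hj, Gen_app hj, Prod.mk_add_mk, Prod.mk_eq_zero] at e5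
    exact e5

end Vale.Agent.P002
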