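import Vale.Agent.P002.Cnt2K
import Vale.Agent.P002.Cnt3K
import Vale.Agent.P002.CurveK
import Vale.Agent.P002.Gen

open scoped Matrix.Norms.Operator Topology
open Matrix Filter

namespace Vale.Agent.P002

variable {g n : ℕ} {κ : Kd g n}

theorem GenK_cnt (hn : 0 < n) (hd : KD κ) {o o' : Fin g} (hne : o ≠ o') (hk : κ o = none)
    {x : E g n} (hx : x ∈ RK κ) {ξ : M n} (hξ : ∀ c : ℂ, ξ ≠ c • 1) (hc : Cm none (x o') ξ)
    (h1 : ∀ v ∈ TK κ x, (v o).1 ∈ EE (x o).1)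
    (h : ∀ v ∈ TK κ x, ∃ ξ' ∈ EE ξ, adL (v o').1 ξ + adL (x o').1 ξ' = 0 ∧
      adL (v o').2 ξ + adL (x o').2 ξ' = 0) : False := by
  have a1 := cnt1K hn hd hx
  have a2 := cnt2K hn hd hk hx h1
  have a3 := cntK3 hn hne hx hξ hc h
  have a4 := rk_ad hξ
  have a5 := LinearMap.finrank_range_add_finrank_ker ((pr o).domRestrict (TK κ x))
  rw [LinearMap.range_domRestrict, LinearMap.ker_domRestrict,
    ← Submodule.finrank_map_subtype_eq (TK κ x) (Submodule.comap _ _),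
    Submodule.map_comap_subtype] at a5
  have hg : 1 ≤ g := o.pos
  obtain ⟨k, rfl⟩ := Nat.exists_eq_add_of_le hg
  rw [show 1 + k - 1 = k by omega] at a3
  nlinarith

/-- commutators with the two matrices of handle `o` -/
noncomputable def GenK_zl (o : Fin g) : E g n →ₗ[ℂ] (M n →L[ℂ] M n × M n) where
  toFun y := (adL (y o).1).prod (adL (y o).2)
  map_add' a b := by
    refine ContinuousLinearMap.ext fun ξ => ?_
    simp
  map_smul' c a := by
    refine ContinuousLinearMap.ext fun ξ => ?_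
    simp

/-- continuous version -/
noncomputable def GenK_z (o : Fin g) : E g n →L[ℂ] (M n →L[ℂ] M n × M n) :=
  LinearMap.toContinuousLinearMap (GenK_zl o)

theorem GenK_app (o : Fin g) (y : E g n) (ξ : M n) :
    GenK_z o y ξ = (adL (y o).1 ξ, adL (y o).2 ξ) := rfl

theorem GenK_ker (o : Fin g) (y : E g n) (ξ : M n) : GenK_z o y ξ = 0 ↔ Cm none (y o) ξ := by
  rw [GenK_app, Prod.mk_eq_zero, adL_apply, adL_apply, sub_eq_zero, sub_eq_zero]
  exact ⟨fun h => ⟨h.1.symm, h.2.symm⟩, fun h => ⟨h.1.symm, h.2.symm⟩⟩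

theorem genK (hn : 0 < n) (hd : KD κ) {o o' : Fin g} (hne : o ≠ o') (hk : κ o = none)
    {x : E g n} (hx : x ∈ RK κ) (hS : SchK κ x) {s : Set (E g n)} (hs : s ∈ 𝓝 x) :
    ∃ y ∈ s, y ∈ RK κ ∧ S1 (y o') := by
  by_contra hno
  push Not at hno
  obtain ⟨t, ht, hto, hxt⟩ := mem_nhds_iff.1 (inter_mem hs (schK_open hS))
  obtain ⟨y0, ⟨hy0, hy0R⟩, hmax⟩ := Gen_max (fun y => y ∈ t ∧ y ∈ RK κ)
    (fun y => rk (adL (y o).1) + rk (GenK_z o' y)) _
    (fun y => add_le_add (Gen_le _) (Gen_le _)) ⟨x, hxt, hx⟩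
  have c1 : Continuous fun y : E g n => adL (y o).1 := adL.continuous.comp (by fun_prop)
  obtain ⟨u, hu, huo, hyu⟩ := mem_nhds_iff.1 (inter_mem (hto.mem_nhds hy0)
    ((rk_lsc (x := y0) c1.continuousAt).and
      (rk_lsc (x := y0) (GenK_z o').continuous.continuousAt)))
  have hconst : ∀ y ∈ u, y ∈ RK κ →
      rk (adL (y o).1) = rk (adL (y0 o).1) ∧ rk (GenK_z o' y) = rk (GenK_z o' y0) :=
    fun y hy hR => by
    have k1 := hmax y ⟨(hu hy).1, hR⟩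
    have k2 : rk (adL (y0 o).1) ≤ rk (adL (y o).1) := (hu hy).2.1
    have k3 : rk (GenK_z o' y0) ≤ rk (GenK_z o' y) := (hu hy).2.2
    beta_reduce at k1
    omega
  obtain ⟨⟨y1, ξ1⟩, ⟨hy1, hy1R, hz1⟩, hmax2⟩ := Gen_max
    (fun p : E g n × M n => p.1 ∈ u ∧ p.1 ∈ RK κ ∧ GenK_z o' p.1 p.2 = 0)
    (fun p => rk (adL p.2)) _ (fun _ => Gen_le _) ⟨(y0, 0), hyu, hy0R, map_zero _⟩
  have hξ : ∀ c : ℂ, ξ1 ≠ c • 1 := by
    have h0 := hno y0 (ht hy0).1 hy0R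
    unfold S1 at h0
    push Not at h0
    obtain ⟨ξ0, h1, h2⟩ := h0
    have k1 := rk_ad h2
    have k2 : rk (adL ξ0) ≤ rk (adL ξ1) := hmax2 (y0, ξ0) ⟨hyu, hy0R, (GenK_ker o' _ _).2 h1⟩
    have k3 : 2 ≤ n := by
      by_contra hlt
      obtain rfl : n = 1 := by omega
      refine h2 (ξ0 0 0) ?_
      ext i j
      rw [Subsingleton.elim i 0, Subsingleton.elim j 0]
      simp
    rintro c rfl
    have k4 : adL (c • (1 : M n)) = 0 := ContinuousLinearMap.ext fun θ => by simp [adL_apply]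
    rw [k4] at k2
    have k5 : rk (0 : M n →L[ℂ] M n) = 0 := by simp [rk]
    omega
  have hcur : ∀ v ∈ TK κ y1, ∃ γ : ℂ → E g n, γ 0 = y1 ∧ HasDerivAt γ v 0 ∧
      ∀ᶠ t in 𝓝 (0 : ℂ), γ t ∈ u ∧ γ t ∈ RK κ := fun v hv => by
    obtain ⟨γ, h0, h1, h2⟩ := curveK hn hd hy1R (ht (hu hy1).1).2 hv
    exact ⟨γ, h0, h1, (h1.continuousAt.eventually (huo.mem_nhds (h0 ▸ hy1))).and h2⟩
  refine GenK_cnt hn hd hne hk hy1R hξ ((GenK_ker o' _ _).1 hz1) (fun v hv => ?_) fun v hv => ?_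
  · obtain ⟨γ, h0, h1, h2⟩ := hcur v hv
    have d1 : HasDerivAt (fun t => (γ t o).1) (v o).1 0 := (hasDerivAt_pi.1 h1 o).fst
    have := ee_of d1 (h2.mono fun t ht => by
      rw [(hconst _ ht.1 ht.2).1, h0, (hconst _ hy1 hy1R).1])
    rwa [h0] at this
  · obtain ⟨γ, h0, h1, h2⟩ := hcur v hv
    have d1 := Gen_d (X := E g n) (V := M n) (W := M n × M n) (GenK_z o') h1
    obtain ⟨ξ, ξ', e0, e1, e2⟩ := ker_fam (T := fun t => GenK_z o' (γ t)) d1.differentiableAt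
      (h2.mono fun t ht => by rw [(hconst _ ht.1 ht.2).2, h0, (hconst _ hy1 hy1R).2])
      (η := ξ1) (by rw [h0]; exact hz1)
    have e3 := ee_of e1 ((h2.and e2).mono fun t ht => by
      rw [e0]
      exact hmax2 (γ t, ξ t) ⟨ht.1.1, ht.1.2, ht.2⟩)
    have e4 := (d1.clm_apply e1).unique
      ((hasDerivAt_const (0 : ℂ) (0 : M n × M n)).congr_of_eventuallyEq e2)
    rw [e0] at e3
    rw [e0, h0] at e4
    refine ⟨ξ', e3, ?_⟩
    have e5 : GenK_z o' v ξ1 + GenK_z o' y1 ξ' = 0 := e4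
    rw [GenK_app, GenK_app, Prod.mk_add_mk, Prod.mk_eq_zero] at e5
    exact e5

end Vale.Agent.P002
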