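import Vale.Agent.P002.GoodE
import Vale.Agent.P002.RatL

open scoped Matrix.Norms.Operator Topology
open Matrix Filter

namespace Vale.Agent.P002

variable {g n : ℕ}

theorem good_dense (hn : 0 < n) {a : M n × M n} (h1 : a.1.det = 1) (h2 : a.2.det = 1) :
    ∃ᶠ b in 𝓝 a, b.1.det = 1 ∧ b.2.det = 1 ∧ Good b := by
  obtain ⟨c, c1, c2, u, w, hu, hw⟩ := good_ex hn
  obtain ⟨i, -⟩ : ∃ i : Fin n, True := ⟨⟨0, hn⟩, trivial⟩
  let Ω : Set (E 1 n) := {p | (p 0).1.det ≠ 0 ∧ (p 0).2.det ≠ 0}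
  have e : EP (Pol (E 1 n)).toSubring fun y : E 1 n => y := ep_lin LinearMap.id
  have x1 : MP (Rat Ω).toSubring fun p : E 1 n => nrm i (p 0).1 :=
    MP.nrm (fun s t => pol_le_rat Ω ((e 0).1 s t)) (fun p hp => hp.1) i
  have x2 : MP (Rat Ω).toSubring fun p : E 1 n => nrm i (p 0).2 :=
    MP.nrm (fun s t => pol_le_rat Ω ((e 0).2 s t)) (fun p hp => hp.2) i
  have v : ∀ z : Fin n → ℂ, VP (Rat Ω).toSubring fun _ => z := fun z s =>
    (Rat Ω).algebraMap_mem (z s)
  have hF := mul_mem (MP.Lm (v u) x1.adj (((x1.mul x2).mul x1.adj).mul x2.adj)).det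
    (MP.Kr x1.adj (v w)).det
  have o : Ω ∈ 𝓝 (fun _ => a) := by
    have a1 := ((pol_contDiff (e 0).1.det).continuous.continuousAt (x := fun _ => a)).eventually_ne
      (y := 0) (h1.trans_ne one_ne_zero)
    have a2 := ((pol_contDiff (e 0).2.det).continuous.continuousAt (x := fun _ => a)).eventually_ne
      (y := 0) (h2.trans_ne one_ne_zero)
    exact a1.and a2
  have ep : EP (Rat Ω).toSubring fun p : E 1 n => (fun _ => (nrm i (p 0).1, nrm i (p 0).2) : E 1 n) :=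
    fun _ => ⟨x1, x2⟩
  have t := (continuousAt_pi.1 (ep.continuousOn.continuousAt o) 0).tendsto
  simp only [nrm_eq i h1, nrm_eq i h2] at t
  intro h
  have z := rat_zero hF (p := fun _ => a) ?_ (fun _ => c)
    ⟨c1.trans_ne one_ne_zero, c2.trans_ne one_ne_zero⟩
  · simp only [Pi.mul_apply, nrm_eq i c1, nrm_eq i c2] at z
    exact mul_ne_zero hu hw z
  filter_upwards [o, t.eventually h] with q q1 q2
  refine ⟨q1, by_contra fun q3 => q2 ⟨nrm_det i q1.1, nrm_det i q1.2, u, w, ?_⟩⟩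
  exact mul_ne_zero_iff.1 q3

end Vale.Agent.P002
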