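import Vale.Agent.P002.Def2

open scoped Matrix.Norms.Operator Topology
open Matrix Filter

namespace Vale.Agent.P002

variable {g n : ℕ}

lemma GoodE_poly {lam z : Fin n → ℂ} (hi : Function.Injective lam) (h0 : ∀ j, lam j ≠ 0)
    (h : ∀ i : Fin n, ∑ j, z j * lam j * ∏ k ∈ Finset.univ.erase j, (((i : ℕ) : ℂ) - lam k) = 0)
    (j : Fin n) : z j = 0 := by
  let p : Polynomial ℂ := ∑ j, Polynomial.C (z j * lam j) *
    ∏ k ∈ Finset.univ.erase j, (Polynomial.X - Polynomial.C (lam k))
  have hp : ∀ t, p.eval t = ∑ j, z j * lam j * ∏ k ∈ Finset.univ.erase j, (t - lam k) := fun t => by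
    simp [p, Polynomial.eval_finset_sum, Polynomial.eval_prod]
  have hd : p.natDegree < Fintype.card (Fin n) := by
    have hn : 0 < n := Fin.pos j
    refine lt_of_le_of_lt (Polynomial.natDegree_sum_le_of_forall_le _ _ (n := n - 1) fun j _ => ?_)
      (by simp; omega)
    refine (Polynomial.natDegree_C_mul_le _ _).trans ?_
    rw [Polynomial.natDegree_finsetProd_X_sub_C_eq_card]
    simp
  have hz : p = 0 := Polynomial.eq_zero_of_natDegree_lt_card_of_eval_eq_zero p
    (f := fun i : Fin n => ((i : ℕ) : ℂ)) (fun a b hab => Fin.ext (Nat.cast_injective hab))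
    (fun i => by rw [hp, h]) hd
  have h1 := hp (lam j)
  rw [hz, Polynomial.eval_zero, Finset.sum_eq_single j] at h1
  · refine (mul_eq_zero.mp ((mul_eq_zero.mp h1.symm).resolve_right ?_)).resolve_right (h0 j)
    exact Finset.prod_ne_zero_iff.mpr fun k hk =>
      sub_ne_zero.mpr fun e => (Finset.mem_erase.mp hk).1 (hi e).symm
  · intro b _ hb
    rw [Finset.prod_eq_zero (Finset.mem_erase.mpr ⟨hb.symm, Finset.mem_univ j⟩) (sub_self _),
      mul_zero]
  · simp

theorem good_ex (hn : 0 < n) : ∃ a : M n × M n, a.1.det = 1 ∧ a.2.det = 1 ∧ Good a := by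
  obtain ⟨m, rfl⟩ : ∃ m, n = m + 1 := ⟨n - 1, by omega⟩
  have hx : ∀ j : Fin (m + 1), ((j : ℕ) : ℂ) + 1 ≠ 0 := fun j => Nat.cast_add_one_ne_zero _
  have hP : ∏ j : Fin (m + 1), (((j : ℕ) : ℂ) + 1) ≠ 0 := Finset.prod_ne_zero_iff.mpr fun j _ => hx j
  obtain ⟨c, hc⟩ := IsAlgClosed.exists_pow_nat_eq (∏ j : Fin (m + 1), (((j : ℕ) : ℂ) + 1))⁻¹ hn
  have hc0 : c ≠ 0 := by
    rintro rfl
    rw [zero_pow hn.ne'] at hc
    exact inv_ne_zero hP hc.symm
  obtain ⟨lam, hlam⟩ : ∃ lam : Fin (m + 1) → ℂ, lam = fun j : Fin (m + 1) => c * (((j : ℕ) : ℂ) + 1) :=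
    ⟨_, rfl⟩
  have l0 : ∀ j, lam j ≠ 0 := fun j => by rw [hlam]; exact mul_ne_zero hc0 (hx j)
  have l1 : ∏ j, lam j = 1 := by
    rw [hlam, Finset.prod_mul_distrib, Finset.prod_const, Finset.card_univ, Fintype.card_fin, hc,
      inv_mul_cancel₀ hP]
  have li : Function.Injective lam := fun a b h => by
    rw [hlam] at h
    exact Fin.ext (Nat.cast_injective (add_right_cancel (mul_left_cancel₀ hc0 h)))
  obtain ⟨σ, hσ⟩ : ∃ σ, σ = finRotate (m + 1) := ⟨_, rfl⟩
  obtain ⟨d, hd⟩ := IsAlgClosed.exists_pow_nat_eq (((Equiv.Perm.sign σ : ℤˣ) : ℤ) : ℂ) hn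
  obtain ⟨B, hB⟩ : ∃ B : M (m + 1), B = d • σ.permMatrix ℂ := ⟨_, rfl⟩
  have hBd : B.det = 1 := by
    rw [hB, det_smul, det_permutation, Fintype.card_fin, hd, ← Int.cast_mul, ← Units.val_mul]
    simp
  have hA : ∀ mu : Fin (m + 1) → ℂ, (∀ j, mu j ≠ 0) → ∏ j, mu j = 1 →
      adjugate (diagonal mu) = diagonal fun j => (mu j)⁻¹ := fun mu h0 h1 => by
    rw [adjugate_diagonal]
    congr 1
    funext j
    refine eq_inv_of_mul_eq_one_right ?_
    rw [Finset.mul_prod_erase _ _ (Finset.mem_univ j), h1]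
  have hN : adjugate (diagonal fun j => (lam j)⁻¹) = diagonal lam := by
    rw [hA _ (fun j => inv_ne_zero (l0 j)) (by rw [Finset.prod_inv_distrib, l1, inv_one])]
    simp
  have hBN : B * diagonal lam = diagonal (fun j => lam (σ j)) * B := by
    ext i j
    rw [mul_diagonal, diagonal_mul, hB]
    by_cases h : σ i = j
    · subst h; ring
    · simp [Equiv.Perm.permMatrix, PEquiv.toMatrix_apply, h]
  have hC : cm (diagonal fun j => (lam j)⁻¹, B) = diagonal fun j => (lam j)⁻¹ * lam (σ j) := by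
    simp only [cm, hN]
    rw [mul_assoc _ B, hBN, mul_assoc, mul_assoc, mul_adjugate, hBd, one_smul, mul_one,
      diagonal_mul_diagonal]
  refine ⟨(diagonal fun j => (lam j)⁻¹, B), by
    rw [det_diagonal, Finset.prod_inv_distrib, l1, inv_one], hBd, fun _ => 1, fun _ => 1, ?_, ?_⟩
  · rw [hC, hN]
    intro h
    obtain ⟨v, hv0, hv⟩ := Matrix.exists_mulVec_eq_zero_iff.mpr h
    have hNC : diagonal lam * diagonal (fun j => (lam j)⁻¹ * lam (σ j)) =
        diagonal fun j => lam (σ j) := by
      rw [diagonal_mul_diagonal]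
      congr 1
      funext j
      rw [← mul_assoc, mul_inv_cancel₀ (l0 j), one_mul]
    have hs : ∀ (t : ℂ) (mu : Fin (m + 1) → ℂ),
        t • (1 : M (m + 1)) - diagonal mu = diagonal fun j => t - mu j := fun t mu => by
      rw [smul_one_eq_diagonal, diagonal_sub]
    have hR : ∀ (t : ℂ) j, ∏ k ∈ Finset.univ.erase j, (t - lam (σ k)) =
        ∏ k ∈ Finset.univ.erase (σ j), (t - lam k) := fun t j =>
      Finset.prod_equiv σ (fun k => by simp) fun _ _ => rfl
    obtain ⟨y, hy⟩ : ∃ y : Fin (m + 1) → ℂ, y = fun j => (lam j)⁻¹ * v j := ⟨_, rfl⟩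
    have hvy : ∀ j, v j = lam j * y j := fun j => by
      rw [hy, ← mul_assoc, mul_inv_cancel₀ (l0 j), one_mul]
    have y0 : ∑ j, y j = 0 := by
      have := congrFun hv 0
      have e : ∀ j, Lm (fun _ => 1) (diagonal lam) (diagonal fun j => (lam j)⁻¹ * lam (σ j)) 0 j =
          (lam j)⁻¹ := fun j => by
        simp only [Lm, of_apply, Fin.val_zero, if_true, hA lam l0 l1, mulVec_diagonal, mul_one]
      simpa only [mulVec, dotProduct, e, hy, Pi.zero_apply] using this
    have hz := GoodE_poly (z := fun j => y j - y (σ.symm j)) li l0 fun i => by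
      simp only [sub_mul, Finset.sum_sub_distrib]
      rw [← Equiv.sum_comp σ fun j => y (σ.symm j) * lam j * _]
      simp only [Equiv.symm_apply_apply]
      by_cases hi : (i : ℕ) = 0
      · have e : ∀ j, lam j * ∏ k ∈ Finset.univ.erase j, (((i : ℕ) : ℂ) - lam k) = (-1) ^ m := by
          intro j
          simp only [hi, Nat.cast_zero, zero_sub]
          rw [Finset.prod_neg, mul_left_comm, Finset.mul_prod_erase _ _ (Finset.mem_univ j), l1]
          simp
        simp only [mul_assoc, e, sub_self]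
      · have := congrFun hv i
        rw [← Finset.sum_sub_distrib]
        simp only [mulVec, dotProduct, Lm, of_apply, if_neg hi, hNC, hs, adjugate_diagonal,
          diagonal_mul_diagonal, diagonal_sub, Pi.zero_apply] at this
        rw [← this]
        refine Finset.sum_congr rfl fun j _ => ?_
        rw [Finset.sum_eq_single j (fun b _ hb => by simp [diagonal, hb.symm]) (by simp),
          diagonal_apply_eq, hR, hvy j]
        field_simp [l0 j]
    have hconst : ∀ j, y j = y 0 := fun j => by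
      induction j using Fin.induction with
      | zero => rfl
      | succ j ih =>
        have := hz (σ j.castSucc)
        rw [Equiv.symm_apply_apply, hσ, finRotate_succ_apply, Fin.coeSucc_eq_succ] at this
        rw [← ih, sub_eq_zero.mp this]
    rw [Finset.sum_congr rfl fun j _ => hconst j, Finset.sum_const, Finset.card_univ,
      Fintype.card_fin, nsmul_eq_mul] at y0
    have y1 := (mul_eq_zero.mp y0).resolve_left (Nat.cast_ne_zero.mpr hn.ne')
    exact hv0 (funext fun j => by rw [hvy, hconst, y1, mul_zero]; rfl)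
  · rw [hN]
    have : Kr (diagonal lam) (fun _ => 1) = vandermonde lam := by
      ext i k
      simp [Kr, diagonal_pow, mulVec_diagonal]
    rw [this]
    exact det_vandermonde_ne_zero_iff.mpr li

end Vale.Agent.P002
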