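import Vale.Agent.P002.Poly2
import Vale.Agent.P002.Der1

open scoped Matrix.Norms.Operator Topology
open Matrix Filter

namespace Vale.Agent.P002

variable {g n : ℕ}

theorem xB_mem {B : Fin g → M n} (hB : ∀ j, (B j).det = 1) : xB B ∈ HH g n :=
  fun j => ⟨rfl, hB j⟩

/-- multiply the second matrix of handle `j` on the right -/
def HZ_rm (j : Fin g) (x : E g n) (C : M n) : E g n := Function.update x j ((x j).1, (x j).2 * C)

theorem HZ_ep {V : Type} {A : Subring (V → ℂ)} {x : V → E g n} {C : V → M n} (hx : EP A x)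
    (hC : MP A C) (j : Fin g) : EP A fun v => HZ_rm j (x v) (C v) := fun i => by
  by_cases h : i = j
  · subst h
    simp only [HZ_rm, Function.update_self]
    exact ⟨(hx i).1, (hx i).2.mul hC⟩
  · simp only [HZ_rm, Function.update_of_ne h]
    exact hx i

theorem HZ_const {V : Type} (A : Subalgebra ℂ (V → ℂ)) (C : M n) :
    MP A.toSubring fun _ => C := fun i j => A.algebraMap_mem (C i j)

theorem HZ_aff (Y : M n) : MP (Pol ℂ).toSubring fun t : ℂ => 1 + t • Y :=
  MP.one.add (MP.smul (Algebra.subset_adjoin ⟨LinearMap.id, rfl⟩) (HZ_const _ Y))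

theorem HZ_nat (t : ℂ) : t ∈ cl (Set.range (Nat.cast : ℕ → ℂ)) := by
  intro f hf h0
  obtain ⟨p, hp⟩ : ∃ p : Polynomial ℂ, ∀ z, f z = p.eval z := by
    clear h0
    induction hf using Algebra.adjoin_induction with
    | mem f hf =>
      obtain ⟨l, rfl⟩ := hf
      exact ⟨Polynomial.X * Polynomial.C (l 1), fun z => by simpa using l.map_smul z 1⟩
    | algebraMap r => exact ⟨Polynomial.C r, fun z => by simp⟩
    | add f f' _ _ h1 h2 =>
      obtain ⟨p, hp⟩ := h1
      obtain ⟨q, hq⟩ := h2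
      exact ⟨p + q, fun z => by simp [hp, hq]⟩
    | mul f f' _ _ h1 h2 =>
      obtain ⟨p, hp⟩ := h1
      obtain ⟨q, hq⟩ := h2
      exact ⟨p * q, fun z => by simp [hp, hq]⟩
  rw [hp, p.eq_zero_of_infinite_isRoot ((Set.infinite_range_of_injective Nat.cast_injective).mono
    fun z hz => (hp z).symm.trans (h0 z hz)), Polynomial.eval_zero]

/-- integral points of `HH` -/
def HZ_S (L : IntermediateField ℚ ℂ) (g n : ℕ) : Set (E g n) :=
  {x | x ∈ HH g n ∧ ∀ j, Ent (OO L) (x j).2}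

theorem HZ_ent (O : Subring ℂ) : Ent O (1 : M n) := (mp_unit O 1).mp MP.one

theorem HZ_tv (L : IntermediateField ℚ ℂ) (j : Fin g) {a b : Fin n} (hab : a ≠ b) (t : ℂ) :
    ∀ x ∈ cl (HZ_S L g n), HZ_rm j x (1 + single a b t) ∈ cl (HZ_S L g n) := by
  intro x hx
  have e : (fun t : ℂ => (1 + single a b t : M n)) = fun t => 1 + t • single a b 1 := by simp
  refine cl_map' (φ := fun t : ℂ => HZ_rm j x (1 + single a b t)) (fun l => EP.lin (HZ_ep
    (x := fun _ => x) (fun i => ⟨HZ_const _ _, HZ_const _ _⟩) (e ▸ HZ_aff _) j) l) ?_ (HZ_nat t)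
  rintro _ ⟨m, rfl⟩
  refine cl_map' (φ := fun x : E g n => HZ_rm j x (1 + single a b (m : ℂ)))
    (fun l => EP.lin (HZ_ep (ep_lin LinearMap.id) (HZ_const _ _) j) l)
    (fun s hs => ?_) hx
  refine subset_cl (HZ_S L g n) ⟨fun i => ?_, fun i => ?_⟩
  · by_cases h : i = j
    · subst h
      simp only [HZ_rm, Function.update_self, det_mul, (hs.1 i).2, one_mul]
      exact ⟨(hs.1 i).1, det_transvection_of_ne a b hab _⟩
    · simp only [HZ_rm, Function.update_of_ne h]
      exact hs.1 i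
  · by_cases h : i = j
    · subst h
      simp only [HZ_rm, Function.update_self]
      refine (mp_unit _ _).mp (((mp_unit _ _).mpr (hs.2 i)).mul
        (MP.one.add ((mp_unit _ _).mpr fun c d => ?_)))
      rw [single_apply]
      split_ifs
      · exact natCast_mem _ m
      · exact zero_mem _
    · simp only [HZ_rm, Function.update_of_ne h]
      exact hs.2 i

theorem HZ_diag {a b : Fin n} (hab : a ≠ b) {c : ℂ} (hc : c ≠ 0) :
    (diagonal fun k => if k = a then c else if k = b then c⁻¹ else 1 : M n) =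
      (1 + single a b c) * (1 + single b a (-c⁻¹)) * (1 + single a b c) * (1 + single a b (-1)) *
        (1 + single b a 1) * (1 + single a b (-1)) := by
  simp only [mul_add, add_mul, mul_one, one_mul, single_mul_single_same,
    single_mul_single_of_ne _ _ _ _ hab, single_mul_single_of_ne _ _ _ _ hab.symm, zero_mul]
  ext i k
  simp only [Matrix.add_apply, single_apply, Matrix.one_apply, diagonal_apply, Matrix.zero_apply]
  by_cases h1 : a = i <;> by_cases h2 : b = i <;> by_cases h3 : a = k <;> by_cases h4 : b = k <;>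
    simp_all [eq_comm]

theorem HZ_all (hn : 2 ≤ n) (L : IntermediateField ℚ ℂ) (j : Fin g) {C : M n} (hC : C.det = 1) :
    ∀ x ∈ cl (HZ_S L g n), HZ_rm j x C ∈ cl (HZ_S L g n) := by
  have : Nontrivial (Fin n) := Fin.nontrivial_iff_two_le.mpr hn
  have hm : ∀ A B : M n, (∀ x ∈ cl (HZ_S L g n), HZ_rm j x A ∈ cl (HZ_S L g n)) →
      (∀ x ∈ cl (HZ_S L g n), HZ_rm j x B ∈ cl (HZ_S L g n)) →
      ∀ x ∈ cl (HZ_S L g n), HZ_rm j x (A * B) ∈ cl (HZ_S L g n) := fun A B hA hB x hx => by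
    simpa [HZ_rm, mul_assoc] using hB _ (hA x hx)
  refine SpecialLinearGroup.diagonal_transvection_induction'
    (fun A => ∀ x ∈ cl (HZ_S L g n), HZ_rm j x A.1 ∈ cl (HZ_S L g n)) ⟨C, hC⟩
    (fun a b hab c hc => ?_) (fun a b hab t => HZ_tv L j hab t) fun A B => hm _ _
  rw [SpecialLinearGroup.diag2n_coe, HZ_diag hab hc]
  exact hm _ _ (hm _ _ (hm _ _ (hm _ _ (hm _ _ (HZ_tv L j hab _) (HZ_tv L j hab.symm _))
    (HZ_tv L j hab _)) (HZ_tv L j hab _)) (HZ_tv L j hab.symm _)) (HZ_tv L j hab _)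

theorem HH_sub (hn : 2 ≤ n) (L : IntermediateField ℚ ℂ) : HH g n ⊆ cl (SS L g n) := by
  intro x hx
  have h1 : ∀ s : Finset (Fin g),
      (fun j => ((1 : M n), if j ∈ s then (x j).2 else 1)) ∈ cl (HZ_S L g n) := fun s => by
    induction s using Finset.induction_on with
    | empty => exact subset_cl _ ⟨fun j => by simp, fun j => by simpa using HZ_ent _⟩
    | insert j s hj ih =>
      convert HZ_all hn L j (hx j).2 _ ih using 1
      funext i
      by_cases h : i = j
      · simp [HZ_rm, h, hj]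
      · simp [HZ_rm, h]
  have h2 : (fun j => ((1 : M n), if j ∈ Finset.univ then (x j).2 else 1)) = x :=
    funext fun j => Prod.ext (hx j).1.symm (if_pos (Finset.mem_univ j))
  intro f hf h0
  refine (h2 ▸ h1 Finset.univ) f hf fun s hs => h0 s ⟨⟨fun j => ⟨by rw [(hs.1 j).1, det_one],
    (hs.1 j).2⟩, List.prod_eq_one fun u hu => ?_⟩, fun j => ⟨(hs.1 j).1 ▸ HZ_ent _, hs.2 j⟩⟩
  obtain ⟨j, rfl⟩ := List.mem_ofFn.mp (List.mem_of_mem_take hu)
  rw [cm, (hs.1 j).1, adjugate_one, one_mul, mul_one, mul_adjugate, (hs.1 j).2, one_smul]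

theorem vel_HH (hn : 2 ≤ n) {B : Fin g → M n} (hB : ∀ j, (B j).det = 1) {v : E g n}
    (h1 : ∀ j, (v j).1 = 0) (h2 : v ∈ Tb B) : v ∈ Vel (HH g n) (xB B) := by
  obtain ⟨Y, hY⟩ : ∃ Y : Fin g → M n, ∀ j, B j * tl (Y j) = (v j).2 := by
    refine ⟨fun j => (n : ℂ)⁻¹ • (adjugate (B j) * (v j).2), fun j => ?_⟩
    rw [tl, trace_smul, h2 j, smul_zero, zero_smul, sub_zero,
      smul_inv_smul₀ (Nat.cast_ne_zero.mpr (by omega)), ← mul_assoc, mul_adjugate, hB, one_smul,
      one_mul]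
  have hp : ∀ j, (fun t : ℂ => (1 + t • Y j).det) ∈ Pol ℂ := fun j => (HZ_aff (Y j)).det
  have h0 : ∀ j, (1 + (0 : ℂ) • Y j).det ≠ 0 := fun j => by simp
  refine ⟨fun y j => ((y.2 j).1, (y.2 j).2 * Ct y.1 (Y j)), contDiffAt_pi.mpr fun j => ?_,
    fun x _ => by simp [Ct_zero], hasDerivAt_pi.mpr fun j => ?_, ?_⟩
  · have hc : ContDiffAt ℂ 1 (fun t => Ct t (Y j)) 0 :=
      MP.contDiffAt (hp j) (h0 j) (MP.smul (inv_mem_loc _)
        (MP.pow (fun a b => pol_le_loc _ (HZ_aff (Y j) a b)) n))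
    have hx : ContDiffAt ℂ 1 (fun y : ℂ × E g n => y.2 j) (0, xB B) :=
      (contDiffAt_apply ℂ _ j _).comp _ contDiffAt_snd
    exact hx.fst.prodMk (hx.snd.mul (ContDiffAt.comp (g := fun t => Ct t (Y j)) _ hc contDiffAt_fst))
  · have := (hasDerivAt_const (0 : ℂ) (1 : M n)).prodMk ((Ct_deriv (Y j)).const_mul (B j))
    rw [hY, ← h1 j] at this
    exact this
  · have h3 : ∀ᶠ y : ℂ × E g n in 𝓝 (0, xB B), ∀ j, (1 + y.1 • Y j).det ≠ 0 :=
      eventually_all.mpr fun j =>
        ((pol_contDiff (hp j)).continuous.comp continuous_fst).continuousAt.eventually_ne (h0 j)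
    filter_upwards [h3] with y hy hx j
    exact ⟨(hx j).1, by rw [det_mul, (hx j).2, Ct_det (hy j), one_mul]⟩

end Vale.Agent.P002
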