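import Vale.Agent.P002.PkL
import Vale.Agent.P002.HZ

open scoped Matrix.Norms.Operator Topology
open Matrix Filter

namespace Vale.Agent.P002

variable {g n : ℕ} {κ : Kd g n}

theorem HK_sub (hn : 2 ≤ n) {o o' : Fin g} (h : Two κ o o') {L : IntermediateField ℚ ℂ}
    {z : E g n} (hz : z ∈ SK L κ) (h1 : z o = (1, 1)) (h2 : z o' = (1, 1)) :
    HK κ o o' z ⊆ cl (SK L κ) := by
  classical
  intro x hx
  have c1 : ∀ B : M n, B.det = 1 → cm (1, B) = 1 := fun B hB => by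
    rw [cm]
    dsimp only
    rw [adjugate_one, one_mul, mul_one, mul_adjugate, hB, one_smul]
  have e : EP (Pol (E g n)).toSubring fun y : E g n => y := ep_lin LinearMap.id
  have a : EP (Pol (E g n)).toSubring fun (y : E g n) j =>
      ((z j).1, if j = o ∨ j = o' ∨ κ j ≠ none then (y j).2 else (z j).2) := fun j => by
    refine ⟨HZ_const _ _, ?_⟩
    by_cases k : j = o ∨ j = o' ∨ κ j ≠ none
    · simp only [if_pos k]
      exact (e j).2
    · simp only [if_neg k]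
      exact HZ_const _ _
  have b := cl_map' a.lin (T := SK L κ) (fun s hs => subset_cl _ ⟨⟨fun j => ⟨(hz.1.1 j).1, ?_⟩, ?_⟩,
    fun j => ⟨(hz.2 j).1, ?_⟩⟩) (HH_sub hn L (xB_mem hx.2.2.1))
  · refine (funext fun j => Prod.ext ?_ ?_ : _ = x) ▸ b
    · by_cases k1 : j = o
      · rw [k1, h1, hx.1]
      · by_cases k2 : j = o'
        · rw [k2, h2, hx.2.1]
        · exact (hx.2.2.2 j k1 k2).1.symm
    · dsimp only
      split_ifs with k
      · rfl
      · push Not at k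
        exact ((hx.2.2.2 j k.1 k.2.1).2 k.2.2).symm
  · dsimp only
    split_ifs
    · exact (hs.1.1 j).2
    · exact (hz.1.1 j).2
  · rw [← hz.1.2, pk, pk]
    congr 3
    funext j
    by_cases k1 : j = o
    · rw [if_pos (Or.inl k1), k1, h.hk, h1, it, it, c1 _ (hs.1.1 o).2, c1 _ det_one]
    · by_cases k2 : j = o'
      · rw [if_pos (Or.inr (Or.inl k2)), k2, h.hk', h2, it, it, c1 _ (hs.1.1 o').2, c1 _ det_one]
      · cases hk : κ j with
        | none => rw [if_neg (by simp [k1, k2])]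
        | some J => rfl
  · dsimp only
    split_ifs
    · exact (hs.2 j).2
    · exact (hz.2 j).2

theorem vel_HK (hn : 2 ≤ n) {o o' : Fin g} {z x : E g n} (hx : x ∈ HK κ o o' z) {v : E g n}
    (h0 : Tr0 x v) (h1 : ∀ j, (v j).1 = 0)
    (h2 : ∀ j, j ≠ o → j ≠ o' → κ j = none → (v j).2 = 0) : v ∈ Vel (HK κ o o' z) x := by
  obtain ⟨Y, hY, hY0⟩ : ∃ Y : Fin g → M n, (∀ j, (x j).2 * tl (Y j) = (v j).2) ∧
      ∀ j, (v j).2 = 0 → Y j = 0 := by
    refine ⟨fun j => (n : ℂ)⁻¹ • (adjugate (x j).2 * (v j).2), fun j => ?_, fun j hj => by simp [hj]⟩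
    rw [tl, trace_smul, (h0 j).2, smul_zero, zero_smul, sub_zero,
      smul_inv_smul₀ (Nat.cast_ne_zero.mpr (by omega)), ← mul_assoc, mul_adjugate, hx.2.2.1 j,
      one_smul, one_mul]
  have hp : ∀ j, (fun t : ℂ => (1 + t • Y j).det) ∈ Pol ℂ := fun j => (HZ_aff (Y j)).det
  have h0 : ∀ j, (1 + (0 : ℂ) • Y j).det ≠ 0 := fun j => by simp
  refine ⟨fun y j => ((y.2 j).1, (y.2 j).2 * Ct y.1 (Y j)), contDiffAt_pi.mpr fun j => ?_,
    fun x _ => by simp [Ct_zero], hasDerivAt_pi.mpr fun j => ?_, ?_⟩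
  · have hc : ContDiffAt ℂ 1 (fun t => Ct t (Y j)) 0 :=
      MP.contDiffAt (hp j) (h0 j) (MP.smul (inv_mem_loc _)
        (MP.pow (fun a b => pol_le_loc _ (HZ_aff (Y j) a b)) n))
    have hx : ContDiffAt ℂ 1 (fun y : ℂ × E g n => y.2 j) (0, x) :=
      (contDiffAt_apply ℂ _ j _).comp _ contDiffAt_snd
    exact hx.fst.prodMk (hx.snd.mul (ContDiffAt.comp (g := fun t => Ct t (Y j)) _ hc contDiffAt_fst))
  · have := (hasDerivAt_const (0 : ℂ) (x j).1).prodMk ((Ct_deriv (Y j)).const_mul (x j).2)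
    rw [hY, ← h1 j] at this
    exact this
  · have h3 : ∀ᶠ y : ℂ × E g n in 𝓝 (0, x), ∀ j, (1 + y.1 • Y j).det ≠ 0 :=
      eventually_all.mpr fun j =>
        ((pol_contDiff (hp j)).continuous.comp continuous_fst).continuousAt.eventually_ne (h0 j)
    filter_upwards [h3] with y hy hx
    refine ⟨hx.1, hx.2.1, fun j => by rw [det_mul, hx.2.2.1 j, Ct_det (hy j), one_mul],
      fun j k1 k2 => ⟨(hx.2.2.2 j k1 k2).1, fun k3 => ?_⟩⟩
    rw [← (hx.2.2.2 j k1 k2).2 k3]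
    simp [Ct, hY0 j (h2 j k1 k2 k3)]

end Vale.Agent.P002
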