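import Vale.Agent.P002.Def2

open scoped Matrix.Norms.Operator Topology
open Matrix Filter

namespace Vale.Agent.P002

variable {g n : ℕ}

theorem ift {V W : Type} [NormedAddCommGroup V] [NormedSpace ℂ V] [FiniteDimensional ℂ V]
    [NormedAddCommGroup W] [NormedSpace ℂ W] [FiniteDimensional ℂ W] {G : V → W} {x : V}
    (hG : ContDiffAt ℂ 1 G x) (U : Submodule ℂ W) (hU : ∀ y, G y - G x ∈ U)
    (hs : ∀ w ∈ U, ∃ v, fderiv ℂ G x v = w) :
    (∀ v, fderiv ℂ G x v = 0 →
      ∃ γ : ℂ → V, γ 0 = x ∧ HasDerivAt γ v 0 ∧ ∀ᶠ t in 𝓝 (0 : ℂ), G (γ t) = G x) ∧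
    ∀ s ∈ 𝓝 x, ∀ᶠ w in 𝓝 (G x), w - G x ∈ U → ∃ y ∈ s, G y = w := by
  haveI : CompleteSpace V := FiniteDimensional.complete ℂ V
  haveI : CompleteSpace U := FiniteDimensional.complete ℂ U
  obtain ⟨π0, hπ0⟩ := U.subtype.exists_leftInverse_of_injective U.ker_subtype
  let π : W →L[ℂ] U := LinearMap.toContinuousLinearMap π0
  have hπ : ∀ u : U, π u = u := fun u => LinearMap.congr_fun hπ0 u
  have hinj : ∀ a b : W, a - b ∈ U → π a = π b → a = b := fun a b hab h => by
    have := hπ ⟨_, hab⟩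
    rw [show π ((⟨a - b, hab⟩ : U) : W) = π a - π b from map_sub π a b, h, sub_self] at this
    exact sub_eq_zero.1 (congrArg Subtype.val this).symm
  have hf : HasStrictFDerivAt (fun y => π (G y)) (π.comp (fderiv ℂ G x)) x :=
    π.hasStrictFDerivAt.comp x (hG.hasStrictFDerivAt one_ne_zero)
  have hr : (π.comp (fderiv ℂ G x)).range = ⊤ := by
    refine eq_top_iff.2 fun u _ => ?_
    obtain ⟨v, hv⟩ := hs u u.2
    exact ⟨v, by simp [hv, hπ]⟩
  refine ⟨fun v hv => ?_, fun s hs' => ?_⟩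
  · let k : (π.comp (fderiv ℂ G x)).ker := ⟨v, by simp [hv]⟩
    have hl : HasDerivAt (fun t : ℂ => t • k) k 0 := by
      have := (hasDerivAt_id (0 : ℂ)).smul_const k
      rwa [one_smul] at this
    refine ⟨fun t => hf.implicitFunction _ _ hr (π (G x)) (t • k), ?_, ?_, ?_⟩
    · simp only [zero_smul]
      exact hf.implicitFunction_apply_image hr
    · have h1 := (hf.to_implicitFunction hr).hasFDerivAt
      rw [← zero_smul ℂ k] at h1
      exact h1.comp_hasDerivAt (0 : ℂ) hl
    · have ht : Tendsto (fun t : ℂ => (π (G x), t • k)) (𝓝 0) (𝓝 (π (G x), 0)) := by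
        have := hl.continuousAt.tendsto
        simp only [zero_smul] at this
        exact tendsto_const_nhds.prodMk_nhds this
      filter_upwards [ht.eventually (hf.map_implicitFunction_eq hr)] with t h
      exact hinj _ _ (hU _) h
  · have h1 : (fun y => π (G y)) '' s ∈ 𝓝 (π (G x)) := by
      rw [← hf.map_nhds_eq_of_surj hr]
      exact image_mem_map hs'
    filter_upwards [π.continuous.continuousAt.preimage_mem_nhds h1] with w hw hwU
    obtain ⟨y, hy, e⟩ := hw
    refine ⟨y, hy, hinj _ _ ?_ e⟩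
    simpa using sub_mem (hU y) hwU

end Vale.Agent.P002
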