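import Vale.Agent.P002.Def4

open scoped Matrix.Norms.Operator Topology
open Matrix Filter

namespace Vale.Agent.P002

variable {g n : ℕ}

theorem Idem_lt {e f : M n} (h : e * f = f) {v : Fin n → ℂ} (hv : e *ᵥ v = v)
    (hf : ∀ u, f *ᵥ u ≠ v) : Module.finrank ℂ (LinearMap.range (Matrix.toLin' f)) <
      Module.finrank ℂ (LinearMap.range (Matrix.toLin' e)) := by
  refine Submodule.finrank_lt_finrank_of_lt (lt_of_le_of_ne ?_ fun h' => ?_)
  · rintro _ ⟨u, rfl⟩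
    exact ⟨f *ᵥ u, by rw [Matrix.toLin'_apply, Matrix.toLin'_apply, Matrix.mulVec_mulVec, h]⟩
  · have : v ∈ LinearMap.range (Matrix.toLin' f) := h' ▸ ⟨v, by rw [Matrix.toLin'_apply, hv]⟩
    obtain ⟨u, hu⟩ := this
    exact hf u (by rwa [Matrix.toLin'_apply] at hu)

theorem Idem_ne {f : M n} (hf : f ≠ 0) : ∃ w, f *ᵥ w ≠ 0 := by
  by_contra h
  push Not at h
  exact hf (Matrix.toLin'.injective (LinearMap.ext fun v => by simp [h v]))

theorem Idem_eig {e : M n} (he : e * e = e) (h0 : e ≠ 0) (ξ : M n) :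
    ∃ (c : ℂ) (v : Fin n → ℂ), v ≠ 0 ∧ e *ᵥ v = v ∧ (e * ξ * e - c • e) *ᵥ v = 0 := by
  obtain ⟨w, hw⟩ := Idem_ne h0
  let U := LinearMap.range (Matrix.toLin' e)
  have hU : ∀ v ∈ U, Matrix.toLin' (e * ξ * e) v ∈ U := fun v _ =>
    ⟨(ξ * e) *ᵥ v, by
      rw [Matrix.toLin'_apply, Matrix.toLin'_apply, Matrix.mulVec_mulVec, Matrix.mul_assoc]⟩
  have : Nontrivial U := ⟨⟨⟨e *ᵥ w, w, Matrix.toLin'_apply _ _⟩, 0, fun h =>
    hw (congrArg Subtype.val h)⟩⟩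
  obtain ⟨c, hc⟩ := Module.End.exists_eigenvalue ((Matrix.toLin' (e * ξ * e)).restrict hU)
  obtain ⟨v, hv⟩ := hc.exists_hasEigenvector
  have h1 : e *ᵥ v.1 = v.1 := by
    obtain ⟨u, hu⟩ := v.2
    rw [← hu, Matrix.toLin'_apply, Matrix.mulVec_mulVec, he]
  refine ⟨c, v.1, fun h => hv.2 (Subtype.ext h), h1, ?_⟩
  have h2 := congrArg Subtype.val hv.apply_eq_smul
  rw [LinearMap.restrict_coe_apply, Matrix.toLin'_apply] at h2
  rw [Matrix.sub_mulVec, h2, Matrix.smul_mulVec, h1]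
  simp

theorem Idem_ind (Z : Subalgebra ℂ (M n)) (h : ∀ ξ ∈ Z, ∃ η ∈ Z, ξ * η * ξ = ξ) (r : ℕ) :
    ∀ e ∈ Z, e * e = e → Module.finrank ℂ (LinearMap.range (Matrix.toLin' e)) = r →
    ∃ (ι : Type) (_ : Fintype ι) (a : ι → M n), (∀ i, a i ≠ 0) ∧ (∀ i, a i * a i = a i) ∧
      (∀ i j, i ≠ j → a i * a j = 0) ∧ ∑ i, a i = e ∧ (∀ i, a i ∈ Z) ∧
      ∀ i, ∀ ξ ∈ Z, ∃ c : ℂ, a i * ξ * a i = c • a i := by
  induction r using Nat.strong_induction_on with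
  | _ r ih =>
  intro e hZ he hr
  by_cases h0 : e = 0
  · exact ⟨Empty, inferInstance, fun i => i.elim, fun i => i.elim, fun i => i.elim,
      fun i => i.elim, by simp [h0], fun i => i.elim, fun i => i.elim⟩
  by_cases hp : ∀ ξ ∈ Z, ∃ c : ℂ, e * ξ * e = c • e
  · exact ⟨Unit, inferInstance, fun _ => e, fun _ => h0, fun _ => he,
      fun i j hij => (hij rfl).elim, by simp, fun _ => hZ, fun _ => hp⟩
  push Not at hp
  obtain ⟨ξ, hξ, hn⟩ := hp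
  obtain ⟨c, v, hv0, hv, hy⟩ := Idem_eig he h0 ξ
  set y := e * ξ * e - c • e with hyd
  have y0 : y ≠ 0 := sub_ne_zero.2 (hn c)
  have yZ : y ∈ Z := Z.sub_mem (Z.mul_mem (Z.mul_mem hZ hξ) hZ) (Z.smul_mem hZ c)
  have ye : y * e = y := by
    rw [hyd, Matrix.sub_mul, Matrix.mul_assoc _ e e, he, Matrix.smul_mul, he]
  obtain ⟨η, hη, hyy⟩ := h y yZ
  set f := e * η * y with hfd
  have fZ : f ∈ Z := Z.mul_mem (Z.mul_mem hZ hη) yZ
  have yf : y * f = y := by rw [hfd, ← Matrix.mul_assoc, ← Matrix.mul_assoc, ye, hyy]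
  have ff : f * f = f := by
    conv_lhs => rw [hfd, Matrix.mul_assoc (e * η) y, ← hfd, yf]
  have ef : e * f = f := by rw [hfd, ← Matrix.mul_assoc, ← Matrix.mul_assoc, he]
  have fe : f * e = f := by rw [hfd, Matrix.mul_assoc, ye]
  have f0 : f ≠ 0 := fun h => y0 (by rw [← yf, h, Matrix.mul_zero])
  have fv : f *ᵥ v = 0 := by rw [hfd, ← Matrix.mulVec_mulVec, hy, Matrix.mulVec_zero]
  have fg : f * (e - f) = 0 := by rw [Matrix.mul_sub, fe, ff, sub_self]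
  have gf : (e - f) * f = 0 := by rw [Matrix.sub_mul, ef, ff, sub_self]
  have eg : e * (e - f) = e - f := by rw [Matrix.mul_sub, he, ef]
  have gg : (e - f) * (e - f) = e - f := by rw [Matrix.sub_mul, eg, fg, sub_zero]
  obtain ⟨w, hw⟩ := Idem_ne f0
  have l1 := Idem_lt ef hv fun u hu => hv0 (by rw [← hu, ← ff, ← Matrix.mulVec_mulVec, hu, fv])
  have l2 := Idem_lt eg (v := f *ᵥ w) (by rw [Matrix.mulVec_mulVec, ef]) fun u hu => hw (by
    rw [← ff, ← Matrix.mulVec_mulVec, ← hu, Matrix.mulVec_mulVec, fg, Matrix.zero_mulVec])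
  obtain ⟨ι, _, a, a1, a2, a3, a4, a5, a6⟩ := ih _ (hr ▸ l1) f fZ ff rfl
  obtain ⟨κ, _, b, b1, b2, b3, b4, b5, b6⟩ := ih _ (hr ▸ l2) (e - f) (Z.sub_mem hZ fZ) gg rfl
  have abs : ∀ {ι : Type} [Fintype ι] (a : ι → M n), (∀ i, a i * a i = a i) →
      (∀ i j, i ≠ j → a i * a j = 0) → ∀ i, a i * ∑ j, a j = a i ∧ (∑ j, a j) * a i = a i := by
    intro ι _ a h1 h2 i
    rw [Finset.mul_sum, Finset.sum_mul, Finset.sum_eq_single i (fun j _ hj => h2 _ _ hj.symm)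
      (by simp), Finset.sum_eq_single i (fun j _ hj => h2 _ _ hj) (by simp)]
    exact ⟨h1 i, h1 i⟩
  have pa := abs a a2 a3
  have pb := abs b b2 b3
  rw [a4] at pa
  rw [b4] at pb
  refine ⟨ι ⊕ κ, inferInstance, Sum.elim a b, ?_, ?_, ?_, ?_, ?_, ?_⟩
  · rintro (i | i); exacts [a1 i, b1 i]
  · rintro (i | i); exacts [a2 i, b2 i]
  · rintro (i | i) (j | j) hij
    · exact a3 i j fun h => hij (h ▸ rfl)
    · show a i * b j = 0
      rw [← (pa i).1, ← (pb j).2, Matrix.mul_assoc, ← Matrix.mul_assoc f, fg, Matrix.zero_mul,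
        Matrix.mul_zero]
    · show b i * a j = 0
      rw [← (pb i).1, ← (pa j).2, Matrix.mul_assoc, ← Matrix.mul_assoc (e - f), gf,
        Matrix.zero_mul, Matrix.mul_zero]
    · exact b3 i j fun h => hij (h ▸ rfl)
  · rw [Fintype.sum_sum_type]
    simp [a4, b4]
  · rintro (i | i); exacts [a5 i, b5 i]
  · rintro (i | i); exacts [a6 i, b6 i]

theorem idem_sys (hn : 0 < n) (Z : Subalgebra ℂ (M n))
    (h : ∀ ξ ∈ Z, ∃ η ∈ Z, ξ * η * ξ = ξ) :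
    ∃ (m : ℕ) (e : Fin (m + 1) → M n), Sys e ∧ (∀ i, e i ∈ Z) ∧
      ∀ i, ∀ ξ ∈ Z, ∃ c : ℂ, e i * ξ * e i = c • e i := by
  obtain ⟨ι, _, a, a1, a2, a3, a4, a5, a6⟩ := Idem_ind Z h _ 1 Z.one_mem (Matrix.one_mul 1) rfl
  have : Nonempty (Fin n) := ⟨⟨0, hn⟩⟩
  have hc : Fintype.card ι ≠ 0 := fun h0 => by
    have := Fintype.card_eq_zero_iff.1 h0
    simp at a4
  obtain ⟨m, hm⟩ := Nat.exists_eq_succ_of_ne_zero hc
  let q := (Fintype.equivFinOfCardEq hm).symm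
  exact ⟨m, fun i => a (q i), ⟨fun i => a1 _, fun i => a2 _,
    fun i j hij => a3 _ _ (q.injective.ne hij), (q.sum_comp a).trans a4⟩, fun i => a5 _,
    fun i => a6 _⟩

end Vale.Agent.P002
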