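import Vale.Agent.P002.Poly2

open scoped Matrix.Norms.Operator Topology
open Matrix Filter

namespace Vale.Agent.P002

variable {g n : ℕ}

section
variable {V : Type} [NormedAddCommGroup V] [NormedSpace ℂ V]

/-- polynomial functions that vanish on `S` -/
def irrI (S : Set V) : Ideal (Pol V) where
  carrier := {f | ∀ x ∈ S, f.1 x = 0}
  add_mem' := fun {a b} ha hb x hx => by
    show a.1 x + b.1 x = 0
    rw [ha x hx, hb x hx, add_zero]
  zero_mem' := fun _ _ => rfl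
  smul_mem' := fun c a ha x hx => by
    show c.1 x * a.1 x = 0
    rw [ha x hx, mul_zero]

theorem irr_mem {x0 : V} {f : Pol V} : f ∈ irrI {x0} ↔ f.1 x0 = 0 :=
  ⟨fun h => h x0 rfl, fun h x hx => by rw [Set.mem_singleton_iff.1 hx]; exact h⟩

/-- affine function -/
noncomputable def irrL (x0 : V) (l : V →ₗ[ℂ] ℂ) : Pol V :=
  ⟨l, Algebra.subset_adjoin ⟨l, rfl⟩⟩ - algebraMap ℂ (Pol V) (l x0)

theorem irrL_apply (x0 : V) (l : V →ₗ[ℂ] ℂ) (x : V) : (irrL x0 l).1 x = l (x - x0) := by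
  rw [map_sub]; rfl

theorem irr_sub (x0 : V) (f : Pol V) : f - algebraMap ℂ (Pol V) (f.1 x0) ∈ irrI {x0} :=
  irr_mem.2 (sub_self _)

variable [FiniteDimensional ℂ V]

theorem irr_noeth : IsNoetherianRing (Pol V) := by
  classical
  let b := Module.finBasis ℂ V
  have : (Pol V).FG := by
    refine ⟨Finset.univ.image fun i => (b.coord i : V → ℂ), le_antisymm (Algebra.adjoin_mono ?_)
      (Algebra.adjoin_le ?_)⟩
    · intro f hf
      obtain ⟨i, -, rfl⟩ := Finset.mem_image.1 hf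
      exact ⟨_, rfl⟩
    · rintro _ ⟨l, rfl⟩
      have e : (l : V → ℂ) = ∑ i, l (b i) • (b.coord i : V → ℂ) := by
        ext x
        conv_lhs => rw [← b.sum_repr x, map_sum]
        simp [Finset.sum_apply, mul_comm]
      show (l : V → ℂ) ∈ _
      rw [e]
      exact Subalgebra.sum_mem _ fun i _ => Subalgebra.smul_mem _ (Algebra.subset_adjoin
        (Finset.mem_coe.2 (Finset.mem_image_of_mem _ (Finset.mem_univ i)))) _
  have := (Subalgebra.fg_iff_finiteType _).1 this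
  exact Algebra.FiniteType.isNoetherianRing ℂ _

theorem irr_taylor (x0 : V) (f : V → ℂ) (hf : f ∈ Pol V) : ∃ l : V →L[ℂ] ℂ, HasFDerivAt f l x0 ∧
    (⟨f, hf⟩ : Pol V) - algebraMap ℂ (Pol V) (f x0) - irrL x0 l ∈ irrI {x0} ^ 2 := by
  induction hf using Algebra.adjoin_induction with
  | mem f hf =>
    obtain ⟨l, rfl⟩ := hf
    refine ⟨LinearMap.toContinuousLinearMap l, (LinearMap.toContinuousLinearMap l).hasFDerivAt, ?_⟩
    convert Ideal.zero_mem _
    exact sub_self _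
  | algebraMap c =>
    refine ⟨0, hasFDerivAt_const c x0, ?_⟩
    convert Ideal.zero_mem _
    ext x
    show c - c - (irrL x0 _).1 x = 0
    rw [irrL_apply]
    simp
  | add p q hp hq ip iq =>
    obtain ⟨l, l1, l2⟩ := ip
    obtain ⟨k, k1, k2⟩ := iq
    refine ⟨l + k, l1.add k1, ?_⟩
    convert Ideal.add_mem _ l2 k2 using 1
    ext x
    show p x + q x - (p x0 + q x0) - (irrL x0 _).1 x =
      p x - p x0 - (irrL x0 _).1 x + (q x - q x0 - (irrL x0 _).1 x)
    simp only [irrL_apply]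
    simp
    ring
  | mul p q hp hq ip iq =>
    obtain ⟨l, l1, l2⟩ := ip
    obtain ⟨k, k1, k2⟩ := iq
    refine ⟨p x0 • k + q x0 • l, l1.mul k1, ?_⟩
    have h3 := Ideal.mul_mem_mul (irr_sub x0 ⟨p, hp⟩) (irr_sub x0 ⟨q, hq⟩)
    rw [← pow_two] at h3
    convert Ideal.add_mem _ h3 (Ideal.add_mem _
      (Ideal.mul_mem_left _ (algebraMap ℂ (Pol V) (q x0)) l2)
      (Ideal.mul_mem_left _ (algebraMap ℂ (Pol V) (p x0)) k2)) using 1
    ext x
    show p x * q x - (p x0 * q x0) - (irrL x0 _).1 x = (p x - p x0) * (q x - q x0) +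
      (q x0 * (p x - p x0 - (irrL x0 _).1 x) + p x0 * (q x - q x0 - (irrL x0 _).1 x))
    simp only [irrL_apply]
    simp
    ring

theorem irr_O {x0 v : V} {γ : ℂ → V} (h0 : γ 0 = x0) (h1 : HasDerivAt γ v 0) (k : ℕ) :
    ∀ r ∈ irrI {x0} ^ k, (fun t => r.1 (γ t)) =O[𝓝 0] fun t : ℂ => t ^ k := by
  have hd : ∀ r : Pol V, DifferentiableAt ℂ (fun t => r.1 (γ t)) 0 := fun r =>
    ((pol_contDiff r.2).differentiable one_ne_zero _).comp 0 h1.differentiableAt
  induction k with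
  | zero =>
    intro r _
    simpa using (hd r).continuousAt.tendsto.isBigO_one ℂ
  | succ k ih =>
    intro r hr
    rw [pow_succ] at hr
    refine Submodule.mul_induction_on hr (fun a ha b hb => ?_) fun a b ha hb => ha.add hb
    have h2 := (hd b).isBigO_sub
    rw [h0, irr_mem.1 hb] at h2
    simp only [sub_zero] at h2
    simp only [pow_succ]
    exact (ih a ha).mul h2

/-- homogeneous of degree `k` at `x0` and invariant under the projection `P` -/
def IrrH (x0 : V) (P : V →ₗ[ℂ] V) (k : ℕ) (p : Pol V) : Prop :=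
  p ∈ irrI {x0} ^ k ∧ (∀ x, p.1 x = p.1 (x0 + P (x - x0))) ∧
    ∀ (t : ℂ) (u : V), p.1 (x0 + t • u) = t ^ k * p.1 (x0 + u)

omit [FiniteDimensional ℂ V] in
theorem irr_split {x0 : V} {P : V →ₗ[ℂ] V} (hP : ∀ u, P (P u) = P u) {I : Ideal (Pol V)}
    (h1 : ∀ b ∈ irrI {x0}, ∃ l : V →ₗ[ℂ] ℂ, b - irrL x0 (l ∘ₗ P) ∈ irrI {x0} ^ 2 ⊔ I) (k : ℕ) :
    ∀ a ∈ irrI {x0} ^ k, ∃ p, IrrH x0 P k p ∧ a - p ∈ irrI {x0} ^ (k + 1) ⊔ I := by
  induction k with
  | zero =>
    intro a _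
    refine ⟨algebraMap ℂ (Pol V) (a.1 x0), ⟨by simp, fun _ => rfl, fun t u => ?_⟩,
      Ideal.mem_sup_left (by simpa using irr_sub x0 a)⟩
    rw [pow_zero, one_mul]
    rfl
  | succ k ih =>
    intro r hr
    rw [pow_succ] at hr
    refine Submodule.mul_induction_on hr (fun a ha b hb => ?_) ?_
    · obtain ⟨p, ⟨p1, p2, p3⟩, p4⟩ := ih a ha
      obtain ⟨l, hl⟩ := h1 b hb
      have m1 : irrL x0 (l ∘ₗ P) ∈ irrI {x0} := irr_mem.2 (by simp [irrL_apply])
      refine ⟨p * irrL x0 (l ∘ₗ P), ⟨by rw [pow_succ]; exact Ideal.mul_mem_mul p1 m1,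
        fun x => ?_, fun t u => ?_⟩, ?_⟩
      · show p.1 x * (irrL x0 _).1 x = p.1 _ * (irrL x0 _).1 _
        rw [← p2, irrL_apply, irrL_apply]
        simp only [add_sub_cancel_left, LinearMap.comp_apply, hP]
      · show p.1 _ * (irrL x0 _).1 _ = _ * (p.1 _ * (irrL x0 _).1 _)
        rw [p3, irrL_apply, irrL_apply]
        simp only [add_sub_cancel_left, map_smul, smul_eq_mul]
        ring
      · rw [show a * b - p * irrL x0 (l ∘ₗ P) = (a - p) * b + p * (b - irrL x0 (l ∘ₗ P)) by ring]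
        refine Ideal.add_mem _ ?_ ?_
        · obtain ⟨y, hy, z, hz, e⟩ := Submodule.mem_sup.1 p4
          rw [← e, add_mul]
          refine Ideal.add_mem _ (Ideal.mem_sup_left ?_)
            (Ideal.mem_sup_right (Ideal.mul_mem_right _ _ hz))
          rw [pow_succ]
          exact Ideal.mul_mem_mul hy hb
        · obtain ⟨y, hy, z, hz, e⟩ := Submodule.mem_sup.1 hl
          rw [← e, mul_add]
          refine Ideal.add_mem _ (Ideal.mem_sup_left ?_)
            (Ideal.mem_sup_right (Ideal.mul_mem_left _ _ hz))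
          rw [add_assoc, pow_add]
          exact Ideal.mul_mem_mul p1 hy
    · rintro a b ⟨p, ⟨p1, p2, p3⟩, p4⟩ ⟨q, ⟨q1, q2, q3⟩, q4⟩
      refine ⟨p + q, ⟨Ideal.add_mem _ p1 q1, fun x => ?_, fun t u => ?_⟩, ?_⟩
      · show p.1 x + q.1 x = p.1 _ + q.1 _
        rw [← p2, ← q2]
      · show p.1 _ + q.1 _ = _ * (p.1 _ + q.1 _)
        rw [p3, q3, mul_add]
      · rw [show a + b - (p + q) = (a - p) + (b - q) by ring]
        exact Ideal.add_mem _ p4 q4

end

theorem irr {V W : Type} [NormedAddCommGroup V] [NormedSpace ℂ V] [FiniteDimensional ℂ V]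
    [NormedAddCommGroup W] [NormedSpace ℂ W] [FiniteDimensional ℂ W] {R : Set V} {x0 : V}
    (F : V → W) (hF : ∀ l : W →ₗ[ℂ] ℂ, (fun x => l (F x)) ∈ Pol V) (hx : x0 ∈ R)
    (hR : ∀ x ∈ R, F x = F x0)
    (hγ : ∀ v, fderiv ℂ F x0 v = 0 →
      ∃ γ : ℂ → V, γ 0 = x0 ∧ HasDerivAt γ v 0 ∧ ∀ᶠ t in 𝓝 (0 : ℂ), γ t ∈ R)
    (hirr : ∀ f ∈ Pol V, ∀ h ∈ Pol V, (∀ x ∈ R, f x * h x = 0) →
      (∀ x ∈ R, f x = 0) ∨ ∀ x ∈ R, h x = 0)
    {f : V → ℂ} (hf : f ∈ Pol V) (h0 : ∀ᶠ x in 𝓝 x0, x ∈ R → f x = 0) : ∀ x ∈ R, f x = 0 := by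
  have hFd : DifferentiableAt ℂ F x0 := by
    let b := Module.finBasis ℂ W
    rw [← b.equivFunL.comp_differentiableAt_iff]
    exact differentiableAt_pi.2 fun i =>
      (pol_contDiff (hF (b.coord i))).differentiable one_ne_zero x0
  obtain ⟨D, hD⟩ : ∃ D : V →ₗ[ℂ] W, D = (fderiv ℂ F x0 : V →L[ℂ] W) := ⟨_, rfl⟩
  obtain ⟨K', hK'⟩ := Submodule.exists_isCompl (LinearMap.ker D)
  let P : V →ₗ[ℂ] V := (LinearMap.ker D).subtype ∘ₗ Submodule.projectionOnto _ _ hK'
  have P1 : ∀ u, D (P u) = 0 := fun u => (Submodule.projectionOnto _ _ hK' u).2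
  have P2 : ∀ u, D u = 0 → P u = u := fun u hu =>
    congrArg Subtype.val (Submodule.projectionOnto_apply_left hK' ⟨u, hu⟩)
  have h1 : ∀ b ∈ irrI {x0}, ∃ l : V →ₗ[ℂ] ℂ, b - irrL x0 (l ∘ₗ P) ∈ irrI {x0} ^ 2 ⊔ irrI R := by
    intro b hb
    obtain ⟨l, -, l2⟩ := irr_taylor x0 b.1 b.2
    have hm : (l : V →ₗ[ℂ] ℂ) - (l : V →ₗ[ℂ] ℂ) ∘ₗ P ∈ (LinearMap.ker D).dualAnnihilator :=
      (Submodule.mem_dualAnnihilator _).2 fun u hu => by simp [P2 u hu]
    rw [← LinearMap.range_dualMap_eq_dualAnnihilator_ker] at hm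
    obtain ⟨k, hk⟩ := hm
    obtain ⟨j, j1, j2⟩ := irr_taylor x0 _ (hF k)
    have j3 := j1.unique ((LinearMap.toContinuousLinearMap k).hasFDerivAt.comp x0 hFd.hasFDerivAt)
    have j4 : ∀ u, j u = l u - l (P u) := fun u => by
      have := LinearMap.congr_fun hk u
      rw [j3]
      simpa [hD] using this
    have j5 : (⟨_, hF k⟩ : Pol V) - algebraMap ℂ (Pol V) (k (F x0)) ∈ irrI R := fun x hx' => by
      show k (F x) - k (F x0) = 0
      rw [hR x hx', sub_self]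
    refine ⟨l, ?_⟩
    convert Ideal.add_mem _ (Ideal.mem_sup_left (Ideal.sub_mem _ l2 j2)) (Ideal.mem_sup_right j5)
      using 1
    ext x
    show b.1 x - (irrL x0 _).1 x = b.1 x - b.1 x0 - (irrL x0 _).1 x -
      (k (F x) - k (F x0) - (irrL x0 _).1 x) + (k (F x) - k (F x0))
    simp only [irrL_apply, irr_mem.1 hb, LinearMap.comp_apply, ContinuousLinearMap.coe_coe, j4]
    ring
  have h2 : ∀ k, (⟨f, hf⟩ : Pol V) ∈ irrI {x0} ^ k ⊔ irrI R := by
    intro k
    induction k with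
    | zero => simp
    | succ k ih =>
      obtain ⟨a, ha, i, hi, e⟩ := Submodule.mem_sup.1 ih
      obtain ⟨p, ⟨-, p2, p3⟩, p4⟩ := irr_split (fun u => P2 _ (P1 u)) h1 k a ha
      obtain ⟨r, hr, i', hi', e'⟩ := Submodule.mem_sup.1 p4
      have hp : ∀ v, D v = 0 → p.1 (x0 + v) = 0 := by
        intro v hv
        obtain ⟨γ, g0, g1, g2⟩ := hγ v (by rw [hD] at hv; exact hv)
        have t1 : Tendsto (fun t => p.1 (x0 + t⁻¹ • (γ t - x0))) (𝓝[≠] 0) (𝓝 (p.1 (x0 + v))) := by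
          refine ((pol_contDiff p.2).continuous.tendsto _).comp (Tendsto.const_add _ ?_)
          simpa [g0] using g1.tendsto_slope_zero
        have t2 : Tendsto (fun t : ℂ => -(r.1 (γ t) / t ^ k)) (𝓝[≠] 0) (𝓝 (-0)) :=
          (((irr_O g0 g1 _ r hr).trans_isLittleO
            (Asymptotics.isLittleO_pow_pow (Nat.lt_succ_self k))).tendsto_div_nhds_zero.mono_left
            nhdsWithin_le_nhds).neg
        rw [neg_zero] at t2
        refine tendsto_nhds_unique t1 (t2.congr' ?_)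
        have c : Tendsto γ (𝓝 0) (𝓝 x0) := g0 ▸ g1.continuousAt.tendsto
        filter_upwards [self_mem_nhdsWithin, nhdsWithin_le_nhds g2,
          nhdsWithin_le_nhds (c.eventually h0)] with t ht m1 m2
        have ht' : t ≠ 0 := ht
        have q1 := p3 t (t⁻¹ • (γ t - x0))
        rw [smul_inv_smul₀ ht', add_sub_cancel] at q1
        have q2 : a.1 (γ t) + i.1 (γ t) = f (γ t) := congrFun (congrArg Subtype.val e) _
        have q3 : r.1 (γ t) + i'.1 (γ t) = a.1 (γ t) - p.1 (γ t) :=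
          congrFun (congrArg Subtype.val e') _
        rw [hi _ m1, m2 m1] at q2
        rw [hi' _ m1] at q3
        rw [neg_eq_iff_eq_neg, div_eq_iff (pow_ne_zero _ ht')]
        linear_combination q3 + q2 - q1
      have p0 : p = 0 := Subtype.ext (funext fun x => (p2 x).trans (hp _ (P1 _)))
      rw [p0, sub_zero] at p4
      rw [← e]
      exact Ideal.add_mem _ p4 (Ideal.mem_sup_right hi)
  have hle : irrI R ≤ irrI {x0} := fun a ha => irr_mem.2 (ha x0 hx)
  have hne : irrI {x0} ≠ (⊤ : Ideal (Pol V)) := fun e =>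
    one_ne_zero (irr_mem.1 (show (1 : Pol V) ∈ irrI {x0} from e ▸ Submodule.mem_top))
  have hpr : (irrI R).IsPrime := ⟨fun e => hne (top_le_iff.1 (e ▸ hle)),
    fun {a b} hab => hirr a.1 a.2 b.1 b.2 hab⟩
  have := irr_noeth (V := V)
  have hk := Ideal.iInf_pow_eq_bot_of_isDomain
    (I := (irrI {x0}).map (Ideal.Quotient.mk (irrI R))) (fun e => hne (by
      have := congrArg (Ideal.comap (Ideal.Quotient.mk (irrI R))) e
      rwa [Ideal.comap_map_of_surjective _ Ideal.Quotient.mk_surjective, Ideal.comap_top,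
        ← RingHom.ker_eq_comap_bot, Ideal.mk_ker, sup_eq_left.2 hle] at this))
  have hf0 : Ideal.Quotient.mk (irrI R) ⟨f, hf⟩ = 0 := by
    rw [← Ideal.mem_bot, ← hk, Ideal.mem_iInf]
    intro k
    obtain ⟨a, ha, i, hi, e⟩ := Submodule.mem_sup.1 (h2 k)
    rw [← e, map_add, Ideal.Quotient.eq_zero_iff_mem.2 hi, add_zero, ← Ideal.map_pow]
    exact Ideal.mem_map_of_mem _ ha
  exact Ideal.Quotient.eq_zero_iff_mem.1 hf0

end Vale.Agent.P002
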