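import Vale.Agent.P002.Sp0

open scoped Matrix.Norms.Operator Topology
open Matrix Filter

namespace Vale.Agent.P002

variable {g n : ℕ}

theorem sp1_pow {y : Fin n → ℂ} (hy : Function.Injective y) (h0 : ∀ i, y i ≠ 0) (z : Fin n → ℂ) :
    ∃ r : ℕ → ℂ, z = ∑ k ∈ Finset.range n, r k • fun i => y i ^ (k + 1) := by
  classical
  rcases Nat.eq_zero_or_pos n with hn | hn
  · subst hn
    exact ⟨fun _ => 0, funext fun i => i.elim0⟩
  set f := Lagrange.interpolate Finset.univ y (fun i => z i / y i) with hf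
  have hd : f.natDegree < n := by
    have h1 := Lagrange.degree_interpolate_lt (s := Finset.univ) (v := y)
      (r := fun i => z i / y i) hy.injOn
    rw [Finset.card_univ, Fintype.card_fin, ← hf] at h1
    by_cases hz : f = 0
    · rw [hz]
      simpa using hn
    · exact (Polynomial.natDegree_lt_iff_degree_lt hz).mpr h1
  refine ⟨fun k => f.coeff k, funext fun i => ?_⟩
  have h2 : f.eval (y i) = z i / y i :=
    Lagrange.eval_interpolate_at_node (fun i => z i / y i) hy.injOn (Finset.mem_univ i)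
  rw [Polynomial.eval_eq_sum_range' hd] at h2
  have h3 : z i = (∑ k ∈ Finset.range n, f.coeff k * y i ^ k) * y i := by
    rw [h2, div_mul_cancel₀ _ (h0 i)]
  rw [h3, Finset.sum_apply, Finset.sum_mul]
  refine Finset.sum_congr rfl fun k _ => ?_
  simp only [Pi.smul_apply, smul_eq_mul]
  ring

theorem sp1_Bm_sum (c : ℕ) (r : ℕ → ℂ) (w : ℕ → Fin n → ℂ) (s : Finset ℕ) :
    Bm c (∑ k ∈ s, r k • w k) = ∑ k ∈ s, r k • Bm c (w k) := by
  classical
  induction s using Finset.induction_on with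
  | empty =>
    simp only [Finset.sum_empty, Bm]
    rw [show (diagonal (0 : Fin n → ℂ)) = 0 from diagonal_zero, Matrix.mul_zero, Matrix.zero_mul]
  | insert a s ha ih =>
    rw [Finset.sum_insert ha, Finset.sum_insert ha, ← ih]
    unfold Bm
    rw [show diagonal (r a • w a + ∑ k ∈ s, r k • w k) =
      r a • diagonal (w a) + diagonal (∑ k ∈ s, r k • w k) by
        rw [← diagonal_smul, diagonal_add]; rfl]
    rw [Matrix.mul_add, Matrix.add_mul, Matrix.mul_smul, Matrix.smul_mul]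

theorem sp1_ne {y : Fin n → ℂ} (hy : GY y) (i : Fin n) : y i ≠ 0 := by
  intro h
  have h1 := hy.2
  rw [Finset.prod_eq_zero (Finset.mem_univ i) h] at h1
  exact zero_ne_one h1

theorem sp1_comm {c c' : ℕ} {y y' : Fin n → ℂ} (hy : GY y) (hy' : GY y') (z z' : Fin n → ℂ) :
    Bm c z * Bm c' z' - Bm c' z' * Bm c z ∈
      Submodule.span ℂ {u : M n | ∃ p q : ℕ, 0 < p ∧ p ≤ n ∧ 0 < q ∧ q ≤ n ∧
      u = adjugate (Bm c y) ^ p * Bm c' y' ^ q - Bm c' y' ^ q * adjugate (Bm c y) ^ p} := by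
  obtain ⟨r, hr⟩ := sp1_pow (y := fun i => (y i)⁻¹) (inv_injective.comp hy.1)
    (fun i => inv_ne_zero (sp1_ne hy i)) z
  obtain ⟨r', hr'⟩ := sp1_pow hy'.1 (sp1_ne hy') z'
  rw [hr, hr', sp1_Bm_sum, sp1_Bm_sum, Finset.sum_mul_sum, Finset.sum_mul_sum,
    Finset.sum_comm (s := Finset.range n) (t := Finset.range n)
      (f := fun j i => (r' j • Bm c' fun a => y' a ^ (j + 1)) *
        (r i • Bm c fun a => (y a)⁻¹ ^ (i + 1))), ← Finset.sum_sub_distrib]
  refine Submodule.sum_mem _ fun p hp => ?_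
  rw [← Finset.sum_sub_distrib]
  refine Submodule.sum_mem _ fun q hq => ?_
  rw [smul_mul_smul_comm, smul_mul_smul_comm, mul_comm (r' q) (r p), ← smul_sub]
  refine Submodule.smul_mem _ _ (Submodule.subset_span ⟨p + 1, q + 1, by omega, ?_, by omega, ?_, ?_⟩)
  · exact Finset.mem_range.mp hp
  · exact Finset.mem_range.mp hq
  · rw [Bm_adj c hy, Bm_pow, Bm_pow]

theorem sp1_JJ : JJ n * JJ n = (n : ℂ) • JJ n := by
  ext a b
  simp [JJ, Matrix.mul_apply]

theorem sp1_den (c : ℕ) : (1 : ℂ) + c * n ≠ 0 := by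
  have : ((1 + c * n : ℕ) : ℂ) ≠ 0 := Nat.cast_ne_zero.mpr (by omega)
  simpa using this

theorem sp1_QP (c c' : ℕ) :
    QJ n c * PJ n c' = 1 + (((c' : ℂ) - c) / (1 + c * n)) • JJ n := by
  have h : QJ n c * PJ n c' = 1 + ((c' : ℂ) - (c : ℂ) / (1 + c * n) -
      (c : ℂ) / (1 + c * n) * c' * n) • JJ n := by
    unfold QJ PJ
    simp only [sub_mul, mul_add, one_mul, mul_one, smul_mul_assoc, mul_smul_comm, sp1_JJ]
    module
  rw [h]
  congr 2
  have := sp1_den (n := n) c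
  field_simp
  ring

theorem sp1_ent (u v : ℂ) (X : M n) (a b : Fin n) :
    ((1 + u • JJ n) * X * (1 + v • JJ n)) a b =
      X a b + v * ∑ j, X a j + u * ∑ i, X i b + u * v * ∑ i, ∑ j, X i j := by
  have h : (1 + u • JJ n) * X * (1 + v • JJ n) =
      X + v • (X * JJ n) + u • (JJ n * X) + (u * v) • (JJ n * (X * JJ n)) := by
    simp only [add_mul, mul_add, one_mul, mul_one, smul_mul_assoc, mul_smul_comm, mul_assoc]
    module
  rw [h]
  simp [JJ, Matrix.mul_apply]

theorem sp1_core {u v : ℂ} (huv : u ^ 2 - v ^ 2 ≠ 0) (X : M n) (h0 : ∀ i, X i i = 0)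
    (h1 : ∀ i, ((1 + v • JJ n) * X * (1 + u • JJ n)) i i = 0) :
    ∃ t : Fin n → Fin n → ℂ, X = ∑ i, (diagonal (Pi.single i 1) *
      ((1 + u • JJ n) * diagonal (t i) * (1 + v • JJ n)) -
      ((1 + u • JJ n) * diagonal (t i) * (1 + v • JJ n)) * diagonal (Pi.single i 1)) := by
  set t : Fin n → Fin n → ℂ := fun a b => (u * X a b + v * X b a) / (u ^ 2 - v ^ 2) with ht
  have hτ : ∀ a, ∑ j, t a j = -(v * u * ∑ i, ∑ j, X i j) / (u ^ 2 - v ^ 2) := by
    intro a
    have h2 := h1 a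
    rw [sp1_ent, h0] at h2
    simp only [ht]
    rw [← Finset.sum_div, Finset.sum_add_distrib, ← Finset.mul_sum, ← Finset.mul_sum]
    congr 1
    linear_combination h2
  have hF : ∀ (z : Fin n → ℂ) (a b : Fin n), ((1 + u • JJ n) * diagonal z * (1 + v • JJ n)) a b =
      diagonal z a b + v * z a + u * z b + u * v * ∑ j, z j := by
    intro z a b
    rw [sp1_ent]
    simp [diagonal_apply]
  refine ⟨t, ?_⟩
  ext a b
  rw [Matrix.sum_apply]
  simp only [Matrix.sub_apply, diagonal_mul, mul_diagonal, Finset.sum_sub_distrib]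
  rw [Finset.sum_eq_single a (fun i _ hi => by rw [Pi.single_eq_of_ne hi.symm, zero_mul])
    (fun h => absurd (Finset.mem_univ a) h),
    Finset.sum_eq_single b (fun i _ hi => by rw [Pi.single_eq_of_ne hi.symm, mul_zero])
    (fun h => absurd (Finset.mem_univ b) h), Pi.single_eq_same, Pi.single_eq_same, one_mul, mul_one]
  by_cases hab : a = b
  · subst hab
    rw [h0, sub_self]
  · rw [hF, hF, hτ, hτ, diagonal_apply_ne _ hab, diagonal_apply_ne _ hab]
    simp only [ht, h0]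
    field_simp
    ring

theorem sp1 (hn : 3 ≤ n) {c c' : ℕ} (hc : c ≠ c') {y y' : Fin n → ℂ} (hy : GY y) (hy' : GY y')
    {η : M n} (h : Perp c η) (h' : Perp c' η) :
    η ∈ Submodule.span ℂ {u : M n | ∃ p q : ℕ, 0 < p ∧ p ≤ n ∧ 0 < q ∧ q ≤ n ∧
      u = adjugate (Bm c y) ^ p * Bm c' y' ^ q - Bm c' y' ^ q * adjugate (Bm c y) ^ p} := by
  set u : ℂ := ((c' : ℂ) - c) / (1 + c * n) with hu
  set v : ℂ := ((c : ℂ) - c') / (1 + c' * n) with hv
  have d1 := sp1_den (n := n) c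
  have d2 := sp1_den (n := n) c'
  have huv : u ^ 2 - v ^ 2 ≠ 0 := by
    have e : u ^ 2 - v ^ 2 = ((c' : ℂ) - c) ^ 3 * n * (2 + (c + c') * n) /
        ((1 + c * n) ^ 2 * (1 + c' * n) ^ 2) := by
      rw [hu, hv]
      field_simp
      ring
    rw [e]
    have a1 : (c' : ℂ) - c ≠ 0 := sub_ne_zero.mpr fun e => hc (Nat.cast_injective e).symm
    have a2 : (n : ℂ) ≠ 0 := Nat.cast_ne_zero.mpr (by omega)
    have a3 : (2 : ℂ) + (c + c') * n ≠ 0 := by
      have : ((2 + (c + c') * n : ℕ) : ℂ) ≠ 0 := Nat.cast_ne_zero.mpr (by omega)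
      simpa using this
    exact div_ne_zero (mul_ne_zero (mul_ne_zero (pow_ne_zero _ a1) a2) a3)
      (mul_ne_zero (pow_ne_zero _ d1) (pow_ne_zero _ d2))
  have q1 : QJ n c * PJ n c' = 1 + u • JJ n := sp1_QP c c'
  have q2 : QJ n c' * PJ n c = 1 + v • JJ n := sp1_QP c' c
  have cancel : ∀ X : M n, PJ n c * (QJ n c * X) = X := fun X => by
    rw [← Matrix.mul_assoc, PQ, Matrix.one_mul]
  have cancel' : ∀ X : M n, QJ n c * (PJ n c * X) = X := fun X => by
    rw [← Matrix.mul_assoc, QP, Matrix.one_mul]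
  obtain ⟨t, ht⟩ := sp1_core huv (QJ n c * η * PJ n c) h (fun i => by
    rw [← q1, ← q2]
    have := h' i
    simp only [Matrix.mul_assoc, cancel] at this ⊢
    exact this)
  have e : η = PJ n c * (QJ n c * η * PJ n c) * QJ n c := by
    simp only [Matrix.mul_assoc, cancel, PQ, Matrix.mul_one]
  rw [e, ht, Finset.mul_sum, Finset.sum_mul]
  refine Submodule.sum_mem _ fun i _ => ?_
  have := sp1_comm (c := c) (c' := c') hy hy' (Pi.single i 1) (t i)
  convert this using 1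
  rw [← q1, ← q2]
  unfold Bm
  simp only [Matrix.mul_sub, Matrix.sub_mul, Matrix.mul_assoc, cancel, PQ, Matrix.mul_one]

end Vale.Agent.P002
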