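import Vale.Agent.P002.Def4
import Vale.Agent.P002.Sp1

open scoped Matrix.Norms.Operator Topology
open Matrix Filter

namespace Vale.Agent.P002

variable {g n : ℕ}

theorem IrrX_GY (hn : 0 < n) : ∃ y : Fin n → ℂ, GY y := by
  have h0 : ∏ i : Fin n, ((i.1 + 1 : ℕ) : ℂ) ≠ 0 :=
    Finset.prod_ne_zero_iff.2 fun i _ => Nat.cast_ne_zero.2 (by omega)
  obtain ⟨c, hc⟩ := IsAlgClosed.exists_pow_nat_eq (∏ i : Fin n, ((i.1 + 1 : ℕ) : ℂ))⁻¹ hn
  have hc0 : c ≠ 0 := fun h => by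
    rw [h, zero_pow hn.ne'] at hc
    exact inv_ne_zero h0 hc.symm
  refine ⟨fun i => c * ((i.1 + 1 : ℕ) : ℂ), fun i j h => ?_, ?_⟩
  · have h1 := Nat.cast_injective (R := ℂ) (mul_left_cancel₀ hc0 h)
    exact Fin.ext (by omega)
  · rw [Finset.prod_mul_distrib, Finset.prod_const, Finset.card_univ, Fintype.card_fin, hc,
      inv_mul_cancel₀ h0]

theorem irr_ex (hn : 0 < n) : ∃ X Y : M n, X.det = 1 ∧ Y.det = 1 ∧
    ∀ A : Subalgebra ℂ (M n), X ∈ A → Y ∈ A → A = ⊤ := by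
  obtain ⟨y, hy⟩ := IrrX_GY hn
  have hP : (PJ n 1).det ≠ 0 := fun h => by
    have := congrArg det (PQ (n := n) 1)
    rw [det_mul, h, zero_mul, det_one] at this
    exact zero_ne_one this
  obtain ⟨c, hc⟩ := IsAlgClosed.exists_pow_nat_eq ((PJ n 1).det)⁻¹ hn
  have hc0 : c ≠ 0 := fun h => by
    rw [h, zero_pow hn.ne'] at hc
    exact inv_ne_zero hP hc.symm
  have p0 : ∀ i j, PJ n 1 i j ≠ 0 := fun i j => by
    by_cases hij : i = j
    · subst hij; norm_num [PJ, JJ]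
    · simp [PJ, JJ, hij]
  have b0 : ∀ z : Fin n → ℂ, Bm 0 z = diagonal z := fun z => by simp [Bm, PJ, QJ]
  refine ⟨diagonal y, c • PJ n 1, by rw [det_diagonal, hy.2], ?_, fun A hX hY => ?_⟩
  · rw [det_smul, Fintype.card_fin, hc, inv_mul_cancel₀ hP]
  have hD : ∀ z : Fin n → ℂ, diagonal z ∈ A := fun z => by
    obtain ⟨r, hr⟩ := sp1_pow hy.1 (sp1_ne hy) z
    rw [← b0, hr, sp1_Bm_sum]
    refine Subalgebra.sum_mem _ fun k _ => Subalgebra.smul_mem _ ?_ _
    rw [← Bm_pow, b0]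
    exact pow_mem hX _
  have hS : ∀ (i j : Fin n) (a : ℂ), single i j a ∈ A := fun i j a => by
    have e : single i j a = diagonal (Pi.single i (a / (c * PJ n 1 i j))) * (c • PJ n 1) *
        diagonal (Pi.single j 1) := by
      ext k l
      rw [mul_diagonal, diagonal_mul, Matrix.smul_apply, smul_eq_mul]
      by_cases hk : k = i
      · subst hk
        by_cases hl : l = j
        · subst hl
          rw [single_apply_same, Pi.single_eq_same, Pi.single_eq_same, mul_one,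
            div_mul_cancel₀ _ (mul_ne_zero hc0 (p0 k l))]
        · rw [Pi.single_eq_of_ne hl, mul_zero, single_apply_of_col_ne _ _ (Ne.symm hl)]
      · rw [Pi.single_eq_of_ne hk, zero_mul, zero_mul, single_apply_of_row_ne (Ne.symm hk)]
    rw [e]
    exact mul_mem (mul_mem (hD _) hY) (hD _)
  rw [eq_top_iff]
  intro Z _
  rw [matrix_eq_sum_single Z]
  exact Subalgebra.sum_mem _ fun i _ => Subalgebra.sum_mem _ fun j _ => hS i j _

end Vale.Agent.P002
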