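import Vale.Agent.P002.Poly2
import Vale.Agent.P002.Der1

open scoped Matrix.Norms.Operator Topology
open Matrix Filter

namespace Vale.Agent.P002

variable {g n : ℕ}

theorem FF_contDiff : ContDiff ℂ 1 (FF : E g n → _) := by
  have hx : EP (Pol (E g n)).toSubring (LinearMap.id : E g n →ₗ[ℂ] E g n) := ep_lin _
  refine ContDiff.prodMk (contDiff_pi.mpr fun j => ContDiff.prodMk ?_ ?_) ?_
  · exact pol_contDiff (hx j).1.det
  · exact pol_contDiff (hx j).2.det
  · refine contDiff_iff_contDiffAt.mpr fun x => ?_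
    exact MP.contDiffAt (h := 1) (one_mem _) one_ne_zero
      fun i j => pol_le_loc _ (hx.pm g i j)

theorem FF_eq {x0 : E g n} (h0 : x0 ∈ RR g n) (x : E g n) : FF x = FF x0 ↔ x ∈ RR g n := by
  simp only [FF, Prod.mk.injEq, funext_iff (f := fun j => ((x j).1.det, (x j).2.det)), h0.2,
    (h0.1 _).1, (h0.1 _).2]
  rfl

lemma Ker_pm (x : E g n) : pm x g = (List.ofFn fun j => cm (x j)).prod := by
  rw [pm, List.take_of_length_le (by simp)]

theorem HH_RR : HH g n ⊆ RR g n := by
  intro x hx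
  refine ⟨fun j => ⟨by rw [(hx j).1, det_one], (hx j).2⟩, ?_⟩
  rw [Ker_pm]
  refine List.prod_eq_one fun a ha => ?_
  obtain ⟨j, rfl⟩ := List.mem_ofFn.mp ha
  simp [cm, (hx j).1, mul_adjugate, (hx j).2]

lemma Ker_prod (m : ℕ) (f : Fin m → ℂ → M n) (f' : Fin m → M n)
    (h : ∀ j, HasDerivAt (f j) (f' j) 0) (h0 : ∀ j, f j 0 = 1) :
    HasDerivAt (fun t => (List.ofFn fun j => f j t).prod) (∑ j, f' j) 0 := by
  induction m with
  | zero =>
    simp only [List.ofFn_zero, List.prod_nil, Finset.univ_eq_empty, Finset.sum_empty]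
    exact hasDerivAt_const (0 : ℂ) (1 : M n)
  | succ m ih =>
    have h1 := (h 0).fun_mul (ih (fun j => f j.succ) (fun j => f' j.succ) (fun j => h _)
      fun j => h0 _)
    have e : (List.ofFn fun j : Fin m => f j.succ 0).prod = 1 := by
      refine List.prod_eq_one fun a ha => ?_
      obtain ⟨j, rfl⟩ := List.mem_ofFn.mp ha
      exact h0 _
    rw [e, h0, mul_one, one_mul] at h1
    simp only [List.ofFn_succ, List.prod_cons, Fin.sum_univ_succ]
    exact h1

theorem ker_FF {B : Fin g → M n} (hB : ∀ j, (B j).det = 1) {v : E g n}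
    (hv : fderiv ℂ FF (xB B) v = 0) : v ∈ Tb B ∧ (∀ j, (v j).1.trace = 0) ∧
      ∑ j, ((v j).1 - B j * (v j).1 * adjugate (B j)) = 0 := by
  have hl : ∀ {W : Type} [NormedAddCommGroup W] [NormedSpace ℂ W] (a b : W),
      HasDerivAt (fun t : ℂ => a + t • b) b 0 := fun a b => by
    simpa using ((hasDerivAt_id (0 : ℂ)).smul_const b).const_add a
  have hF : HasDerivAt (fun t : ℂ => FF (xB B + t • v)) 0 0 := by
    have h1 : HasFDerivAt FF (fderiv ℂ FF (xB B)) (xB B + (0 : ℂ) • v) := by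
      rw [zero_smul, add_zero]
      exact (FF_contDiff.differentiable one_ne_zero _).hasFDerivAt
    have h2 := h1.comp_hasDerivAt (0 : ℂ) (hl (xB B) v)
    exact HasDerivAt.congr_deriv h2 hv
  have hF1 : HasDerivAt (fun t : ℂ => (FF (xB B + t • v)).1) 0 0 := hF.fst
  have hF2 : HasDerivAt (fun t : ℂ => (FF (xB B + t • v)).2) 0 0 := hF.snd
  have ha : ∀ j, HasDerivAt (fun t : ℂ => (1 : M n) + t • (v j).1) (v j).1 0 := fun j => hl _ _
  have hb : ∀ j, HasDerivAt (fun t : ℂ => B j + t • (v j).2) (v j).2 0 := fun j => hl _ _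
  have t1 : ∀ j, (v j).1.trace = 0 := fun j => by
    have h1 := det_deriv (ha j) (by simp)
    have h2 : HasDerivAt (fun t : ℂ => ((1 : M n) + t • (v j).1).det) 0 0 :=
      (hasDerivAt_pi.mp hF1 j).fst
    simpa using h1.unique h2
  have t2 : ∀ j, (adjugate (B j) * (v j).2).trace = 0 := fun j => by
    have h1 := det_deriv (hb j) (by simp [hB])
    have h2 : HasDerivAt (fun t : ℂ => (B j + t • (v j).2).det) 0 0 :=
      (hasDerivAt_pi.mp hF1 j).snd
    simpa using h1.unique h2
  refine ⟨t2, t1, ?_⟩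
  have hBB : ∀ j, B j * adjugate (B j) = 1 := fun j => by simp [mul_adjugate, hB]
  have hc : ∀ j, HasDerivAt (fun t : ℂ => cm ((xB B + t • v) j))
      ((v j).1 - B j * (v j).1 * adjugate (B j)) 0 := fun j => by
    have h1 := (((ha j).fun_mul (hb j)).fun_mul
      (adj_deriv (ha j) (by simp) (by simp [t1]))).fun_mul
      (adj_deriv (hb j) (by simp [hB]) (by simp [t2]))
    simp only [zero_smul, add_zero, adjugate_one, one_mul, mul_one] at h1
    refine HasDerivAt.congr_deriv h1 ?_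
    rw [mul_neg (B j) (_ * _ * _), ← mul_assoc, ← mul_assoc, hBB, add_mul, add_mul,
      mul_assoc (v j).1, hBB]
    noncomm_ring
  have h3 := Ker_prod g _ _ hc fun j => by simp [cm, xB, hBB]
  simp only [FF, Ker_pm] at hF2
  exact h3.unique hF2

end Vale.Agent.P002
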