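import Vale.Agent.P002.Sp1

open scoped Matrix.Norms.Operator Topology
open Matrix Filter

namespace Vale.Agent.P002

variable {g n : ℕ}

theorem sp3_pow {Y : M n} (h : Y.det = 1) (q : ℕ) :
    Y ^ q * adjugate Y ^ q = 1 ∧ adjugate Y ^ q * Y ^ q = 1 := by
  have h1 : Y * adjugate Y = 1 := by rw [mul_adjugate, h, one_smul]
  have h2 : adjugate Y * Y = 1 := by rw [adjugate_mul, h, one_smul]
  have hc : Commute Y (adjugate Y) := h1.trans h2.symm
  exact ⟨by rw [← hc.mul_pow, h1, one_pow], by rw [← hc.symm.mul_pow, h2, one_pow]⟩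

theorem sp3_tel (Y ξ : M n) (q : ℕ) :
    sa Y q ξ - Y * sa Y q ξ * adjugate Y = ξ - Y ^ q * ξ * adjugate Y ^ q := by
  induction q with
  | zero => simp [sa]
  | succ q ih =>
    unfold sa at ih ⊢
    rw [Finset.sum_range_succ, mul_add, add_mul, add_sub_add_comm, ih, pow_succ' Y,
      pow_succ (adjugate Y)]
    simp only [mul_assoc]
    abel

theorem sp3_tr {Y : M n} (h : Y.det = 1) (q : ℕ) (Z : M n) : (sa Y q (tl Z)).trace = 0 := by
  unfold sa
  rw [trace_sum]
  refine Finset.sum_eq_zero fun r _ => ?_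
  rw [trace_mul_cycle, (sp3_pow h r).2, one_mul]
  simp [tl, mul_comm]

/-- the twisted difference map -/
noncomputable def sp3T (B : Fin g → M n) : (Fin g → M n) →ₗ[ℂ] (Fin g → M n) where
  toFun a j := a j - B j * a j * adjugate (B j)
  map_add' a b := by
    funext j
    simp only [Pi.add_apply, mul_add, add_mul]
    abel
  map_smul' c a := by
    funext j
    simp only [Pi.smul_apply, Matrix.mul_smul, Matrix.smul_mul, smul_sub, RingHom.id_apply]

/-- traceless tuples -/
def sp3Z (g n : ℕ) : Submodule ℂ (Fin g → M n) where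
  carrier := {a | ∀ j, (a j).trace = 0}
  add_mem' := fun {a b} ha hb j => by simp [ha j, hb j]
  zero_mem' := fun j => by simp
  smul_mem' := fun c a ha j => by simp [ha j]

theorem sp3T_single (B : Fin g → M n) (k : Fin g) (u : M n) :
    sp3T B (Pi.single k u) = Pi.single k (u - B k * u * adjugate (B k)) := by
  funext j
  by_cases h : j = k
  · subst h
    simp [sp3T]
  · simp [sp3T, h]

theorem sp3Z_single (k : Fin g) {u : M n} (h : u.trace = 0) : Pi.single k u ∈ sp3Z g n := by
  intro j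
  by_cases e : j = k
  · subst e
    simpa using h
  · simp [e]

theorem sp3_psum {c : ℕ} {ι : Type} (s : Finset ι) {f : ι → M n} (h : ∀ i, Perp c (f i)) :
    Perp c (∑ i ∈ s, f i) := fun i => by
  rw [Finset.mul_sum, Finset.sum_mul, Matrix.sum_apply]
  exact Finset.sum_eq_zero fun j _ => h j i

theorem sp3 (hn : 3 ≤ n) (hg : 2 ≤ g) {y : ℕ → Fin n → ℂ} (hy : ∀ c, GY (y c))
    (W : Submodule ℂ (Fin g → M n))
    (h1 : ∀ (i : Fin g) (k : ℕ), (Pi.single i (tl (BB g y i ^ k)) : Fin g → M n) ∈ W)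
    (h2 : ∀ i k : Fin g, i < k → i.1 < 2 → ∀ p q : ℕ, 0 < p → p ≤ n → 0 < q → q ≤ n →
      (Pi.single k (sa (BB g y k) q (tl (adjugate (BB g y i) ^ p * BB g y k ^ q))) : Fin g → M n) -
        Pi.single i (sa (BB g y i) p (tl (adjugate (BB g y i) ^ p * BB g y k ^ q))) ∈ W)
    (a : Fin g → M n) (ht : ∀ j, (a j).trace = 0)
    (hs : ∑ j, (a j - BB g y j * a j * adjugate (BB g y j)) = 0) : a ∈ W := by
  have hn0 : (n : ℂ) ≠ 0 := Nat.cast_ne_zero.2 (by omega)
  have hd : ∀ j, (BB g y j).det = 1 := fun j => Bm_det _ (hy _)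
  set U : Submodule ℂ (Fin g → M n) := (W ⊓ sp3Z g n).map (sp3T (BB g y)) with hU
  have s1 : ∀ i k : Fin g, i < k → i.1 < 2 → ∀ η : M n, Perp (min i.1 2) η → Perp (min k.1 2) η →
      (Pi.single k η : Fin g → M n) - Pi.single i η ∈ U := by
    intro i k hik hi η e1 e2
    have hik' : i.1 < k.1 := hik
    have hm := sp1 hn (c := min i.1 2) (c' := min k.1 2) (by omega) (hy (min i.1 2))
      (hy (min k.1 2)) e1 e2
    clear e1 e2
    induction hm using Submodule.span_induction with
    | mem u hu =>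
      obtain ⟨p, q, p0, p1, q0, q1, rfl⟩ := hu
      refine ⟨(n : ℂ)⁻¹ • _, Submodule.smul_mem _ _ ⟨h2 i k hik hi p q p0 p1 q0 q1,
        sub_mem (sp3Z_single _ (sp3_tr (hd k) _ _)) (sp3Z_single _ (sp3_tr (hd i) _ _))⟩, ?_⟩
      have a1 : tl (adjugate (BB g y i) ^ p * BB g y k ^ q) - BB g y k ^ q *
          tl (adjugate (BB g y i) ^ p * BB g y k ^ q) * adjugate (BB g y k) ^ q =
          (n : ℂ) • (adjugate (BB g y i) ^ p * BB g y k ^ q -
            BB g y k ^ q * adjugate (BB g y i) ^ p) := by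
        simp only [tl, mul_sub, sub_mul, Matrix.mul_smul, Matrix.smul_mul, mul_one, mul_assoc,
          (sp3_pow (hd k) q).1, smul_sub]
        abel
      have a2 : tl (adjugate (BB g y i) ^ p * BB g y k ^ q) - BB g y i ^ p *
          tl (adjugate (BB g y i) ^ p * BB g y k ^ q) * adjugate (BB g y i) ^ p =
          (n : ℂ) • (adjugate (BB g y i) ^ p * BB g y k ^ q -
            BB g y k ^ q * adjugate (BB g y i) ^ p) := by
        simp only [tl, mul_sub, sub_mul, Matrix.mul_smul, Matrix.smul_mul, mul_one, ← mul_assoc,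
          (sp3_pow (hd i) p).1, smul_sub, one_mul]
        abel
      rw [map_smul, map_sub, sp3T_single, sp3T_single, sp3_tel, sp3_tel, a1, a2, Pi.single_smul,
        Pi.single_smul, ← smul_sub, smul_smul, inv_mul_cancel₀ hn0, one_smul]
      rfl
    | zero => simp
    | add u v _ _ hu hv =>
      rw [Pi.single_add, Pi.single_add, add_sub_add_comm]
      exact add_mem hu hv
    | smul c u _ hu =>
      rw [Pi.single_smul, Pi.single_smul, ← smul_sub]
      exact Submodule.smul_mem _ _ hu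
  set b := sp3T (BB g y) a with hb
  have hp : ∀ j, Perp (min j.1 2) (b j) := fun j => perp_ad _ (hy _) _
  have p0 : ∀ c, Perp c (0 : M n) := fun c i => by simp
  let i0 : Fin g := ⟨0, by omega⟩
  let i1 : Fin g := ⟨1, by omega⟩
  have s2 : ∀ k : Fin g, ∃ η0 η1 : M n, b k = η0 + η1 ∧ Perp 0 η0 ∧ Perp 1 η1 ∧
      (Pi.single k (b k) : Fin g → M n) - (Pi.single i0 η0 + Pi.single i1 η1) ∈ U := by
    intro k
    by_cases k0 : k = i0
    · subst k0
      exact ⟨b i0, 0, by simp, hp i0, p0 1, by simp⟩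
    by_cases k1 : k = i1
    · subst k1
      exact ⟨0, b i1, by simp, p0 0, hp i1, by simp⟩
    have k2 : 2 ≤ k.1 := by
      have e0 : k.1 ≠ 0 := fun h => k0 (Fin.ext h)
      have e1 : k.1 ≠ 1 := fun h => k1 (Fin.ext h)
      omega
    have hk : min k.1 2 = 2 := by omega
    obtain ⟨η0, η1, e, f1, f2, f3, f4⟩ := sp2 hn (hk ▸ hp k)
    refine ⟨η0, η1, e, f2, f4, ?_⟩
    rw [e, Pi.single_add, add_sub_add_comm]
    exact add_mem (s1 i0 k (show 0 < k.1 by omega) (show 0 < 2 by omega) _ f2 (hk.symm ▸ f1))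
      (s1 i1 k (show 1 < k.1 by omega) (show 1 < 2 by omega) _ f4 (hk.symm ▸ f3))
  choose η0 η1 e f0 f1 hm using s2
  have hsum : ∑ k, η0 k = -∑ k, η1 k := by
    rw [eq_neg_iff_add_eq_zero, ← Finset.sum_add_distrib, ← hs]
    exact Finset.sum_congr rfl fun k _ => (e k).symm
  have hz : Perp 0 (∑ k, η1 k) := fun i => by
    have := sp3_psum Finset.univ f0 i
    rw [hsum] at this
    simpa using this
  have hbU : b ∈ U := by
    have t1 := Submodule.sum_mem U (t := Finset.univ) fun k _ => hm k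
    have t2 := s1 i0 i1 (show 0 < 1 by omega) (show 0 < 2 by omega) _ hz
      (sp3_psum Finset.univ f1)
    have u0 : ∑ k, (Pi.single i0 (η0 k) : Fin g → M n) = Pi.single i0 (∑ k, η0 k) :=
      (map_sum (LinearMap.single ℂ (fun _ : Fin g => M n) i0) η0 Finset.univ).symm
    have u1 : ∑ k, (Pi.single i1 (η1 k) : Fin g → M n) = Pi.single i1 (∑ k, η1 k) :=
      (map_sum (LinearMap.single ℂ (fun _ : Fin g => M n) i1) η1 Finset.univ).symm
    rw [Finset.sum_sub_distrib, Finset.sum_add_distrib, u0, u1, hsum, Finset.univ_sum_single,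
      Pi.single_neg] at t1
    have := add_mem t1 t2
    convert this using 1
    abel
  obtain ⟨w, ⟨hw, hwz⟩, hwb⟩ := hbU
  have hT : sp3T (BB g y) (a - w) = 0 := by rw [map_sub, hwb, hb, sub_self]
  have hz' : a - w ∈ sp3Z g n := sub_mem ht hwz
  have hin : a - w ∈ W := by
    rw [← Finset.univ_sum_single (a - w)]
    refine Submodule.sum_mem _ fun j _ => ?_
    have hc := cent_span hn (min j.1 2) (hy (min j.1 2)) (hz' j) (congrFun hT j)
    generalize (a - w) j = u at hc
    induction hc using Submodule.span_induction with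
    | mem u hu =>
      obtain ⟨k, rfl⟩ := hu
      exact h1 j k
    | zero => simp
    | add u v _ _ hu hv =>
      rw [Pi.single_add]
      exact add_mem hu hv
    | smul c u _ hu =>
      rw [Pi.single_smul]
      exact Submodule.smul_mem _ _ hu
  simpa using add_mem hin hw

end Vale.Agent.P002
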