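import Vale.Agent.P002.AB
import Vale.Agent.P002.Der2
import Vale.Agent.P002.HZ
import Vale.Agent.P002.Mv
import Vale.Agent.P002.Flow
import Vale.Agent.P002.Ker
import Vale.Agent.P002.Sp3
import Vale.Agent.P002.Ex

open scoped Matrix.Norms.Operator Topology
open Matrix Filter

namespace Vale.Agent.P002

variable {g n : ℕ}

/-- first components -/
def fstL (g n : ℕ) : E g n →ₗ[ℂ] (Fin g → M n) where
  toFun v := fun j => (v j).1
  map_add' _ _ := rfl
  map_smul' _ _ := rfl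

theorem main (hg : 2 ≤ g) (hn : 3 ≤ n) {L : IntermediateField ℚ ℂ} (hL : GoodL L) :
    ∃ x0 ∈ RR g n, (∀ᶠ y in 𝓝 x0, y ∈ RR g n → y ∈ cl (SS L g n)) ∧
      ∀ v, fderiv ℂ FF x0 v = 0 → ∃ γ : ℂ → E g n, γ 0 = x0 ∧ HasDerivAt γ v 0 ∧
        ∀ᶠ t in 𝓝 (0 : ℂ), γ t ∈ RR g n := by
  obtain ⟨y, hy, hd⟩ := ex_y n
  have hB : ∀ j, (BB g y j).det = 1 := fun j => Bm_det _ (hy _)
  have hx := xB_mem hB
  have hsub : cl (SS L g n) ⊆ RR g n := cl_RR fun x hx => hx.1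
  have h0 := HH_RR hx
  have key := ab (H := HH g n) (Z := cl (SS L g n)) FF FF_contDiff.contDiffAt hx
    (HH_sub (by omega) L) (fun x hx => (FF_eq h0 x).2 (hsub hx)) ?_
  · refine ⟨_, h0, key.1.mono fun z hz hz' => hz ((FF_eq h0 z).2 hz'), fun v hv => ?_⟩
    obtain ⟨γ, h1, h2, h3⟩ := key.2 v hv
    exact ⟨γ, h1, h2, h3.mono fun t ht => hsub ht⟩
  intro v hv
  obtain ⟨hv1, hv2, hv3⟩ := ker_FF hB hv
  set U := Submodule.span ℂ (Vel (HH g n) (xB (BB g y)) ∪ Vel (cl (SS L g n)) (xB (BB g y)))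
  have hU : ∀ w ∈ Vel (cl (SS L g n)) (xB (BB g y)), w ∈ U := fun w hw =>
    Submodule.subset_span (Or.inr hw)
  have hW := sp3 hn hg hy ((U ⊓ Tb (BB g y)).map (fstL g n)) ?_ ?_ (fun j => (v j).1) hv2 hv3
  · obtain ⟨w, ⟨hw1, hw2⟩, hw3⟩ := hW
    have : v - w ∈ U := Submodule.subset_span (Or.inl (vel_HH (by omega) hB
      (fun j => by
        have := congrFun hw3 j
        simp only [Pi.sub_apply, Prod.fst_sub]
        exact sub_eq_zero.2 this.symm) (sub_mem hv1 hw2)))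
    simpa using add_mem this hw1
  · intro i k
    refine ⟨Pi.single i (tl (BB g y i ^ k), 0), ⟨hU _ (vel_move hL (move1 i) k
      (dg1 (PQ _) (hy _).1) (m1_deriv _ i (Ct_deriv _))), fun j => ?_⟩, funext fun j => ?_⟩
    · by_cases h : j = i
      · subst h; simp
      · simp [Pi.single_eq_of_ne h]
    · by_cases h : j = i
      · subst h; simp [fstL]
      · simp [fstL, Pi.single_eq_of_ne h]
  · intro i k hik hi p q hp hp' hq hq'
    obtain ⟨w, hw1, hw2, hw3⟩ := m2_deriv hB hik p q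
      (Ct_deriv (adjugate (BB g y i) ^ p * BB g y k ^ q)) (Ct_zero _) (tl_trace _)
    refine ⟨w, ⟨hU _ (vel_move hL (move2 hik p q) 1 ?_ ?_), hw1⟩, hw3⟩
    · rw [D2_xB hB hik]
      have : i.1 < k.1 := hik
      exact hd _ _ p q (by omega) (by omega) hp hp' hq hq'
    · rw [D2_xB hB hik, pow_one]
      exact hw2

end Vale.Agent.P002
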