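import Vale.Agent.P002.Def2

open scoped Matrix.Norms.Operator Topology
open Matrix Filter

namespace Vale.Agent.P002

variable {g n : ℕ}

theorem Nh_rows (X : M n) (u v : Fin n → ℂ) (s : Finset (Fin n)) :
    (Matrix.of fun i j => X i j + (if i ∈ s then u i else 0) * v j).det =
      X.det + ∑ i ∈ s, u i * (X.updateRow i v).det := by
  induction s using Finset.induction_on with
  | empty =>
    simp only [Finset.notMem_empty, if_false, zero_mul, add_zero, Finset.sum_empty]
    rfl
  | insert a s ha ih =>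
    have e : (Matrix.of fun i j => X i j + (if i ∈ insert a s then u i else 0) * v j) =
        (Matrix.of fun i j => X i j + (if i ∈ s then u i else 0) * v j).updateRow a
          ((Matrix.of fun i j => X i j + (if i ∈ s then u i else 0) * v j) a + u a • v) := by
      ext i j
      by_cases h : i = a
      · subst h
        simp [ha]
      · simp [updateRow_ne h, h]
    rw [e, det_updateRow_add, updateRow_eq_self, det_updateRow_smul, ih, Finset.sum_insert ha]
    have e2 : ((Matrix.of fun i j => X i j + (if i ∈ s then u i else 0) * v j).updateRow a v).det =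
        (X.updateRow a v).det := by
      refine det_eq_of_forall_row_eq_smul_add_const (fun i => if i ∈ s then u i else 0) a
        (if_neg ha) fun i j => ?_
      by_cases h : i = a
      · subst h
        simp [ha]
      · simp [updateRow_ne h]
    rw [e2]
    ring

theorem Nh_det (X : M n) (u v : Fin n → ℂ) :
    (X + vecMulVec u v).det = X.det + (adjugate X *ᵥ u) ⬝ᵥ v := by
  have h := Nh_rows X u v Finset.univ
  simp only [Finset.mem_univ, if_true] at h
  refine Eq.trans rfl (h.trans ?_)
  congr 1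
  rw [dotProduct_comm, dotProduct_mulVec, ← mulVec_transpose, adjugate_transpose,
    ← cramer_eq_adjugate_mulVec, dotProduct]
  exact Finset.sum_congr rfl fun i _ => by rw [cramer_transpose_apply, mul_comm]

theorem Nh_eval (N : M n) (t : ℂ) : N.charpoly.eval t = (t • (1 : M n) - N).det := by
  rw [eval_charpoly, scalar_apply, smul_one_eq_diagonal]

theorem nh_spec (hn : 0 < n) {u : Fin n → ℂ} {N C : M n} (hC : C.det = 1)
    (hL : (Lm u N C).det ≠ 0) :
    (Nh u N C).det = 1 ∧ (Nh u N C).charpoly = (Nh u N C * C).charpoly := by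
  obtain ⟨v, hv⟩ : ∃ v, v = ((Lm u N C).det)⁻¹ • (adjugate (Lm u N C) *ᵥ rv N C) := ⟨_, rfl⟩
  have e : Nh u N C = N + vecMulVec u v := by rw [hv]; rfl
  have hs : Lm u N C *ᵥ v = rv N C := by
    rw [hv, mulVec_smul, mulVec_mulVec, mul_adjugate, smul_mulVec, one_mulVec, smul_smul,
      inv_mul_cancel₀ hL, one_smul]
  have h1 : (Nh u N C).det = 1 := by
    have := congrFun hs ⟨0, hn⟩
    have e2 : (adjugate N *ᵥ u) ⬝ᵥ v = 1 - N.det := this
    rw [e, Nh_det, e2]
    ring
  refine ⟨h1, ?_⟩
  refine Polynomial.eq_of_degree_sub_lt_of_eval_index_eq (v := fun i : Fin n => (i.1 : ℂ))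
    Finset.univ (fun a _ b _ h => Fin.ext (Nat.cast_injective (R := ℂ) h)) ?_ fun i _ => ?_
  · refine (Polynomial.degree_sub_lt ?_ (charpoly_monic _).ne_zero ?_).trans_le ?_
    · rw [charpoly_degree_eq_dim, charpoly_degree_eq_dim]
    · rw [(charpoly_monic _).leadingCoeff, (charpoly_monic _).leadingCoeff]
    · rw [charpoly_degree_eq_dim, Finset.card_univ]
  · rw [Nh_eval, Nh_eval]
    by_cases hi : i.1 = 0
    · rw [hi, Nat.cast_zero, zero_smul, zero_sub, zero_sub, det_neg, det_neg, det_mul, hC, mul_one]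
    · have e1 : (i.1 : ℂ) • (1 : M n) - Nh u N C =
          ((i.1 : ℂ) • (1 : M n) - N) + vecMulVec u (-v) := by
        rw [e, vecMulVec_neg]
        abel
      have e2 : (i.1 : ℂ) • (1 : M n) - Nh u N C * C =
          ((i.1 : ℂ) • (1 : M n) - N * C) + vecMulVec u (-(v ᵥ* C)) := by
        rw [e, vecMulVec_neg, add_mul, vecMulVec_mul]
        abel
      have e3 : ((adjugate ((i.1 : ℂ) • 1 - N) - C * adjugate ((i.1 : ℂ) • 1 - N * C)) *ᵥ u) ⬝ᵥ v =
          ((i.1 : ℂ) • 1 - N).det - ((i.1 : ℂ) • 1 - N * C).det := by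
        have := congrFun hs i
        simp only [rv, if_neg hi, mulVec, Lm, dotProduct, of_apply] at this
        exact this
      rw [e1, e2, Nh_det, Nh_det, dotProduct_neg, dotProduct_neg,
        dotProduct_comm _ (v ᵥ* C), ← dotProduct_mulVec, mulVec_mulVec, dotProduct_comm v]
      rw [sub_mulVec, sub_dotProduct] at e3
      linear_combination -e3

theorem nh_eq (u : Fin n → ℂ) {N C : M n} (hN : N.det = 1)
    (h : N.charpoly = (N * C).charpoly) : Nh u N C = N := by
  have e : rv N C = 0 := by
    funext i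
    unfold rv
    split_ifs
    · rw [hN, sub_self, Pi.zero_apply]
    · rw [← Nh_eval, ← Nh_eval, h, sub_self, Pi.zero_apply]
  rw [Nh, e, mulVec_zero, smul_zero, vecMulVec_zero, add_zero]

theorem Nh_comp (N : M n) (w : Fin n → ℂ) :
    N * Kr N w = Kr N w * Matrix.of fun j k : Fin n =>
      (Polynomial.X ^ (k.1 + 1) %ₘ N.charpoly).coeff j := by
  ext i k
  have hd : (Polynomial.X ^ (k.1 + 1) %ₘ N.charpoly).natDegree < n := by
    refine (Polynomial.natDegree_modByMonic_lt _ (charpoly_monic N) fun h => ?_).trans_le ?_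
    · have := charpoly_natDegree_eq_dim N
      rw [h, Polynomial.natDegree_one, Fintype.card_fin] at this
      exact absurd k.2 (by omega)
    · rw [charpoly_natDegree_eq_dim, Fintype.card_fin]
  have e : (N * Kr N w) i k = (N ^ (k.1 + 1) *ᵥ w) i := by
    rw [pow_succ', ← mulVec_mulVec]
    rfl
  rw [e, pow_eq_aeval_mod_charpoly, Polynomial.aeval_eq_sum_range' hd, Finset.sum_range,
    sum_mulVec, Finset.sum_apply, mul_apply]
  refine Finset.sum_congr rfl fun j _ => ?_
  rw [smul_mulVec, Pi.smul_apply, smul_eq_mul, mul_comm]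
  rfl

theorem kr_int {N N' : M n} (h : N.charpoly = N'.charpoly) {w : Fin n → ℂ}
    (hK : (Kr N w).det ≠ 0) (w' : Fin n → ℂ) :
    Kr N' w' * adjugate (Kr N w) * N = N' * (Kr N' w' * adjugate (Kr N w)) := by
  have hU : IsUnit (Kr N w) := (isUnit_iff_isUnit_det _).2 (isUnit_iff_ne_zero.2 hK)
  refine hU.mul_right_cancel ?_
  have e1 := Nh_comp N w
  have e2 := Nh_comp N' w'
  rw [← h] at e2
  rw [mul_assoc, e1, mul_assoc, ← mul_assoc (adjugate _), adjugate_mul, mul_assoc N',
    mul_assoc (Kr N' w'), adjugate_mul, ← mul_assoc N', e2]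
  simp only [Matrix.smul_mul, Matrix.mul_smul, one_mul, mul_one]

theorem kr_mul {B N N' : M n} (h : B * N = N' * B) (w : Fin n → ℂ) :
    Kr N' (B *ᵥ w) = B * Kr N w := by
  have hp : ∀ k : ℕ, N' ^ k * B = B * N ^ k := by
    intro k
    induction k with
    | zero => simp
    | succ k ih => rw [pow_succ', mul_assoc, ih, ← mul_assoc, ← h, mul_assoc, ← pow_succ']
  ext i k
  have e : (B * Kr N w) i k = (B *ᵥ (N ^ k.1 *ᵥ w)) i := rfl
  rw [e, mulVec_mulVec, ← hp, ← mulVec_mulVec]
  rfl

theorem pm_split {o : Fin g} (ho : o.1 = 0) (x : E g n) :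
    pm x g = cm (x o) * pm (Function.update x o (1, 1)) g := by
  obtain ⟨g, rfl⟩ : ∃ g', g = g' + 1 := ⟨g - 1, by have := o.2; omega⟩
  obtain rfl : o = 0 := Fin.ext ho
  unfold pm
  rw [List.ofFn_succ, List.ofFn_succ, List.take_succ_cons, List.take_succ_cons, List.prod_cons,
    List.prod_cons, Function.update_self]
  simp [cm, Function.update_of_ne (Fin.succ_ne_zero _)]

theorem pm_det {x : E g n} (h : ∀ j, (x j).1.det = 1 ∧ (x j).2.det = 1) (m : ℕ) :
    (pm x m).det = 1 := by
  refine List.prod_induction (fun A : M n => A.det = 1) (fun a b ha hb => ?_) det_one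
    fun A hA => ?_
  · rw [det_mul, ha, hb, mul_one]
  · obtain ⟨j, rfl⟩ := List.mem_ofFn.1 (List.mem_of_mem_take hA)
    simp [cm, det_adjugate, (h j).1, (h j).2]

end Vale.Agent.P002
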