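import Vale.Agent.P002.Defs

open scoped Matrix.Norms.Operator Topology
open Matrix Filter

namespace Vale.Agent.P002

variable {g n : ℕ}

open NumberField in
theorem u1a {K : Type} [Field K] [NumberField K] {ι : Type} [Fintype ι] (σ : ι → (K →+* ℂ))
    (hσ : Function.Injective fun i => InfinitePlace.mk (σ i))
    (hw : ∃ w : InfinitePlace K, ∀ i, w ≠ InfinitePlace.mk (σ i)) (m : ι → ℤ) (hm : m ≠ 0) :
    ∃ v : (𝓞 K)ˣ, ∏ i, ‖σ i (v : K)‖ ^ m i ≠ 1 := by
  classical
  by_contra hcon
  push Not at hcon
  obtain ⟨ws, hws⟩ := hw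
  set a : InfinitePlace K → ℝ := fun w =>
    ∑ i, if InfinitePlace.mk (σ i) = w then (m i : ℝ) else 0 with ha
  have hmult : ∀ w : InfinitePlace K, (0 : ℝ) < w.mult := fun w => by
    exact_mod_cast InfinitePlace.mult_pos
  have h1 : ∀ v : (𝓞 K)ˣ, ∑ w : InfinitePlace K, a w * Real.log (w (v : K)) = 0 := by
    intro v
    have h2 := congrArg Real.log (hcon v)
    have hne : ∀ i, ‖σ i (v : K)‖ ≠ 0 := fun i => by
      rw [← InfinitePlace.apply]
      exact (NumberField.Units.pos_at_place v _).ne'
    rw [Real.log_prod (fun i _ => zpow_ne_zero _ (hne i)), Real.log_one] at h2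
    simp only [Real.log_zpow] at h2
    simp only [ha, Finset.sum_mul, ite_mul, zero_mul]
    rw [Finset.sum_comm]
    simp only [Finset.sum_ite_eq, Finset.mem_univ, if_true, InfinitePlace.apply]
    exact h2
  set ν : InfinitePlace K → ℝ := fun w => a w / w.mult with hν
  obtain ⟨w1, -, hw1⟩ := Finset.exists_max_image Finset.univ ν Finset.univ_nonempty
  obtain ⟨u, hu⟩ := NumberField.Units.dirichletUnitTheorem.exists_unit K w1
  have h3 := NumberField.Units.sum_mult_mul_log u
  have h4 : ∑ w : InfinitePlace K, (ν w1 - ν w) * (w.mult * Real.log (w (u : K))) = 0 := by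
    have : ∀ w : InfinitePlace K, (ν w1 - ν w) * (w.mult * Real.log (w (u : K))) =
        ν w1 * (w.mult * Real.log (w (u : K))) - a w * Real.log (w (u : K)) := by
      intro w
      have := (hmult w).ne'
      simp only [hν]
      field_simp
    simp only [this, Finset.sum_sub_distrib, ← Finset.mul_sum, h1 u, h3, mul_zero, sub_zero]
  have h5 : ∀ w, ν w = ν w1 := by
    intro w
    by_cases hww : w = w1
    · rw [hww]
    have h6 := (Finset.sum_eq_zero_iff_of_nonpos (fun w _ => ?_)).1 h4 w (Finset.mem_univ w)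
    · rcases mul_eq_zero.1 h6 with h | h
      · linarith
      · exact absurd h (mul_neg_of_pos_of_neg (hmult w) (hu w hww)).ne
    · by_cases hx : w = w1
      · rw [hx, sub_self, zero_mul]
      · exact mul_nonpos_of_nonneg_of_nonpos (sub_nonneg.2 (hw1 w (Finset.mem_univ w)))
          (mul_neg_of_pos_of_neg (hmult w) (hu w hx)).le
  have h7 : ν ws = 0 := by
    simp only [hν, ha]
    rw [Finset.sum_eq_zero (fun i _ => if_neg (hws i).symm), zero_div]
  apply hm
  funext i
  have h8 : ν (InfinitePlace.mk (σ i)) = 0 := by rw [h5, ← h5 ws, h7]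
  have h9 : a (InfinitePlace.mk (σ i)) = m i := by
    simp only [ha]
    rw [Finset.sum_eq_single i (fun j _ hj => if_neg fun h => hj (hσ h)) (by simp), if_pos rfl]
  simp only [hν, h9] at h8
  have := (div_eq_zero_iff.1 h8).resolve_right (hmult _).ne'
  exact_mod_cast this

theorem exists_goodL : ∃ L, GoodL L := by
  have hζ := Complex.isPrimitiveRoot_exp 5 (by norm_num)
  set ζ := Complex.exp (2 * Real.pi * Complex.I / (5 : ℕ)) with hz
  have hi : IsIntegral ℚ ζ := (hζ.isIntegral (by norm_num)).tower_top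
  refine ⟨IntermediateField.adjoin ℚ {ζ}, IntermediateField.adjoin.finiteDimensional hi,
    ⟨ζ, IntermediateField.mem_adjoin_simple_self ℚ ζ, fun h => ?_⟩, ?_⟩
  · have h1 := Complex.mul_conj ζ
    rw [h, Complex.normSq_eq_norm_sq, hζ.norm'_eq_one (by norm_num)] at h1
    refine hζ.pow_ne_one_of_pos_of_lt (l := 2) (by norm_num) (by norm_num) ?_
    rw [sq, h1]
    simp
  · rw [IntermediateField.adjoin.finrank hi, ← Polynomial.cyclotomic_eq_minpoly_rat hζ (by norm_num),
      Polynomial.natDegree_cyclotomic, Nat.totient_prime (by norm_num)]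
    norm_num

end Vale.Agent.P002
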