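import Vale.Agent.P002.Def2
import Vale.Agent.P002.U1a

open scoped Matrix.Norms.Operator Topology
open Matrix Filter

namespace Vale.Agent.P002

variable {g n : ℕ}

open NumberField in
theorem unit_mem {L : IntermediateField ℚ ℂ} (x : 𝓞 L) : algebraMap L ℂ (x : L) ∈ OO L :=
  ⟨(x : L).2, x.isIntegral_coe.map (algebraMap L ℂ).toIntAlgHom⟩

theorem exists_eps {L : IntermediateField ℚ ℂ} (hL : GoodL L) :
    ∃ ε : ℂ, ε ∈ OO L ∧ ε⁻¹ ∈ OO L ∧ ε ≠ 0 ∧ ‖ε‖ ≠ 1 := by
  classical
  obtain ⟨hfd, -, h3⟩ := hL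
  have : NumberField L := { to_finiteDimensional := hfd }
  let σ : Unit → (L →+* ℂ) := fun _ => algebraMap L ℂ
  have hw : ∃ w : NumberField.InfinitePlace L, ∀ i, w ≠ NumberField.InfinitePlace.mk (σ i) := by
    by_contra hno
    push Not at hno
    have c1 := Fintype.card_le_of_surjective (fun i => NumberField.InfinitePlace.mk (σ i))
      fun w => (hno w).imp fun _ e => e.symm
    have c2 := NumberField.InfinitePlace.sum_mult_eq (K := L)
    have c3 := Finset.sum_le_card_nsmul Finset.univ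
      (fun w : NumberField.InfinitePlace L => w.mult) 2 fun w _ => by
        unfold NumberField.InfinitePlace.mult
        split_ifs <;> norm_num
    rw [c2, Finset.card_univ, smul_eq_mul] at c3
    rw [Fintype.card_unit] at c1
    omega
  obtain ⟨v, hv⟩ := u1a σ (fun _ _ _ => rfl) hw (fun _ => 1)
    (Function.ne_iff.2 ⟨(), one_ne_zero⟩)
  have h1 : algebraMap L ℂ ((v : NumberField.RingOfIntegers L) : L) *
      algebraMap L ℂ (((v⁻¹ : (NumberField.RingOfIntegers L)ˣ) :
        NumberField.RingOfIntegers L) : L) = 1 := by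
    rw [← map_mul, ← map_mul, Units.mul_inv, map_one, map_one]
  refine ⟨_, unit_mem (v : NumberField.RingOfIntegers L), ?_, left_ne_zero_of_mul_eq_one h1, ?_⟩
  · rw [← eq_inv_of_mul_eq_one_right h1]
    exact unit_mem _
  · simpa [σ] using hv

theorem exists_L (n : ℕ) : ∃ L, GoodL L ∧ Roots L n := by
  have hf := Nat.factorial_pos n
  have hN : 0 < 5 * n.factorial := by omega
  have hζ := Complex.isPrimitiveRoot_exp (5 * n.factorial) hN.ne'
  obtain ⟨ζ, hz⟩ : ∃ ζ, ζ = Complex.exp (2 * Real.pi * Complex.I / (5 * n.factorial : ℕ)) :=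
    ⟨_, rfl⟩
  rw [← hz] at hζ
  have hi : IsIntegral ℚ ζ := (hζ.isIntegral hN).tower_top
  have hm := IntermediateField.mem_adjoin_simple_self ℚ ζ
  refine ⟨IntermediateField.adjoin ℚ {ζ}, ⟨IntermediateField.adjoin.finiteDimensional hi,
    ⟨ζ, hm, fun h => ?_⟩, ?_⟩, fun k hk hkn => ?_⟩
  · have h1 := Complex.mul_conj ζ
    rw [h, Complex.normSq_eq_norm_sq, hζ.norm'_eq_one hN.ne'] at h1
    refine hζ.pow_ne_one_of_pos_of_lt (l := 2) (by norm_num) (by omega) ?_
    rw [sq, h1]
    simp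
  · rw [IntermediateField.adjoin.finrank hi, ← Polynomial.cyclotomic_eq_minpoly_rat hζ hN,
      Polynomial.natDegree_cyclotomic]
    have h1 := Nat.le_of_dvd (Nat.totient_pos.2 hN)
      (Nat.totient_dvd_of_dvd (dvd_mul_right 5 n.factorial))
    rw [Nat.totient_prime (by norm_num)] at h1
    omega
  · obtain ⟨c, hc⟩ := (Nat.dvd_factorial hk hkn).mul_left 5
    exact ⟨ζ ^ c, pow_mem hm c, hζ.pow hN (by rw [hc, mul_comm])⟩

end Vale.Agent.P002
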