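import Vale.Agent.P002.Red2
import Vale.Agent.P002.Unit

open scoped Matrix.Norms.Operator Topology
open Matrix Filter

namespace Vale.Agent.P002

variable {g n : ℕ}

theorem red3_blk {V : Type} {A : Subring (V → ℂ)} {k l : ℕ} {a : V → M k} {b : V → M l}
    (ha : MP A a) (hb : MP A b) : MP A fun v => blk (a v) 0 (b v) := fun i j => by
  simp only [blk, reindex_apply, submatrix_apply]
  rcases finSumFinEquiv.symm i with i | i <;> rcases finSumFinEquiv.symm j with j | j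
  · exact ha i j
  · exact A.zero_mem
  · exact A.zero_mem
  · exact hb i j

theorem red3_bs {V : Type} {A : Subring (V → ℂ)} {k l : ℕ} {τ : V → Fin g → ℂ × ℂ}
    {y : V → E g k} {z : V → E g l}
    (h1 : ∀ j, (fun v => (τ v j).1) ∈ A ∧ (fun v => (τ v j).2) ∈ A)
    (h2 : ∀ j, (fun v => (τ v j).1⁻¹) ∈ A ∧ (fun v => (τ v j).2⁻¹) ∈ A)
    (hy : EP A y) (hz : EP A z) : EP A fun v => bs (τ v) (y v) (z v) := fun j =>
  ⟨red3_blk (MP.smul (A.pow_mem (h1 j).1 l) (hy j).1) (MP.smul (A.pow_mem (h2 j).1 k) (hz j).1),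
    red3_blk (MP.smul (A.pow_mem (h1 j).2 l) (hy j).2) (MP.smul (A.pow_mem (h2 j).2 k) (hz j).2)⟩

theorem red3_mul {k l : ℕ} (a a' : M k) (b b' : M l) :
    blk a 0 b * blk a' 0 b' = blk (a * a') 0 (b * b') := by
  simp only [blk, reindex_apply, submatrix_mul_equiv, fromBlocks_multiply]
  simp

theorem red3_one {k l : ℕ} : blk (1 : M k) 0 (1 : M l) = 1 := by
  simp [blk]

theorem red3_cj {k l : ℕ} (τ : Fin g → ℂ × ℂ) (P Q : M k) (P' Q' : M l) (y : E g k) (z : E g l) :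
    bs τ (cj P Q y) (cj P' Q' z) = cj (blk P 0 P') (blk Q 0 Q') (bs τ y z) := by
  funext j
  simp only [bs, cj, red3_mul, Matrix.mul_smul, Matrix.smul_mul]

theorem red3_cj1 (z : E g n) : cj 1 1 z = z := by
  funext j
  simp [cj]

theorem red3_const {V : Type} {A : Subalgebra ℂ (V → ℂ)} (y : E g n) :
    EP A.toSubring fun _ => y := fun j =>
  ⟨fun a b => A.algebraMap_mem ((y j).1 a b), fun a b => A.algebraMap_mem ((y j).2 a b)⟩

theorem red3_pol {a : (Fin g → ℂ × ℂ) → ℂ} (ha : a ∈ Pol (Fin g → ℂ × ℂ)) {T : Set ℂ}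
    (hT : T.Infinite) (h : ∀ τ : Fin g → ℂ × ℂ, (∀ j, (τ j).1 ∈ T ∧ (τ j).2 ∈ T) → a τ = 0)
    (τ : Fin g → ℂ × ℂ) : a τ = 0 := by
  have key : ∃ P : MvPolynomial (Fin g ⊕ Fin g) ℂ, ∀ x : Fin g ⊕ Fin g → ℂ,
      a (fun j => (x (.inl j), x (.inr j))) = MvPolynomial.eval x P := by
    clear h
    induction ha using Algebra.adjoin_induction with
    | mem f hf =>
      obtain ⟨l, rfl⟩ := hf
      refine ⟨∑ j, (MvPolynomial.X (.inl j) * MvPolynomial.C (l (Pi.single j (1, 0))) +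
        MvPolynomial.X (.inr j) * MvPolynomial.C (l (Pi.single j (0, 1)))), fun x => ?_⟩
      have e : (fun j => (x (.inl j), x (.inr j))) = ∑ j, (x (.inl j) •
          (Pi.single j (1, 0) : Fin g → ℂ × ℂ) + x (.inr j) •
          (Pi.single j (0, 1) : Fin g → ℂ × ℂ)) := by
        funext j
        rw [Finset.sum_apply, Finset.sum_eq_single j]
        · simp
        · intro b _ hb
          simp [Pi.single_eq_of_ne hb.symm]
        · simp
      simp only [e, map_sum, map_add, map_smul, map_mul, MvPolynomial.eval_X, MvPolynomial.eval_C,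
        smul_eq_mul]
    | algebraMap r => exact ⟨MvPolynomial.C r, fun x => by simp⟩
    | add f f' _ _ a b =>
      obtain ⟨P, hP⟩ := a
      obtain ⟨Q, hQ⟩ := b
      exact ⟨P + Q, fun x => by simp [hP, hQ]⟩
    | mul f f' _ _ a b =>
      obtain ⟨P, hP⟩ := a
      obtain ⟨Q, hQ⟩ := b
      exact ⟨P * Q, fun x => by simp [hP, hQ]⟩
  obtain ⟨P, hP⟩ := key
  have P0 : P = 0 := MvPolynomial.funext_set (fun _ => T) (fun _ => hT) fun x hx => by
    rw [← hP, map_zero]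
    exact h _ fun j => ⟨hx _ trivial, hx _ trivial⟩
  have := hP (Sum.elim (fun j => (τ j).1) fun j => (τ j).2)
  rw [P0, map_zero] at this
  exact this

theorem red3 {L : IntermediateField ℚ ℂ} (hL : GoodL L) {k l : ℕ} (hk : DenseInv L g k)
    (hl : DenseInv L g l) {f : E g (k + l) → ℂ} (hf : f ∈ Pol (E g (k + l))) (hi : Inv f)
    (h0 : ∀ s ∈ SS L g (k + l), f s = 0) {τ : Fin g → ℂ × ℂ}
    (hτ : ∀ j, (τ j).1 ≠ 0 ∧ (τ j).2 ≠ 0) {y : E g k} (hy : y ∈ RR g k) {z : E g l}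
    (hz : z ∈ RR g l) : f (bs τ y z) = 0 := by
  obtain ⟨ε, e1, e2, e3, e4⟩ := exists_eps hL
  have hT : (Set.range fun m : ℕ => ε ^ m).Infinite := Set.infinite_range_of_injective fun a b h => by
    have := congrArg norm h
    simp only [norm_pow] at this
    exact pow_right_injective₀ (norm_pos_iff.2 e3) e4 this
  have s1 : ∀ y ∈ SS L g k, ∀ z ∈ SS L g l, f (bs τ y z) = 0 := fun y hy z hz => by
    obtain ⟨Ω, hΩ⟩ : ∃ Ω : Set (Fin g → ℂ × ℂ), Ω = {τ | ∀ j, (τ j).1 ≠ 0 ∧ (τ j).2 ≠ 0} := ⟨_, rfl⟩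
    have c : ∀ j, (fun v : Fin g → ℂ × ℂ => (v j).1) ∈ Rat Ω ∧
        (fun v : Fin g → ℂ × ℂ => (v j).2) ∈ Rat Ω := fun j =>
      ⟨pol_le_rat Ω (Algebra.subset_adjoin
        ⟨⟨⟨fun v : Fin g → ℂ × ℂ => (v j).1, fun _ _ => rfl⟩, fun _ _ => rfl⟩, rfl⟩),
      pol_le_rat Ω (Algebra.subset_adjoin
        ⟨⟨⟨fun v : Fin g → ℂ × ℂ => (v j).2, fun _ _ => rfl⟩, fun _ _ => rfl⟩, rfl⟩)⟩
    obtain ⟨a, ha, b, -, hab⟩ := comp_mem (red3_bs (A := (Rat Ω).toSubring) (τ := fun v => v) c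
      (fun j => ⟨rat_inv (c j).1 fun p hp => ((hΩ ▸ hp) j).1,
        rat_inv (c j).2 fun p hp => ((hΩ ▸ hp) j).2⟩) (red3_const y) (red3_const z)).lin hf
    have a0 := red3_pol ha hT (fun σ hσ => by
      have m : ∀ t ∈ Set.range fun m : ℕ => ε ^ m, t ≠ 0 ∧ t ∈ OO L ∧ t⁻¹ ∈ OO L := by
        rintro _ ⟨m, rfl⟩
        exact ⟨pow_ne_zero _ e3, pow_mem e1 m, by rw [← inv_pow]; exact pow_mem e2 m⟩
      have n0 : ∀ j, (σ j).1 ≠ 0 ∧ (σ j).2 ≠ 0 := fun j => ⟨(m _ (hσ j).1).1, (m _ (hσ j).2).1⟩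
      rw [← (hab σ (hΩ ▸ n0)).2]
      refine mul_eq_zero_of_left (h0 _ ⟨bs_RR n0 hy.1 hz.1, ?_⟩) _
      exact red3_bs (A := (OO L).comap (Pi.evalRingHom (fun _ : Unit => ℂ) ())) (τ := fun _ => σ)
        (y := fun _ => y) (z := fun _ => z) (fun j => ⟨(m _ (hσ j).1).2.1, (m _ (hσ j).2).2.1⟩)
        (fun j => ⟨(m _ (hσ j).1).2.2, (m _ (hσ j).2).2.2⟩) hy.2 hz.2) τ
    obtain ⟨b1, b2⟩ := hab τ (hΩ ▸ hτ)
    rw [a0] at b2
    exact (mul_eq_zero.1 b2).resolve_right b1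
  have s2 : ∀ z ∈ SS L g l, f (bs τ y z) = 0 := fun z hz => by
    refine hk (fun y => f (bs τ y z)) (comp_mem (red3_bs (A := (Pol (E g k)).toSubring)
      (τ := fun _ => τ) (fun j => ⟨(Pol _).algebraMap_mem _, (Pol _).algebraMap_mem _⟩)
      (fun j => ⟨(Pol _).algebraMap_mem _, (Pol _).algebraMap_mem _⟩) (ep_lin LinearMap.id)
      (red3_const z)).lin hf) (fun P Q h x hx => ?_) (fun s hs => s1 s hs z hz) y hy
    have := red3_cj τ P Q 1 1 x z
    rw [red3_cj1] at this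
    simp only [this]
    exact hi _ _ (by rw [red3_mul, h, mul_one, red3_one]) _ (bs_RR hτ hx hz.1)
  refine hl (fun z => f (bs τ y z)) (comp_mem (red3_bs (A := (Pol (E g l)).toSubring)
    (τ := fun _ => τ) (fun j => ⟨(Pol _).algebraMap_mem _, (Pol _).algebraMap_mem _⟩)
    (fun j => ⟨(Pol _).algebraMap_mem _, (Pol _).algebraMap_mem _⟩) (red3_const y)
    (ep_lin LinearMap.id)).lin hf) (fun P Q h x hx => ?_) s2 z hz
  have := red3_cj τ 1 1 P Q y x
  rw [red3_cj1] at this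
  simp only [this]
  exact hi _ _ (by rw [red3_mul, h, mul_one, red3_one]) _ (bs_RR hτ hy hx)

end Vale.Agent.P002
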