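import Vale.Agent.P002.Def2

open scoped Matrix.Norms.Operator Topology
open Matrix Filter

namespace Vale.Agent.P002

variable {g n : ℕ}

theorem Scale_mul (o : Fin g) (σ τ : ℂ) (y : E g n) : sc o σ (sc o τ y) = sc o (σ * τ) y := by
  simp [sc, smul_smul]

theorem Scale_one (o : Fin g) (y : E g n) : sc o 1 y = y := by simp [sc]

/-- evaluation of polynomial functions -/
noncomputable def Scale_ev (y : E g n) : Pol (E g n) →+* ℂ :=
  (Pi.evalRingHom (fun _ : E g n => ℂ) y).comp (Pol (E g n)).toSubring.subtype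

theorem Scale_poly (o : Fin g) {f : E g n → ℂ} (hf : f ∈ Pol (E g n)) :
    ∃ p : Polynomial (Pol (E g n)), ∀ τ y, f (sc o τ y) = (p.map (Scale_ev y)).eval τ := by
  induction hf using Algebra.adjoin_induction with
  | mem f hf =>
    obtain ⟨l, rfl⟩ := hf
    let b : E g n →ₗ[ℂ] E g n := (LinearMap.single ℂ (fun _ => M n × M n) o).comp
      ((LinearMap.inr ℂ _ _).comp ((LinearMap.snd ℂ _ _).comp (LinearMap.proj o)))
    have hb : ∀ τ y, sc o τ y = (y - b y) + τ • b y := fun τ y => by
      funext j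
      by_cases h : j = o
      · subst h
        refine Prod.ext ?_ ?_ <;> simp [sc, b]
      · simp [sc, b, h]
    refine ⟨Polynomial.C ⟨_, Algebra.subset_adjoin ⟨l.comp (LinearMap.id - b), rfl⟩⟩ +
      Polynomial.X * Polynomial.C ⟨_, Algebra.subset_adjoin ⟨l.comp b, rfl⟩⟩, fun τ y => ?_⟩
    rw [hb, Polynomial.map_add, Polynomial.map_mul, Polynomial.map_C, Polynomial.map_C,
      Polynomial.map_X, Polynomial.eval_add, Polynomial.eval_mul, Polynomial.eval_C,
      Polynomial.eval_C, Polynomial.eval_X]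
    exact (l.map_add _ _).trans (congrArg _ (l.map_smul _ _))
  | algebraMap c => exact ⟨Polynomial.C (algebraMap ℂ _ c), fun τ y => by simp [Scale_ev]⟩
  | add f f' _ _ h h' =>
    obtain ⟨p, hp⟩ := h
    obtain ⟨p', hp'⟩ := h'
    exact ⟨p + p', fun τ y => by simp [hp, hp']⟩
  | mul f f' _ _ h h' =>
    obtain ⟨p, hp⟩ := h
    obtain ⟨p', hp'⟩ := h'
    exact ⟨p * p', fun τ y => by simp [hp, hp']⟩

theorem scale (hn : 0 < n) (o : Fin g) {ω : ℂ} (hω : IsPrimitiveRoot ω n) {S : Set (E g n)}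
    (hS : ∀ s ∈ S, (s o).2.det = 1) (hω' : ∀ s ∈ S, sc o ω s ∈ S) {x : E g n}
    (hx : (x o).2.det = 1) (h : x ∈ cl {z | ∃ τ : ℂ, ∃ s ∈ S, z = sc o τ s}) : x ∈ cl S := by
  intro f hf h0
  obtain ⟨p, hp⟩ := Scale_poly o hf
  set D := p.natDegree + 1 with hD
  let F : ℕ → E g n → ℂ := fun k y => Scale_ev y (p.coeff k)
  have e1 : ∀ τ y, f (sc o τ y) = ∑ k ∈ Finset.range D, F k y * τ ^ k := fun τ y => by
    rw [hp, Polynomial.eval_map, Polynomial.eval₂_eq_sum_range]
  have e2 : ∀ k τ y, F k (sc o τ y) = F k y * τ ^ k := fun k τ y => by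
    have : p.map (Scale_ev (sc o τ y)) =
        (p.map (Scale_ev y)).comp (Polynomial.C τ * Polynomial.X) :=
      Polynomial.funext fun σ => by
        rw [← hp, Scale_mul, hp, Polynomial.eval_comp, Polynomial.eval_mul, Polynomial.eval_C,
          Polynomial.eval_X, mul_comm]
    have h2 := congrArg (fun q => q.coeff k) this
    simpa only [Polynomial.comp_C_mul_X_coeff, Polynomial.coeff_map] using h2
  have e3 : ∀ s ∈ S, ∀ τ : ℂ, ∑ k ∈ Finset.range D, F k s * τ ^ (k % n) = 0 := fun s hs τ => by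
    have k1 : ∀ i : ℕ, sc o (ω ^ i) s ∈ S := fun i => by
      induction i with
      | zero => simpa [Scale_one] using hs
      | succ i ih =>
        rw [pow_succ', ← Scale_mul]
        exact hω' _ ih
    have k2 : (∑ k ∈ Finset.range D, Polynomial.C (F k s) * Polynomial.X ^ (k % n)) = 0 := by
      refine Polynomial.eq_zero_of_natDegree_lt_card_of_eval_eq_zero _
        (f := fun i : Fin n => ω ^ i.1)
        (fun i j hij => Fin.ext (hω.pow_inj i.2 j.2 hij)) (fun i => ?_) ?_
      · rw [← h0 _ (k1 i), e1, Polynomial.eval_finsetSum]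
        refine Finset.sum_congr rfl fun k _ => ?_
        have : (ω ^ i.1) ^ n = 1 := by rw [← pow_mul, mul_comm, pow_mul, hω.pow_eq_one, one_pow]
        rw [Polynomial.eval_mul, Polynomial.eval_C, Polynomial.eval_pow, Polynomial.eval_X,
          ← pow_eq_pow_mod k this]
      · rw [Fintype.card_fin]
        refine lt_of_le_of_lt (Polynomial.natDegree_sum_le_of_forall_le _ _ (n := n - 1)
          fun k _ => (Polynomial.natDegree_C_mul_X_pow_le _ _).trans ?_) (by omega)
        have := Nat.mod_lt k hn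
        omega
    have := congrArg (Polynomial.eval τ) k2
    simpa [Polynomial.eval_finsetSum] using this
  have hdet : (fun y : E g n => (y o).2.det) ∈ (Pol (E g n)).toSubring :=
    (ep_lin LinearMap.id o).2.det
  have key := h (fun y => ∑ k ∈ Finset.range D, F k y * (y o).2.det ^ (D - k / n))
    (sum_fn_mem (A := (Pol (E g n)).toSubring) _ fun k _ =>
      mul_mem (p.coeff k).2 (pow_mem hdet _)) (by
    rintro _ ⟨τ, s, hs, rfl⟩
    have k1 : (sc o τ s o).2.det = τ ^ n := by simp [sc, hS s hs]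
    rw [← mul_zero (τ ^ (n * D)), ← e3 s hs τ, Finset.mul_sum]
    refine Finset.sum_congr rfl fun k hk => ?_
    have k2 : k / n ≤ D := (Nat.div_le_self _ _).trans (Finset.mem_range.1 hk).le
    have k3 : k + n * (D - k / n) = n * D + k % n := by
      have := Nat.div_add_mod k n
      rw [Nat.mul_sub]
      have := Nat.mul_le_mul_left n k2
      omega
    rw [e2, k1, ← pow_mul, mul_assoc, ← pow_add, k3, pow_add]
    ring)
  rw [← Scale_one o x, e1]
  simpa [hx] using key

theorem sc_SS (hn : 0 < n) (o : Fin g) {L : IntermediateField ℚ ℂ} {ω : ℂ} (hL : ω ∈ L)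
    (hω : IsPrimitiveRoot ω n) {s : E g n} (hs : s ∈ SS L g n) : sc o ω s ∈ SS L g n := by
  have hO : ω ∈ OO L := ⟨hL, (hω.isIntegral hn)⟩
  have e : (fun j => cm (sc o ω s j)) = fun j => cm (s j) := by
    funext j
    by_cases h : j = o
    · subst h
      have : ω ^ (n - 1) * ω = 1 := by rw [← pow_succ, Nat.sub_add_cancel hn, hω.pow_eq_one]
      simp [sc, cm, adjugate_smul, smul_smul, this]
    · simp [sc, h]
  refine ⟨⟨fun j => ?_, ?_⟩, fun j => ?_⟩
  · by_cases h : j = o
    · subst h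
      simp [sc, hs.1.1 j, hω.pow_eq_one]
    · simpa [sc, h] using hs.1.1 j
  · rw [pm, e]
    exact hs.1.2
  · by_cases h : j = o
    · subst h
      simp only [sc, Function.update_self]
      exact ⟨(hs.2 j).1, fun a b => mul_mem hO ((hs.2 j).2 a b)⟩
    · simpa [sc, h] using hs.2 j

end Vale.Agent.P002
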