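import Mathlib

/-! Statement definitions for P002. -/

namespace Vale.Agent.P002

/-- the relator `[a_1, b_1] ⋯ [a_g, b_g]` -/
def rel (g : ℕ) : FreeGroup (Fin g × Bool) :=
  (List.ofFn fun i : Fin g => FreeGroup.of (i, false) * FreeGroup.of (i, true) *
    (FreeGroup.of (i, false))⁻¹ * (FreeGroup.of (i, true))⁻¹).prod

/-- representations of the genus `g` surface group in `SL_n(ℂ)` -/
abbrev Rep (g n : ℕ) := PresentedGroup {rel g} →* Matrix.SpecialLinearGroup (Fin n) ℂ

/-- matrix entries of the images of the generators -/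
def ev {g n : ℕ} (ρ : Rep g n) : (Fin g × Bool) × Fin n × Fin n → ℂ :=
  fun s => (ρ (PresentedGroup.of s.1)).1 s.2.1 s.2.2

/-- the representation takes values in `SL_n` of the ring of integers of `L` -/
def Integral {g n : ℕ} (L : IntermediateField ℚ ℂ) (ρ : Rep g n) : Prop :=
  ∀ γ i j, (ρ γ).1 i j ∈ L ∧ IsIntegral ℤ ((ρ γ).1 i j)

/-- `ρ` is in the Zariski closure of the integral representations -/
def InClosure {g n : ℕ} (L : IntermediateField ℚ ℂ) (ρ : Rep g n) : Prop :=
  ∀ f : MvPolynomial ((Fin g × Bool) × Fin n × Fin n) ℂ,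
    (∀ σ : Rep g n, Integral L σ → MvPolynomial.eval (ev σ) f = 0) →
      MvPolynomial.eval (ev ρ) f = 0

end Vale.Agent.P002
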