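import Vale.Agent.P002.Main
import Vale.Agent.P002.Irr
import Vale.Agent.P002.Stmt

open scoped Matrix.Norms.Operator Topology
open Matrix Filter

namespace Vale.Agent.P002

variable {g n : ℕ}

def toE (ρ : Rep g n) : E g n := fun j =>
  ((ρ (PresentedGroup.of (j, false))).1, (ρ (PresentedGroup.of (j, true))).1)

def co (g n : ℕ) : E g n →ₗ[ℂ] ((Fin g × Bool) × Fin n × Fin n → ℂ) where
  toFun x := fun s => (if s.1.2 then (x s.1.1).2 else (x s.1.1).1) s.2.1 s.2.2
  map_add' x y := by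
    funext s
    rcases s with ⟨⟨j, b⟩, a, c⟩
    cases b <;> simp
  map_smul' t x := by
    funext s
    rcases s with ⟨⟨j, b⟩, a, c⟩
    cases b <;> simp

def oc (g n : ℕ) : ((Fin g × Bool) × Fin n × Fin n → ℂ) →ₗ[ℂ] E g n where
  toFun z := fun j => (Matrix.of fun a c => z ((j, false), a, c),
    Matrix.of fun a c => z ((j, true), a, c))
  map_add' _ _ := rfl
  map_smul' _ _ := rfl

theorem oc_co (x : E g n) : oc g n (co g n x) = x := rfl

theorem co_toE (ρ : Rep g n) : co g n (toE ρ) = ev ρ := by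
  funext s
  rcases s with ⟨⟨j, b⟩, a, c⟩
  cases b <;> rfl

theorem lift_rel (f : Fin g × Bool → SpecialLinearGroup (Fin n) ℂ) :
    (FreeGroup.lift f (rel g)).1 = pm (fun j => ((f (j, false)).1, (f (j, true)).1)) g := by
  have h : ∀ u : SpecialLinearGroup (Fin n) ℂ,
      u.1 = SpecialLinearGroup.coeMonoidHom u := fun _ => rfl
  rw [h, rel, map_list_prod, map_list_prod, pm, List.take_of_length_le (by simp), List.map_map,
    List.map_ofFn]
  congr 2
  funext j
  simp [cm]

theorem toE_mem (ρ : Rep g n) : toE ρ ∈ RR g n := by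
  refine ⟨fun j => ⟨(ρ _).2, (ρ _).2⟩, ?_⟩
  have h := lift_rel fun s => ρ (PresentedGroup.of s)
  have h2 : FreeGroup.lift (fun s => ρ (PresentedGroup.of s)) =
      ρ.comp (PresentedGroup.mk {rel g}) := by
    ext s : 1
    simp only [FreeGroup.lift_apply_of, MonoidHom.comp_apply]
    rfl
  rw [h2, MonoidHom.comp_apply, PresentedGroup.one_of_mem (Set.mem_singleton _), map_one] at h
  exact h.symm

theorem exists_rep {x : E g n} (hx : x ∈ RR g n) : ∃ ρ : Rep g n, toE ρ = x := by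
  let f : Fin g × Bool → SpecialLinearGroup (Fin n) ℂ := fun s =>
    if s.2 then ⟨(x s.1).2, (hx.1 s.1).2⟩ else ⟨(x s.1).1, (hx.1 s.1).1⟩
  have hf : ∀ r ∈ ({rel g} : Set _), FreeGroup.lift f r = 1 := by
    rintro r rfl
    exact Subtype.ext ((lift_rel f).trans hx.2)
  refine ⟨PresentedGroup.toGroup hf, funext fun j => ?_⟩
  simp only [toE, PresentedGroup.toGroup.of]
  rfl

theorem integral_of {L : IntermediateField ℚ ℂ} {ρ : Rep g n} (h : toE ρ ∈ SS L g n) :
    Integral L ρ := by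
  let K : Subgroup (SpecialLinearGroup (Fin n) ℂ) :=
    { carrier := {u | Ent (OO L) u.1}
      mul_mem' := fun {a b} ha hb =>
        (mp_unit _ _).1 (((mp_unit _ _).2 ha).mul ((mp_unit _ _).2 hb))
      one_mem' := (mp_unit _ _).1 MP.one
      inv_mem' := fun {a} ha => (mp_unit _ _).1 ((mp_unit _ _).2 ha).adj }
  intro γ i j
  have : γ ∈ K.comap ρ := PresentedGroup.generated_by _ _ (by
    rintro ⟨k, b⟩
    cases b
    · exact (h.2 k).1
    · exact (h.2 k).2) γ
  exact this i j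

theorem eval_mem (p : MvPolynomial ((Fin g × Bool) × Fin n × Fin n) ℂ) :
    (fun x => MvPolynomial.eval (co g n x) p) ∈ Pol (E g n) := by
  induction p using MvPolynomial.induction_on with
  | C a =>
    simp only [MvPolynomial.eval_C]
    exact (Pol (E g n)).algebraMap_mem a
  | add p q hp hq =>
    simp only [map_add]
    exact add_mem hp hq
  | mul_X p s hp =>
    simp only [map_mul, MvPolynomial.eval_X]
    exact mul_mem hp (Algebra.subset_adjoin ⟨(LinearMap.proj s).comp (co g n), rfl⟩)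

theorem exists_eval {f : E g n → ℂ} (hf : f ∈ Pol (E g n)) :
    ∃ p : MvPolynomial ((Fin g × Bool) × Fin n × Fin n) ℂ,
      ∀ x, f x = MvPolynomial.eval (co g n x) p := by
  induction hf using Algebra.adjoin_induction with
  | mem f hf =>
    obtain ⟨l, rfl⟩ := hf
    refine ⟨∑ s, MvPolynomial.X s *
      MvPolynomial.C (l (oc g n fun j => if s = j then 1 else 0)), fun x => ?_⟩
    have := LinearMap.pi_apply_eq_sum_univ (l.comp (oc g n)) (co g n x)
    simp only [LinearMap.comp_apply, oc_co, smul_eq_mul] at this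
    simp only [map_sum, map_mul, MvPolynomial.eval_X, MvPolynomial.eval_C]
    exact this
  | algebraMap a => exact ⟨MvPolynomial.C a, fun x => by simp⟩
  | add f h _ _ hf hh =>
    obtain ⟨p, hp⟩ := hf
    obtain ⟨q, hq⟩ := hh
    exact ⟨p + q, fun x => by simp [hp, hq]⟩
  | mul f h _ _ hf hh =>
    obtain ⟨p, hp⟩ := hf
    obtain ⟨q, hq⟩ := hh
    exact ⟨p * q, fun x => by simp [hp, hq]⟩

theorem van {L : IntermediateField ℚ ℂ} {f : MvPolynomial ((Fin g × Bool) × Fin n × Fin n) ℂ}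
    (hf : ∀ σ : Rep g n, Integral L σ → MvPolynomial.eval (ev σ) f = 0) {x : E g n}
    (hx : x ∈ cl (SS L g n)) : MvPolynomial.eval (co g n x) f = 0 := by
  refine hx _ (eval_mem f) fun s hs => ?_
  obtain ⟨σ, rfl⟩ := exists_rep hs.1
  rw [co_toE]
  exact hf σ (integral_of hs)

theorem FF_lin (l : ((Fin g → ℂ × ℂ) × M n) →ₗ[ℂ] ℂ) :
    (fun x : E g n => l (FF x)) ∈ Pol (E g n) := by
  have hid := ep_lin (LinearMap.id : E g n →ₗ[ℂ] E g n)
  have e : (fun x : E g n => l (FF x)) = (∑ j : Fin g,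
      ((fun x : E g n => (x j).1.det) * (fun _ => l (Pi.single j (1, 0), 0)) +
        (fun x : E g n => (x j).2.det) * fun _ => l (Pi.single j (0, 1), 0))) +
      fun x => (l.comp (LinearMap.inr ℂ _ _)) (pm x g) := by
    funext x
    have e2 : FF x = ∑ j : Fin g, ((x j).1.det • ((Pi.single j (1, 0), 0) : (Fin g → ℂ × ℂ) × M n) +
        (x j).2.det • ((Pi.single j (0, 1), 0) : (Fin g → ℂ × ℂ) × M n)) + (0, pm x g) := by
      refine Prod.ext (funext fun j => ?_) ?_
      · simp [FF, Prod.fst_sum, Finset.sum_apply, Pi.single_apply, Prod.ext_iff, Prod.snd_sum,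
          apply_ite Prod.fst, apply_ite Prod.snd]
      · simp [FF, Prod.snd_sum]
    rw [e2]
    simp only [map_add, map_sum, map_smul, smul_eq_mul, Pi.add_apply, Finset.sum_apply,
      Pi.mul_apply, LinearMap.comp_apply, LinearMap.inr_apply]
  rw [e]
  refine add_mem (sum_mem fun j _ => add_mem (mul_mem (hid j).1.det ?_) (mul_mem (hid j).2.det ?_))
    ((hid.pm g).lin _)
  · exact (Pol (E g n)).algebraMap_mem _
  · exact (Pol (E g n)).algebraMap_mem _

theorem final_open (hg : 2 ≤ g) (hn : 3 ≤ n) {L : IntermediateField ℚ ℂ} (hL : GoodL L) :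
    ∃ (ρ₀ : Rep g n) (U : Set ((Fin g × Bool) × Fin n × Fin n → ℂ)), IsOpen U ∧ ev ρ₀ ∈ U ∧
      ∀ ρ : Rep g n, ev ρ ∈ U → InClosure L ρ := by
  obtain ⟨x0, hx0, h1, -⟩ := main hg hn hL
  obtain ⟨ρ₀, rfl⟩ := exists_rep hx0
  obtain ⟨U, hU, hUo, hU0⟩ := eventually_nhds_iff.1 h1
  refine ⟨ρ₀, oc g n ⁻¹' U, hUo.preimage (oc g n).continuous_of_finiteDimensional, ?_,
    fun ρ hρ f hf => ?_⟩
  · rw [← co_toE]
    exact hU0
  · rw [← co_toE] at hρ ⊢
    exact van hf (hU _ hρ (toE_mem ρ))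

theorem final_irr (hg : 2 ≤ g) (hn : 3 ≤ n) {L : IntermediateField ℚ ℂ} (hL : GoodL L)
    (hp : (MvPolynomial.vanishingIdeal ℂ (Set.range (ev : Rep g n → _))).IsPrime)
    (ρ : Rep g n) : InClosure L ρ := by
  obtain ⟨x0, hx0, h1, h2⟩ := main hg hn hL
  intro f hf
  rw [← co_toE]
  refine irr FF FF_lin hx0 (fun x hx => (FF_eq hx0 x).2 hx) h2 (fun a ha b hb hab => ?_)
    (eval_mem f) (h1.mono fun x hx hx' => van hf (hx hx')) _ (toE_mem ρ)
  obtain ⟨p, hp'⟩ := exists_eval ha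
  obtain ⟨q, hq'⟩ := exists_eval hb
  have key : ∀ r : MvPolynomial ((Fin g × Bool) × Fin n × Fin n) ℂ,
      r ∈ MvPolynomial.vanishingIdeal ℂ (Set.range (ev : Rep g n → _)) ↔
        ∀ x ∈ RR g n, MvPolynomial.eval (co g n x) r = 0 := fun r => by
    refine ⟨fun h x hx => ?_, ?_⟩
    · obtain ⟨σ, rfl⟩ := exists_rep hx
      rw [co_toE]
      exact h _ ⟨σ, rfl⟩
    · rintro h _ ⟨σ, rfl⟩
      have := h _ (toE_mem σ)
      rwa [co_toE] at this
  simp only [hp', hq'] at hab ⊢
  have := hp.mem_or_mem ((key (p * q)).2 fun x hx => by rw [map_mul]; exact hab x hx)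
  rwa [key, key] at this

end Vale.Agent.P002
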