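import Vale.Agent.P002.Two
import Vale.Agent.P002.Gen
import Vale.Agent.P002.GoodD
import Vale.Agent.P002.Par
import Vale.Agent.P002.Scale
import Vale.Agent.P002.Red3
import Vale.Agent.P002.Trans

open scoped Matrix.Norms.Operator Topology
open Matrix Filter

namespace Vale.Agent.P002

variable {g n : ℕ}

theorem base3 (hg : 2 ≤ g) (hn : 3 ≤ n) {L : IntermediateField ℚ ℂ} (hL : GoodL L) :
    ∃ x0 ∈ RR g n, Sch x0 ∧ ∀ᶠ y in 𝓝 x0, y ∈ RR g n → y ∈ cl (SS L g n) := by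
  obtain ⟨y, hy, hd⟩ := ex_y n
  have hB : ∀ j, (BB g y j).det = 1 := fun j => Bm_det _ (hy _)
  have hx := xB_mem hB
  have hsub : cl (SS L g n) ⊆ RR g n := cl_RR fun x hx => hx.1
  have h0 := HH_RR hx
  have key := ab (H := HH g n) (Z := cl (SS L g n)) FF FF_contDiff.contDiffAt hx
    (HH_sub (by omega) L) (fun x hx => (FF_eq h0 x).2 (hsub hx)) ?_
  · exact ⟨_, h0, sch_BB hg hy, key.1.mono fun z hz hz' => hz ((FF_eq h0 z).2 hz')⟩
  intro v hv
  obtain ⟨hv1, hv2, hv3⟩ := ker_FF hB hv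
  set U := Submodule.span ℂ (Vel (HH g n) (xB (BB g y)) ∪ Vel (cl (SS L g n)) (xB (BB g y)))
  have hU : ∀ w ∈ Vel (cl (SS L g n)) (xB (BB g y)), w ∈ U := fun w hw =>
    Submodule.subset_span (Or.inr hw)
  have hW := sp3 hn hg hy ((U ⊓ Tb (BB g y)).map (fstL g n)) ?_ ?_ (fun j => (v j).1) hv2 hv3
  · obtain ⟨w, ⟨hw1, hw2⟩, hw3⟩ := hW
    have : v - w ∈ U := Submodule.subset_span (Or.inl (vel_HH (by omega) hB
      (fun j => by
        have := congrFun hw3 j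
        simp only [Pi.sub_apply, Prod.fst_sub]
        exact sub_eq_zero.2 this.symm) (sub_mem hv1 hw2)))
    simpa using add_mem this hw1
  · intro i k
    refine ⟨Pi.single i (tl (BB g y i ^ k), 0), ⟨hU _ (vel_move hL (move1 i) k
      (dg1 (PQ _) (hy _).1) (m1_deriv _ i (Ct_deriv _))), fun j => ?_⟩, funext fun j => ?_⟩
    · by_cases h : j = i
      · subst h; simp
      · simp [Pi.single_eq_of_ne h]
    · by_cases h : j = i
      · subst h; simp [fstL]
      · simp [fstL, Pi.single_eq_of_ne h]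
  · intro i k hik hi p q hp hp' hq hq'
    obtain ⟨w, hw1, hw2, hw3⟩ := m2_deriv hB hik p q
      (Ct_deriv (adjugate (BB g y i) ^ p * BB g y k ^ q)) (Ct_zero _) (tl_trace _)
    refine ⟨w, ⟨hU _ (vel_move hL (move2 hik p q) 1 ?_ ?_), hw1⟩, hw3⟩
    · rw [D2_xB hB hik]
      have : i.1 < k.1 := hik
      exact hd _ _ p q (by omega) (by omega) hp hp' hq hq'
    · rw [D2_xB hB hik, pow_one]
      exact hw2


theorem near_good (hg : 2 ≤ g) (hn : 0 < n) {o : Fin g} (ho : o.1 = 0) {x : E g n}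
    (hx : x ∈ RR g n) (hS : Sch x) {s : Set (E g n)} (hs : s ∈ 𝓝 x) :
    ∃ y ∈ s, y ∈ RR g n ∧ Good (y o) := by
  obtain ⟨t, hts, hto, hxt⟩ := mem_nhds_iff.1 hs
  obtain ⟨y, hyt, hy, hyS⟩ := gen hg hn o hx hS (hto.mem_nhds hxt)
  obtain ⟨b, ⟨h1, h2, h3⟩, h4⟩ := ((good_dense hn (hy.1 o).1 (hy.1 o).2).and_eventually
    (subm hn ho hy hyS (hto.mem_nhds hyt))).exists
  obtain ⟨z, hz1, hz2, hz3⟩ := h4 h1 h2
  exact ⟨z, hts hz1, hz2, hz3 ▸ h3⟩

theorem dense_sch (hg : 2 ≤ g) (hn : 2 ≤ n) {L : IntermediateField ℚ ℂ} (hL : GoodL L)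
    (hR : ∃ ω ∈ L, IsPrimitiveRoot ω n) {x : E g n} (hx : x ∈ RR g n) (hS : Sch x) :
    x ∈ cl (SS L g n) := by
  obtain ⟨x0, h0, hS0, hV⟩ : ∃ x0 ∈ RR g n, Sch x0 ∧
      ∀ᶠ y in 𝓝 x0, y ∈ RR g n → y ∈ cl (SS L g n) := by
    rcases hn.eq_or_lt with rfl | h
    · exact base2 hg hL
    · exact base3 hg h hL
  obtain ⟨ω, hω1, hω2⟩ := hR
  have hn0 : 0 < n := by omega
  obtain ⟨o, ho⟩ : ∃ o : Fin g, o.1 = 0 := ⟨⟨0, by omega⟩, rfl⟩
  obtain ⟨x1, h1, h2, h3⟩ := near_good hg hn0 ho h0 hS0 hV.eventually_nhds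
  rw [← (cl_closed (SS L g n)).closure_eq, mem_closure_iff_nhds]
  intro s hs
  obtain ⟨y, hy1, hy2, hy3⟩ := near_good hg hn0 ho hx hS hs
  exact ⟨y, hy1, scale hn0 o hω2 (fun s hs => (hs.1.1 o).2) (fun s hs => sc_SS hn0 o hω1 hω2 hs)
    (hy2.1 o).2 (par hn0 ho hy2 h2 hy3 h3 h1)⟩

theorem dense_one (L : IntermediateField ℚ ℂ) : DenseInv L g 1 := by
  intro f _ _ h0 x hx
  refine h0 x ⟨hx, fun j => ⟨fun a b => ?_, fun a b => ?_⟩⟩
  · have := (hx.1 j).1
    rw [det_unique] at this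
    rw [Subsingleton.elim a default, Subsingleton.elim b default, this]
    exact one_mem _
  · have := (hx.1 j).2
    rw [det_unique] at this
    rw [Subsingleton.elim a default, Subsingleton.elim b default, this]
    exact one_mem _

theorem not_sch (hg : g < 2) (hn : 2 ≤ n) {x : E g n} (hx : x ∈ RR g n) : ¬ Sch x := by
  intro hS
  have hN : ∀ ξ : M n, (∀ j, ξ * (x j).1 = (x j).1 * ξ ∧ ξ * (x j).2 = (x j).2 * ξ) := by
    intro ξ j
    obtain rfl : g = 1 := by have := j.2; omega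
    have e : ∀ i : Fin 1, i = j := fun i => Subsingleton.elim _ _
    have h1 : cm (x j) = 1 := by
      have := hx.2
      simp only [pm, List.ofFn_succ, List.ofFn_zero, List.take_succ_cons, List.take_zero,
        List.prod_cons, List.prod_nil, mul_one] at this
      rwa [e 0] at this
    have h2 : (x j).1 * (x j).2 = (x j).2 * (x j).1 := by
      have := congrArg (· * ((x j).2 * (x j).1)) h1
      simp only [cm, one_mul] at this
      rwa [mul_assoc _ (adjugate (x j).2), ← mul_assoc (adjugate (x j).2), adjugate_mul,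
        (hx.1 j).2, one_smul, one_mul, mul_assoc _ (adjugate (x j).1), adjugate_mul, (hx.1 j).1,
        one_smul, mul_one] at this
    obtain ⟨a, ha⟩ := hS (x j).1 fun i => by rw [e i]; exact ⟨rfl, h2⟩
    obtain ⟨b, hb⟩ := hS (x j).2 fun i => by rw [e i]; exact ⟨h2.symm, rfl⟩
    rw [ha, hb]
    simp
  obtain ⟨c, hc⟩ := hS (single ⟨0, by omega⟩ ⟨1, by omega⟩ 1) (hN _)
  have := congrFun (congrFun hc ⟨0, by omega⟩) ⟨1, by omega⟩
  simp [Fin.ext_iff] at this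

theorem dense_inv {L : IntermediateField ℚ ℂ} (hL : GoodL L) (n : ℕ) :
    0 < n → Roots L n → DenseInv L g n := by
  induction n using Nat.strong_induction_on with
  | _ n ih =>
    intro hn hR
    rcases Nat.lt_or_ge n 2 with h | h
    · obtain rfl : n = 1 := by omega
      exact dense_one L
    intro f hf hi h0 x hx
    by_cases hS : Sch x
    · exact dense_sch (not_lt.1 fun hg => not_sch hg h hx hS) h hL (hR n hn le_rfl) hx hS f hf h0
    obtain ⟨k, hk, hkn, P, Q, hPQ, hb⟩ := red1 hS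
    obtain ⟨l, rfl⟩ := Nat.exists_eq_add_of_le hkn.le
    have hl : 0 < l := by omega
    obtain ⟨τ, hτ, y, hy, z, hz, he⟩ := red2 hk hl (cj_RR hPQ hx) hb
    rw [← hi P Q hPQ x hx, he f hf hi]
    exact red3 hL (ih k hkn hk fun m h1 h2 => hR m h1 (by omega))
      (ih l (by omega) hl fun m h1 h2 => hR m h1 (by omega)) hf hi h0 hτ hy hz

theorem final_sch (hn : 2 ≤ n) {L : IntermediateField ℚ ℂ} (hL : GoodL L)
    (hR : ∃ ω ∈ L, IsPrimitiveRoot ω n) (ρ : Rep g n)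
    (h : ∀ ξ : M n, (∀ γ, ξ * (ρ γ).1 = (ρ γ).1 * ξ) → ∃ c : ℂ, ξ = c • 1) : InClosure L ρ := by
  intro f hf
  rw [← co_toE]
  suffices hS : Sch (toE ρ) from van hf
    (dense_sch (not_lt.1 fun hg => not_sch hg hn (toE_mem ρ) hS) hn hL hR (toE_mem ρ) hS)
  refine fun ξ hξ => h ξ fun γ => ?_
  let K : Subgroup (SpecialLinearGroup (Fin n) ℂ) :=
    { carrier := {u | ξ * u.1 = u.1 * ξ}
      mul_mem' := fun {a b} ha hb => (Commute.mul_right ha hb :)
      one_mem' := (Commute.one_right ξ :)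
      inv_mem' := fun {a} ha => by
        have e1 : (a⁻¹).1 * a.1 = 1 := congrArg Subtype.val (inv_mul_cancel a)
        have e2 : a.1 * (a⁻¹).1 = 1 := congrArg Subtype.val (mul_inv_cancel a)
        have ha' : ξ * a.1 = a.1 * ξ := ha
        show ξ * (a⁻¹).1 = (a⁻¹).1 * ξ
        calc ξ * (a⁻¹).1 = (a⁻¹).1 * a.1 * ξ * (a⁻¹).1 := by rw [e1, one_mul]
          _ = (a⁻¹).1 * (ξ * a.1) * (a⁻¹).1 := by rw [ha', mul_assoc (a⁻¹).1]
          _ = (a⁻¹).1 * ξ := by rw [mul_assoc, mul_assoc, e2, mul_one] }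
  have : γ ∈ K.comap ρ := PresentedGroup.generated_by _ _ (by
    rintro ⟨k, b⟩
    cases b
    · exact (hξ k).1
    · exact (hξ k).2) γ
  exact this

theorem final_inv (hn : 0 < n) {L : IntermediateField ℚ ℂ} (hL : GoodL L)
    (hR : Roots L n) (f : MvPolynomial ((Fin g × Bool) × Fin n × Fin n) ℂ)
    (hi : ∀ (ρ : Rep g n) (u : SpecialLinearGroup (Fin n) ℂ),
      MvPolynomial.eval (ev ((MulAut.conj u).toMonoidHom.comp ρ)) f = MvPolynomial.eval (ev ρ) f)
    (h0 : ∀ σ : Rep g n, Integral L σ → MvPolynomial.eval (ev σ) f = 0) (ρ : Rep g n) :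
    MvPolynomial.eval (ev ρ) f = 0 := by
  rw [← co_toE]
  refine dense_inv hL n hn hR _ (eval_mem f) (fun P Q hPQ x hx => ?_)
    (fun s hs => van h0 (subset_cl _ hs)) _ (toE_mem ρ)
  obtain ⟨σ, rfl⟩ := exists_rep hx
  have hd : P.det ≠ 0 := fun h => by simpa [h] using congrArg det hPQ
  obtain ⟨c, hc⟩ := IsAlgClosed.exists_pow_nat_eq P.det hn
  have hc0 : c ≠ 0 := by
    rintro rfl
    exact hd (by rw [← hc, zero_pow hn.ne'])
  let u : SpecialLinearGroup (Fin n) ℂ := ⟨c⁻¹ • P, by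
    rw [det_smul, Fintype.card_fin, inv_pow, hc, inv_mul_cancel₀ hd]⟩
  have hu : (u⁻¹).1 = c • Q := by
    have e1 : (u⁻¹).1 * u.1 = 1 := congrArg Subtype.val (inv_mul_cancel u)
    have e2 : u.1 * (c • Q) = 1 := by
      show (c⁻¹ • P) * (c • Q) = 1
      rw [Matrix.smul_mul, Matrix.mul_smul, smul_smul, inv_mul_cancel₀ hc0, one_smul, hPQ]
    calc (u⁻¹).1 = (u⁻¹).1 * (u.1 * (c • Q)) := by rw [e2, mul_one]
      _ = c • Q := by rw [← mul_assoc, e1, one_mul]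
  have key : ∀ a : SpecialLinearGroup (Fin n) ℂ, (u * a * u⁻¹).1 = P * a.1 * Q := fun a => by
    show (c⁻¹ • P) * a.1 * (u⁻¹).1 = _
    rw [hu, Matrix.smul_mul, Matrix.smul_mul, Matrix.mul_smul, smul_smul, inv_mul_cancel₀ hc0,
      one_smul]
  have e : cj P Q (toE σ) = toE ((MulAut.conj u).toMonoidHom.comp σ) :=
    funext fun j => Prod.ext (key _).symm (key _).symm
  simp only [e, co_toE]
  exact hi σ u

end Vale.Agent.P002
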