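import Vale.Agent.P002.PkL
import Vale.Agent.P002.Par

open scoped Matrix.Norms.Operator Topology
open Matrix Filter

namespace Vale.Agent.P002

variable {g n : ℕ} {κ : Kd g n}

noncomputable def parCK (κ : Kd g n) (i : Fin n) (o : Fin g) (p : ParV g n) : M n := adjugate (pk κ (parZ i o p) g)

noncomputable def parNK (κ : Kd g n) (i : Fin n) (o : Fin g) (p : ParV g n) : M n :=
  Nh p.1 (p.2.2.2 o).1 (parCK κ i o p)

noncomputable def parBK (κ : Kd g n) (i : Fin n) (o : Fin g) (p : ParV g n) : M n :=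
  ((Kr (parNK κ i o p) p.2.1).det)⁻¹ •
    (Kr (parNK κ i o p * parCK κ i o p) p.2.2.1 * adjugate (Kr (parNK κ i o p) p.2.1))

noncomputable def parPK (κ : Kd g n) (i : Fin n) (o : Fin g) (p : ParV g n) : E g n :=
  Function.update (parZ i o p) o (adjugate (parNK κ i o p), parBK κ i o p)

def parO2K (κ : Kd g n) (i : Fin n) (o : Fin g) : Set (ParV g n) :=
  {p | p ∈ parO1 o ∧ (Lm p.1 (p.2.2.2 o).1 (parCK κ i o p)).det ≠ 0}

def parO3K (κ : Kd g n) (i : Fin n) (o : Fin g) : Set (ParV g n) :=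
  {p | p ∈ parO2K κ i o ∧ (Kr (parNK κ i o p) p.2.1).det ≠ 0}

theorem parK_c {i : Fin n} {o : Fin g} {Ω : Set (ParV g n)} (h : Ω ⊆ parO1 o) :
    MP (Rat Ω).toSubring (parCK κ i o) := ((par_z h).pk (KA_alg _ κ) g).adj

theorem parK_n {i : Fin n} {o : Fin g} {Ω : Set (ParV g n)} (h : Ω ⊆ parO2K κ i o) :
    MP (Rat Ω).toSubring (parNK κ i o) :=
  MP.Nh (par_u Ω).1 (par_y' Ω o).1 (parK_c fun _ hp => (h hp).1) fun _ hp => (h hp).2

theorem parK_p (κ : Kd g n) (i : Fin n) (o : Fin g) : EP (Rat (parO3K κ i o)).toSubring (parPK κ i o) := by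
  have h2 : parO3K κ i o ⊆ parO2K κ i o := fun _ hp => hp.1
  have h1 : parO3K κ i o ⊆ parO1 o := fun _ hp => hp.1.1
  have k := MP.Kr (parK_n h2) (par_u _).2.1
  exact par_up (fun j _ => par_z h1 j) (parK_n h2).adj
    (MP.smul (rat_inv k.det fun _ hp => hp.2)
      ((MP.Kr ((parK_n h2).mul (parK_c h1)) (par_u _).2.2).mul k.adj))

theorem parK_nhds {i : Fin n} {o : Fin g} {p : ParV g n} (hp : p ∈ parO3K κ i o) :
    parO3K κ i o ∈ 𝓝 p := by
  have h1 : parO1 o ∈ 𝓝 p := by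
    refine eventually_all.2 fun j => ?_
    by_cases h : j = o
    · exact Eventually.of_forall fun _ h' => absurd h h'
    · have a1 := (pol_contDiff (par_y (g := g) (n := n) j).1.det).continuous.continuousAt
        |>.eventually_ne (hp.1.1 j h).1
      have a2 := (pol_contDiff (par_y (g := g) (n := n) j).2.det).continuous.continuousAt
        |>.eventually_ne (hp.1.1 j h).2
      filter_upwards [a1, a2] with q b1 b2 _ using ⟨b1, b2⟩
  have h2 : parO2K κ i o ∈ 𝓝 p := by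
    have a := ((rat_cont (MP.Lm (par_u _).1 (par_y' _ o).1
      (parK_c (κ := κ) (i := i) (subset_refl (parO1 o)))).det).continuousAt h1).eventually_ne hp.1.2
    filter_upwards [h1, a] with q b1 b2 using ⟨b1, b2⟩
  have a := ((rat_cont (MP.Kr (parK_n (subset_refl (parO2K κ i o))) (par_u _).2.1).det).continuousAt
    h2).eventually_ne hp.2
  filter_upwards [h2, a] with q b1 b2 using ⟨b1, b2⟩

theorem parK_pt (hκ : KD κ) (i : Fin n) {o : Fin g} (ho : o.1 = 0) (hk : κ o = none) {x : E g n} (hx : x ∈ RK κ)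
    (hg : Good (x o)) : ∃ p ∈ parO3K κ i o, parPK κ i o p = x := by
  obtain ⟨u, w, hu, hw⟩ := hg
  obtain ⟨hA, hB⟩ := hx.1 o
  obtain ⟨p, hp⟩ : ∃ p : ParV g n,
    p = (u, w, (x o).2 *ᵥ w, Function.update x o (adjugate (x o).1, 0)) := ⟨_, rfl⟩
  have hz : parZ i o p = Function.update x o (1, 1) := by
    funext j
    by_cases h : j = o
    · subst h
      simp [parZ]
    · simp [parZ, hp, Function.update_of_ne h, nrm_eq i (hx.1 j).1, nrm_eq i (hx.1 j).2]
  have hd : (pk κ (Function.update x o (1, 1)) g).det = 1 := pk_det hκ (fun j => by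
    by_cases h : j = o
    · subst h
      simp
    · simpa [Function.update_of_ne h] using hx.1 j) g
  have hc : parCK κ i o p = cm (x o) := by
    have h1 := pk_split ho hk x
    rw [hx.2] at h1
    rw [parCK, hz]
    generalize pk κ (Function.update x o (1, 1)) g = P at hd h1
    rw [← one_mul (adjugate _), h1, mul_assoc, mul_adjugate, hd, one_smul, mul_one]
  have e1 : adjugate (x o).1 * (x o).1 = 1 := by rw [adjugate_mul, hA, one_smul]
  have e2 : adjugate (x o).2 * (x o).2 = 1 := by rw [adjugate_mul, hB, one_smul]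
  have e3 : adjugate (x o).1 * cm (x o) = (x o).2 * (adjugate (x o).1 * adjugate (x o).2) := by
    simp only [cm, ← mul_assoc, e1, one_mul]
  have e4 : (x o).2 * adjugate (x o).1 = adjugate (x o).1 * cm (x o) * (x o).2 := by
    rw [e3, mul_assoc, mul_assoc, e2, mul_one]
  have hy : (p.2.2.2 o).1 = adjugate (x o).1 := by simp [hp]
  have hn : parNK κ i o p = adjugate (x o).1 := by
    rw [parNK, hy, hc]
    refine nh_eq _ (par_dadj hA) ?_
    rw [e3, charpoly_mul_comm, mul_assoc, e2, mul_one]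
  have p1 : p.1 = u := by rw [hp]
  have p2 : p.2.1 = w := by rw [hp]
  have p3 : p.2.2.1 = (x o).2 *ᵥ w := by rw [hp]
  have hb : parBK κ i o p = (x o).2 := by
    rw [parBK, hn, hc, p2, p3, kr_mul e4, mul_assoc, mul_adjugate, Matrix.mul_smul, mul_one,
      smul_smul, inv_mul_cancel₀ hw, one_smul]
  refine ⟨p, ⟨⟨fun j h => ?_, by rwa [p1, hy, hc]⟩, by rwa [hn, p2]⟩, ?_⟩
  · simp [hp, Function.update_of_ne h, (hx.1 j).1, (hx.1 j).2]
  · rw [parPK, hz, hn, hb, par_aa hA, Function.update_idem, Function.update_eq_self]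

theorem parK_mem (hκ : KD κ) (hn : 0 < n) (i : Fin n) {o : Fin g} (ho : o.1 = 0)
    (hk : κ o = none) {p : ParV g n}
    (hp : p ∈ parO3K κ i o) {τ : ℂ} (h0 : τ ≠ 0) (hτ : τ ^ n = (parBK κ i o p).det) :
    sc o τ⁻¹ (parPK κ i o p) ∈ RK κ := by
  have hz : ∀ j, (parZ i o p j).1.det = 1 ∧ (parZ i o p j).2.det = 1 := fun j => by
    by_cases h : j = o
    · subst h
      simp [parZ]
    · simp only [parZ, Function.update_of_ne h]
      exact ⟨nrm_det i (hp.1.1 j h).1, nrm_det i (hp.1.1 j h).2⟩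
  have hd := pk_det hκ hz g
  obtain ⟨n1, n2⟩ := nh_spec hn (par_dadj hd) hp.1.2
  change (parNK κ i o p).det = 1 at n1
  change (parNK κ i o p).charpoly = (parNK κ i o p * parCK κ i o p).charpoly at n2
  have e0 : sc o τ⁻¹ (parPK κ i o p) =
      Function.update (parZ i o p) o (adjugate (parNK κ i o p), τ⁻¹ • parBK κ i o p) := by
    simp [sc, parPK]
  have b1 : (τ⁻¹ • parBK κ i o p).det = 1 := by
    rw [det_smul, Fintype.card_fin, ← hτ, ← mul_pow, inv_mul_cancel₀ h0, one_pow]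
  have b2 : τ⁻¹ • parBK κ i o p * parNK κ i o p = parNK κ i o p * parCK κ i o p * τ⁻¹ • parBK κ i o p := by
    rw [parBK, Matrix.smul_mul, Matrix.smul_mul, kr_int n2 hp.2, Matrix.mul_smul, Matrix.mul_smul]
  rw [e0]
  refine ⟨fun j => ?_, ?_⟩
  · by_cases h : j = o
    · subst h
      simp only [Function.update_self]
      exact ⟨par_dadj n1, b1⟩
    · simp only [Function.update_of_ne h]
      exact hz j
  · have e1 : Function.update (parZ i o p) o (1, 1) = parZ i o p := by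
      rw [parZ, Function.update_idem]
    rw [pk_split ho hk, Function.update_idem, e1, Function.update_self, cm]
    dsimp only
    rw [par_aa n1, mul_assoc (adjugate _) _ (parNK κ i o p), b2, ← mul_assoc, ← mul_assoc,
      adjugate_mul, n1, one_smul, one_mul, mul_assoc (parCK κ i o p), mul_adjugate, b1, one_smul,
      mul_one, parCK, adjugate_mul, hd, one_smul]

theorem parK (hn : 0 < n) (hd : KD κ) {o : Fin g} (ho : o.1 = 0) (hk : κ o = none)
    {S : Set (E g n)} {x x1 : E g n} (hx : x ∈ RK κ) (hx1 : x1 ∈ RK κ) (hg : Good (x o))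
    (hg1 : Good (x1 o)) (h1 : ∀ᶠ y in 𝓝 x1, y ∈ RK κ → y ∈ cl S) :
    x ∈ cl {z | ∃ τ : ℂ, ∃ s ∈ S, z = sc o τ s} := by
  obtain ⟨i, -⟩ : ∃ i : Fin n, True := ⟨⟨0, hn⟩, trivial⟩
  obtain ⟨p, hp, rfl⟩ := parK_pt hd i ho hk hx hg
  obtain ⟨p1, hp1, e1⟩ := parK_pt hd i ho hk hx1 hg1
  have o3 := parK_nhds hp1
  have c1 : ContinuousAt (parPK κ i o) p1 := (parK_p κ i o).continuousOn.continuousAt o3
  have eb : ∀ q, (parPK κ i o q o).2 = parBK κ i o q := fun q => by simp [parPK]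
  have c2 : ContinuousAt (fun q => (parPK κ i o q o).2.det) p1 :=
    (rat_cont (parK_p κ i o o).2.det).continuousAt o3
  have d1 : (parPK κ i o p1 o).2.det = 1 := by rw [e1]; exact (hx1.1 o).2
  have c3 : ContinuousAt (fun q => (parPK κ i o q o).2.det ^ ((n : ℂ)⁻¹)) p1 :=
    c2.cpow continuousAt_const (by rw [d1]; exact Complex.one_mem_slitPlane)
  have d2 : (parPK κ i o p1 o).2.det ^ ((n : ℂ)⁻¹) = 1 := by rw [d1, Complex.one_cpow]
  have c4 : ContinuousAt (fun q => sc o ((parPK κ i o q o).2.det ^ ((n : ℂ)⁻¹))⁻¹ (parPK κ i o q)) p1 := by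
    have a := continuousAt_pi.1 c1 o
    exact c1.update o (a.fst.prodMk ((c3.inv₀ (by rw [d2]; exact one_ne_zero)).smul a.snd))
  have d3 : sc o ((parPK κ i o p1 o).2.det ^ ((n : ℂ)⁻¹))⁻¹ (parPK κ i o p1) = x1 := by
    rw [d2, e1]
    simp [sc]
  have t := c4.tendsto
  rw [d3] at t
  intro f hf h0
  refine rat_zero (comp_mem (parK_p κ i o).lin hf) (p := p1) ?_ p hp
  filter_upwards [o3, t.eventually h1, c3.eventually_ne (by rw [d2]; exact one_ne_zero)]
    with q a1 a2 a3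
  refine ⟨a1, ?_⟩
  have a4 := a2 (parK_mem hd hn i ho hk a1 a3 (by rw [Complex.cpow_nat_inv_pow _ hn.ne', eb]))
  generalize (parPK κ i o q o).2.det ^ ((n : ℂ)⁻¹) = τ at a3 a4
  have e : EP (Pol (E g n)).toSubring fun y : E g n => y := ep_lin LinearMap.id
  have a5 : EP (Pol (E g n)).toSubring (sc o τ) :=
    par_up (fun j _ => e j) (e o).1 (MP.smul ((Pol (E g n)).algebraMap_mem τ) (e o).2)
  have a6 := cl_map' a5.lin (T := {z | ∃ τ : ℂ, ∃ s ∈ S, z = sc o τ s})
    (fun s hs => subset_cl _ ⟨τ, s, hs, rfl⟩) a4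
  have a7 : sc o τ (sc o τ⁻¹ (parPK κ i o q)) = parPK κ i o q := by
    simp [sc, smul_smul, mul_inv_cancel₀ a3]
  rw [a7] at a6
  exact a6 f hf h0


end Vale.Agent.P002
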