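import Vale.Agent.P002.Def2
import Vale.Agent.P002.Main

open scoped Matrix.Norms.Operator Topology
open Matrix Filter

namespace Vale.Agent.P002

variable {g n : ℕ}

theorem Two_diag (c : ℕ) {y : Fin n → ℂ} (hy : GY y) {ξ : M n} (h : ξ * Bm c y = Bm c y * ξ)
    {i j : Fin n} (hij : i ≠ j) : (QJ n c * ξ * PJ n c) i j = 0 := by
  have e : QJ n c * ξ * PJ n c * diagonal y = diagonal y * (QJ n c * ξ * PJ n c) := by
    calc _ = QJ n c * ξ * PJ n c * diagonal y * (QJ n c * PJ n c) := by rw [QP, mul_one]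
      _ = QJ n c * (ξ * Bm c y) * PJ n c := by simp only [Bm, mul_assoc]
      _ = (QJ n c * PJ n c) * diagonal y * (QJ n c * ξ * PJ n c) := by
        rw [h]; simp only [Bm, mul_assoc]
      _ = _ := by rw [QP, one_mul]
  have e2 := congrFun (congrFun e i) j
  rw [mul_diagonal, diagonal_mul] at e2
  have h2 : y j - y i ≠ 0 := sub_ne_zero.2 fun e => hij (hy.1 e).symm
  apply mul_left_cancel₀ h2
  linear_combination e2

theorem sch_BB (hg : 2 ≤ g) {y : ℕ → Fin n → ℂ} (hy : ∀ c, GY (y c)) :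
    Sch (xB (BB g y)) := by
  intro ξ h
  have h0 : ξ * Bm 0 (y 0) = Bm 0 (y 0) * ξ := (h ⟨0, by omega⟩).2
  have h1 : ξ * Bm 1 (y 1) = Bm 1 (y 1) * ξ := (h ⟨1, by omega⟩).2
  have d0 : ∀ i j, i ≠ j → ξ i j = 0 := fun i j hij => by
    simpa [QJ, PJ] using Two_diag 0 (hy 0) h0 hij
  obtain ⟨X, hX⟩ : ∃ X, X = QJ n 1 * ξ * PJ n 1 := ⟨_, rfl⟩
  have d1 : ∀ i j, i ≠ j → X i j = 0 := fun i j hij => hX ▸ Two_diag 1 (hy 1) h1 hij
  have e : ξ * PJ n 1 = PJ n 1 * X := by
    rw [hX, ← mul_assoc, ← mul_assoc, PQ, one_mul]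
  have e2 : ∀ i j, ξ i i = X j j := fun i j => by
    have e3 := congrFun (congrFun e i) j
    rw [mul_apply, mul_apply, Finset.sum_eq_single i (fun k _ hk => by rw [d0 i k hk.symm, zero_mul])
      (by simp), Finset.sum_eq_single j (fun k _ hk => by rw [d1 k j hk, mul_zero]) (by simp)] at e3
    have p0 : PJ n 1 i j ≠ 0 := by
      by_cases hij : i = j
      · subst hij; norm_num [PJ, JJ]
      · simp [PJ, JJ, hij]
    apply mul_left_cancel₀ p0
    linear_combination e3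
  rcases Nat.eq_zero_or_pos n with rfl | hn
  · exact ⟨0, Subsingleton.elim _ _⟩
  refine ⟨X ⟨0, hn⟩ ⟨0, hn⟩, ?_⟩
  ext i j
  by_cases hij : i = j
  · subst hij; simp [e2 i ⟨0, hn⟩]
  · simp [d0 i j hij, hij]

def TwoX : M 2 := !![0, -1; 1, 0]
def TwoY : M 2 := !![1, 1; 1, 2]
def TwoZ : M 2 := !![2, 1; 1, 1]

def TwoB (g : ℕ) : Fin g → M 2 := fun j => if j.1 = 0 then TwoX else if j.1 = 1 then TwoY else TwoZ

theorem Two_dl {D : M 2} (h : D.det = 1) (h2 : D.trace ^ 2 ≠ 4) : dl D ≠ 0 := by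
  rw [det_fin_two] at h
  rw [trace_fin_two] at h2
  intro e
  apply h2
  simp [dl, det_fin_two, trace_fin_two, pow_two, mul_apply, Fin.sum_univ_two] at e
  linear_combination e + 4 * h

theorem Two_tr {a : M 2} (h : a.trace = 0) : ∃ p q r : ℂ, a = !![p, q; r, -p] := by
  rw [trace_fin_two] at h
  refine ⟨a 0 0, a 0 1, a 1 0, ?_⟩
  ext i j
  fin_cases i <;> fin_cases j <;> simp
  linear_combination h

theorem Two_z {a : M 2} (h : a.trace = 0) : ∃ α β γ : ℂ,
    a = α • tl TwoZ + β • tl (adjugate TwoX * TwoZ) + γ • tl (adjugate TwoY * TwoZ) ∧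
    a - TwoZ * a * adjugate TwoZ =
      (β • tl (adjugate TwoX * TwoZ) - TwoX * (β • tl (adjugate TwoX * TwoZ)) * adjugate TwoX) +
      (γ • tl (adjugate TwoY * TwoZ) - TwoY * (γ • tl (adjugate TwoY * TwoZ)) * adjugate TwoY) := by
  obtain ⟨p, q, r, rfl⟩ := Two_tr h
  have e1 : tl (adjugate TwoX * TwoZ) = !![2, 2; -4, -2] := by
    ext i j
    fin_cases i <;> fin_cases j <;> norm_num [tl, TwoX, TwoZ, adjugate_fin_two, trace_fin_two]
  have e2 : tl (adjugate TwoY * TwoZ) = !![3, 2; -2, -3] := by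
    ext i j
    fin_cases i <;> fin_cases j <;> norm_num [tl, TwoY, TwoZ, adjugate_fin_two, trace_fin_two]
  rw [e1, e2]
  refine ⟨(-2 * p + 4 * q + r) / 8, (2 * q - r - 2 * p) / 4, (6 * p - 4 * q + r) / 8, ?_, ?_⟩ <;>
  · ext i j
    fin_cases i <;> fin_cases j <;>
      simp [tl, TwoX, TwoY, TwoZ, adjugate_fin_two, trace_fin_two] <;>
      ring

theorem Two_xy {a b : M 2} (ha : a.trace = 0) (hb : b.trace = 0)
    (h : (a - TwoX * a * adjugate TwoX) + (b - TwoY * b * adjugate TwoY) = 0) : ∃ α β γ : ℂ,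
    a = α • tl TwoX - γ • tl (adjugate TwoX * TwoY) ∧
      b = β • tl TwoY + γ • tl (adjugate TwoX * TwoY) := by
  obtain ⟨p, q, r, rfl⟩ := Two_tr ha
  obtain ⟨d, e, f, rfl⟩ := Two_tr hb
  have h1 := congrFun (congrFun h 0) 0
  have h2 := congrFun (congrFun h 0) 1
  have h3 := congrFun (congrFun h 1) 0
  simp [TwoX, TwoY, adjugate_fin_two] at h1 h2 h3
  obtain rfl : e = 6 * d + 4 * f := by linear_combination h3 - h2
  obtain rfl : p = -2 * d - f := by linear_combination (1 / 2) * h1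
  obtain rfl : r = -2 * d - f - q := by linear_combination h2
  refine ⟨-2 * d - f - q / 2, d + f, (2 * d + f) / 2, ?_, ?_⟩ <;>
  · ext i j
    fin_cases i <;> fin_cases j <;>
      simp [tl, TwoX, TwoY, adjugate_fin_two, trace_fin_two] <;>
      ring

theorem Two_sp (hg : 2 ≤ g) (W : Submodule ℂ (Fin g → M 2))
    (h1 : ∀ i : Fin g, (Pi.single i (tl (TwoB g i)) : Fin g → M 2) ∈ W)
    (h2 : ∀ i k : Fin g, i < k → i.1 < 2 →
      (Pi.single k (tl (adjugate (TwoB g i) * TwoB g k)) : Fin g → M 2) -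
        Pi.single i (tl (adjugate (TwoB g i) * TwoB g k)) ∈ W)
    (a : Fin g → M 2) (ht : ∀ j, (a j).trace = 0)
    (hs : ∑ j, (a j - TwoB g j * a j * adjugate (TwoB g j)) = 0) : a ∈ W := by
  let i0 : Fin g := ⟨0, by omega⟩
  let i1 : Fin g := ⟨1, by omega⟩
  have b0 : TwoB g i0 = TwoX := rfl
  have b1 : TwoB g i1 = TwoY := rfl
  have s2 : ∀ k : Fin g, ∃ η0 η1 : M 2, η0.trace = 0 ∧ η1.trace = 0 ∧
      a k - TwoB g k * a k * adjugate (TwoB g k) =
        (η0 - TwoX * η0 * adjugate TwoX) + (η1 - TwoY * η1 * adjugate TwoY) ∧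
      (Pi.single k (a k) : Fin g → M 2) - (Pi.single i0 η0 + Pi.single i1 η1) ∈ W := by
    intro k
    by_cases k0 : k = i0
    · subst k0
      exact ⟨a i0, 0, ht _, by simp, by simp [b0], by simp⟩
    by_cases k1 : k = i1
    · subst k1
      exact ⟨0, a i1, by simp, ht _, by simp [b1], by simp⟩
    have e0 : k.1 ≠ 0 := fun h => k0 (Fin.ext h)
    have e1 : k.1 ≠ 1 := fun h => k1 (Fin.ext h)
    have b2 : TwoB g k = TwoZ := by simp [TwoB, e0, e1]
    obtain ⟨α, β, γ, f1, f2⟩ := Two_z (ht k)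
    refine ⟨β • tl (adjugate TwoX * TwoZ), γ • tl (adjugate TwoY * TwoZ), ?_, ?_,
      by rw [b2]; exact f2, ?_⟩
    · rw [trace_smul, tl_trace, smul_zero]
    · rw [trace_smul, tl_trace, smul_zero]
    have t0 := W.smul_mem α (h1 k)
    have t1 := W.smul_mem β (h2 i0 k (show 0 < k.1 by omega) (show 0 < 2 by omega))
    have t2 := W.smul_mem γ (h2 i1 k (show 1 < k.1 by omega) (show 1 < 2 by omega))
    rw [b2] at t0
    rw [b0, b2] at t1
    rw [b1, b2] at t2
    rw [f1]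
    generalize tl TwoZ = u at t0
    generalize tl (adjugate TwoX * TwoZ) = v at t1
    generalize tl (adjugate TwoY * TwoZ) = w at t2
    clear_value i0 i1
    convert add_mem (add_mem t0 t1) t2 using 1
    simp only [Pi.single_add, Pi.single_smul, smul_sub]
    abel
  choose η0 η1 f0 f1 e hm using s2
  have t1 := Submodule.sum_mem W (t := Finset.univ) fun k _ => hm k
  have u0 : ∑ k, (Pi.single i0 (η0 k) : Fin g → M 2) = Pi.single i0 (∑ k, η0 k) :=
    (map_sum (LinearMap.single ℂ (fun _ : Fin g => M 2) i0) η0 Finset.univ).symm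
  have u1 : ∑ k, (Pi.single i1 (η1 k) : Fin g → M 2) = Pi.single i1 (∑ k, η1 k) :=
    (map_sum (LinearMap.single ℂ (fun _ : Fin g => M 2) i1) η1 Finset.univ).symm
  rw [Finset.sum_sub_distrib, Finset.sum_add_distrib, u0, u1, Finset.univ_sum_single] at t1
  obtain ⟨α, β, γ, g0, g1⟩ := Two_xy (a := ∑ k, η0 k) (b := ∑ k, η1 k) (by simp [f0]) (by simp [f1])
    (by
      rw [← hs, Finset.mul_sum, Finset.sum_mul, Finset.mul_sum, Finset.sum_mul,
        ← Finset.sum_sub_distrib, ← Finset.sum_sub_distrib, ← Finset.sum_add_distrib]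
      exact Finset.sum_congr rfl fun k _ => (e k).symm)
  have t0 := W.smul_mem α (h1 i0)
  have t2 := W.smul_mem β (h1 i1)
  have t3 := W.smul_mem γ (h2 i0 i1 (show 0 < 1 by omega) (show 0 < 2 by omega))
  rw [b0] at t0
  rw [b1] at t2
  rw [b0, b1] at t3
  rw [g0, g1] at t1
  generalize tl TwoX = u at t0 t1
  generalize tl TwoY = v at t2 t1
  generalize tl (adjugate TwoX * TwoY) = w at t3 t1
  clear_value i0 i1
  convert add_mem (add_mem (add_mem t1 t0) t2) t3 using 1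
  simp only [Pi.single_add, Pi.single_sub, Pi.single_smul, smul_sub]
  abel

theorem base2 (hg : 2 ≤ g) {L : IntermediateField ℚ ℂ} (hL : GoodL L) :
    ∃ x0 ∈ RR g 2, Sch x0 ∧ ∀ᶠ y in 𝓝 x0, y ∈ RR g 2 → y ∈ cl (SS L g 2) := by
  have hB : ∀ j, (TwoB g j).det = 1 := fun j => by
    unfold TwoB
    split_ifs <;> norm_num [TwoX, TwoY, TwoZ, det_fin_two]
  have hd1 : ∀ j, dl (TwoB g j) ≠ 0 := fun j => Two_dl (hB j) (by
    unfold TwoB
    split_ifs <;> norm_num [TwoX, TwoY, TwoZ, trace_fin_two])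
  have hd2 : ∀ i k : Fin g, i < k → i.1 < 2 → dl (adjugate (TwoB g i) * TwoB g k) ≠ 0 :=
    fun i k hik hi => Two_dl (by rw [det_mul, mv_adet (hB i), hB, one_mul]) (by
      have : i.1 < k.1 := hik
      unfold TwoB
      split_ifs <;> first
        | omega
        | norm_num [TwoX, TwoY, TwoZ, trace_fin_two, adjugate_fin_two, mul_apply, Fin.sum_univ_two])
  have hx := xB_mem hB
  have hsub : cl (SS L g 2) ⊆ RR g 2 := cl_RR fun x hx => hx.1
  have h0 := HH_RR hx
  have key := ab (H := HH g 2) (Z := cl (SS L g 2)) FF FF_contDiff.contDiffAt hx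
    (HH_sub le_rfl L) (fun x hx => (FF_eq h0 x).2 (hsub hx)) ?_
  · refine ⟨_, h0, fun ξ h => ?_, key.1.mono fun z hz hz' => hz ((FF_eq h0 z).2 hz')⟩
    have c0 : ξ * TwoX = TwoX * ξ := (h ⟨0, by omega⟩).2
    have c1 : ξ * TwoY = TwoY * ξ := (h ⟨1, by omega⟩).2
    have d1 := congrFun (congrFun c0 0) 0
    have d2 := congrFun (congrFun c0 0) 1
    have d3 := congrFun (congrFun c1 0) 0
    simp [TwoX, TwoY, mul_apply, Fin.sum_univ_two] at d1 d2 d3
    refine ⟨ξ 0 0, ?_⟩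
    ext i j
    fin_cases i <;> fin_cases j <;> simp
    · linear_combination (1 / 2) * d1 + (1 / 2) * d3
    · linear_combination (1 / 2) * d1 - (1 / 2) * d3
    · exact d2.symm
  intro v hv
  obtain ⟨hv1, hv2, hv3⟩ := ker_FF hB hv
  set U := Submodule.span ℂ (Vel (HH g 2) (xB (TwoB g)) ∪ Vel (cl (SS L g 2)) (xB (TwoB g)))
  have hU : ∀ w ∈ Vel (cl (SS L g 2)) (xB (TwoB g)), w ∈ U := fun w hw =>
    Submodule.subset_span (Or.inr hw)
  have hW := Two_sp hg ((U ⊓ Tb (TwoB g)).map (fstL g 2)) ?_ ?_ (fun j => (v j).1) hv2 hv3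
  · obtain ⟨w, ⟨hw1, hw2⟩, hw3⟩ := hW
    have : v - w ∈ U := Submodule.subset_span (Or.inl (vel_HH le_rfl hB
      (fun j => by
        have := congrFun hw3 j
        simp only [Pi.sub_apply, Prod.fst_sub]
        exact sub_eq_zero.2 this.symm) (sub_mem hv1 hw2)))
    simpa using add_mem this hw1
  · intro i
    rw [← pow_one (TwoB g i)]
    refine ⟨Pi.single i (tl (TwoB g i ^ 1), 0), ⟨hU _ (vel_move hL (move1 i) 1
      (hd1 i) (m1_deriv _ i (Ct_deriv _))), fun j => ?_⟩, funext fun j => ?_⟩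
    · by_cases h : j = i
      · subst h; simp
      · simp [Pi.single_eq_of_ne h]
    · by_cases h : j = i
      · subst h; simp [fstL]
      · simp [fstL, Pi.single_eq_of_ne h]
  · intro i k hik hi
    obtain ⟨w, hw1, hw2, hw3⟩ := m2_deriv hB hik 1 1
      (Ct_deriv (adjugate (TwoB g i) ^ 1 * TwoB g k ^ 1)) (Ct_zero _) (tl_trace _)
    refine ⟨w, ⟨hU _ (vel_move hL (move2 hik 1 1) 1 ?_ ?_), hw1⟩, ?_⟩
    · rw [D2_xB hB hik, pow_one, pow_one]
      exact hd2 i k hik hi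
    · rw [D2_xB hB hik, pow_one]
      exact hw2
    · refine Eq.trans hw3 ?_
      simp [sa]

end Vale.Agent.P002
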