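import Vale.Agent.P002.Def3
import Vale.Agent.P002.Sp3
import Vale.Agent.P002.Two

open scoped Matrix.Norms.Operator Topology
open Matrix Filter

namespace Vale.Agent.P002

variable {g n : ℕ} {κ : Kd g n}

theorem spa_pow {Q Q' : M n} (hQ : Q * Q' = 1) (u : M n) (p : ℕ) :
    (Q * u * Q') ^ p = Q * u ^ p * Q' := by
  have hQ' : Q' * Q = 1 := mul_eq_one_comm.1 hQ
  induction p with
  | zero => simp [hQ]
  | succ p ih =>
    rw [pow_succ, ih, pow_succ]
    simp only [mul_assoc]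
    rw [← mul_assoc Q' Q, hQ', one_mul]

theorem spa_adj {Q Q' : M n} (hQ : Q * Q' = 1) {u : M n} (hu : u.det = 1) :
    adjugate (Q * u * Q') = Q * adjugate u * Q' := by
  have hQ' : Q' * Q = 1 := mul_eq_one_comm.1 hQ
  have hd : (Q * u * Q').det = 1 := by
    rw [det_mul, det_mul, hu, mul_one, ← det_mul, hQ, det_one]
  have h1 : Q * u * Q' * (Q * adjugate u * Q') = 1 := by
    simp only [mul_assoc]
    rw [← mul_assoc Q' Q, hQ', one_mul, ← mul_assoc u, mul_adjugate, hu, one_smul, one_mul, hQ]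
  rw [← mul_one (adjugate _), ← h1, ← mul_assoc, adjugate_mul, hd, one_smul, one_mul]

theorem spa_tr {Q Q' : M n} (hQ : Q * Q' = 1) (u : M n) : (Q * u * Q').trace = u.trace := by
  rw [trace_mul_cycle, mul_eq_one_comm.1 hQ, one_mul]

theorem spa_tl {Q Q' : M n} (hQ : Q * Q' = 1) (u : M n) : tl (Q * u * Q') = Q * tl u * Q' := by
  simp only [tl, spa_tr hQ, mul_sub, sub_mul, Matrix.mul_smul, Matrix.smul_mul, mul_one, hQ]

theorem spa_mul {Q Q' : M n} (hQ : Q * Q' = 1) (u w : M n) :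
    Q * u * Q' * (Q * w * Q') = Q * (u * w) * Q' := by
  simp only [mul_assoc]
  rw [← mul_assoc Q' Q, mul_eq_one_comm.1 hQ, one_mul]

theorem spa_sa {Q Q' : M n} (hQ : Q * Q' = 1) {u : M n} (hu : u.det = 1) (p : ℕ) (w : M n) :
    sa (Q * u * Q') p (Q * w * Q') = Q * sa u p w * Q' := by
  simp only [sa, Finset.mul_sum, Finset.sum_mul, spa_adj hQ hu, spa_pow hQ, spa_mul hQ]

theorem spa_B0 (z : Fin n → ℂ) : Bm 0 z = diagonal z := by simp [Bm, PJ, QJ]

/-- the linear map `tl` -/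
noncomputable def spaL (n : ℕ) : M n →ₗ[ℂ] M n where
  toFun := tl
  map_add' a b := by simp only [tl, trace_add, smul_add, add_smul]; abel
  map_smul' c a := by simp only [tl, trace_smul, smul_sub, smul_smul, RingHom.id_apply, smul_eq_mul,
    mul_comm]

section
variable {Q Q' : M n} (hQ : Q * Q' = 1) {y y' : Fin n → ℂ} (hy : GY y) (hy' : GY y')
include hQ hy hy'

theorem spA (hn : 0 < n) {τ : M n} (hτ : τ.det = 1) {ξ : M n} (hξ : ξ.trace = 0) :
    ξ ∈ Submodule.span ℂ {u : M n | ∃ p q : ℕ, 0 < p ∧ p ≤ n ∧ 0 < q ∧ q ≤ n ∧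
      u = tl ((Q * Bm 0 y * Q') ^ p * adjugate (Q * Bm 1 y' * Q') ^ q * τ)} := by
  set S := Submodule.span ℂ {u : M n | ∃ p q : ℕ, 0 < p ∧ p ≤ n ∧ 0 < q ∧ q ≤ n ∧
      u = tl ((Q * Bm 0 y * Q') ^ p * adjugate (Q * Bm 1 y' * Q') ^ q * τ)} with hS
  have hQ' : Q' * Q = 1 := mul_eq_one_comm.1 hQ
  have h1 : ∀ z z' : Fin n → ℂ, spaL n (Q * (Bm 0 z * Bm 1 z') * Q' * τ) ∈ S := by
    intro z z'
    obtain ⟨r, rfl⟩ := sp1_pow hy.1 (sp1_ne hy) z
    obtain ⟨r', rfl⟩ := sp1_pow (y := fun i => (y' i)⁻¹) (inv_injective.comp hy'.1)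
      (fun i => inv_ne_zero (sp1_ne hy' i)) z'
    simp only [sp1_Bm_sum, Finset.sum_mul, Finset.mul_sum, Matrix.smul_mul, Matrix.mul_smul,
      map_sum, map_smul]
    refine Submodule.sum_mem _ fun k hk => Submodule.sum_mem _ fun l hl =>
      Submodule.smul_mem _ _ (Submodule.smul_mem _ _ (Submodule.subset_span ?_))
    have hk' := Finset.mem_range.1 hk
    have hl' := Finset.mem_range.1 hl
    refine ⟨l + 1, k + 1, by omega, by omega, by omega, by omega, ?_⟩
    rw [spa_adj hQ (Bm_det 1 hy'), spa_pow hQ, spa_pow hQ, spa_mul hQ, Bm_adj 1 hy', Bm_pow,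
      Bm_pow]
    rfl
  have h2 : ∀ u : M n, spaL n (Q * (u * QJ n 1) * Q' * τ) ∈ S := by
    intro u
    rw [matrix_eq_sum_single u]
    simp only [Finset.sum_mul, Finset.mul_sum, map_sum]
    refine Submodule.sum_mem _ fun i _ => Submodule.sum_mem _ fun j _ => ?_
    have hP : PJ n 1 i j ≠ 0 := by
      by_cases h : i = j
      · simp [PJ, JJ, h]
      · simp [PJ, JJ, h]
    have := h1 (Pi.single i (u i j / PJ n 1 i j)) (Pi.single j 1)
    rw [spa_B0, Bm, ← mul_assoc (diagonal _), ← mul_assoc (diagonal _)] at this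
    have e : diagonal (Pi.single i (u i j / PJ n 1 i j)) * PJ n 1 * diagonal (Pi.single j 1) =
        Matrix.single i j (u i j) := by
      ext a b
      rw [mul_diagonal, diagonal_mul, Matrix.single_apply]
      by_cases ha : i = a
      · by_cases hb : j = b
        · subst ha hb; simp [div_mul_cancel₀ _ hP]
        · simp [hb, Ne.symm hb]
      · simp [ha, Ne.symm ha]
    rwa [e] at this
  have hn0 : (n : ℂ) ≠ 0 := Nat.cast_ne_zero.2 hn.ne'
  have := Submodule.smul_mem _ (n : ℂ)⁻¹ (h2 (Q' * (ξ * adjugate τ) * Q * PJ n 1))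
  have e : Q * (Q' * (ξ * adjugate τ) * Q * PJ n 1 * QJ n 1) * Q' * τ = ξ := by
    rw [mul_assoc _ (PJ n 1), PQ, mul_one]
    simp only [← mul_assoc]
    rw [hQ, one_mul, mul_assoc _ Q, hQ, mul_one, mul_assoc, adjugate_mul, hτ, one_smul, mul_one]
  rw [e] at this
  simpa [spaL, tl, hξ, smul_smul, hn0] using this

theorem spC (hn : 3 ≤ n) {X Y : M n} (hX : X = Q * Bm 0 y * Q') (hY : Y = Q * Bm 1 y' * Q')
    (W : Submodule ℂ (M n × M n)) (h1 : ∀ k : ℕ, (tl (X ^ k), 0) ∈ W ∧ (0, tl (Y ^ k)) ∈ W)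
    (h2 : ∀ p q : ℕ, 0 < p → p ≤ n → 0 < q → q ≤ n →
      (-sa X p (tl (adjugate X ^ p * Y ^ q)), sa Y q (tl (adjugate X ^ p * Y ^ q))) ∈ W)
    {a b : M n} (ha : a.trace = 0) (hb : b.trace = 0)
    (hs : (a - X * a * adjugate X) + (b - Y * b * adjugate Y) = 0) : (a, b) ∈ W := by
  have hQ' : Q' * Q = 1 := mul_eq_one_comm.1 hQ
  let L : (Fin 2 → M n) →ₗ[ℂ] M n × M n :=
    { toFun := fun c => (Q * c 0 * Q', Q * c 1 * Q')
      map_add' := fun c d => by simp [mul_add, add_mul]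
      map_smul' := fun c d => by simp }
  have hL : ∀ c, L c = (Q * c 0 * Q', Q * c 1 * Q') := fun _ => rfl
  let z : ℕ → Fin n → ℂ := fun c => if c = 0 then y else y'
  have hz : ∀ c, GY (z c) := fun c => by simp only [z]; split_ifs; exacts [hy, hy']
  have b0 : BB 2 z 0 = Bm 0 y := rfl
  have b1 : BB 2 z 1 = Bm 1 y' := rfl
  have d0 := Bm_det 0 hy
  have d1 := Bm_det 1 hy'
  have ea : Q * (Q' * a * Q) * Q' = a := by
    simp only [← mul_assoc]; rw [hQ, one_mul, mul_assoc, hQ, mul_one]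
  have eb : Q * (Q' * b * Q) * Q' = b := by
    simp only [← mul_assoc]; rw [hQ, one_mul, mul_assoc, hQ, mul_one]
  subst hX hY
  have := sp3 hn le_rfl hz (W.comap L) (fun i k => ?_) (fun i k hik _ p q p0 p1 q0 q1 => ?_)
    ![Q' * a * Q, Q' * b * Q] (fun j => ?_) ?_
  · rw [Submodule.mem_comap, hL] at this
    simpa only [cons_val_zero, cons_val_one, ea, eb] using this
  · rw [Submodule.mem_comap, hL]
    have := h1 k
    rw [spa_pow hQ, spa_pow hQ, spa_tl hQ, spa_tl hQ] at this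
    obtain rfl | rfl : i = 0 ∨ i = 1 := by omega
    · simpa [b0] using this.1
    · simpa [b1] using this.2
  · rw [Submodule.mem_comap, hL]
    have := h2 p q p0 p1 q0 q1
    rw [spa_adj hQ d0, spa_pow hQ, spa_pow hQ, spa_mul hQ, spa_tl hQ, spa_sa hQ d0,
      spa_sa hQ d1] at this
    obtain rfl : i = 0 := by omega
    obtain rfl : k = 1 := by omega
    simpa [b0, b1] using this
  · obtain rfl | rfl : j = 0 ∨ j = 1 := by omega
    · simpa [spa_tr hQ'] using ha
    · simpa [spa_tr hQ'] using hb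
  · rw [← ea, ← eb, spa_adj hQ d0, spa_adj hQ d1, spa_mul hQ, spa_mul hQ, spa_mul hQ,
      spa_mul hQ] at hs
    have h3 := congrArg (fun u => Q' * u * Q) hs
    have e : ∀ u : M n, Q' * (Q * u * Q') * Q = u := fun u => by
      simp only [← mul_assoc]; rw [hQ', one_mul, mul_assoc, hQ', mul_one]
    simp only [mul_add, add_mul, mul_sub, sub_mul, e, mul_zero, zero_mul] at h3
    simpa only [Fin.sum_univ_two, cons_val_zero, cons_val_one, b0, b1] using h3

theorem schXY {ξ : M n} (h1 : ξ * (Q * Bm 0 y * Q') = Q * Bm 0 y * Q' * ξ)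
    (h2 : ξ * (Q * Bm 1 y' * Q') = Q * Bm 1 y' * Q' * ξ) : ∃ c : ℂ, ξ = c • 1 := by
  have hQ' : Q' * Q = 1 := mul_eq_one_comm.1 hQ
  let z : ℕ → Fin n → ℂ := fun c => if c = 0 then y else y'
  have hz : ∀ c, GY (z c) := fun c => by simp only [z]; split_ifs; exacts [hy, hy']
  have e : ∀ u : M n, Q' * (Q * u * Q') * Q = u := fun u => by
    simp only [← mul_assoc]; rw [hQ', one_mul, mul_assoc, hQ', mul_one]
  have k : ∀ u : M n, ξ * (Q * u * Q') = Q * u * Q' * ξ → Q' * ξ * Q * u = u * (Q' * ξ * Q) :=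
    fun u h => by rw [← e u, spa_mul hQ', spa_mul hQ', h]
  obtain ⟨c, hc⟩ := sch_BB (g := 2) le_rfl hz (Q' * ξ * Q) fun j => ⟨by simp [xB], by
    obtain rfl | rfl : j = 0 ∨ j = 1 := by omega
    exacts [k _ h1, k _ h2]⟩
  refine ⟨c, ?_⟩
  have := congrArg (fun w => Q * w * Q') hc
  simp only [← mul_assoc, hQ, one_mul, Matrix.mul_smul, Matrix.smul_mul, mul_one] at this
  rwa [mul_assoc, hQ, mul_one] at this
end

end Vale.Agent.P002
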