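import Vale.Agent.P002.Def3

open scoped Matrix.Norms.Operator Topology
open Matrix Filter

namespace Vale.Agent.P002

variable {g n : ℕ} {κ : Kd g n}

theorem spB {o o' : Fin g} (h : Two κ o o') {x : E g n}
    (hx : ∀ j, (x j).1.det = 1 ∧ (x j).2.det = 1) (U : Submodule ℂ (E g n))
    (hb : ∀ r, 2 ≤ r → r ≤ g → ∀ ξ : M n, ξ.trace = 0 → ∃ v ∈ U,
      ∀ j, j ≠ o → j ≠ o' → v j = if j.1 < r then dcq (κ j) ξ (x j) else 0)
    (hh : ∀ k, k ≠ o → k ≠ o' → κ k = none → ∀ e ≤ 1, ∀ ξ : M n, ξ.trace = 0 → ∃ v ∈ U,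
      (∀ j, j ≠ o → j ≠ o' → j ≠ k → v j = if j < k then dcq (κ j) ξ (x j) else 0) ∧
      v k = (if e = 0 then ξ * (x k).1 - (x k).1 * ξ else ξ * (x k).1, -((x k).2 * ξ)))
    {v : E g n} (hv : Tr0 x v) : ∃ w ∈ U, ∀ j, j ≠ o → j ≠ o' →
      (w j).1 = (v j).1 ∧ (κ j = none → (w j).2 = (v j).2) := by
  let S : Fin g → Submodule ℂ (M n × M n) := fun k =>
    (U ⊓ ⨅ j, ⨅ (_ : j ≠ o ∧ j ≠ o' ∧ j ≠ k), LinearMap.ker (LinearMap.proj j)).map
      (LinearMap.proj k)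
  have hS : ∀ k a, a ∈ S k ↔ ∃ w ∈ U, (∀ j, j ≠ o → j ≠ o' → j ≠ k → w j = 0) ∧ w k = a := by
    intro k a
    simp only [S, Submodule.mem_map, Submodule.mem_inf, Submodule.mem_iInf, LinearMap.mem_ker,
      LinearMap.proj_apply, and_imp, and_assoc]
  have h2 : ∀ k : Fin g, k ≠ o → k ≠ o' → 2 ≤ k.1 := fun k a b => by
    have a' : k.1 ≠ o.1 := fun e => a (Fin.ext e)
    have b' : k.1 ≠ o'.1 := fun e => b (Fin.ext e)
    have := h.ho
    have := h.ho'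
    omega
  have hD : ∀ k, k ≠ o → k ≠ o' → ∀ ξ : M n, ξ.trace = 0 → dcq (κ k) ξ (x k) ∈ S k := by
    intro k a b ξ hξ
    obtain ⟨u, u1, u2⟩ := hb (k.1 + 1) (by have := h2 k a b; omega) k.2 ξ hξ
    obtain ⟨w, w1, w2⟩ := hb k.1 (h2 k a b) k.2.le ξ hξ
    refine (hS _ _).mpr ⟨u - w, sub_mem u1 w1, fun j c d e => ?_, ?_⟩
    · have e' : j.1 ≠ k.1 := fun f => e (Fin.ext f)
      rw [Pi.sub_apply, u2 j c d, w2 j c d, sub_eq_zero]
      exact if_congr (by omega) rfl rfl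
    · rw [Pi.sub_apply, u2 k a b, w2 k a b, if_pos (Nat.lt_succ_self _), if_neg (lt_irrefl _),
        sub_zero]
  have hH : ∀ k, k ≠ o → k ≠ o' → κ k = none → ∀ e ≤ 1, ∀ ξ : M n, ξ.trace = 0 →
      (if e = 0 then ξ * (x k).1 - (x k).1 * ξ else ξ * (x k).1, -((x k).2 * ξ)) ∈ S k := by
    intro k a b c e he ξ hξ
    obtain ⟨u, u1, u2, u3⟩ := hh k a b c e he ξ hξ
    obtain ⟨w, w1, w2⟩ := hb k.1 (h2 k a b) k.2.le ξ hξ
    refine (hS _ _).mpr ⟨u - w, sub_mem u1 w1, fun j c d e => ?_, ?_⟩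
    · rw [Pi.sub_apply, u2 j c d e, w2 j c d, sub_eq_zero]
      rfl
    · rw [Pi.sub_apply, u3, w2 k a b, if_neg (lt_irrefl _), sub_zero]
  have hA : ∀ A a : M n, A.det = 1 → (adjugate A * a).trace = 0 →
      ∃ ξ : M n, ξ.trace = 0 ∧ ξ * A = a := fun A a h1 h3 =>
    ⟨a * adjugate A, by rwa [trace_mul_comm], by
      rw [mul_assoc, adjugate_mul, h1, one_smul, mul_one]⟩
  have key : ∀ k, ∃ w ∈ U, (∀ j, j ≠ o → j ≠ o' → j ≠ k → w j = 0) ∧ (k ≠ o → k ≠ o' →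
      (w k).1 = (v k).1 ∧ (κ k = none → (w k).2 = (v k).2)) := by
    intro k
    by_cases a : k = o
    · exact ⟨0, zero_mem _, fun _ _ _ _ => rfl, fun c => absurd a c⟩
    by_cases b : k = o'
    · exact ⟨0, zero_mem _, fun _ _ _ _ => rfl, fun _ c => absurd b c⟩
    obtain ⟨ξ, x1, x2⟩ := hA _ _ (hx k).1 (hv k).1
    cases hk : κ k with
    | some J =>
      have := hD k a b ξ x1
      rw [hk, dcq, x2] at this
      obtain ⟨w, w1, w2, w3⟩ := (hS _ _).mp this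
      exact ⟨w, w1, w2, fun _ _ => ⟨by rw [w3], fun c => absurd c (by simp)⟩⟩
    | none =>
      have hB : ∀ c : M n, (adjugate (x k).2 * c).trace = 0 → ((0 : M n), c) ∈ S k := by
        intro c hc
        obtain ⟨η, y1, rfl⟩ := hA _ _ (hx k).2 hc
        have h3 := hD k a b η y1
        rw [hk, dcq] at h3
        have h4 := sub_mem h3 (hH k a b hk 0 zero_le_one η y1)
        simpa using h4
      have h5 := add_mem (add_mem (hH k a b hk 1 le_rfl ξ x1) (hB ((x k).2 * ξ) (by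
        rw [← mul_assoc, adjugate_mul, (hx k).2, one_smul, one_mul, x1]))) (hB _ (hv k).2)
      obtain ⟨w, w1, w2, w3⟩ := (hS _ _).mp h5
      exact ⟨w, w1, w2, fun _ _ => by simp [w3, x2]⟩
  choose w w1 w2 w3 using key
  refine ⟨∑ k, w k, Submodule.sum_mem _ fun k _ => w1 k, fun j a b => ?_⟩
  rw [Finset.sum_apply, Fintype.sum_eq_single j fun k hk => w2 k j a b hk.symm]
  exact w3 j a b

end Vale.Agent.P002
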