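import Vale.Agent.P002.GenK
import Vale.Agent.P002.ParK
import Vale.Agent.P002.FlowK
import Vale.Agent.P002.DerK
import Vale.Agent.P002.BasK
import Vale.Agent.P002.HZK
import Vale.Agent.P002.SpA
import Vale.Agent.P002.SpB
import Vale.Agent.P002.ExK
import Vale.Agent.P002.AB
import Vale.Agent.P002.GoodD
import Vale.Agent.P002.Scale

open scoped Matrix.Norms.Operator Topology
open Matrix Filter

namespace Vale.Agent.P002

variable {g n : ℕ} {κ : Kd g n}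

theorem dcq_add (k : Option (M n)) (ξ η : M n) (a : M n × M n) :
    dcq k (ξ + η) a = dcq k ξ a + dcq k η a := by
  cases k
  · simp only [dcq, Prod.mk_add_mk, Prod.mk.injEq]
    constructor <;> noncomm_ring
  · simp [dcq, add_mul]

theorem dcq_smul (k : Option (M n)) (c : ℂ) (ξ : M n) (a : M n × M n) :
    dcq k (c • ξ) a = c • dcq k ξ a := by
  cases k <;> simp [dcq, smul_sub]

theorem dcq_zero (k : Option (M n)) (a : M n × M n) : dcq k 0 a = 0 := by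
  cases k <;> simp [dcq]

theorem m1_derivK (x : E g n) (i : Fin g) (h : (x i).1 = 1) {C : ℂ → M n} {ξ : M n}
    (hC : HasDerivAt C ξ 0) :
    HasDerivAt (fun t => m1 i x (C t)) (Pi.single i (ξ, 0) : E g n) 0 := by
  refine hasDerivAt_pi.2 fun j => ?_
  by_cases e : j = i
  · subst e
    simp only [m1, Function.update_self, Pi.single_eq_same, h, one_mul]
    exact hC.prodMk (hasDerivAt_const _ _)
  · simp only [m1, Function.update_of_ne e, Pi.single_eq_of_ne e]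
    exact hasDerivAt_const _ _

theorem span_b {o o' : Fin g} {x : E g n} (U : Submodule ℂ (E g n)) (r : ℕ) {s : Set (M n)}
    (hs : ∀ ξ ∈ s, ∃ v ∈ U, ∀ j, j ≠ o → j ≠ o' → v j = if j.1 < r then dcq (κ j) ξ (x j) else 0)
    {ξ : M n} (h : ξ ∈ Submodule.span ℂ s) :
    ∃ v ∈ U, ∀ j, j ≠ o → j ≠ o' → v j = if j.1 < r then dcq (κ j) ξ (x j) else 0 := by
  induction h using Submodule.span_induction with
  | mem ξ h => exact hs ξ h
  | zero => exact ⟨0, zero_mem _, fun j _ _ => by simp [dcq_zero]⟩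
  | add a b _ _ ha hb =>
    obtain ⟨v, hv, h1⟩ := ha
    obtain ⟨w, hw, h2⟩ := hb
    refine ⟨v + w, add_mem hv hw, fun j e e' => ?_⟩
    rw [Pi.add_apply, h1 j e e', h2 j e e', dcq_add]
    split_ifs <;> simp
  | smul c a _ ha =>
    obtain ⟨v, hv, h1⟩ := ha
    refine ⟨c • v, U.smul_mem c hv, fun j e e' => ?_⟩
    rw [Pi.smul_apply, h1 j e e', dcq_smul]
    split_ifs <;> simp

theorem span_h {o o' k : Fin g} {x : E g n} (U : Submodule ℂ (E g n)) (e : ℕ) {s : Set (M n)}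
    (hs : ∀ ξ ∈ s, ∃ v ∈ U,
      (∀ j, j ≠ o → j ≠ o' → j ≠ k → v j = if j < k then dcq (κ j) ξ (x j) else 0) ∧
      v k = (if e = 0 then ξ * (x k).1 - (x k).1 * ξ else ξ * (x k).1, -((x k).2 * ξ)))
    {ξ : M n} (h : ξ ∈ Submodule.span ℂ s) : ∃ v ∈ U,
      (∀ j, j ≠ o → j ≠ o' → j ≠ k → v j = if j < k then dcq (κ j) ξ (x j) else 0) ∧
      v k = (if e = 0 then ξ * (x k).1 - (x k).1 * ξ else ξ * (x k).1, -((x k).2 * ξ)) := by
  induction h using Submodule.span_induction with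
  | mem ξ h => exact hs ξ h
  | zero => exact ⟨0, zero_mem _, fun j _ _ _ => by simp [dcq_zero], by simp [Prod.ext_iff]⟩
  | add a b _ _ ha hb =>
    obtain ⟨v, hv, h1, h3⟩ := ha
    obtain ⟨w, hw, h2, h4⟩ := hb
    refine ⟨v + w, add_mem hv hw, fun j e1 e2 e3 => ?_, ?_⟩
    · rw [Pi.add_apply, h1 j e1 e2 e3, h2 j e1 e2 e3, dcq_add]
      split_ifs <;> simp
    · rw [Pi.add_apply, h3, h4]
      split_ifs <;> simp only [Prod.mk_add_mk, Prod.mk.injEq] <;> constructor <;> noncomm_ring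
  | smul c a _ ha =>
    obtain ⟨v, hv, h1, h3⟩ := ha
    refine ⟨c • v, U.smul_mem c hv, fun j e1 e2 e3 => ?_, ?_⟩
    · rw [Pi.smul_apply, h1 j e1 e2 e3, dcq_smul]
      split_ifs <;> simp
    · rw [Pi.smul_apply, h3]
      split_ifs <;> simp [smul_sub]

/-- vectors supported on two indices -/
def Out (o o' : Fin g) : Submodule ℂ (E g n) where
  carrier := {v | ∀ j, j ≠ o → j ≠ o' → v j = 0}
  add_mem' := fun {a b} ha hb j e e' => by rw [Pi.add_apply, ha j e e', hb j e e', add_zero]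
  zero_mem' := fun _ _ _ => rfl
  smul_mem' := fun c a ha j e e' => by rw [Pi.smul_apply, ha j e e', smul_zero]

def fst2 (o o' : Fin g) : E g n →ₗ[ℂ] M n × M n where
  toFun v := ((v o).1, (v o').1)
  map_add' _ _ := rfl
  map_smul' _ _ := rfl

section
variable {o o' : Fin g} (h : Two κ o o') {z : E g n} {X Y : M n}

theorem xK_o' : xK o o' z X Y o' = (1, Y) := Function.update_self _ _ _

theorem xK_out {j : Fin g} (e : j ≠ o) (e' : j ≠ o') : xK o o' z X Y j = z j := by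
  rw [xK, Function.update_of_ne e', Function.update_of_ne e]

include h

theorem Two.ne : o ≠ o' := fun e => by
  have h1 := h.ho
  have h2 := h.ho'
  rw [e] at h1
  omega

theorem xK_o : xK o o' z X Y o = (1, X) := by
  rw [xK, Function.update_of_ne h.ne, Function.update_self]

theorem xK_mem (hz : z ∈ RK κ) (hX : X.det = 1) (hY : Y.det = 1) :
    xK o o' z X Y ∈ HK κ o o' z := by
  refine ⟨by rw [xK_o h], by rw [xK_o'], fun j => ?_, fun j e e' => by simp [xK_out e e']⟩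
  by_cases e : j = o
  · rw [e, xK_o h]; exact hX
  by_cases e' : j = o'
  · rw [e', xK_o']; exact hY
  rw [xK_out e e']
  exact (hz.1 j).2

theorem inner_span (hn : 3 ≤ n) {L : IntermediateField ℚ ℂ} (hL : GoodL L) (hI : KI L κ)
    {Q Q' : M n} (hQ : Q * Q' = 1) {y y' : Fin n → ℂ} (hy : GY y) (hy' : GY y')
    (eX : X = Q * Bm 0 y * Q') (eY : Y = Q * Bm 1 y' * Q') (hX : X.det = 1) (hY : Y.det = 1)
    (hd : ∀ p q : ℕ, 0 < p → p ≤ n → 0 < q → q ≤ n → dl (adjugate X ^ p * Y ^ q) ≠ 0)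
    (U : Submodule ℂ (E g n)) (hU : Vel (cl (SK L κ)) (xK o o' z X Y) ⊆ U) {a b : M n}
    (ha : a.trace = 0) (hb : b.trace = 0)
    (hs : (a - X * a * adjugate X) + (b - Y * b * adjugate Y) = 0) :
    ∃ w ∈ U ⊓ Out o o', fst2 o o' w = (a, b) := by
  have hdl : ∀ (c : ℕ) {u : Fin n → ℂ}, GY u → dl (Q * Bm c u * Q') ≠ 0 := fun c u hu => by
    have := dg1 (P := Q * PJ n c) (Q := QJ n c * Q') (by
      rw [mul_assoc, ← mul_assoc (PJ n c), PQ, one_mul, hQ]) hu.1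
    simpa only [Bm, mul_assoc] using this
  refine spC hQ hy hy' hn eX eY ((U ⊓ Out o o').map (fst2 o o')) (fun k => ⟨?_, ?_⟩)
    (fun p q hp hp' hq hq' => ?_) ha hb hs
  · refine ⟨Pi.single o (tl (X ^ k), 0), ⟨hU (vel_moveK hL hI (move1K h.hk) k ?_ ?_),
      fun j e _ => Pi.single_eq_of_ne e _⟩, ?_⟩
    · rw [xK_o h, eX]; exact hdl 0 hy
    · have := m1_derivK (xK o o' z X Y) o (by rw [xK_o h]) (Ct_deriv (X ^ k))
      simpa only [xK_o h] using this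
    · simp [fst2, Pi.single_eq_of_ne h.ne.symm]
  · refine ⟨Pi.single o' (tl (Y ^ k), 0), ⟨hU (vel_moveK hL hI (move1K h.hk') k ?_ ?_),
      fun j _ e => Pi.single_eq_of_ne e _⟩, ?_⟩
    · rw [xK_o', eY]; exact hdl 1 hy'
    · have := m1_derivK (xK o o' z X Y) o' (by rw [xK_o']) (Ct_deriv (Y ^ k))
      simpa only [xK_o'] using this
    · simp [fst2, Pi.single_eq_of_ne h.ne]
  · obtain ⟨v, h1, h2, h3, h4⟩ := der2K h (z := z) hX hY p q
      (Ct_deriv (adjugate X ^ p * Y ^ q)) (Ct_zero _) (tl_trace _)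
    refine ⟨v, ⟨hU (vel_moveK hL hI (move2K h p q) 1 ?_ ?_), h2⟩, Prod.ext h3 h4⟩
    · rw [D2_xK h hX hY]
      exact hd p q hp hp' hq hq'
    · rw [D2_xK h hX hY, pow_one]
      exact h1

theorem outer_span (hn : 3 ≤ n) {L : IntermediateField ℚ ℂ} (hL : GoodL L) (hI : KI L κ)
    (hz : z ∈ RK κ) (h1 : z o = (1, 1)) (h2 : z o' = (1, 1))
    {Q Q' : M n} (hQ : Q * Q' = 1) {y y' : Fin n → ℂ} (hy : GY y) (hy' : GY y')
    (eX : X = Q * Bm 0 y * Q') (eY : Y = Q * Bm 1 y' * Q') (hX : X.det = 1) (hY : Y.det = 1)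
    (hb : ∀ p q : ℕ, 0 < p → p ≤ n → 0 < q → q ≤ n → ∀ r ≤ g,
      dl (X ^ p * adjugate Y ^ q * pk κ z r) ≠ 0)
    (hh : ∀ p q : ℕ, 0 < p → p ≤ n → 0 < q → q ≤ n → ∀ k : Fin g, ∀ e ≤ 1,
      dl (X ^ p * adjugate Y ^ q * (pk κ z k * ((z k).1 * (z k).2 ^ e))) ≠ 0)
    (hx : ∀ j, (xK o o' z X Y j).1.det = 1 ∧ (xK o o' z X Y j).2.det = 1)
    (U : Submodule ℂ (E g n)) (hU : Vel (cl (SK L κ)) (xK o o' z X Y) ⊆ U) {v : E g n}
    (hv : Tr0 (xK o o' z X Y) v) : ∃ w ∈ U, ∀ j, j ≠ o → j ≠ o' →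
      (w j).1 = (v j).1 ∧ (κ j = none → (w j).2 = (v j).2) := by
  refine spB h hx U (fun r hr hr' ξ hξ => ?_) (fun k k1 k2 hk e he ξ hξ => ?_) hv
  · refine span_b U r ?_ (spA hQ hy hy' (by omega) (pk_det h.hd hz.1 r) hξ)
    rintro _ ⟨p, q, hp, hp', hq, hq', rfl⟩
    rw [← eX, ← eY]
    obtain ⟨v, a1, a2⟩ := derb h (xK o o' z X Y) (p + 1) q (r := r) (by omega)
      (Ct_deriv (X ^ p * adjugate Y ^ q * pk κ z r)) (Ct_zero _) (tl_trace _)
    refine ⟨v, hU (vel_moveK hL hI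
      ((moveb h.hd h.ho h.hk (r := r) (by omega)).conj (aut_Th h (p + 1) q)) 1 ?_ ?_), a2⟩
    · rw [Db_xK h hX hY h1 h2 p q hr]
      exact hb p q hp hp' hq hq' r hr'
    · rw [Db_xK h hX hY h1 h2 p q hr, pow_one]
      exact a1
  · refine span_h U e ?_ (spA (τ := pk κ z k * ((z k).1 * (z k).2 ^ e)) hQ hy hy' (by omega) (by
      rw [det_mul, det_mul, det_pow, pk_det h.hd hz.1, (hz.1 k).1, (hz.1 k).2]; simp) hξ)
    rintro _ ⟨p, q, hp, hp', hq, hq', rfl⟩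
    rw [← eX, ← eY]
    obtain ⟨v, a1, a2⟩ := derh h k1 k2 hk (hx k).2 (p + 1) q he
      (Ct_deriv (X ^ p * adjugate Y ^ q * (pk κ z k * ((z k).1 * (z k).2 ^ e)))) (Ct_zero _)
      (tl_trace _)
    refine ⟨v, hU (vel_moveK hL hI ((moveh h.hd h.ho h.hk k1 hk).conj
      ((aut_Th h (p + 1) q).comp (aut_tw hk e))) 1 ?_ ?_), a2⟩
    · rw [Dh_xK h hX hY h1 h2 p q e k1 k2]
      exact hh p q hp hp' hq hq' k e he
    · rw [Dh_xK h hX hY h1 h2 p q e k1 k2, pow_one]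
      exact a1

theorem baseK (hn : 3 ≤ n) {L : IntermediateField ℚ ℂ} (hL : GoodL L) (hI : KI L κ)
    (hz : z ∈ SK L κ) (h1 : z o = (1, 1)) (h2 : z o' = (1, 1)) :
    ∃ x0 ∈ RK κ, SchK κ x0 ∧ ∀ᶠ y in 𝓝 x0, y ∈ RK κ → y ∈ cl (SK L κ) := by
  obtain ⟨Q, Q', y, y', hQ, hy, hy', hd⟩ := exK (ι := Fin (g + 1) ⊕ (Fin g × Fin 2))
    (Sum.elim (fun r => pk κ z r) fun k => pk κ z k.1 * ((z k.1).1 * (z k.1).2 ^ k.2.1)) (by
      rintro (r | k)
      · exact pk_det h.hd hz.1.1 r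
      · simp only [Sum.elim_inr]
        rw [det_mul, det_mul, det_pow, pk_det h.hd hz.1.1, (hz.1.1 k.1).1, (hz.1.1 k.1).2]; simp)
  have hdet : ∀ (c : ℕ) {u : Fin n → ℂ}, GY u → (Q * Bm c u * Q').det = 1 := fun c u hu => by
    rw [det_mul, det_mul, Bm_det c hu, mul_one, ← det_mul, hQ, det_one]
  obtain ⟨X, eX⟩ : ∃ X, X = Q * Bm 0 y * Q' := ⟨_, rfl⟩
  obtain ⟨Y, eY⟩ : ∃ Y, Y = Q * Bm 1 y' * Q' := ⟨_, rfl⟩
  have hX : X.det = 1 := eX ▸ hdet 0 hy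
  have hY : Y.det = 1 := eY ▸ hdet 1 hy'
  rw [← eX, ← eY] at hd
  have hx := xK_mem h hz.1 hX hY
  have hsub : cl (SK L κ) ⊆ RK κ := cl_RK fun x hx => hx.1
  have hH := HK_sub (by omega) h hz h1 h2
  have h0 := hsub (hH hx)
  have hF : ∀ x, FK κ x = FK κ (xK o o' z X Y) ↔ x ∈ RK κ := fun x => by
    simp only [FK, Prod.mk.injEq, funext_iff, h0.1, h0.2]
    rfl
  have key := ab (H := HK κ o o' z) (Z := cl (SK L κ)) (FK κ) FK_contDiff.contDiffAt hx hH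
    (fun x hx => (hF x).2 (hsub hx)) ?_
  · refine ⟨_, h0, fun ξ hξ => ?_, key.1.mono fun w hw hw' => hw ((hF w).2 hw')⟩
    have a1 := hξ o
    have a2 := hξ o'
    rw [h.hk, xK_o h] at a1
    rw [h.hk', xK_o'] at a2
    exact schXY hQ hy hy' (eX ▸ a1.2) (eY ▸ a2.2)
  intro v hv
  have hvT := ker_FK h.hd h0 hv
  set U := Submodule.span ℂ (Vel (HK κ o o' z) (xK o o' z X Y) ∪ Vel (cl (SK L κ)) (xK o o' z X Y))
  have hU : Vel (cl (SK L κ)) (xK o o' z X Y) ⊆ U := fun w hw => Submodule.subset_span (Or.inr hw)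
  have hUT : U ≤ TK κ (xK o o' z X Y) := Submodule.span_le.2 (by
    rintro w (hw | hw)
    · exact vel_TK h.hd (hH.trans hsub) hx hw
    · exact vel_TK h.hd hsub (hH hx) hw)
  obtain ⟨w, hw, hw'⟩ := outer_span h hn hL hI hz.1 h1 h2 hQ hy hy' eX eY hX hY
    (fun p q a b c d r hr => (hd p q a b c d).2 (Sum.inl ⟨r, by omega⟩))
    (fun p q a b c d k e he => (hd p q a b c d).2 (Sum.inr (k, ⟨e, by omega⟩))) h0.1 U hU hvT.1
  have hT := sub_mem hvT (hUT hw)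
  have hout : ∀ j, j ≠ o → j ≠ o' → ((v - w) j).1 = 0 ∧ (κ j = none → ((v - w) j).2 = 0) :=
    fun j e e' => ⟨sub_eq_zero.2 (hw' j e e').1.symm, fun k => sub_eq_zero.2 ((hw' j e e').2 k).symm⟩
  obtain ⟨u, ⟨hu1, hu2⟩, hu3⟩ := inner_span h hn hL hI hQ hy hy' eX eY hX hY
    (fun p q a b c d => (hd p q a b c d).1) U hU (a := ((v - w) o).1) (b := ((v - w) o').1)
    (by simpa [xK_o h] using (hT.1 o).1) (by simpa [xK_o'] using (hT.1 o').1)
    ((dpk_xK h hX hY hout).symm.trans hT.2)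
  have : v - w - u ∈ U := Submodule.subset_span (Or.inl (vel_HK (by omega) hx
    (sub_mem hT (hUT hu1)).1 (fun j => by
      by_cases e : j = o
      · rw [e]; exact sub_eq_zero.2 (congrArg Prod.fst hu3).symm
      by_cases e' : j = o'
      · rw [e']; exact sub_eq_zero.2 (congrArg Prod.snd hu3).symm
      rw [Pi.sub_apply, hu2 j e e', sub_zero]
      exact (hout j e e').1) fun j e e' k => by
      rw [Pi.sub_apply, hu2 j e e', sub_zero]
      exact (hout j e e').2 k))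
  simpa using add_mem (add_mem this hu1) hw

theorem near_goodK (hn : 0 < n) {x : E g n} (hx : x ∈ RK κ) (hS : SchK κ x) {s : Set (E g n)}
    (hs : s ∈ 𝓝 x) : ∃ y ∈ s, y ∈ RK κ ∧ Good (y o) := by
  obtain ⟨t, hts, hto, hxt⟩ := mem_nhds_iff.1 hs
  obtain ⟨y, hyt, hy, hyS⟩ := genK hn h.hd h.ne h.hk hx hS (hto.mem_nhds hxt)
  obtain ⟨b, ⟨h1, h2, h3⟩, h4⟩ := ((good_dense hn (hy.1 o).1 (hy.1 o).2).and_eventually
    (submK hn h.hd h.ne h.hk' hy hyS (hto.mem_nhds hyt))).exists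
  obtain ⟨z, hz1, hz2, hz3⟩ := h4 h1 h2
  exact ⟨z, hts hz1, hz2, hz3 ▸ h3⟩

theorem dense_schK (hn : 3 ≤ n) {L : IntermediateField ℚ ℂ} (hL : GoodL L) (hI : KI L κ)
    (hR : ∃ ω ∈ L, IsPrimitiveRoot ω n) (hz : z ∈ SK L κ) (h1 : z o = (1, 1))
    (h2 : z o' = (1, 1)) {x : E g n} (hx : x ∈ RK κ) (hS : SchK κ x) : x ∈ cl (SK L κ) := by
  obtain ⟨x0, h0, hS0, hV⟩ := baseK h hn hL hI hz h1 h2
  obtain ⟨ω, hω1, hω2⟩ := hR
  have hn0 : 0 < n := by omega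
  obtain ⟨x1, a1, a2, a3⟩ := near_goodK h hn0 h0 hS0 hV.eventually_nhds
  rw [← (cl_closed (SK L κ)).closure_eq, mem_closure_iff_nhds]
  intro s hs
  obtain ⟨y, hy1, hy2, hy3⟩ := near_goodK h hn0 hx hS hs
  exact ⟨y, hy1, scale hn0 o hω2 (fun s hs => (hs.1.1 o).2)
    (fun s hs => sc_SK hn0 h.hk hω1 hω2 hs) (hy2.1 o).2 (parK hn0 h.hd h.ho h.hk hy2 a2 hy3 a3 a1)⟩
end

end Vale.Agent.P002
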