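import Vale.Agent.P002.PkL
import Vale.Agent.P002.Mv

open scoped Matrix.Norms.Operator Topology
open Matrix Filter

namespace Vale.Agent.P002

variable {g n : ℕ} {κ : Kd g n}

theorem mvk_it (k : Option (M n)) {C : M n} {a : M n × M n} (h : a.1.det = 1 ∧ a.2.det = 1)
    (hC : C.det = 1) : it k (cq k C a) = C * it k a * adjugate C := by
  cases k with
  | none =>
    obtain ⟨A, B⟩ := a
    obtain ⟨A, rfl⟩ := mv_lift (A := A) h.1
    obtain ⟨B, rfl⟩ := mv_lift (A := B) h.2
    obtain ⟨C, rfl⟩ := mv_lift hC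
    simp only [it, cq, cm, mvl_mul, mvl_adj]
    congr 1
    group
  | some J => simp only [it, cq, adjugate_mul_distrib, mul_assoc]

theorem mvk_congr {x y : E g n} : ∀ m ≤ g, (∀ j : Fin g, j.1 < m → y j = x j) →
    pk κ y m = pk κ x m := by
  intro m
  induction m with
  | zero => intro _ _; simp [pk]
  | succ m ih =>
    intro hm h
    have e1 := pk_succ (κ := κ) y ⟨m, hm⟩
    have e2 := pk_succ (κ := κ) x ⟨m, hm⟩
    simp only at e1 e2
    rw [e1, e2, ih (by omega) fun j hj => h j (by omega), h ⟨m, hm⟩ (Nat.lt_succ_self m)]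

theorem mvk_tail {x y : E g n} {s : ℕ} (hs : pk κ y s = pk κ x s)
    (h : ∀ j : Fin g, s ≤ j.1 → y j = x j) : ∀ m, s ≤ m → m ≤ g → pk κ y m = pk κ x m := by
  intro m hm
  induction m, hm using Nat.le_induction with
  | base => exact fun _ => hs
  | succ m hm ih =>
    intro hm'
    have e1 := pk_succ (κ := κ) y ⟨m, hm'⟩
    have e2 := pk_succ (κ := κ) x ⟨m, hm'⟩
    simp only at e1 e2
    rw [e1, e2, ih (by omega), h ⟨m, hm'⟩ hm]

theorem mvk_min (x : E g n) (r : ℕ) : pk κ x r = pk κ x (min r g) := by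
  rcases le_total r g with h | h
  · rw [min_eq_left h]
  · rw [min_eq_right h, pk, pk, List.take_of_length_le (by simpa using h),
      List.take_of_length_le (by simp)]

theorem mvk_key {o : Fin g} (ho : o.1 = 0) (hk : κ o = none) {r : ℕ} {x : E g n} {C : M n}
    (hx : ∀ j, (x j).1.det = 1 ∧ (x j).2.det = 1) (hC : C.det = 1) :
    ∀ m, 1 ≤ m → m ≤ r → m ≤ g →
      pk κ (mb κ o r x C) m = (x o).1 * C * (adjugate (x o).1 * pk κ x m) * adjugate C := by
  intro m hm
  induction m, hm using Nat.le_induction with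
  | base =>
    intro _ _
    have e1 := pk_succ (κ := κ) (mb κ o r x C) o
    have e2 := pk_succ (κ := κ) x o
    have e3 : ∀ y : E g n, pk κ y 0 = 1 := fun y => by simp [pk]
    rw [ho, zero_add, e3, hk] at e1 e2
    rw [e1, e2, mb, if_pos rfl]
    simpa only [adjugate_one, mul_one, one_mul, it] using
      mv_a2 (P := 1) det_one (hx o).1 (hx o).2 hC
  | succ m hm ih =>
    intro hr hm'
    have e1 := pk_succ (κ := κ) (mb κ o r x C) ⟨m, hm'⟩
    have e2 := pk_succ (κ := κ) x ⟨m, hm'⟩
    have h1 : (⟨m, hm'⟩ : Fin g) ≠ o := fun e => by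
      have : m = o.1 := congrArg Fin.val e
      omega
    have h2 : adjugate C * C = 1 := by rw [adjugate_mul, hC, one_smul]
    simp only at e1 e2
    rw [e1, e2, ih (by omega) (by omega), mb, if_neg h1, if_pos (show m < r by omega),
      mvk_it _ (hx _) hC]
    simp only [mul_assoc]
    rw [← mul_assoc (adjugate C) C, h2, one_mul]

theorem mvk_ep {V : Type} {A : Subring (V → ℂ)} {x : V → E g n} {C : V → M n} (o : Fin g) (r : ℕ)
    (hx : EP A x) (hC : MP A C) : EP A fun v => mb κ o r (x v) (C v) := fun j => by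
  by_cases h1 : j = o
  · simp only [mb, if_pos h1]
    exact ⟨(hx j).1, hC.mul (hx j).2⟩
  by_cases h2 : j.1 < r
  · simp only [mb, if_neg h1, if_pos h2]
    cases κ j with
    | none => exact ⟨(hC.mul (hx j).1).mul hC.adj, (hC.mul (hx j).2).mul hC.adj⟩
    | some J => exact ⟨hC.mul (hx j).1, (hx j).2⟩
  · simp only [mb, if_neg h1, if_neg h2]
    exact hx j

theorem mvk_one (o : Fin g) (r : ℕ) (x : E g n) : mb κ o r x 1 = x := funext fun j => by
  unfold mb
  split_ifs
  · rw [one_mul]
  · cases κ j <;> simp [cq]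
  · rfl

theorem mvk_det (o : Fin g) (r : ℕ) {x : E g n} {C : M n}
    (hx : ∀ j, (x j).1.det = 1 ∧ (x j).2.det = 1) (hC : C.det = 1) (j : Fin g) :
    (mb κ o r x C j).1.det = 1 ∧ (mb κ o r x C j).2.det = 1 := by
  unfold mb
  split_ifs
  · simp only [det_mul, hC, hx j, mul_one, and_self]
  · cases κ j <;> simp only [cq, det_mul, hC, mv_adet, hx j, mul_one, and_self]
  · exact hx j

theorem moveb (hd : KD κ) {o : Fin g} (ho : o.1 = 0) (hk : κ o = none) {r : ℕ} (hr : 1 ≤ r) :
    IsMoveK κ (Db κ o r) (mb κ o r) := by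
  refine ⟨fun V A x hκ hx => (hx o).1.adj.mul (hx.pk hκ r),
    fun V A x C _ hx hC => mvk_ep o r hx hC, fun x _ => mvk_one o r x,
    fun x hx C hC h => ⟨mvk_det o r hx.1 hC, ?_⟩⟩
  have hg := o.2
  have h1 : (x o).1 * adjugate (x o).1 = 1 := by rw [mul_adjugate, (hx.1 o).1, one_smul]
  have h2 : C * adjugate C = 1 := by rw [mul_adjugate, hC, one_smul]
  rw [Db, mvk_min] at h
  refine (mvk_tail (s := min r g) ?_ (fun j hj => ?_) g (min_le_right _ _) le_rfl).trans hx.2
  · rw [mvk_key ho hk hx.1 hC _ (by omega) (min_le_left _ _) (min_le_right _ _),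
      mul_assoc (x o).1, h, ← mul_assoc, ← mul_assoc, h1, one_mul, mul_assoc, h2, mul_one]
  · have := j.2
    rw [mb, if_neg (fun e => by rw [e] at hj; omega), if_neg (by omega)]

theorem moveh (hd : KD κ) {o k : Fin g} (ho : o.1 = 0) (hk : κ o = none) (hne : k ≠ o)
    (hk' : κ k = none) : IsMoveK κ (Dh κ o k) (mh κ o k) := by
  have hk1 : 1 ≤ k.1 := Nat.pos_of_ne_zero fun e => hne (Fin.ext (e.trans ho.symm))
  refine ⟨fun V A x hκ hx => ((hx o).1.adj.mul (hx.pk hκ k)).mul (hx k).1,
    fun V A x C _ hx hC j => ?_, fun x _ => by simp [mh, mvk_one],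
    fun x hx C hC h => ⟨fun j => ?_, ?_⟩⟩
  · by_cases h1 : j = k
    · subst h1
      simp only [mh, Function.update_self]
      exact ⟨(hC.mul (hx j).1).mul hC.adj, (hx j).2.mul hC.adj⟩
    · simp only [mh, Function.update_of_ne h1]
      exact mvk_ep o k hx hC j
  · by_cases h1 : j = k
    · subst h1
      simp only [mh, Function.update_self, det_mul, hC, mv_adet, hx.1 j, mul_one, and_self]
    · rw [mh, Function.update_of_ne h1]
      exact mvk_det o k hx.1 hC j
  · refine (mvk_tail (s := k.1 + 1) ?_ (fun j hj => ?_) g k.2 le_rfl).trans hx.2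
    · rw [pk_succ, pk_succ, mvk_congr (x := mb κ o k x C) k k.2.le fun j hj => by
        rw [mh, Function.update_of_ne (show j ≠ k from fun e => by rw [e] at hj; omega)],
        mvk_key ho hk hx.1 hC _ hk1 le_rfl k.2.le, hk', mh, Function.update_self]
      simpa only [adjugate_one, mul_one, one_mul, it] using
        mv_a4 (P := 1) det_one (hx.1 o).1 (pk_det hd hx.1 k) (hx.1 k).1 (hx.1 k).2 hC
          (by simpa only [adjugate_one, mul_one, Dh, Db] using h)
    · rw [mh, Function.update_of_ne (fun e => by rw [e] at hj; omega), mb,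
        if_neg (fun e => by rw [e] at hj; omega), if_neg (by omega)]

theorem move1K {i : Fin g} (hk : κ i = none) : IsMoveK κ (fun x => (x i).2) (m1 i) := by
  refine ⟨fun V A x _ hx => (hx i).2, fun V A x C _ hx hC => (move1 i).polym V A x C hx hC,
    fun x _ => by simp [m1], fun x hx C hC h => ⟨fun j => ?_, ?_⟩⟩
  · rw [m1_snd, m1_fst]
    refine ⟨?_, (hx.1 j).2⟩
    split_ifs
    · rw [det_mul, hC, (hx.1 j).1, mul_one]
    · exact (hx.1 j).1
  · have : (fun j => it (κ j) (m1 i x C j)) = fun j => it (κ j) (x j) := funext fun j => by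
      by_cases hj : j = i
      · rw [hj, m1, Function.update_self, hk]
        exact mv_a1 (hx.1 i).1 (hx.1 i).2 hC h
      · rw [m1, Function.update_of_ne hj]
    rw [pk, this]
    exact hx.2

end Vale.Agent.P002
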