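import Vale.Agent.P002.Defs

open scoped Matrix.Norms.Operator Topology
open Matrix Filter

namespace Vale.Agent.P002

variable {g n : ℕ}

section
variable {V : Type} {A : Subring (V → ℂ)} {u w : V → M n}

theorem sum_fn_mem {ι : Type} (s : Finset ι) {f : ι → V → ℂ} (h : ∀ i ∈ s, f i ∈ A) :
    (fun v => ∑ i ∈ s, f i v) ∈ A := by
  have := A.sum_mem h
  rwa [Finset.sum_fn] at this

theorem prod_fn_mem {ι : Type} (s : Finset ι) {f : ι → V → ℂ} (h : ∀ i ∈ s, f i ∈ A) :
    (fun v => ∏ i ∈ s, f i v) ∈ A := by
  have := A.prod_mem h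
  rwa [Finset.prod_fn] at this

theorem MP.one : MP A fun _ => (1 : M n) := fun i j => by
  by_cases h : i = j
  · subst h
    simp only [one_apply_eq]
    exact A.one_mem
  · simp only [one_apply_ne h]
    exact A.zero_mem

theorem MP.mul (hu : MP A u) (hw : MP A w) : MP A fun v => u v * w v := fun i j => by
  simp only [mul_apply]
  exact sum_fn_mem _ fun k _ => A.mul_mem (hu i k) (hw k j)

theorem MP.add (hu : MP A u) (hw : MP A w) : MP A fun v => u v + w v := fun i j =>
  A.add_mem (hu i j) (hw i j)

theorem MP.pow (hu : MP A u) (k : ℕ) : MP A fun v => u v ^ k := by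
  induction k with
  | zero => simpa only [pow_zero] using MP.one
  | succ k ih => simpa only [pow_succ] using ih.mul hu

theorem MP.det (hu : MP A u) : (fun v => (u v).det) ∈ A := by
  simp only [det_apply']
  exact sum_fn_mem _ fun σ _ => A.mul_mem (intCast_mem A (Equiv.Perm.sign σ : ℤ))
    (prod_fn_mem _ fun i _ => hu _ _)

theorem MP.trace (hu : MP A u) : (fun v => (u v).trace) ∈ A := by
  simp only [Matrix.trace, diag_apply]
  exact sum_fn_mem _ fun i _ => hu i i

theorem MP.adj (hu : MP A u) : MP A fun v => adjugate (u v) := fun i j => by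
  simp only [adjugate_apply]
  refine MP.det (u := fun v => (u v).updateRow j (Pi.single i 1)) fun a b => ?_
  by_cases h : a = j
  · subst h
    simp only [updateRow_self]
    by_cases h : b = i
    · subst h
      simp only [Pi.single_eq_same]
      exact A.one_mem
    · simp only [Pi.single_eq_of_ne h]
      exact A.zero_mem
  · simp only [updateRow_ne h]
    exact hu a b

theorem MP.smul {f : V → ℂ} (hf : f ∈ A) (hu : MP A u) : MP A fun v => f v • u v := fun i j =>
  A.mul_mem hf (hu i j)

theorem MP.dl (hu : MP A u) : (fun v => dl (u v)) ∈ A :=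
  MP.det (u := fun v => Matrix.of fun i j : Fin n => (u v ^ (i.1 + j.1)).trace)
    fun _ _ => (hu.pow _).trace

theorem list_mp {ι : Type} (l : List ι) {f : ι → V → M n} (h : ∀ i, MP A (f i)) :
    MP A fun v => (l.map fun i => f i v).prod := by
  induction l with
  | nil => simpa only [List.map_nil, List.prod_nil] using MP.one
  | cons a l ih => simpa only [List.map_cons, List.prod_cons] using (h a).mul ih

theorem EP.pm {x : V → E g n} (hx : EP A x) (m : ℕ) : MP A fun v => pm (x v) m := by
  have := list_mp ((List.finRange g).take m) (f := fun j v => cm (x v j)) fun j =>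
    (((hx j).1.mul (hx j).2).mul (hx j).1.adj).mul (hx j).2.adj
  simpa only [P002.pm, List.ofFn_eq_map, List.map_take] using this
end

/-- integrality is the case `V = Unit` -/
theorem mp_unit (O : Subring ℂ) (u : M n) :
    MP (O.comap (Pi.evalRingHom (fun _ : Unit => ℂ) ())) (fun _ => u) ↔ Ent O u := Iff.rfl

theorem MP.lin {V : Type} {A : Subalgebra ℂ (V → ℂ)} {u : V → M n} (hu : MP A.toSubring u)
    (l : M n →ₗ[ℂ] ℂ) : (fun v => l (u v)) ∈ A := by
  have e : (fun v => l (u v)) = fun v => ∑ i, ∑ j, u v i j * l (single i j 1) := by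
    funext v
    conv_lhs => rw [matrix_eq_sum_single (u v)]
    simp only [map_sum]
    refine Finset.sum_congr rfl fun i _ => Finset.sum_congr rfl fun j _ => ?_
    rw [← smul_eq_mul, ← map_smul, smul_single, smul_eq_mul, mul_one]
  rw [e]
  exact sum_fn_mem (A := A.toSubring) _ fun i _ => sum_fn_mem _ fun j _ =>
    A.toSubring.mul_mem (hu i j) (A.algebraMap_mem _)

theorem EP.lin {V : Type} {A : Subalgebra ℂ (V → ℂ)} {x : V → E g n} (hx : EP A.toSubring x)
    (l : E g n →ₗ[ℂ] ℂ) : (fun v => l (x v)) ∈ A := by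
  have e : (fun v => l (x v)) = fun v => ∑ j,
      ((l.comp ((LinearMap.single ℂ (fun _ => M n × M n) j).comp (LinearMap.inl ℂ _ _))) (x v j).1 +
      (l.comp ((LinearMap.single ℂ (fun _ => M n × M n) j).comp (LinearMap.inr ℂ _ _)))
        (x v j).2) := by
    funext v
    simp only [LinearMap.comp_apply, ← map_add, LinearMap.inl_apply, LinearMap.inr_apply,
      Prod.mk_add_mk, add_zero, zero_add, ← map_sum, LinearMap.single_apply, ← Pi.single_add,
      Prod.mk.eta, Finset.univ_sum_single]
  rw [e]
  exact sum_fn_mem (A := A.toSubring) _ fun j _ =>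
    A.toSubring.add_mem ((hx j).1.lin _) ((hx j).2.lin _)

theorem mp_lin {V : Type} [AddCommGroup V] [Module ℂ V] (f : V →ₗ[ℂ] M n) :
    MP (Pol V).toSubring f := fun i j =>
  Algebra.subset_adjoin ⟨(Matrix.entryLinearMap ℂ ℂ i j).comp f, rfl⟩

theorem ep_lin {V : Type} [AddCommGroup V] [Module ℂ V] (f : V →ₗ[ℂ] E g n) :
    EP (Pol V).toSubring f := fun j =>
  ⟨mp_lin ((LinearMap.fst ℂ _ _).comp ((LinearMap.proj j).comp f)),
    mp_lin ((LinearMap.snd ℂ _ _).comp ((LinearMap.proj j).comp f))⟩

end Vale.Agent.P002
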