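import Vale.Agent.P002.Def2

open scoped Matrix.Norms.Operator Topology
open Matrix Filter

namespace Vale.Agent.P002

variable {g n : ℕ}

lemma Red1_basis (U : Submodule ℂ (Fin n → ℂ)) :
    ∃ c : Module.Basis (Fin n) ℂ (Fin n → ℂ), (∀ b : Fin n, b.1 < Module.finrank ℂ U → c b ∈ U) ∧
      ∀ u ∈ U, ∀ a : Fin n, Module.finrank ℂ U ≤ a.1 → c.repr u a = 0 := by
  obtain ⟨U', h⟩ := U.exists_isCompl
  have e := Submodule.finrank_add_eq_of_isCompl h
  rw [Module.finrank_fin_fun] at e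
  obtain ⟨k, hk⟩ : ∃ k, Module.finrank ℂ U = k := ⟨_, rfl⟩
  obtain ⟨l, hl⟩ : ∃ l, Module.finrank ℂ U' = l := ⟨_, rfl⟩
  rw [hk, hl] at e
  subst e
  rw [hk]
  refine ⟨(((Module.finBasisOfFinrankEq ℂ U hk).prod (Module.finBasisOfFinrankEq ℂ U' hl)).map
    (Submodule.prodEquivOfIsCompl U U' h)).reindex finSumFinEquiv, fun b hb => ?_,
    fun u hu a ha => ?_⟩
  · induction b using Fin.addCases with
    | left i => simp
    | right i => simp at hb
  · induction a using Fin.addCases with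
    | left i => exact absurd i.2 (not_lt.mpr ha)
    | right i =>
      have : (Submodule.prodEquivOfIsCompl U U' h).symm u = (⟨u, hu⟩, 0) :=
        Submodule.prodEquivOfIsCompl_symm_apply_left U U' h ⟨u, hu⟩
      simp [this]

theorem red1 {x : E g n} (h : ¬ Sch x) : ∃ k, 0 < k ∧ k < n ∧ ∃ P Q : M n, P * Q = 1 ∧
    ∀ j (a b : Fin n), k ≤ a.1 → b.1 < k →
      (cj P Q x j).1 a b = 0 ∧ (cj P Q x j).2 a b = 0 := by
  simp only [Sch, not_forall, not_exists] at h
  obtain ⟨ξ, h1, h2⟩ := h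
  have hn : Nontrivial (Fin n → ℂ) := by
    rcases n with _ | n
    · exact absurd (Subsingleton.elim _ _) (h2 0)
    · infer_instance
  obtain ⟨lam, hl⟩ := Module.End.exists_eigenvalue (toLin' ξ)
  set U := Module.End.eigenspace (toLin' ξ) lam with hU
  have hm : ∀ v, v ∈ U ↔ ξ *ᵥ v = lam • v := fun v => Module.End.mem_eigenspace_iff
  have ht : U ≠ ⊤ := fun e => h2 lam (toLin'.injective (LinearMap.ext fun v => by
    simpa using (hm v).mp (e ▸ Submodule.mem_top)))
  obtain ⟨c, c1, c2⟩ := Red1_basis U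
  have key : ∀ A : M n, ξ * A = A * ξ → ∀ a b : Fin n, Module.finrank ℂ U ≤ a.1 →
      b.1 < Module.finrank ℂ U → (c.toMatrix (Pi.basisFun ℂ (Fin n)) * A *
        (Pi.basisFun ℂ (Fin n)).toMatrix c) a b = 0 := by
    intro A hA a b ha hb
    have e := basis_toMatrix_mul_linearMap_toMatrix_mul_basis_toMatrix c (Pi.basisFun ℂ (Fin n)) c
      (Pi.basisFun ℂ (Fin n)) (toLin' A)
    rw [LinearMap.toMatrix_eq_toMatrix', LinearMap.toMatrix'_toLin'] at e
    rw [e, LinearMap.toMatrix_apply]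
    refine c2 _ ((hm _).mpr ?_) a ha
    rw [toLin'_apply, mulVec_mulVec, hA, ← mulVec_mulVec, (hm _).mp (c1 b hb), mulVec_smul]
  refine ⟨Module.finrank ℂ U, Submodule.one_le_finrank_iff.mpr hl, ?_, _, _, ?_,
    fun j a b ha hb => ⟨key _ (h1 j).1 a b ha hb, key _ (h1 j).2 a b ha hb⟩⟩
  · simpa using Submodule.finrank_lt ht
  · simp

theorem cj_RR {P Q : M n} (h : P * Q = 1) {x : E g n} (hx : x ∈ RR g n) :
    cj P Q x ∈ RR g n := by
  have h' : Q * P = 1 := mul_eq_one_comm.mp h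
  have hd : ∀ A : M n, (P * A * Q).det = A.det := fun A => by
    rw [det_mul, mul_comm, ← det_mul, ← Matrix.mul_assoc, h', Matrix.one_mul]
  have hm : ∀ A B : M n, P * A * Q * (P * B * Q) = P * (A * B) * Q := fun A B => by
    calc _ = P * A * (Q * P) * B * Q := by simp only [Matrix.mul_assoc]
      _ = _ := by rw [h', Matrix.mul_one, Matrix.mul_assoc P]
  have ha : ∀ A : M n, A.det = 1 → adjugate (P * A * Q) = P * adjugate A * Q := fun A hA => by
    have e1 : adjugate (P * A * Q) * (P * A * Q) = 1 := by rw [adjugate_mul, hd, hA, one_smul]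
    have e2 : P * A * Q * (P * adjugate A * Q) = 1 := by
      rw [hm, mul_adjugate, hA, one_smul, Matrix.mul_one, h]
    exact left_inv_eq_right_inv e1 e2
  have hl : ∀ l : List (M n), (l.map fun A => P * A * Q).prod = P * l.prod * Q := fun l => by
    induction l with
    | nil => simp [h]
    | cons A l ih => rw [List.map_cons, List.prod_cons, ih, hm, List.prod_cons]
  refine ⟨fun j => ⟨(hd _).trans (hx.1 j).1, (hd _).trans (hx.1 j).2⟩, ?_⟩
  have e : (fun j => cm (cj P Q x j)) = (fun A => P * A * Q) ∘ fun j => cm (x j) := by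
    funext j
    simp only [cm, cj, Function.comp, ha _ (hx.1 j).1, ha _ (hx.1 j).2, hm]
  have e2 := hx.2
  rw [pm] at e2 ⊢
  rw [e, ← List.map_ofFn, ← List.map_take, hl, e2, Matrix.mul_one, h]

end Vale.Agent.P002
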