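import Vale.Agent.P002.Red1
import Vale.Agent.P002.RatL

open scoped Matrix.Norms.Operator Topology
open Matrix Filter

namespace Vale.Agent.P002

variable {g n : ℕ}

section
variable {k l : ℕ}

theorem red2_mul (a a' : M k) (c c' : Matrix (Fin k) (Fin l) ℂ) (b b' : M l) :
    blk a c b * blk a' c' b' = blk (a * a') (a * c' + c * b') (b * b') := by
  simp only [blk, reindex_apply, submatrix_mul_equiv, fromBlocks_multiply, Matrix.mul_zero,
    Matrix.zero_mul, add_zero, zero_add]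

theorem red2_one : blk (1 : M k) 0 (1 : M l) = 1 := by
  simp only [blk, fromBlocks_one, reindex_apply, submatrix_one_equiv]

theorem red2_det (a : M k) (c : Matrix (Fin k) (Fin l) ℂ) (b : M l) :
    (blk a c b).det = a.det * b.det := by
  rw [blk, det_reindex_self, det_fromBlocks_zero₂₁]

theorem red2_dt {τ : ℂ} (hτ : τ ≠ 0) {y : M k} {z : M l} (hy : y.det = 1) (hz : z.det = 1)
    (c : Matrix (Fin k) (Fin l) ℂ) : (blk (τ ^ l • y) c (τ⁻¹ ^ k • z)).det = 1 := by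
  rw [red2_det, det_smul, det_smul, hy, hz, Fintype.card_fin, Fintype.card_fin, mul_one, mul_one,
    ← pow_mul, ← pow_mul, mul_comm l, ← mul_pow, mul_inv_cancel₀ hτ, one_pow]

theorem red2_adj {τ : ℂ} (hτ : τ ≠ 0) {y : M k} {z : M l} (hy : y.det = 1) (hz : z.det = 1)
    (c : Matrix (Fin k) (Fin l) ℂ) : ∃ d, (c = 0 → d = 0) ∧
      adjugate (blk (τ ^ l • y) c (τ⁻¹ ^ k • z)) =
        blk (τ⁻¹ ^ l • adjugate y) d (τ ^ k • adjugate z) := by
  refine ⟨-((τ⁻¹ ^ l • adjugate y) * (c * (τ ^ k • adjugate z))), fun h => by simp [h], ?_⟩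
  have e1 : (τ ^ l • y) * (τ⁻¹ ^ l • adjugate y) = 1 := by
    rw [smul_mul_smul_comm, mul_adjugate, hy, one_smul, ← mul_pow, mul_inv_cancel₀ hτ, one_pow,
      one_smul]
  have e2 : (τ⁻¹ ^ k • z) * (τ ^ k • adjugate z) = 1 := by
    rw [smul_mul_smul_comm, mul_adjugate, hz, one_smul, ← mul_pow, inv_mul_cancel₀ hτ, one_pow,
      one_smul]
  have e : blk (τ ^ l • y) c (τ⁻¹ ^ k • z) * blk (τ⁻¹ ^ l • adjugate y)
      (-((τ⁻¹ ^ l • adjugate y) * (c * (τ ^ k • adjugate z)))) (τ ^ k • adjugate z) = 1 := by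
    rw [red2_mul, e1, e2, Matrix.mul_neg, ← Matrix.mul_assoc, e1, Matrix.one_mul, neg_add_cancel,
      red2_one]
  rw [← mul_one (adjugate (blk _ _ _)), ← e, ← mul_assoc, adjugate_mul, red2_dt hτ hy hz,
    one_smul, one_mul]

/-- block triangular families -/
noncomputable def red2bt (τ : Fin g → ℂ × ℂ) (y : E g k)
    (c : Fin g → Matrix (Fin k) (Fin l) ℂ × Matrix (Fin k) (Fin l) ℂ) (z : E g l) : E g (k + l) :=
  fun j => (blk ((τ j).1 ^ l • (y j).1) (c j).1 ((τ j).1⁻¹ ^ k • (z j).1),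
    blk ((τ j).2 ^ l • (y j).2) (c j).2 ((τ j).2⁻¹ ^ k • (z j).2))

theorem red2_pm {τ : Fin g → ℂ × ℂ} (hτ : ∀ j, (τ j).1 ≠ 0 ∧ (τ j).2 ≠ 0) {y : E g k} {z : E g l}
    (hy : ∀ j, (y j).1.det = 1 ∧ (y j).2.det = 1) (hz : ∀ j, (z j).1.det = 1 ∧ (z j).2.det = 1)
    (c : Fin g → Matrix (Fin k) (Fin l) ℂ × Matrix (Fin k) (Fin l) ℂ) :
    ∀ m ≤ g, ∃ d, (c = 0 → d = 0) ∧ pm (red2bt τ y c z) m = blk (pm y m) d (pm z m) := by
  have s : ∀ {p : ℕ} (x : E g p) {m : ℕ} (h : m < g), pm x (m + 1) = pm x m * cm (x ⟨m, h⟩) :=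
    fun x m h => by
      rw [pm, List.prod_take_succ _ _ (by simpa using h), List.getElem_ofFn]
      rfl
  have sm : ∀ {p : ℕ} {a b a' b' : ℂ} (A B : M p), a * a' = 1 → b * b' = 1 →
      a • A * b • B * a' • adjugate A * b' • adjugate B = cm (A, B) := by
    intro p a b a' b' A B h1 h2
    simp only [smul_mul_smul_comm, cm]
    rw [show a * b * a' * b' = (a * a') * (b * b') by ring, h1, h2, one_mul, one_smul]
  intro m
  induction m with
  | zero => exact fun _ => ⟨0, fun _ => rfl, red2_one.symm⟩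
  | succ m ih =>
    intro hm
    obtain ⟨d, d0, hd⟩ := ih (by omega)
    obtain ⟨t1, t2⟩ := hτ ⟨m, hm⟩
    obtain ⟨d1, p1, q1⟩ := red2_adj t1 (hy ⟨m, hm⟩).1 (hz ⟨m, hm⟩).1 (c ⟨m, hm⟩).1
    obtain ⟨d2, p2, q2⟩ := red2_adj t2 (hy ⟨m, hm⟩).2 (hz ⟨m, hm⟩).2 (c ⟨m, hm⟩).2
    rw [s _ hm, s y hm, s z hm, hd, cm, red2bt]
    simp only [q1, q2]
    rw [red2_mul, red2_mul, red2_mul,
      sm _ _ (by rw [← mul_pow, mul_inv_cancel₀ t1, one_pow])
        (by rw [← mul_pow, mul_inv_cancel₀ t2, one_pow]),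
      sm _ _ (by rw [← mul_pow, inv_mul_cancel₀ t1, one_pow])
        (by rw [← mul_pow, inv_mul_cancel₀ t2, one_pow]), red2_mul]
    refine ⟨_, fun h => ?_, rfl⟩
    subst h
    simp [d0 rfl, p1 rfl, p2 rfl]

theorem red2_of (hk : 0 < k) (hl : 0 < l) {X : M (k + l)} (hX : X.det = 1)
    (h : ∀ a b : Fin (k + l), k ≤ a.1 → b.1 < k → X a b = 0) :
    ∃ (τ : ℂ) (y : M k) (c : Matrix (Fin k) (Fin l) ℂ) (z : M l), τ ≠ 0 ∧ y.det = 1 ∧ z.det = 1 ∧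
      X = blk (τ ^ l • y) c (τ⁻¹ ^ k • z) := by
  obtain ⟨a, c, b, rfl⟩ : ∃ a c b, X = blk a c b := by
    let Y := X.submatrix (finSumFinEquiv (m := k) (n := l)) (finSumFinEquiv (m := k) (n := l))
    have e : Y.toBlocks₂₁ = 0 := by
      ext i j
      exact h _ _ (by simp) (by simp)
    refine ⟨Y.toBlocks₁₁, Y.toBlocks₁₂, Y.toBlocks₂₂, ?_⟩
    rw [blk, ← e, fromBlocks_toBlocks]
    simp [Y]
  rw [red2_det] at hX
  obtain ⟨τ, hτ⟩ := IsAlgClosed.exists_pow_nat_eq a.det (Nat.mul_pos hk hl)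
  have t0 : τ ≠ 0 := fun h0 => by
    rw [← hτ, h0, zero_pow (Nat.mul_pos hk hl).ne', zero_mul] at hX
    exact zero_ne_one hX
  refine ⟨τ, τ⁻¹ ^ l • a, c, τ ^ k • b, t0, ?_, ?_, ?_⟩
  · rw [det_smul, Fintype.card_fin, ← hτ, ← pow_mul, mul_comm l, ← mul_pow, inv_mul_cancel₀ t0,
      one_pow]
  · rw [det_smul, Fintype.card_fin, ← pow_mul, hτ, hX]
  · rw [smul_smul, smul_smul, ← mul_pow, ← mul_pow, mul_inv_cancel₀ t0, inv_mul_cancel₀ t0,
      one_pow, one_pow, one_smul, one_smul]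

theorem red2_cj {t : ℂ} (ht : t ≠ 0) (a : M k) (c : Matrix (Fin k) (Fin l) ℂ) (b : M l) :
    blk (t • (1 : M k)) 0 (1 : M l) * blk a c b * blk (t⁻¹ • (1 : M k)) 0 (1 : M l) =
      blk a 0 b + t • blk 0 c 0 := by
  rw [red2_mul, red2_mul]
  simp only [Matrix.mul_smul, Matrix.smul_mul, Matrix.one_mul, Matrix.mul_one, smul_smul,
    inv_mul_cancel₀ ht, one_smul, Matrix.mul_zero, Matrix.zero_mul, add_zero, zero_add, smul_zero]
  ext i j
  simp only [blk, reindex_apply, submatrix_apply, Matrix.add_apply, Matrix.smul_apply]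
  rcases finSumFinEquiv.symm i with i | i <;> rcases finSumFinEquiv.symm j with j | j <;> simp

end

theorem bs_RR {k l : ℕ} {τ : Fin g → ℂ × ℂ} (hτ : ∀ j, (τ j).1 ≠ 0 ∧ (τ j).2 ≠ 0) {y : E g k}
    (hy : y ∈ RR g k) {z : E g l} (hz : z ∈ RR g l) : bs τ y z ∈ RR g (k + l) := by
  refine ⟨fun j => ⟨red2_dt (hτ j).1 (hy.1 j).1 (hz.1 j).1 0,
    red2_dt (hτ j).2 (hy.1 j).2 (hz.1 j).2 0⟩, ?_⟩
  obtain ⟨d, d0, hd⟩ := red2_pm hτ hy.1 hz.1 0 g le_rfl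
  rw [d0 rfl, hy.2, hz.2, red2_one] at hd
  exact hd

theorem red2 {k l : ℕ} (hk : 0 < k) (hl : 0 < l) {x : E g (k + l)} (hx : x ∈ RR g (k + l))
    (h : ∀ j (a b : Fin (k + l)), k ≤ a.1 → b.1 < k → (x j).1 a b = 0 ∧ (x j).2 a b = 0) :
    ∃ τ : Fin g → ℂ × ℂ, (∀ j, (τ j).1 ≠ 0 ∧ (τ j).2 ≠ 0) ∧ ∃ y ∈ RR g k, ∃ z ∈ RR g l,
      ∀ f ∈ Pol (E g (k + l)), Inv f → f x = f (bs τ y z) := by
  choose τ1 y1 c1 z1 a1 a2 a3 a4 using fun j =>
    red2_of hk hl (hx.1 j).1 fun a b h1 h2 => (h j a b h1 h2).1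
  choose τ2 y2 c2 z2 b1 b2 b3 b4 using fun j =>
    red2_of hk hl (hx.1 j).2 fun a b h1 h2 => (h j a b h1 h2).2
  have e : x = red2bt (fun j => (τ1 j, τ2 j)) (fun j => (y1 j, y2 j)) (fun j => (c1 j, c2 j))
      fun j => (z1 j, z2 j) := funext fun j => Prod.ext (a4 j) (b4 j)
  obtain ⟨d, -, hd⟩ := red2_pm (τ := fun j => (τ1 j, τ2 j)) (y := fun j => (y1 j, y2 j))
    (z := fun j => (z1 j, z2 j)) (fun j => ⟨a1 j, b1 j⟩) (fun j => ⟨a2 j, b2 j⟩)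
    (fun j => ⟨a3 j, b3 j⟩) (fun j => (c1 j, c2 j)) g le_rfl
  rw [← e, hx.2, ← red2_one] at hd
  have hd' := fromBlocks_inj.1 ((reindex finSumFinEquiv finSumFinEquiv).injective hd)
  refine ⟨fun j => (τ1 j, τ2 j), fun j => ⟨a1 j, b1 j⟩, fun j => (y1 j, y2 j),
    ⟨fun j => ⟨a2 j, b2 j⟩, hd'.1.symm⟩, fun j => (z1 j, z2 j),
    ⟨fun j => ⟨a3 j, b3 j⟩, hd'.2.2.2.symm⟩, fun f hf hi => ?_⟩
  set x0 := bs (fun j => (τ1 j, τ2 j)) (fun j => (y1 j, y2 j)) fun j => (z1 j, z2 j) with hx0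
  let w : E g (k + l) := fun j => (blk 0 (c1 j) 0, blk 0 (c2 j) 0)
  have c : Continuous fun t : ℂ => f (x0 + t • w) :=
    (pol_contDiff hf).continuous.comp (continuous_const.add (continuous_id.smul continuous_const))
  have := Continuous.ext_on (dense_compl_singleton (0 : ℂ)) c (continuous_const (y := f x))
    fun t ht => by
      have ht' : t ≠ 0 := ht
      rw [← hi (blk (t • (1 : M k)) 0 (1 : M l)) (blk (t⁻¹ • (1 : M k)) 0 (1 : M l)) (by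
        rw [red2_mul, smul_mul_smul_comm, mul_inv_cancel₀ ht']
        simp [red2_one]) x hx]
      refine congrArg f (funext fun j => Prod.ext ?_ ?_)
      · rw [cj, a4 j]
        exact (red2_cj ht' _ _ _).symm
      · rw [cj, b4 j]
        exact (red2_cj ht' _ _ _).symm
  simpa using (congrFun this 0).symm

end Vale.Agent.P002
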