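import Vale.Agent.P002.Def4

open scoped Matrix.Norms.Operator Topology
open Matrix Filter

namespace Vale.Agent.P002

variable {g n : ℕ}

theorem Reg_lin {V : Type} [AddCommGroup V] [Module ℂ V] (f : V →ₗ[ℂ] V) {W W' : Submodule ℂ V}
    (hW : IsCompl (LinearMap.ker f) W) (hW' : IsCompl (LinearMap.range f) W') :
    ∃ η : V →ₗ[ℂ] V, (∀ v, η v ∈ W ∧ f (η v) - v ∈ W') ∧
      ∀ v w, w ∈ W → f w - v ∈ W' → η v = w := by
  have uniq : ∀ v w w', w ∈ W → f w - v ∈ W' → w' ∈ W → f w' - v ∈ W' → w = w' := by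
    intro v w w' h1 h2 h3 h4
    have h5 : f (w - w') ∈ W' := by
      have := W'.sub_mem h2 h4
      rwa [sub_sub_sub_cancel_right, ← map_sub] at this
    have h6 : f (w - w') = 0 :=
      (Submodule.disjoint_def.1 hW'.disjoint) _ (LinearMap.mem_range_self f _) h5
    exact sub_eq_zero.1 ((Submodule.disjoint_def.1 hW.disjoint) _ h6 (W.sub_mem h1 h3))
  have ex : ∀ v, ∃ w, w ∈ W ∧ f w - v ∈ W' := by
    intro v
    obtain ⟨r, ⟨u, rfl⟩, s, hs, hv⟩ := Submodule.mem_sup.1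
      (hW'.sup_eq_top ▸ Submodule.mem_top : v ∈ LinearMap.range f ⊔ W')
    obtain ⟨k, hk, w, hw, rfl⟩ := Submodule.mem_sup.1
      (hW.sup_eq_top ▸ Submodule.mem_top : u ∈ LinearMap.ker f ⊔ W)
    refine ⟨w, hw, ?_⟩
    rw [← hv, map_add, LinearMap.mem_ker.1 hk, zero_add, sub_add_cancel_left]
    exact W'.neg_mem hs
  choose e he using ex
  refine ⟨⟨⟨e, fun x y => ?_⟩, fun c x => ?_⟩, he, fun v w h1 h2 =>
    uniq v _ _ (he v).1 (he v).2 h1 h2⟩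
  · refine uniq (x + y) _ _ (he _).1 (he _).2 (W.add_mem (he x).1 (he y).1) ?_
    have := W'.add_mem (he x).2 (he y).2
    rwa [← add_sub_add_comm, ← map_add] at this
  · refine uniq (c • x) _ _ (he _).1 (he _).2 (W.smul_mem c (he x).1) ?_
    have := W'.smul_mem c (he x).2
    rwa [smul_sub, ← map_smul] at this

theorem ss_reg (S : Set (M n))
    (h : ∀ U : Submodule ℂ (Fin n → ℂ), (∀ a ∈ S, ∀ v ∈ U, a *ᵥ v ∈ U) →
      ∃ W, IsCompl U W ∧ ∀ a ∈ S, ∀ v ∈ W, a *ᵥ v ∈ W)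
    (ξ : M n) (hξ : ∀ a ∈ S, ξ * a = a * ξ) :
    ∃ η : M n, (∀ a ∈ S, η * a = a * η) ∧ ξ * η * ξ = ξ := by
  have hc : ∀ a ∈ S, ∀ v, ξ *ᵥ (a *ᵥ v) = a *ᵥ (ξ *ᵥ v) := fun a ha v => by
    rw [Matrix.mulVec_mulVec, Matrix.mulVec_mulVec, hξ a ha]
  obtain ⟨W, hW, iW⟩ := h (LinearMap.ker (Matrix.toLin' ξ)) fun a ha v hv => by
    rw [LinearMap.mem_ker, Matrix.toLin'_apply] at hv ⊢
    rw [hc a ha, hv, Matrix.mulVec_zero]
  obtain ⟨W', hW', iW'⟩ := h (LinearMap.range (Matrix.toLin' ξ)) fun a ha v hv => by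
    obtain ⟨u, rfl⟩ := hv
    exact ⟨a *ᵥ u, by rw [Matrix.toLin'_apply, Matrix.toLin'_apply, hc a ha]⟩
  obtain ⟨η, h1, h2⟩ := Reg_lin _ hW hW'
  have hm : ∀ v, LinearMap.toMatrix' η *ᵥ v = η v := fun v => by
    rw [← Matrix.toLin'_apply, Matrix.toLin'_toMatrix']
  have ext : ∀ A B : M n, (∀ v, A *ᵥ v = B *ᵥ v) → A = B := fun A B hAB =>
    Matrix.toLin'.injective (LinearMap.ext fun v => by
      rw [Matrix.toLin'_apply, Matrix.toLin'_apply, hAB])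
  refine ⟨LinearMap.toMatrix' η, fun a ha => ext _ _ fun v => ?_, ext _ _ fun v => ?_⟩
  · rw [← Matrix.mulVec_mulVec, ← Matrix.mulVec_mulVec, hm, hm]
    refine h2 _ _ (iW a ha _ (h1 v).1) ?_
    have := iW' a ha _ (h1 v).2
    rwa [Matrix.mulVec_sub, Matrix.toLin'_apply, ← hc a ha, ← Matrix.toLin'_apply] at this
  · rw [← Matrix.mulVec_mulVec, ← Matrix.mulVec_mulVec, hm]
    have h3 := (h1 (ξ *ᵥ v)).2
    rw [← Matrix.toLin'_apply ξ v, ← map_sub] at h3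
    have h4 := (Submodule.disjoint_def.1 hW'.disjoint) _ (LinearMap.mem_range_self _ _) h3
    rw [map_sub, sub_eq_zero, Matrix.toLin'_apply, Matrix.toLin'_apply] at h4
    exact h4

end Vale.Agent.P002
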