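import Vale.Agent.P002.Def4

open scoped Matrix.Norms.Operator Topology
open Matrix Filter

namespace Vale.Agent.P002

variable {g n : ℕ}

/-- admissible data -/
def SchE_R {m : ℕ} (e : Fin (m + 1) → M n) (ξ a : M n) (u : Fin m → M n) : Prop :=
  (∀ k, e k * a = a * e k) ∧ (∀ i, e 0 * u i * e i.succ = u i) ∧
    ξ * (a + ∑ i, u i) = (a + ∑ i, u i) * ξ

theorem SchE_key {m : ℕ} {e : Fin (m + 1) → M n} {ξ a : M n} {u : Fin m → M n}
    (h : SchE_R e ξ a u) (k l : Fin (m + 1)) :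
    e k * ξ * e l * a - a * (e k * ξ * e l) =
      e k * (∑ i, u i) * ξ * e l - e k * ξ * ((∑ i, u i) * e l) := by
  obtain ⟨h1, -, h3⟩ := h
  generalize ∑ i, u i = U at h3 ⊢
  have e1 : e k * ξ * e l * a = e k * (ξ * a) * e l := by
    rw [mul_assoc _ (e l), h1 l]
    simp only [mul_assoc]
  have e2 : a * (e k * ξ * e l) = e k * (a * ξ) * e l := by
    rw [← mul_assoc, ← mul_assoc, ← h1 k]
    simp only [mul_assoc]
  have e3 : ξ * a = a * ξ + U * ξ - ξ * U := by
    rw [← add_mul, ← h3, mul_add, add_sub_cancel_right]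
  rw [e1, e2, e3]
  noncomm_ring

theorem SchE_U {m : ℕ} {e : Fin (m + 1) → M n} (he : Sys e) {u : Fin m → M n}
    (h : ∀ i, e 0 * u i * e i.succ = u i) :
    (∀ i, e 0 * u i = u i) ∧ (∀ i, u i * e i.succ = u i) ∧ e 0 * ∑ i, u i = ∑ i, u i ∧
    (∀ k : Fin m, e k.succ * ∑ i, u i = 0) ∧ (∑ i, u i) * e 0 = 0 ∧
    ∀ k : Fin m, (∑ i, u i) * e k.succ = u k := by
  have a1 : ∀ i, e 0 * u i = u i := fun i => by
    rw [← h i, ← mul_assoc, ← mul_assoc, he.idem]
  have a2 : ∀ i, u i * e i.succ = u i := fun i => by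
    rw [← h i, mul_assoc, he.idem]
  have a3 : e 0 * ∑ i, u i = ∑ i, u i := by
    rw [Finset.mul_sum]
    exact Finset.sum_congr rfl fun i _ => a1 i
  refine ⟨a1, a2, a3, fun k => ?_, ?_, fun k => ?_⟩
  · rw [← a3, ← mul_assoc, he.orth _ _ (Fin.succ_ne_zero k), zero_mul]
  · rw [Finset.sum_mul]
    refine Finset.sum_eq_zero fun i _ => ?_
    rw [← a2 i, mul_assoc, he.orth _ _ (Fin.succ_ne_zero i), mul_zero]
  · rw [Finset.sum_mul, Finset.sum_eq_single k (fun i _ hi => ?_) (by simp), a2]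
    rw [← a2 i, mul_assoc, he.orth _ _ (fun e => hi (Fin.succ_injective _ e)), mul_zero]

theorem schE {κ : Kd g n} {x : E g n} {m : ℕ} {e : Fin (m + 1) → M n} (he : Sys e)
    (hz : ∀ i, Zc κ x (e i)) (hc : ∀ i ξ, Zc κ x ξ → ∃ c : ℂ, e i * ξ * e i = c • e i)
    (hh : ∀ i j ξ, i ≠ j → Zc κ x ξ → e i * ξ * e j = 0) (v : Fin m → E g n)
    (hv : ∀ i, Cor κ (e 0) (e i.succ) (v i)) (hb : ∀ i, ¬ Cob κ x (v i)) :
    SchK κ (x + ∑ i, v i) := by
  intro ξ hξ
  have R : ∀ j, κ j = none → SchE_R e ξ (x j).1 (fun i => (v i j).1) ∧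
      SchE_R e ξ (x j).2 (fun i => (v i j).2) := by
    intro j hj
    have h1 := hξ j
    have h2 : ∀ k, Cm none (x j) (e k) := fun k => hj ▸ hz k j
    rw [hj] at h1
    simp only [Cm, Pi.add_apply, Finset.sum_apply, Prod.fst_add, Prod.snd_add, Prod.fst_sum,
      Prod.snd_sum] at h1
    exact ⟨⟨fun k => (h2 k).1, fun i => (hv i j).1, h1.1⟩,
      fun k => (h2 k).2, fun i => (hv i j).2.1, h1.2⟩
  have P : ∀ η, (∀ a u, SchE_R e ξ a u → η * a = a * η) → Zc κ x η := by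
    intro η h j
    cases hj : κ j with
    | none => exact ⟨h _ _ (R j hj).1, h _ _ (R j hj).2⟩
    | some J =>
      have h1 := hξ j
      have h0 : (x + ∑ i, v i) j = x j := by
        rw [Pi.add_apply, Finset.sum_apply,
          Finset.sum_eq_zero fun i _ => (hv i j).2.2 (by rw [hj]; simp), add_zero]
      have h2 : ∀ k, Cm (some J) (x j) (e k) := fun k => hj ▸ hz k j
      rw [h0, hj] at h1
      exact h (it (some J) (x j)) (fun _ => 0) ⟨h2, fun i => by simp, by simpa [Cm] using h1⟩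
  have sq : ∀ k l, e k * (e k * ξ * e l) * e l = e k * ξ * e l := fun k l => by
    rw [← mul_assoc, ← mul_assoc, he.idem, mul_assoc _ (e l), he.idem]
  have s1 : ∀ k : Fin m, e k.succ * ξ * e 0 = 0 := fun k => by
    rw [← sq]
    refine hh _ _ _ (Fin.succ_ne_zero k) (P _ fun a u h => sub_eq_zero.1 ?_)
    obtain ⟨-, -, -, b4, b5, -⟩ := SchE_U he h.2.1
    rw [SchE_key h, b4, b5]
    simp
  have s2 : ∀ k l : Fin m, Zc κ x (e k.succ * ξ * e l.succ) := fun k l =>
    P _ fun a u h => sub_eq_zero.1 (by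
      obtain ⟨b1, -, -, b4, -, b6⟩ := SchE_U he h.2.1
      rw [SchE_key h, b4, b6, ← b1 l, ← mul_assoc, s1]
      simp)
  have s3 : Zc κ x (e 0 * ξ * e 0) := P _ fun a u h => sub_eq_zero.1 (by
    obtain ⟨-, b2, b3, -, b5, -⟩ := SchE_U he h.2.1
    rw [SchE_key h, b3, b5, mul_zero, sub_zero, Finset.sum_mul, Finset.sum_mul]
    refine Finset.sum_eq_zero fun i _ => ?_
    rw [← b2 i, mul_assoc (u i), mul_assoc (u i), s1, mul_zero])
  have s4 : ∀ k l : Fin m, k ≠ l → e k.succ * ξ * e l.succ = 0 := fun k l hkl => by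
    rw [← sq]
    exact hh _ _ _ (fun e => hkl (Fin.succ_injective _ e)) (s2 k l)
  obtain ⟨c, hc0⟩ := hc 0 _ s3
  rw [sq] at hc0
  have s5 : ∀ k : Fin m, e k.succ * ξ * e k.succ = c • e k.succ ∧ e 0 * ξ * e k.succ = 0 := by
    intro k
    obtain ⟨d, hd⟩ := hc k.succ _ (s2 k k)
    rw [sq] at hd
    have key : ∀ a u, SchE_R e ξ a u →
        e 0 * ξ * e k.succ * a - a * (e 0 * ξ * e k.succ) = (d - c) • u k := by
      intro a u h
      obtain ⟨b1, b2, b3, -, -, b6⟩ := SchE_U he h.2.1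
      have t1 : e 0 * ξ * u k = c • u k := by
        rw [← b1 k, ← mul_assoc, hc0, Matrix.smul_mul]
      have t2 : (∑ i, u i) * ξ * e k.succ = d • u k := by
        rw [Finset.sum_mul, Finset.sum_mul, Finset.sum_eq_single k (fun i _ hi => ?_) (by simp)]
        · rw [← b2 k, mul_assoc (u k), mul_assoc (u k), hd, Matrix.mul_smul]
        · rw [← b2 i, mul_assoc (u i), mul_assoc (u i), s4 i k hi, mul_zero]
      rw [SchE_key h, b3, b6, t1, t2, sub_smul]
    have dc : d = c := by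
      by_contra hne
      have n0 : c - d ≠ 0 := sub_ne_zero.2 (Ne.symm hne)
      have f : ∀ a u, SchE_R e ξ a u → u k = a * ((c - d)⁻¹ • (e 0 * ξ * e k.succ)) -
          (c - d)⁻¹ • (e 0 * ξ * e k.succ) * a := by
        intro a u h
        rw [Matrix.mul_smul, Matrix.smul_mul, ← smul_sub,
          ← neg_sub (e 0 * ξ * e k.succ * a), key a u h, ← neg_smul, neg_sub,
          smul_smul, inv_mul_cancel₀ n0, one_smul]
      exact hb k ⟨_, fun j hj => Prod.ext (f _ _ (R j hj).1) (f _ _ (R j hj).2)⟩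
    refine ⟨dc ▸ hd, ?_⟩
    rw [← sq]
    refine hh _ _ _ (Fin.succ_ne_zero k).symm (P _ fun a u h => sub_eq_zero.1 ?_)
    rw [key a u h, dc, sub_self, zero_smul]
  have all : ∀ k l, e k * ξ * e l = if k = l then c • e k else 0 := by
    intro k l
    refine Fin.cases ?_ (fun k => ?_) k <;> refine Fin.cases ?_ (fun l => ?_) l
    · rw [if_pos rfl, hc0]
    · rw [if_neg (Fin.succ_ne_zero l).symm, (s5 l).2]
    · rw [if_neg (Fin.succ_ne_zero k), s1]
    · by_cases hkl : k = l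
      · rw [hkl, if_pos rfl, (s5 l).1]
      · rw [if_neg fun e => hkl (Fin.succ_injective _ e), s4 k l hkl]
  refine ⟨c, ?_⟩
  calc ξ = (∑ k, e k) * ξ * ∑ l, e l := by rw [he.sum, one_mul, mul_one]
    _ = ∑ k, c • e k := by
      rw [Finset.sum_mul, Finset.sum_mul]
      refine Finset.sum_congr rfl fun k _ => ?_
      rw [Finset.mul_sum, Finset.sum_congr rfl fun l _ => all k l]
      simp
    _ = c • 1 := by rw [← Finset.smul_sum, he.sum]

end Vale.Agent.P002
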