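import Vale.Agent.P002.StmtK

/-! Semisimple representations. -/

namespace Vale.Agent.P002

/-- every invariant subspace has an invariant complement -/
def Ssimp {g s n : ℕ} (ρ : RepK g s n) : Prop :=
  ∀ U : Submodule ℂ (Fin n → ℂ), (∀ γ, ∀ v ∈ U, (ρ γ).1.mulVec v ∈ U) →
    ∃ W : Submodule ℂ (Fin n → ℂ), IsCompl U W ∧ ∀ γ, ∀ v ∈ W, (ρ γ).1.mulVec v ∈ W

end Vale.Agent.P002
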