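import Vale.Agent.P002.Def4

open scoped Matrix.Norms.Operator Topology
open Matrix Filter

namespace Vale.Agent.P002

variable {g n : ℕ}

theorem TwK_mul {k : Option (M n)} {a : M n × M n} {ξ η : M n} (h : Cm k a ξ) (h' : Cm k a η) :
    Cm k a (ξ * η) := by
  cases k with
  | none => exact ⟨Commute.mul_left h.1 h'.1, Commute.mul_left h.2 h'.2⟩
  | some J => exact Commute.mul_left h h'

theorem TwK_adj {T A : M n} (h : Commute T A) (hA : A.det = 1) : Commute T (adjugate A) := by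
  have h1 : A * adjugate A = 1 := by rw [mul_adjugate, hA, one_smul]
  have h2 : adjugate A * A = 1 := by rw [adjugate_mul, hA, one_smul]
  show T * adjugate A = adjugate A * T
  calc T * adjugate A = adjugate A * A * T * adjugate A := by rw [h2, one_mul]
    _ = adjugate A * T * (A * adjugate A) := by
      rw [mul_assoc (adjugate A) A T, ← h.eq]
      simp only [mul_assoc]
    _ = adjugate A * T := by rw [h1, mul_one]

theorem TwK_cm {T A B : M n} (h1 : Commute T A) (h2 : Commute T B) (hA : A.det = 1)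
    (hB : B.det = 1) (hT : T.det = 1) : cm (A, T * B) = cm (A, B) := by
  have h3 : Commute T (cm (A, B)) :=
    ((h1.mul_right h2).mul_right (TwK_adj h1 hA)).mul_right (TwK_adj h2 hB)
  have h4 : T * adjugate T = 1 := by rw [mul_adjugate, hT, one_smul]
  calc cm (A, T * B) = T * cm (A, B) * adjugate T := by
        simp only [cm, adjugate_mul_distrib, ← mul_assoc, h1.eq]
    _ = cm (A, B) := by rw [h3.eq, mul_assoc, h4, mul_one]

theorem twK (hn : 0 < n) {κ : Kd g n} {o : Fin g} (ho : κ o = none) {x : E g n}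
    (hx : x ∈ RK κ) {m : ℕ} {e : Fin (m + 1) → M n} (he : Sys e) (hz : ∀ i, Zc κ x (e i))
    (hc : ∀ i ξ, Zc κ x ξ → ∃ c : ℂ, e i * ξ * e i = c • e i) {s : Set (E g n)} (hs : s ∈ 𝓝 x) :
    ∃ y ∈ s, y ∈ RK κ ∧ (∀ i, Zc κ y (e i)) ∧
      (∀ i ξ, Zc κ y ξ → ∃ c : ℂ, e i * ξ * e i = c • e i) ∧
      ∀ i j ξ, i ≠ j → Zc κ y ξ → e i * ξ * e j = 0 := by
  obtain ⟨A, hA⟩ : ∃ A, A = (x o).1 := ⟨_, rfl⟩
  obtain ⟨B, hB⟩ : ∃ B, B = (x o).2 := ⟨_, rfl⟩
  have hxo : x o = (A, B) := by rw [hA, hB]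
  have dA : A.det = 1 := hA ▸ (hx.1 o).1
  have dB : B.det = 1 := hB ▸ (hx.1 o).2
  have eAB : ∀ i, Commute (e i) A ∧ Commute (e i) B := fun i => by
    have := hz i o
    rw [ho, hxo] at this
    exact this
  let T0 : ℂ → M n := fun t => ∑ i : Fin (m + 1), (1 + (i.1 : ℂ) * t) • e i
  let c : ℂ → ℂ := fun t => ((T0 t).det)⁻¹ ^ ((n : ℂ)⁻¹)
  let y : ℂ → E g n := fun t => Function.update x o (A, (c t • T0 t) * B)
  have T00 : T0 0 = 1 := by simp [T0, he.sum]
  have cT : Continuous T0 := by fun_prop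
  have cD : Continuous fun t => (T0 t).det := cT.matrix_det
  have D0 : (T0 0).det = 1 := by rw [T00, det_one]
  have cc : ContinuousAt c 0 :=
    ContinuousAt.cpow (cD.continuousAt.inv₀ (by rw [D0]; exact one_ne_zero)) continuousAt_const
      (by rw [D0, inv_one]; exact Complex.one_mem_slitPlane)
  have c0 : c 0 = 1 := by simp [c, D0]
  have cy : ContinuousAt y 0 :=
    continuousAt_const.update o
      (continuousAt_const.prodMk ((cc.smul cT.continuousAt).mul continuousAt_const))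
  have y0 : y 0 = x := by
    show Function.update x o (A, (c 0 • T0 0) * B) = x
    rw [c0, T00, one_smul, one_mul, ← hxo, Function.update_eq_self]
  have u1 : ∀ᶠ t in 𝓝 (0 : ℂ), y t ∈ s := cy.eventually (y0.symm ▸ hs)
  have u2 : ∀ᶠ t in 𝓝 (0 : ℂ), (T0 t).det ≠ 0 :=
    cD.continuousAt.eventually_ne (by rw [D0]; exact one_ne_zero)
  have u3 : ∀ᶠ t in 𝓝 (0 : ℂ), ∀ i : Fin (m + 1), 1 + (i.1 : ℂ) * t ≠ 0 :=
    eventually_all.2 fun i => ContinuousAt.eventually_ne (by fun_prop) (by simp)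
  let L : Module.End ℂ (M n) := (LinearMap.mulRight ℂ (adjugate B)).comp (LinearMap.mulLeft ℂ B)
  have fin : (⋃ i : Fin (m + 1), ⋃ j : Fin (m + 1),
      (fun μ : ℂ => (μ - 1) / ((j.1 : ℂ) - μ * i.1)) '' {μ | L.HasEigenvalue μ}).Finite :=
    Set.finite_iUnion fun i => Set.finite_iUnion fun j =>
      (Module.End.finite_hasEigenvalue L).image _
  obtain ⟨t, ⟨t1, t2, t3⟩, t4⟩ :=
    (infinite_of_mem_nhds (0 : ℂ) (u1.and (u2.and u3))).exists_notMem_finite fin
  have cn : c t ^ n = ((T0 t).det)⁻¹ := Complex.cpow_nat_inv_pow _ hn.ne'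
  have c1 : c t ≠ 0 := fun h => t2 (by
    rw [h, zero_pow hn.ne'] at cn
    exact inv_eq_zero.1 cn.symm)
  obtain ⟨T, hT⟩ : ∃ T, T = c t • T0 t := ⟨_, rfl⟩
  have dT : T.det = 1 := by rw [hT, det_smul, Fintype.card_fin, cn, inv_mul_cancel₀ t2]
  have eT : ∀ i, e i * T = (c t * (1 + (i.1 : ℂ) * t)) • e i := fun i => by
    rw [hT, Matrix.mul_smul, Finset.mul_sum, Finset.sum_eq_single i (fun j _ hj => by
      rw [Matrix.mul_smul, he.orth i j hj.symm, smul_zero]) (by simp), Matrix.mul_smul, he.idem,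
      smul_smul]
  have Te : ∀ i, T * e i = (c t * (1 + (i.1 : ℂ) * t)) • e i := fun i => by
    rw [hT, Matrix.smul_mul, Finset.sum_mul, Finset.sum_eq_single i (fun j _ hj => by
      rw [Matrix.smul_mul, he.orth j i hj, smul_zero]) (by simp), Matrix.smul_mul, he.idem,
      smul_smul]
  have TC : ∀ X : M n, (∀ i, Commute (e i) X) → Commute T X := fun X h => by
    rw [hT]
    exact (Commute.sum_left _ _ _ fun i _ => (h i).smul_left _).smul_left _
  have yo : y t o = (A, T * B) := by rw [hT]; exact Function.update_self _ _ _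
  have yj : ∀ j, j ≠ o → y t j = x j := fun j hj => Function.update_of_ne hj _ _
  have key : ∀ i j ξ, Zc κ (y t) ξ → (1 + (i.1 : ℂ) * t) • (B * (e i * ξ * e j)) =
      (1 + (j.1 : ℂ) * t) • (e i * ξ * e j * B) := fun i j ξ hξ => by
    have h1 := hξ o
    rw [ho, yo] at h1
    have h2 : ξ * (T * B) = T * B * ξ := h1.2
    have h3 : e i * (ξ * (T * B)) * e j = e i * ξ * (T * e j) * B := by
      simp only [mul_assoc, (eAB j).2.eq]
    have h4 : e i * (T * B * ξ) * e j = e i * T * B * ξ * e j := by simp only [mul_assoc]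
    rw [h2, h4, eT, Te, Matrix.smul_mul, (eAB i).2.eq, Matrix.smul_mul, Matrix.smul_mul,
      Matrix.mul_smul, Matrix.smul_mul, mul_smul, mul_smul] at h3
    have h5 := smul_right_injective _ c1 h3
    simpa only [mul_assoc] using h5
  have zy : ∀ i, Zc κ (y t) (e i) := fun i j => by
    by_cases hj : j = o
    · rw [hj, ho, yo]
      exact ⟨(eAB i).1, Commute.mul_right ((eT i).trans (Te i).symm) (eAB i).2⟩
    · rw [yj j hj]
      exact hz i j
  refine ⟨y t, t1, ⟨fun j => ?_, ?_⟩, zy, fun i ξ hξ => ?_, fun i j ξ hij hξ => ?_⟩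
  · by_cases hj : j = o
    · rw [hj, yo]
      exact ⟨dA, by rw [det_mul, dT, dB, one_mul]⟩
    · rw [yj j hj]
      exact hx.1 j
  · rw [← hx.2]
    unfold pk
    refine congrArg (fun f : Fin g → M n => ((List.ofFn f).take g).prod) (funext fun j => ?_)
    by_cases hj : j = o
    · rw [hj, ho, yo, hxo]
      exact TwK_cm (TC A fun i => (eAB i).1) (TC B fun i => (eAB i).2) dA dB dT
    · rw [yj j hj]
  · obtain ⟨a, ha⟩ := hc i (e i * ξ * e i) fun j => by
      have h1 := TwK_mul (TwK_mul (zy i j) (hξ j)) (zy i j)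
      by_cases hj : j = o
      · rw [hj, ho, yo] at h1
        rw [hj, ho, hxo]
        exact ⟨h1.1, (smul_right_injective _ (t3 i) (key i i ξ hξ)).symm⟩
      · rwa [yj j hj] at h1
    refine ⟨a, ?_⟩
    rw [← ha]
    simp only [← mul_assoc, he.idem]
    rw [mul_assoc _ (e i) (e i), he.idem]
  · by_contra hb
    have h1 := key i j ξ hξ
    have h2 : B * adjugate B = 1 := by rw [mul_adjugate, dB, one_smul]
    have h3 : L (e i * ξ * e j) =
        ((1 + (j.1 : ℂ) * t) / (1 + (i.1 : ℂ) * t)) • (e i * ξ * e j) := by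
      refine smul_right_injective _ (t3 i) ?_
      show (1 + (i.1 : ℂ) * t) • (B * (e i * ξ * e j) * adjugate B) = (1 + (i.1 : ℂ) * t) • _
      rw [smul_smul, mul_div_cancel₀ _ (t3 i), ← Matrix.smul_mul, h1, Matrix.smul_mul,
        mul_assoc _ B, h2, mul_one]
    refine t4 (Set.mem_iUnion.2 ⟨i, Set.mem_iUnion.2 ⟨j, _,
      Module.End.hasEigenvalue_of_hasEigenvector ⟨Module.End.mem_eigenspace_iff.2 h3, hb⟩, ?_⟩⟩)
    have h4 : (j.1 : ℂ) - i.1 ≠ 0 := sub_ne_zero.2 fun h => hij (Fin.ext (Nat.cast_injective h).symm)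
    have h5 : (1 + (j.1 : ℂ) * t) / (1 + (i.1 : ℂ) * t) * (1 + (i.1 : ℂ) * t) = 1 + (j.1 : ℂ) * t :=
      div_mul_cancel₀ _ (t3 i)
    show ((1 + (j.1 : ℂ) * t) / (1 + (i.1 : ℂ) * t) - 1) /
      ((j.1 : ℂ) - (1 + (j.1 : ℂ) * t) / (1 + (i.1 : ℂ) * t) * i.1) = t
    generalize (1 + (j.1 : ℂ) * t) / (1 + (i.1 : ℂ) * t) = μ at h5 ⊢
    have h6 : (j.1 : ℂ) - μ * i.1 ≠ 0 := fun h => h4 (by
      have h7 : μ = 1 := by linear_combination h5 + t * h
      rwa [h7, one_mul] at h)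
    rw [div_eq_iff h6]
    linear_combination h5

end Vale.Agent.P002
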