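import Vale.Agent.P002.TransK
import Vale.Agent.P002.StmtS
import Vale.Agent.P002.Reg
import Vale.Agent.P002.Idem
import Vale.Agent.P002.TwK
import Vale.Agent.P002.ExtK
import Vale.Agent.P002.CocK
import Vale.Agent.P002.SchE
import Vale.Agent.P002.IrrX

open scoped Matrix.Norms.Operator Topology
open Matrix Filter

namespace Vale.Agent.P002

section
variable {g n : ℕ} {κ : Kd g n}

def Zs (κ : Kd g n) (x : E g n) : Subalgebra ℂ (M n) where
  carrier := {ξ | Zc κ x ξ}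
  mul_mem' := fun {a b} ha hb j => by
    have h1 := ha j
    have h2 := hb j
    rcases e : κ j with _ | c <;> rw [e] at h1 h2
    · exact ⟨Commute.mul_left h1.1 h2.1, Commute.mul_left h1.2 h2.2⟩
    · exact Commute.mul_left h1 h2
  add_mem' := fun {a b} ha hb j => by
    have h1 := ha j
    have h2 := hb j
    rcases e : κ j with _ | c <;> rw [e] at h1 h2
    · exact ⟨Commute.add_left h1.1 h2.1, Commute.add_left h1.2 h2.2⟩
    · exact Commute.add_left h1 h2
  algebraMap_mem' := fun r j => by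
    rcases e : κ j with _ | c
    · exact ⟨Algebra.commutes r _, Algebra.commutes r _⟩
    · exact Algebra.commutes r _

theorem sc_RK (hn : 0 < n) {o : Fin g} (hk : κ o = none) {ω : ℂ} (hω : IsPrimitiveRoot ω n)
    {s : E g n} (hs : s ∈ RK κ) : sc o ω s ∈ RK κ := by
  have e : (fun j => it (κ j) (sc o ω s j)) = fun j => it (κ j) (s j) := by
    funext j
    by_cases h : j = o
    · subst h
      have : ω ^ (n - 1) * ω = 1 := by rw [← pow_succ, Nat.sub_add_cancel hn, hω.pow_eq_one]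
      rw [hk]
      simp [it, sc, cm, adjugate_smul, smul_smul, this]
    · simp [sc, h]
  refine ⟨fun j => ?_, ?_⟩
  · by_cases h : j = o
    · subst h
      simp [sc, hs.1 j, hω.pow_eq_one]
    · simpa [sc, h] using hs.1 j
  · rw [pk, e]
    exact hs.2

theorem approxK (hn : 0 < n) (hd : KD κ) {o p : Fin g} (hop : o ≠ p) (ho : κ o = none)
    (hp : κ p = none) {x : E g n} (hx : x ∈ RK κ)
    (hreg : ∀ ξ, Zc κ x ξ → ∃ η, Zc κ x η ∧ ξ * η * ξ = ξ) {s : Set (E g n)} (hs : s ∈ 𝓝 x) :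
    ∃ y ∈ s, y ∈ RK κ ∧ SchK κ y := by
  obtain ⟨m, e, he, hz, hc⟩ := idem_sys hn (Zs κ x) hreg
  obtain ⟨t, hts, hto, hxt⟩ := mem_nhds_iff.1 hs
  obtain ⟨y, hyt, hy, h1, h2, h3⟩ := twK hn ho hx he hz hc (hto.mem_nhds hxt)
  choose v hv1 hv2 hv3 using fun i : Fin m => cocK hd hop ho hp hy (he.idem 0) (he.idem i.succ)
    (he.ne _) (he.ne _) (h1 0) (h1 _)
  have hc : ContinuousAt (fun c : ℂ => y + ∑ i, c • v i) 0 := by fun_prop
  have hev : ∀ᶠ c : ℂ in 𝓝 0, y + ∑ i, c • v i ∈ t :=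
    hc.eventually (hto.mem_nhds (by simpa using hyt))
  obtain ⟨c, hc1, hc2⟩ := ((hev.filter_mono nhdsWithin_le_nhds).and
    (self_mem_nhdsWithin (s := {(0 : ℂ)}ᶜ))).exists
  have hc0 : c ≠ 0 := hc2
  have hw : ∀ i, Cor κ (e 0) (e i.succ) (c • v i) := fun i j => by
    obtain ⟨a1, a2, a3⟩ := hv1 i j
    refine ⟨?_, ?_, fun h => by simp [a3 h]⟩
    · simp only [Pi.smul_apply, Prod.smul_fst, Matrix.mul_smul, Matrix.smul_mul, a1]
    · simp only [Pi.smul_apply, Prod.smul_snd, Matrix.mul_smul, Matrix.smul_mul, a2]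
  have hu : ∀ (i : Fin m) (u : M n), e 0 * u * e i.succ = u → e 0 * u * (1 - e 0) = u :=
    fun i u h => by
      rw [← h, mul_sub, mul_one, ← mul_assoc, ← mul_assoc, he.idem, mul_assoc _ (e i.succ),
        he.orth _ _ (Fin.succ_ne_zero i), mul_zero, sub_zero]
  refine ⟨_, hts hc1, extK hd hy (he.idem 0) (h1 0) (fun j => ⟨?_, ?_, fun h => ?_⟩) ?_,
    schE he h1 h2 h3 _ hw fun i ⟨b, hb⟩ => hv3 i ⟨c⁻¹ • b, fun j hj => ?_⟩⟩
  · simp only [Finset.sum_apply, Prod.fst_sum, Finset.mul_sum, Finset.sum_mul]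
    exact Finset.sum_congr rfl fun i _ => hu i _ (hw i j).1
  · simp only [Finset.sum_apply, Prod.snd_sum, Finset.mul_sum, Finset.sum_mul]
    exact Finset.sum_congr rfl fun i _ => hu i _ (hw i j).2.1
  · rw [Finset.sum_apply]
    exact Finset.sum_eq_zero fun i _ => (hw i j).2.2 h
  · show dpkL κ y _ = 0
    rw [map_sum]
    refine Finset.sum_eq_zero fun i _ => ?_
    rw [map_smul]
    show c • dpk κ y (v i) = 0
    rw [hv2, smul_zero]
  · have := congrArg (c⁻¹ • ·) (hb j hj)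
    simp only [Pi.smul_apply, smul_smul, inv_mul_cancel₀ hc0, one_smul] at this
    rw [this]
    simp [smul_sub]
end

variable {g s n : ℕ} (J : Fin s → SpecialLinearGroup (Fin n) ℂ)

theorem zc_all {x : E (g + s) n} (hx : x ∈ RK (kJ J g)) {ξ : M n} (hξ : Zc (kJ J g) x ξ)
    (γ : PresentedGroup {relK g s}) : ξ * (repOf J x hx γ).1 = (repOf J x hx γ).1 * ξ := by
  let K : Subgroup (SpecialLinearGroup (Fin n) ℂ) :=
    { carrier := {u | ξ * u.1 = u.1 * ξ}
      mul_mem' := fun {a b} ha hb => (Commute.mul_right ha hb :)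
      one_mem' := (Commute.one_right ξ :)
      inv_mem' := fun {a} ha => by
        have e1 : (a⁻¹).1 * a.1 = 1 := congrArg Subtype.val (inv_mul_cancel a)
        have e2 : a.1 * (a⁻¹).1 = 1 := congrArg Subtype.val (mul_inv_cancel a)
        have ha' : ξ * a.1 = a.1 * ξ := ha
        show ξ * (a⁻¹).1 = (a⁻¹).1 * ξ
        calc ξ * (a⁻¹).1 = (a⁻¹).1 * a.1 * ξ * (a⁻¹).1 := by rw [e1, one_mul]
          _ = (a⁻¹).1 * (ξ * a.1) * (a⁻¹).1 := by rw [ha', mul_assoc (a⁻¹).1]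
          _ = (a⁻¹).1 * ξ := by rw [mul_assoc, mul_assoc, e2, mul_one] }
  exact PresentedGroup.generated_by _ (K.comap (repOf J x hx)) (by
    rintro (⟨i, _ | _⟩ | i)
    · have := hξ (Fin.castAdd s i)
      simp only [kap, Fin.addCases_left] at this
      rw [Subgroup.mem_comap, repOf_of]
      exact this.1
    · have := hξ (Fin.castAdd s i)
      simp only [kap, Fin.addCases_left] at this
      rw [Subgroup.mem_comap, repOf_of]
      exact this.2
    · have := hξ (Fin.natAdd g i)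
      simp only [kap, Fin.addCases_right] at this
      rw [Subgroup.mem_comap, repOf_of]
      exact this) γ

theorem zc_of {x : E (g + s) n} (hx : x ∈ RK (kJ J g)) {ξ : M n}
    (h : ∀ γ, ξ * (repOf J x hx γ).1 = (repOf J x hx γ).1 * ξ) : Zc (kJ J g) x ξ := by
  intro j
  refine Fin.addCases (fun i => ?_) (fun i => ?_) j
  · have a := h (PresentedGroup.of (Sum.inl (i, false)))
    have b := h (PresentedGroup.of (Sum.inl (i, true)))
    rw [repOf_of] at a b
    simp only [kap, Fin.addCases_left]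
    exact ⟨a, b⟩
  · have a := h (PresentedGroup.of (Sum.inr i))
    rw [repOf_of] at a
    simp only [kap, Fin.addCases_right]
    exact a

theorem rep_mul (ρ : RepK g s n) (a b : PresentedGroup {relK g s}) :
    (ρ (a * b)).1 = (ρ a).1 * (ρ b).1 := by rw [map_mul]; rfl

theorem rep_one (ρ : RepK g s n) : (ρ 1).1 = 1 := by rw [map_one]; rfl

theorem irred_sc {x : E (g + s) n} {hx : x ∈ RK (kJ J g)} (h : Irred (repOf J x hx))
    (o : Fin g) {ω : ℂ} (hω : ω ≠ 0) (hy : sc (Fin.castAdd s o) ω x ∈ RK (kJ J g)) :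
    Irred (repOf J _ hy) := by
  let K : Subgroup (PresentedGroup {relK g s}) :=
    { carrier := {γ | ∃ c : ℂ, c ≠ 0 ∧ (repOf J x hx γ).1 = c • (repOf J _ hy γ).1}
      mul_mem' := by
        rintro a b ⟨c, c0, h1⟩ ⟨d, d0, h2⟩
        refine ⟨c * d, mul_ne_zero c0 d0, ?_⟩
        rw [rep_mul, rep_mul, h1, h2, Matrix.smul_mul, Matrix.mul_smul, smul_smul]
      one_mem' := ⟨1, one_ne_zero, by rw [map_one, map_one, one_smul]⟩
      inv_mem' := by
        rintro a ⟨c, c0, h1⟩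
        refine ⟨c⁻¹, inv_ne_zero c0, ?_⟩
        have e1 : (repOf J x hx a⁻¹).1 * (repOf J x hx a).1 = 1 := by
          rw [← rep_mul, inv_mul_cancel, rep_one]
        have e2 : (repOf J _ hy a).1 * (repOf J _ hy a⁻¹).1 = 1 := by
          rw [← rep_mul, mul_inv_cancel, rep_one]
        rw [h1, Matrix.mul_smul] at e1
        have e3 := congrArg (fun u => c⁻¹ • (u * (repOf J _ hy a⁻¹).1)) e1
        simp only [Matrix.smul_mul, smul_smul, inv_mul_cancel₀ c0, one_smul, mul_assoc, e2,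
          mul_one, one_mul] at e3
        exact e3 }
  have hK : ∀ γ, γ ∈ K := PresentedGroup.generated_by _ K (by
    rintro (⟨i, _ | _⟩ | i)
    · refine ⟨1, one_ne_zero, ?_⟩
      rw [repOf_of, repOf_of, one_smul]
      by_cases e : i = o
      · subst e; simp [genK', sc]
      · have : Fin.castAdd s i ≠ Fin.castAdd s o := fun h => e (Fin.castAdd_injective _ _ h)
        simp [genK', sc, Function.update_of_ne this]
    · by_cases e : i = o
      · subst e
        refine ⟨ω⁻¹, inv_ne_zero hω, ?_⟩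
        rw [repOf_of, repOf_of]
        simp [genK', sc, smul_smul, inv_mul_cancel₀ hω]
      · refine ⟨1, one_ne_zero, ?_⟩
        rw [repOf_of, repOf_of, one_smul]
        have : Fin.castAdd s i ≠ Fin.castAdd s o := fun h => e (Fin.castAdd_injective _ _ h)
        simp [genK', sc, Function.update_of_ne this]
    · refine ⟨1, one_ne_zero, ?_⟩
      rw [repOf_of, repOf_of, one_smul]
      have : Fin.natAdd g i ≠ Fin.castAdd s o := fun h => by
        have := congrArg Fin.val h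
        have := o.2
        simp at *
        omega
      simp [genK', sc, Function.update_of_ne this])
  refine eq_top_iff.2 (h.ge.trans (Submodule.span_le.2 ?_))
  rintro _ ⟨γ, rfl⟩
  obtain ⟨c, -, e⟩ := hK γ
  show (repOf J x hx γ).1 ∈ _
  rw [e]
  exact Submodule.smul_mem _ _ (Submodule.subset_span ⟨γ, rfl⟩)

theorem irred_of {ρ : RepK g s n} {X Y : M n}
    (h : ∀ A : Subalgebra ℂ (M n), X ∈ A → Y ∈ A → A = ⊤) {a b : PresentedGroup {relK g s}}
    (ha : (ρ a).1 = X) (hb : (ρ b).1 = Y) : Irred ρ := by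
  have := h ((Submodule.span ℂ (Set.range fun γ => (ρ γ).1)).toSubalgebra
    (Submodule.subset_span ⟨1, by simp⟩) fun u w hu hw => by
      have := Submodule.mul_mem_mul hu hw
      rw [Submodule.span_mul_span] at this
      refine Submodule.span_mono ?_ this
      rintro _ ⟨_, ⟨c, rfl⟩, _, ⟨d, rfl⟩, rfl⟩
      exact ⟨c * d, by simp⟩) (Submodule.subset_span ⟨a, ha⟩) (Submodule.subset_span ⟨b, hb⟩)
  exact congrArg Subalgebra.toSubmodule this

theorem coreS (hn : 3 ≤ n) (hg : 4 ≤ g) {L : IntermediateField ℚ ℂ} (hL : GoodL L)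
    (hR : ∃ ω ∈ L, IsPrimitiveRoot ω n) (hJ : ∀ i, Ent (OO L) (J i).1)
    (hz : ∃ z ∈ SK L (kJ J g), ∀ j : Fin (g + s), j.1 < 2 → z j = (1, 1)) {ρ : RepK g s n}
    (hb : Bdry J ρ) (hi : Ssimp ρ)
    (f : MvPolynomial (((Fin g × Bool) ⊕ Fin s) × Fin n × Fin n) ℂ)
    (hf : ∀ σ : RepK g s n, IntegralK L σ → Bdry J σ → Irred σ →
      MvPolynomial.eval (evK σ) f = 0) : MvPolynomial.eval (evK ρ) f = 0 := by
  have hn0 : 0 < n := by omega
  obtain ⟨x, hx, rfl⟩ := exists_repOf J hb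
  obtain ⟨F, hF, h1⟩ := eval_pol J f
  have hT : Two (kJ J g) (Fin.castAdd s ⟨0, by omega⟩) (Fin.castAdd s ⟨1, by omega⟩) :=
    ⟨rfl, rfl, Fin.addCases_left _, Fin.addCases_left _, fun j c h => by
      obtain ⟨i, rfl⟩ := kJ_some J h
      exact (J i).2⟩
  let S : Set (E (g + s) n) := {y | ∃ hy : y ∈ RK (kJ J g), Irred (repOf J y hy)}
  obtain ⟨X, Y, hX, hY, hXY⟩ := irr_ex hn0
  obtain ⟨ω, hω1, hω2⟩ := hR
  obtain ⟨z, hz, hz'⟩ := hz
  have h0 := cl_RK (fun x hx => hx.1) (HK_sub (by omega) hT hz (hz' _ (by simp)) (hz' _ (by simp))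
    (xK_mem hT hz.1 hX hY))
  have hI : Irred (repOf J _ h0) := irred_of hXY
    (a := PresentedGroup.of (Sum.inl (⟨0, by omega⟩, true)))
    (b := PresentedGroup.of (Sum.inl (⟨1, by omega⟩, true)))
    (by rw [repOf_of]; exact congrArg Prod.snd (xK_o hT (z := z) (X := X) (Y := Y)))
    (by rw [repOf_of]; exact congrArg Prod.snd (xK_o' (z := z) (X := X) (Y := Y)))
  obtain ⟨H, hH, h2, h3⟩ := irred_pol J hI
  have hV : ∀ᶠ y in 𝓝 _, y ∈ RK (kJ J g) → y ∈ cl S :=
    ((pol_contDiff hH).continuous.continuousAt.eventually_ne h2).mono fun y hy hy' =>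
      subset_cl _ ⟨hy', h3 y hy' hy⟩
  obtain ⟨x1, a1, a2, a3⟩ := near_goodK hT hn0 h0 (irred_sch J hI) hV.eventually_nhds
  have key : x ∈ cl S := by
    rw [← (cl_closed S).closure_eq, mem_closure_iff_nhds]
    intro t ht
    obtain ⟨u, hut, huo, hxu⟩ := mem_nhds_iff.1 ht
    obtain ⟨w, hw1, hw2, hw3⟩ := approxK hn0 hT.hd hT.ne hT.hk hT.hk' hx (fun ξ hξ => by
      obtain ⟨η, b1, b2⟩ := ss_reg (Set.range fun γ => (repOf J x hx γ).1) (fun U hU => by
        obtain ⟨W, c1, c2⟩ := hi U fun γ => hU _ ⟨γ, rfl⟩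
        exact ⟨W, c1, by rintro _ ⟨γ, rfl⟩; exact c2 γ⟩) ξ (by
          rintro _ ⟨γ, rfl⟩; exact zc_all J hx hξ γ)
      exact ⟨η, zc_of J hx fun γ => b1 _ ⟨γ, rfl⟩, b2⟩) (huo.mem_nhds hxu)
    obtain ⟨y, hy1, hy2, hy3⟩ := near_goodK hT hn0 hw2 hw3 (huo.mem_nhds hw1)
    refine ⟨y, hut hy1, scale hn0 _ hω2 (fun s hs => (hs.1.1 _).2) (fun y hy => ?_) (hy2.1 _).2
      (parK hn0 hT.hd hT.ho hT.hk hy2 a2 hy3 a3 a1)⟩
    obtain ⟨hy, hy'⟩ := hy
    have := sc_RK hn0 hT.hk hω2 hy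
    exact ⟨this, irred_sc J hy' _ (hω2.ne_zero hn0.ne') this⟩
  rw [h1]
  refine key F hF ?_
  rintro y ⟨hy, hy'⟩
  rw [← h1 y hy]
  exact coreK J hn hg hL ⟨ω, hω1, hω2⟩ hJ ⟨z, hz, hz'⟩ (repOf_bdry J y hy) hy' f hf

theorem finalS {L : IntermediateField ℚ ℂ} {N K : ℕ} (hn : 3 ≤ n) (hN : 0 < N) (hL : GoodL L)
    (hR : Roots L (K + N + n))
    (hK : ∀ L : IntermediateField ℚ ℂ, Roots L K →
      ∀ g s : ℕ, 4 ≤ g → ∀ J : Fin s → M n, (∀ i, Tri L N (J i)) →
        ∃ z ∈ SK L (kap g J), ∀ j : Fin (g + s), j.1 < 2 → z j = (1, 1)) (hg : 4 ≤ g)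
    (hJ : ∀ i μ, (J i).1.charpoly.IsRoot μ → μ ^ N = 1) (ρ : RepK g s n) (hb : Bdry J ρ)
    (hi : Ssimp ρ) (f : MvPolynomial (((Fin g × Bool) ⊕ Fin s) × Fin n × Fin n) ℂ)
    (hf : ∀ σ : RepK g s n, IntegralK L σ → Bdry J σ → Irred σ →
      MvPolynomial.eval (evK σ) f = 0) : MvPolynomial.eval (evK ρ) f = 0 := by
  have hR' : ∀ m ≤ K + N + n, Roots L m := fun m hm k h1 h2 => hR k h1 (h2.trans hm)
  choose J' h1 h2 using fun i => tri_SL (by omega) hN (hR' N (by omega)) (J i) (hJ i)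
  exact coreS J' hn hg hL (hR n (by omega) (by omega)) (fun i => (h2 i).1)
    (hK L (hR' K (by omega)) g s hg _ h2) (fun i => (h1 i).symm.trans (hb i)) hi f
    fun σ a b c => hf σ a (fun i => (h1 i).trans (b i)) c

end Vale.Agent.P002
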