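import Vale.Agent.P002.Defs

open scoped Matrix.Norms.Operator Topology
open Matrix Filter

namespace Vale.Agent.P002

variable {g n : ℕ}

theorem Sp0_JJ : JJ n * JJ n = (n : ℂ) • JJ n := by
  ext i j
  simp [JJ, mul_apply]

theorem Sp0_ne (c : ℕ) : (1 + c * n : ℂ) ≠ 0 := by
  have : ((1 + c * n : ℕ) : ℂ) ≠ 0 := Nat.cast_ne_zero.2 (by omega)
  simpa using this

theorem PQ (c : ℕ) : PJ n c * QJ n c = 1 := by
  have h := Sp0_ne (n := n) c
  simp only [PJ, QJ, add_mul, mul_sub, mul_one, one_mul, Matrix.smul_mul, Matrix.mul_smul,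
    Sp0_JJ, smul_smul]
  ext i j
  simp only [Matrix.sub_apply, Matrix.add_apply, Matrix.smul_apply, smul_eq_mul]
  field_simp
  ring

theorem QP (c : ℕ) : QJ n c * PJ n c = 1 := mul_eq_one_comm.1 (PQ c)

theorem Sp0_mul (c : ℕ) (y z : Fin n → ℂ) : Bm c y * Bm c z = Bm c fun i => y i * z i := by
  simp only [Bm]
  rw [← diagonal_mul_diagonal]
  calc _ = PJ n c * diagonal y * (QJ n c * PJ n c) * diagonal z * QJ n c := by
        simp only [Matrix.mul_assoc]
    _ = _ := by rw [QP, Matrix.mul_one]; simp only [Matrix.mul_assoc]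

theorem Sp0_one (c : ℕ) : (Bm c fun _ : Fin n => 1) = 1 := by
  rw [Bm, diagonal_one, Matrix.mul_one, PQ]

theorem Sp0_y {y : Fin n → ℂ} (hy : GY y) (i : Fin n) : y i ≠ 0 := fun h =>
  one_ne_zero (hy.2.symm.trans (Finset.prod_eq_zero (Finset.mem_univ i) h))

theorem Bm_det (c : ℕ) {y : Fin n → ℂ} (hy : GY y) : (Bm c y).det = 1 := by
  rw [Bm, det_mul, det_mul, det_diagonal, hy.2, mul_one, ← det_mul, PQ, det_one]

theorem Bm_adj (c : ℕ) {y : Fin n → ℂ} (hy : GY y) :
    adjugate (Bm c y) = Bm c fun i => (y i)⁻¹ := by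
  have h : Bm c y * Bm c (fun i => (y i)⁻¹) = 1 := by
    rw [Sp0_mul, ← Sp0_one c]
    congr 1
    funext i
    exact mul_inv_cancel₀ (Sp0_y hy i)
  calc adjugate (Bm c y) = adjugate (Bm c y) * (Bm c y * Bm c fun i => (y i)⁻¹) := by
        rw [h, Matrix.mul_one]
    _ = _ := by rw [← Matrix.mul_assoc, adjugate_mul, Bm_det c hy, one_smul, Matrix.one_mul]

theorem Bm_pow (c : ℕ) (y : Fin n → ℂ) (p : ℕ) : Bm c y ^ p = Bm c fun i => y i ^ p := by
  induction p with
  | zero => simp only [pow_zero, Sp0_one]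
  | succ p ih => simp only [pow_succ, ih, Sp0_mul]

theorem Sp0_conj (c : ℕ) {y : Fin n → ℂ} (hy : GY y) (a : M n) (i j : Fin n) :
    (QJ n c * (a - Bm c y * a * adjugate (Bm c y)) * PJ n c) i j =
      (QJ n c * a * PJ n c) i j - y i * (QJ n c * a * PJ n c) i j * (y j)⁻¹ := by
  have : QJ n c * (Bm c y * a * adjugate (Bm c y)) * PJ n c =
      diagonal y * (QJ n c * a * PJ n c) * diagonal fun i => (y i)⁻¹ := by
    rw [Bm_adj c hy]
    simp only [Bm]
    calc _ = (QJ n c * PJ n c) * diagonal y * (QJ n c * a * PJ n c) * (diagonal fun i => (y i)⁻¹) *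
          (QJ n c * PJ n c) := by simp only [Matrix.mul_assoc]
      _ = _ := by rw [QP, Matrix.one_mul, Matrix.mul_one]
  rw [Matrix.mul_sub, Matrix.sub_mul, this, Matrix.sub_apply, mul_diagonal, diagonal_mul]

theorem perp_ad (c : ℕ) {y : Fin n → ℂ} (hy : GY y) (a : M n) :
    Perp c (a - Bm c y * a * adjugate (Bm c y)) := fun i => by
  rw [Sp0_conj c hy]
  field_simp [Sp0_y hy i]
  ring

theorem cent_span (hn : 3 ≤ n) (c : ℕ) {y : Fin n → ℂ} (hy : GY y) {a : M n} (ht : a.trace = 0)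
    (ha : a - Bm c y * a * adjugate (Bm c y) = 0) :
    a ∈ Submodule.span ℂ (Set.range fun k : ℕ => tl (Bm c y ^ k)) := by
  set X := QJ n c * a * PJ n c with hX
  have hd : X = diagonal fun i => X i i := by
    ext i j
    by_cases h : i = j
    · subst h; simp
    · have h1 := Sp0_conj c hy a i j
      rw [ha, Matrix.mul_zero, Matrix.zero_mul, ← hX] at h1
      rw [diagonal_apply_ne _ h]
      have h2 : y j - y i ≠ 0 := sub_ne_zero.2 fun e => h (hy.1 e).symm
      have h3 := Sp0_y hy j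
      apply mul_left_cancel₀ h2
      have h4 : y j * (y j)⁻¹ = 1 := mul_inv_cancel₀ h3
      simp only [Matrix.zero_apply] at h1
      linear_combination (-y j) * h1 + (y i * X i j) * h4
  set f := Lagrange.interpolate Finset.univ y fun i => X i i with hf
  have he : ∀ i, X i i = ∑ k ∈ Finset.range (f.natDegree + 1), f.coeff k * y i ^ k := fun i => by
    rw [← Polynomial.eval_eq_sum_range, hf,
      Lagrange.eval_interpolate_at_node _ hy.1.injOn (Finset.mem_univ i)]
  have hX2 : X = ∑ k ∈ Finset.range (f.natDegree + 1), f.coeff k • diagonal fun i => y i ^ k := by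
    rw [hd]
    ext i j
    by_cases h : i = j
    · subst h
      simp only [diagonal_apply_eq, Matrix.sum_apply, Matrix.smul_apply, smul_eq_mul]
      exact he i
    · simp [Matrix.sum_apply, diagonal_apply_ne _ h]
  have ha2 : a = ∑ k ∈ Finset.range (f.natDegree + 1), f.coeff k • Bm c y ^ k := by
    calc a = (PJ n c * QJ n c) * a * (PJ n c * QJ n c) := by
          rw [PQ, Matrix.one_mul, Matrix.mul_one]
      _ = PJ n c * X * QJ n c := by simp only [hX, Matrix.mul_assoc]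
      _ = _ := by
          rw [hX2, Finset.mul_sum, Finset.sum_mul]
          refine Finset.sum_congr rfl fun k _ => ?_
          rw [Bm_pow, Bm, Matrix.mul_smul, Matrix.smul_mul]
  have hn0 : (n : ℂ) ≠ 0 := Nat.cast_ne_zero.2 (by omega)
  have h3 : tl a = ∑ k ∈ Finset.range (f.natDegree + 1), f.coeff k • tl (Bm c y ^ k) := by
    conv_lhs => rw [ha2]
    simp only [tl, trace_sum, trace_smul, Finset.smul_sum, Finset.sum_smul, smul_sub,
      Finset.sum_sub_distrib, smul_smul, smul_eq_mul, mul_comm]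
  have h4 : a = (n : ℂ)⁻¹ • tl a := by
    rw [tl, ht, zero_smul, sub_zero, smul_smul, inv_mul_cancel₀ hn0, one_smul]
  rw [h4, h3]
  exact Submodule.smul_mem _ _ (Submodule.sum_mem _ fun k _ =>
    Submodule.smul_mem _ _ (Submodule.subset_span ⟨k, rfl⟩))

theorem Sp0_diag (c : ℕ) (ξ : M n) (i : Fin n) : (QJ n c * ξ * PJ n c) i i =
    ξ i i + c * ∑ j, ξ i j - c / (1 + c * n) * ∑ j, ξ j i -
      c / (1 + c * n) * c * ∑ j, ∑ l, ξ l j := by
  have a1 : (ξ * JJ n) i i = ∑ j, ξ i j := by simp [JJ, mul_apply]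
  have a2 : (JJ n * ξ) i i = ∑ j, ξ j i := by simp [JJ, mul_apply]
  have a3 : (JJ n * ξ * JJ n) i i = ∑ j, ∑ l, ξ l j := by simp [JJ, mul_apply]
  simp only [PJ, QJ, Matrix.sub_mul, Matrix.mul_add, Matrix.mul_one, Matrix.one_mul,
    Matrix.smul_mul, Matrix.mul_smul, Matrix.sub_apply, Matrix.add_apply, Matrix.smul_apply,
    smul_eq_mul, a1, a2, a3]
  ring

theorem Sp0_tr (c : ℕ) (ξ : M n) : ∑ i, (QJ n c * ξ * PJ n c) i i = ξ.trace := by
  change (QJ n c * ξ * PJ n c).trace = _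
  rw [trace_mul_cycle, PQ, Matrix.one_mul]

theorem sp2 (hn : 3 ≤ n) {η : M n} (h : Perp 2 η) :
    ∃ η0 η1 : M n, η = η0 + η1 ∧ Perp 2 η0 ∧ Perp 0 η0 ∧ Perp 2 η1 ∧ Perp 1 η1 := by
  have hn0 : (n : ℂ) ≠ 0 := Nat.cast_ne_zero.2 (by omega)
  have hn2 : (n : ℂ) - 2 ≠ 0 := sub_ne_zero.2 (by exact_mod_cast (show n ≠ 2 by omega))
  have k1 := Sp0_ne (n := n) 1
  have k2 := Sp0_ne (n := n) 2
  set d : Fin n → ℂ := fun i => (QJ n 1 * η * PJ n 1) i i with hd
  have hs : ∑ i, d i = 0 := by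
    rw [hd, Sp0_tr, ← Sp0_tr 2]
    exact Finset.sum_eq_zero fun i _ => h i
  set R : ℂ := -(1 + n) / n with hR
  set S : ℂ := -(1 + n) * (1 + 2 * n) / n with hS
  set α : ℂ := ((n - 1) * R + S) / (n * (n - 2)) with hα
  set β : ℂ := (R + (n - 1) * S) / (n * (n - 2)) with hβ
  let ξ : M n := (of fun i j => α * d i + β * d j) - diagonal fun i => (α + β) * d i
  have e0 : ∀ i, ξ i i = 0 := fun i => by simp [ξ]; ring
  have e1 : ∀ i, ∑ j, ξ i j = R * d i := fun i => by
    simp only [ξ, Matrix.sub_apply, of_apply, Finset.sum_sub_distrib, Finset.sum_add_distrib,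
      ← Finset.mul_sum, hs, diagonal_apply, Finset.sum_ite_eq, Finset.mem_univ, if_true,
      Finset.sum_const, Finset.card_univ, Fintype.card_fin, nsmul_eq_mul]
    rw [hα, hβ]
    field_simp
    ring
  have e2 : ∀ i, ∑ j, ξ j i = S * d i := fun i => by
    simp only [ξ, Matrix.sub_apply, of_apply, Finset.sum_sub_distrib, Finset.sum_add_distrib,
      ← Finset.mul_sum, hs, diagonal_apply, Finset.sum_ite_eq', Finset.mem_univ, if_true,
      Finset.sum_const, Finset.card_univ, Fintype.card_fin, nsmul_eq_mul]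
    rw [hα, hβ]
    field_simp
    ring
  have e3 : ∑ j, ∑ l, ξ l j = 0 := by simp only [e2, ← Finset.mul_sum, hs, mul_zero]
  have p2 : Perp 2 ξ := fun i => by
    rw [Sp0_diag, e0, e1, e2, e3, hR, hS]
    push_cast at k2 ⊢
    field_simp
    ring
  refine ⟨ξ, η - ξ, by abel, p2, fun i => ?_, fun i => ?_, fun i => ?_⟩
  · rw [Sp0_diag, e0]
    simp
  · rw [Matrix.mul_sub, Matrix.sub_mul, Matrix.sub_apply, h i, p2 i, sub_zero]
  · rw [Matrix.mul_sub, Matrix.sub_mul, Matrix.sub_apply, Sp0_diag 1 ξ, e0, e1, e2, e3, hR, hS]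
    change d i - _ = 0
    push_cast at k1 ⊢
    rw [one_mul] at k1
    field_simp
    ring

end Vale.Agent.P002
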