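import Mathlib

/-! Statement definitions for P002 with punctures. -/

namespace Vale.Agent.P002

/-- the relator `[a_1, b_1] ⋯ [a_g, b_g] c_1 ⋯ c_s` -/
def relK (g s : ℕ) : FreeGroup ((Fin g × Bool) ⊕ Fin s) :=
  (List.ofFn fun i : Fin g => FreeGroup.of (Sum.inl (i, false)) * FreeGroup.of (Sum.inl (i, true)) *
    (FreeGroup.of (Sum.inl (i, false)))⁻¹ * (FreeGroup.of (Sum.inl (i, true)))⁻¹).prod *
  (List.ofFn fun i : Fin s => FreeGroup.of (Sum.inr i)).prod

/-- representations of the fundamental group of the genus `g` surface with `s` punctures -/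
abbrev RepK (g s n : ℕ) := PresentedGroup {relK g s} →* Matrix.SpecialLinearGroup (Fin n) ℂ

/-- matrix entries of the images of the generators -/
def evK {g s n : ℕ} (ρ : RepK g s n) : ((Fin g × Bool) ⊕ Fin s) × Fin n × Fin n → ℂ :=
  fun t => (ρ (PresentedGroup.of t.1)).1 t.2.1 t.2.2

/-- the representation takes values in `SL_n` of the ring of integers of `L` -/
def IntegralK {g s n : ℕ} (L : IntermediateField ℚ ℂ) (ρ : RepK g s n) : Prop :=
  ∀ γ i j, (ρ γ).1 i j ∈ L ∧ IsIntegral ℤ ((ρ γ).1 i j)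

/-- the boundary monodromies lie in the conjugacy classes of the `J i` -/
def Bdry {g s n : ℕ} (J : Fin s → Matrix.SpecialLinearGroup (Fin n) ℂ) (ρ : RepK g s n) : Prop :=
  ∀ i, IsConj (J i) (ρ (PresentedGroup.of (Sum.inr i)))

/-- the image spans the matrix algebra, i.e. the representation is irreducible -/
def Irred {g s n : ℕ} (ρ : RepK g s n) : Prop :=
  Submodule.span ℂ (Set.range fun γ => (ρ γ).1) = ⊤

end Vale.Agent.P002
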