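import Vale.Agent.P002.Defs

open scoped Matrix.Norms.Operator Topology
open Matrix Filter

namespace Vale.Agent.P002

variable {g n : ℕ}

/-- monomial functions -/
def monU2 (a : Fin n → ℕ) : (Fin n → ℂ) → ℂ := fun t => ∏ i, t i ^ a i

lemma pol_span_U2 {f : (Fin n → ℂ) → ℂ} (hf : f ∈ Pol (Fin n → ℂ)) :
    f ∈ Submodule.span ℂ (Set.range (monU2 (n := n))) := by
  have hmul : ∀ x ∈ Submodule.span ℂ (Set.range (monU2 (n := n))),
      ∀ y ∈ Submodule.span ℂ (Set.range (monU2 (n := n))),
        x * y ∈ Submodule.span ℂ (Set.range (monU2 (n := n))) := by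
    intro x hx y hy
    have := Submodule.mul_mem_mul hx hy
    rw [Submodule.span_mul_span] at this
    refine Submodule.span_mono ?_ this
    rintro _ ⟨_, ⟨a, rfl⟩, _, ⟨b, rfl⟩, rfl⟩
    refine ⟨a + b, funext fun t => ?_⟩
    simp [monU2, pow_add, Finset.prod_mul_distrib]
  have hone : (1 : (Fin n → ℂ) → ℂ) ∈ Submodule.span ℂ (Set.range (monU2 (n := n))) :=
    Submodule.subset_span ⟨0, funext fun t => by simp [monU2]⟩
  induction hf using Algebra.adjoin_induction with
  | mem x hx =>
    obtain ⟨l, rfl⟩ := hx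
    have e : (l : (Fin n → ℂ) → ℂ) = ∑ i, l (Pi.single i 1) • monU2 (Pi.single i 1) := by
      funext t
      have h1 : ∀ i, monU2 (Pi.single i 1) t = t i := fun i => by
        unfold monU2
        rw [Finset.prod_eq_single i]
        · simp
        · intro j _ hj; simp [hj]
        · simp
      rw [Finset.sum_apply]
      simp only [Pi.smul_apply, h1, smul_eq_mul]
      rw [LinearMap.pi_apply_eq_sum_univ]
      refine Finset.sum_congr rfl fun i _ => ?_
      rw [smul_eq_mul, mul_comm]
      congr 2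
      funext j
      simp [Pi.single_apply, eq_comm]
    show (l : (Fin n → ℂ) → ℂ) ∈ _
    rw [e]
    exact Submodule.sum_mem _ fun i _ => Submodule.smul_mem _ _ (Submodule.subset_span ⟨_, rfl⟩)
  | algebraMap r =>
    rw [Algebra.algebraMap_eq_smul_one]
    exact Submodule.smul_mem _ _ hone
  | add x y _ _ hx hy => exact add_mem hx hy
  | mul x y _ _ hx hy => exact hmul _ hx _ hy

lemma zp_U2 (a b : Fin n → ℕ) {u : Fin n → ℂ} (hu : ∏ i, u i = 1) :
    ∏ i, u i ^ ((a i : ℤ) - b i) = 1 ↔ monU2 a u = monU2 b u := by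
  have h0 : ∀ i, u i ≠ 0 := fun i h => by
    rw [Finset.prod_eq_zero (Finset.mem_univ i) h] at hu
    exact zero_ne_one hu
  have e : ∏ i, u i ^ ((a i : ℤ) - b i) = monU2 a u / monU2 b u := by
    unfold monU2
    rw [← Finset.prod_div_distrib]
    refine Finset.prod_congr rfl fun i _ => ?_
    rw [zpow_sub₀ (h0 i), zpow_natCast, zpow_natCast]
  rw [e, div_eq_one_iff_eq]
  exact Finset.prod_ne_zero_iff.mpr fun i _ => pow_ne_zero _ (h0 i)

theorem u2 (Λ : Submonoid (Fin n → ℂ)) (h1 : ∀ u ∈ Λ, ∏ i, u i = 1)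
    (hs : ∀ m : Fin n → ℤ, (∃ i j, m i ≠ m j) → ∃ u ∈ Λ, ∏ i, u i ^ m i ≠ 1)
    (t : Fin n → ℂ) (ht : ∏ i, t i = 1) : t ∈ cl (Λ : Set (Fin n → ℂ)) := by
  classical
  intro f hf h0
  obtain ⟨c, rfl⟩ := (Finsupp.mem_span_range_iff_exists_finsupp).mp (pol_span_U2 hf)
  let χ : (Fin n → ℕ) → (Λ →* ℂ) := fun a =>
    { toFun := fun u => monU2 a u
      map_one' := by simp [monU2]
      map_mul' := fun u v => by simp [monU2, mul_pow, Finset.prod_mul_distrib] }
  have key : ∀ a b, χ a = χ b → monU2 a t = monU2 b t := by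
    intro a b hab
    rw [← zp_U2 a b ht]
    have hc : ∀ i j, (a i : ℤ) - b i = (a j : ℤ) - b j := by
      by_contra hne
      push Not at hne
      obtain ⟨u, hu, h⟩ := hs (fun i => (a i : ℤ) - b i) hne
      exact h ((zp_U2 a b (h1 u hu)).mpr (DFunLike.congr_fun hab ⟨u, hu⟩))
    rcases Nat.eq_zero_or_pos n with rfl | hn
    · simp
    · rw [Finset.prod_congr rfl fun i _ => by rw [hc i ⟨0, hn⟩], Finset.prod_zpow, ht,
        _root_.one_zpow]
  let ev : (Λ →* ℂ) → ℂ := fun ψ => if h : ∃ a, χ a = ψ then monU2 h.choose t else 0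
  have hev : ∀ a, ev (χ a) = monU2 a t := fun a => by
    have h : ∃ b, χ b = χ a := ⟨a, rfl⟩
    simp only [ev, dif_pos h]
    exact key _ _ h.choose_spec
  have hz : c.mapDomain χ = 0 := by
    refine linearIndependent_iff.mp (linearIndependent_monoidHom Λ ℂ) _ ?_
    rw [Finsupp.linearCombination_mapDomain]
    funext u
    have := h0 u u.2
    rw [Finsupp.linearCombination_apply, Finsupp.sum, Finset.sum_apply]
    rw [Finsupp.sum, Finset.sum_apply] at this
    exact this
  have := congrArg (Finsupp.linearCombination ℂ ev) hz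
  rw [Finsupp.linearCombination_mapDomain, map_zero, Finsupp.linearCombination_apply] at this
  rw [← this, Finsupp.sum, Finsupp.sum, Finset.sum_apply]
  exact Finset.sum_congr rfl fun a _ => by simp [hev]

end Vale.Agent.P002
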