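import Vale.Agent.P002.U1b
import Vale.Agent.P002.U2
import Vale.Agent.P002.Dg
import Vale.Agent.P002.Poly2

open scoped Matrix.Norms.Operator Topology
open Matrix Filter

namespace Vale.Agent.P002

variable {g n : ℕ}

theorem td_lift {O : Subring ℂ} {u : M n} (hu : Ent O u) :
    ∃ w : Matrix (Fin n) (Fin n) O, u = w.map O.subtype :=
  ⟨Matrix.of fun a b => ⟨u a b, hu a b⟩, by ext a b; rfl⟩

theorem td_ent_map {O : Subring ℂ} (w : Matrix (Fin n) (Fin n) O) : Ent O (w.map O.subtype) :=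
  fun a b => (w a b).2

theorem td_ent_one {O : Subring ℂ} : Ent O (1 : M n) := by
  intro a b
  rw [Matrix.one_apply]
  split_ifs
  · exact O.one_mem
  · exact O.zero_mem

theorem td_ent_mul {O : Subring ℂ} {u w : M n} (hu : Ent O u) (hw : Ent O w) : Ent O (u * w) := by
  intro a b
  rw [Matrix.mul_apply]
  exact O.sum_mem fun k _ => O.mul_mem (hu a k) (hw k b)

theorem td_ent_pow {O : Subring ℂ} {u : M n} (hu : Ent O u) (k : ℕ) : Ent O (u ^ k) := by
  induction k with
  | zero => rw [pow_zero]; exact td_ent_one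
  | succ k ih => rw [pow_succ]; exact td_ent_mul ih hu

theorem td_ent_smul {O : Subring ℂ} {u : M n} {c : ℂ} (hc : c ∈ O) (hu : Ent O u) :
    Ent O (c • u) := fun a b => O.mul_mem hc (hu a b)

theorem td_ent_det {O : Subring ℂ} {u : M n} (hu : Ent O u) : u.det ∈ O := by
  rw [Matrix.det_apply']
  refine O.sum_mem fun σ _ => O.mul_mem (intCast_mem O _) (O.prod_mem fun i _ => hu _ _)

theorem td_ent_sum {O : Subring ℂ} {ι : Type} (s : Finset ι) {u : ι → M n}
    (hu : ∀ i ∈ s, Ent O (u i)) : Ent O (∑ i ∈ s, u i) := by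
  intro a b
  rw [Matrix.sum_apply]
  exact O.sum_mem fun i hi => hu i hi a b

theorem td_mul {P Q : M n} (h : Q * P = 1) (s t : Fin n → ℂ) :
    P * diagonal (s * t) * Q = (P * diagonal s * Q) * (P * diagonal t * Q) := by
  have : diagonal (s * t) = diagonal s * diagonal t := by
    rw [Matrix.diagonal_mul_diagonal]; rfl
  rw [this]
  calc P * (diagonal s * diagonal t) * Q = P * diagonal s * (Q * P) * diagonal t * Q := by
        rw [h]; simp only [Matrix.mul_assoc, Matrix.one_mul]
    _ = _ := by simp only [Matrix.mul_assoc]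

theorem td_pow {P Q : M n} (h : P * Q = 1) (s : Fin n → ℂ) (k : ℕ) :
    P * diagonal (s ^ k) * Q = (P * diagonal s * Q) ^ k := by
  have h' : Q * P = 1 := mul_eq_one_comm.1 h
  induction k with
  | zero =>
    have : diagonal ((1 : Fin n → ℂ)) = 1 := Matrix.diagonal_one
    rw [pow_zero, pow_zero, this, Matrix.mul_one, h]
  | succ k ih => rw [pow_succ, pow_succ, td_mul h', ih]

theorem td_det {P Q : M n} (h : P * Q = 1) (s : Fin n → ℂ) :
    (P * diagonal s * Q).det = ∏ i, s i := by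
  have h2 : P.det * Q.det = 1 := by rw [← Matrix.det_mul, h, Matrix.det_one]
  rw [Matrix.det_mul, Matrix.det_mul, Matrix.det_diagonal]
  linear_combination (∏ i, s i) * h2

/-- the linear parametrization of the centralizer -/
noncomputable def tdMap (P Q : M n) : (Fin n → ℂ) →ₗ[ℂ] M n where
  toFun t := P * diagonal t * Q
  map_add' s t := by
    have : diagonal (s + t) = diagonal s + diagonal t := by
      rw [Matrix.diagonal_add]; rfl
    rw [this, Matrix.mul_add, Matrix.add_mul]
  map_smul' c t := by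
    rw [Matrix.diagonal_smul, Matrix.mul_smul, Matrix.smul_mul]; rfl

theorem td_eval_ent {O : Subring ℂ} {P Q : M n} (h : P * Q = 1) {α : Fin n → ℂ}
    (hD : Ent O (P * diagonal α * Q)) {c : Polynomial ℂ} (hc : ∀ k, c.coeff k ∈ O) :
    Ent O (P * diagonal (fun i => c.eval (α i)) * Q) := by
  have e : (fun i => c.eval (α i)) =
      ∑ k ∈ Finset.range (c.natDegree + 1), c.coeff k • α ^ k := by
    funext i
    rw [Polynomial.eval_eq_sum_range, Finset.sum_apply]
    rfl
  have e2 : P * diagonal (fun i => c.eval (α i)) * Q =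
      ∑ k ∈ Finset.range (c.natDegree + 1), c.coeff k • (P * diagonal α * Q) ^ k := by
    change tdMap P Q _ = _
    rw [e, map_sum]
    refine Finset.sum_congr rfl fun k _ => ?_
    rw [map_smul, ← td_pow h]
    rfl
  rw [e2]
  exact td_ent_sum _ fun k _ => td_ent_smul (hc k) (td_ent_pow hD k)

open Polynomial in
theorem td_chi {O : Subring ℂ} {P Q : M n} (h : P * Q = 1) {α : Fin n → ℂ}
    (hD : Ent O (P * diagonal α * Q)) (k : ℕ) : (∏ i, (X - C (α i))).coeff k ∈ O := by
  have h' : Q * P = 1 := mul_eq_one_comm.1 h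
  have e : (P * diagonal α * Q).charpoly = ∏ i, (X - C (α i)) := by
    rw [Matrix.charpoly_mul_comm, ← Matrix.mul_assoc, h', Matrix.one_mul,
      Matrix.charpoly_diagonal]
  obtain ⟨w, hw⟩ := td_lift hD
  rw [← e, hw, Matrix.charpoly_map, Polynomial.coeff_map]
  exact (w.charpoly.coeff k).2

theorem td_diag {α : Fin n → ℂ} (hα : Function.Injective α) {N : M n}
    (hN : N * diagonal α = diagonal α * N) : N = diagonal fun i => N i i := by
  ext a b
  by_cases hab : a = b
  · subst hab; rw [Matrix.diagonal_apply_eq]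
  · rw [Matrix.diagonal_apply_ne _ hab]
    have h1 := congrFun (congrFun hN a) b
    rw [Matrix.mul_diagonal, Matrix.diagonal_mul] at h1
    have h2 : α a - α b ≠ 0 := sub_ne_zero.2 fun e => hab (hα e)
    have h3 : (α a - α b) * N a b = 0 := by linear_combination -h1
    exact (mul_eq_zero.1 h3).resolve_left h2

/-- the integral points of the torus -/
def tdLam (O : Subring ℂ) {P Q : M n} (h : P * Q = 1) : Submonoid (Fin n → ℂ) where
  carrier := {t | Ent O (P * diagonal t * Q) ∧ ∏ i, t i = 1}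
  one_mem' := by
    refine ⟨?_, by simp⟩
    have : diagonal ((1 : Fin n → ℂ)) = 1 := Matrix.diagonal_one
    rw [this, Matrix.mul_one, h]
    exact td_ent_one
  mul_mem' := by
    rintro s t ⟨hs, hs1⟩ ⟨ht, ht1⟩
    refine ⟨?_, ?_⟩
    · rw [td_mul (mul_eq_one_comm.1 h)]
      exact td_ent_mul hs ht
    · simp only [Pi.mul_apply, Finset.prod_mul_distrib, hs1, ht1, mul_one]

theorem td_sep {L : IntermediateField ℚ ℂ} (hL : GoodL L) {P Q : M n} (h : P * Q = 1)
    {α : Fin n → ℂ} (hα : Function.Injective α) (hD : Ent (OO L) (P * diagonal α * Q))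
    (m : Fin n → ℤ) (hm : ∃ i j, m i ≠ m j) :
    ∃ u ∈ tdLam (OO L) h, ∏ i, u i ^ m i ≠ 1 := by
  obtain ⟨i0, j0, hij⟩ := hm
  have hn : (n : ℤ) ≠ 0 := by
    have := i0.pos
    omega
  have hm' : (fun i => (n : ℤ) * m i - ∑ j, m j) ≠ 0 := by
    intro e
    have e1 := congrFun e i0
    have e2 := congrFun e j0
    simp only [Pi.zero_apply] at e1 e2
    apply hij
    apply mul_left_cancel₀ hn
    linarith
  obtain ⟨c, hc, hc1, hc2⟩ := u1b hL hα (td_chi h hD) _ hm'
  set s : Fin n → ℂ := fun i => c.eval (α i) with hs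
  have hs0 : ∀ i, s i ≠ 0 := fun i => (hc1 i).1
  have hE : Ent (OO L) (P * diagonal s * Q) := td_eval_ent h hD hc
  have hd : (∏ i, s i) ∈ OO L := by
    rw [← td_det h]; exact td_ent_det hE
  have hd0 : (∏ i, s i) ≠ 0 := Finset.prod_ne_zero_iff.2 fun i _ => hs0 i
  have hdi : (∏ i, s i)⁻¹ ∈ OO L := by
    refine Subring.mem_inf.2 ⟨?_, ?_⟩
    · exact L.inv_mem (Subring.mem_inf.1 hd).1
    · rw [← Finset.prod_inv_distrib]
      exact Subring.prod_mem _ fun i _ => (hc1 i).2
  refine ⟨(∏ i, s i)⁻¹ • s ^ n, ⟨?_, ?_⟩, ?_⟩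
  · have : P * diagonal ((∏ i, s i)⁻¹ • s ^ n) * Q = (∏ i, s i)⁻¹ • (P * diagonal s * Q) ^ n := by
      change tdMap P Q _ = _
      rw [map_smul, ← td_pow h]
      rfl
    rw [this]
    exact td_ent_smul hdi (td_ent_pow hE n)
  · simp only [Pi.smul_apply, Pi.pow_apply, smul_eq_mul, Finset.prod_mul_distrib,
      Finset.prod_const, Finset.card_univ, Fintype.card_fin, Finset.prod_pow]
    rw [← mul_pow, inv_mul_cancel₀ hd0, one_pow]
  · intro e
    apply hc2
    rw [← e]
    have e1 : ∀ i, s i ^ ((n : ℤ) * m i - ∑ j, m j) =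
        (s i ^ n) ^ m i * (s i)⁻¹ ^ (∑ j, m j) := by
      intro i
      rw [zpow_sub₀ (hs0 i), _root_.zpow_mul, _root_.zpow_natCast, _root_.inv_zpow, div_eq_mul_inv]
    have e2 : ∀ (x : ℂ), x ≠ 0 → ∀ T : Finset (Fin n),
        x ^ (∑ j ∈ T, m j) = ∏ j ∈ T, x ^ m j := by
      intro x hx T
      induction T using Finset.induction_on with
      | empty => simp
      | insert a T ha ih => rw [Finset.sum_insert ha, Finset.prod_insert ha, zpow_add₀ hx, ih]
    change ∏ i, s i ^ ((n : ℤ) * m i - ∑ j, m j) = _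
    simp only [e1, Pi.smul_apply, Pi.pow_apply, smul_eq_mul, mul_zpow, Finset.prod_mul_distrib]
    rw [Finset.prod_zpow, Finset.prod_inv_distrib, e2 _ (inv_ne_zero hd0), mul_comm]

theorem td {L : IntermediateField ℚ ℂ} (hL : GoodL L) {D : M n} (hD : Ent (OO L) D)
    (hΔ : dl D ≠ 0) {C : M n} (hC : C * D = D * C) (h1 : C.det = 1) :
    C ∈ cl {u : M n | Ent (OO L) u ∧ u.det = 1 ∧ u * D = D * u} := by
  obtain ⟨P, Q, α, h, hα, rfl⟩ := dg2 hΔ
  have h' : Q * P = 1 := mul_eq_one_comm.1 h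
  have hN : (Q * C * P) * diagonal α = diagonal α * (Q * C * P) := by
    calc (Q * C * P) * diagonal α = Q * (C * (P * diagonal α * Q)) * P := by
          simp only [Matrix.mul_assoc, h', Matrix.mul_one]
      _ = Q * ((P * diagonal α * Q) * C) * P := by rw [hC]
      _ = (Q * P) * diagonal α * (Q * C * P) := by simp only [Matrix.mul_assoc]
      _ = _ := by rw [h', Matrix.one_mul]
  obtain ⟨t, ht⟩ : ∃ t : Fin n → ℂ, Q * C * P = diagonal t := ⟨_, td_diag hα hN⟩
  have hCt : C = P * diagonal t * Q := by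
    rw [← ht]
    calc C = (P * Q) * C * (P * Q) := by rw [h, Matrix.one_mul, Matrix.mul_one]
      _ = _ := by simp only [Matrix.mul_assoc]
  have ht1 : ∏ i, t i = 1 := by rw [← td_det h, ← hCt, h1]
  have hcl := u2 (tdLam (OO L) h) (fun u hu => hu.2) (td_sep hL h hα hD) t ht1
  rw [hCt]
  refine cl_map' (φ := fun t : Fin n → ℂ => P * diagonal t * Q) ?_ ?_ hcl
  · intro l
    exact Algebra.subset_adjoin ⟨l ∘ₗ tdMap P Q, rfl⟩
  · intro s hs
    refine subset_cl _ ⟨hs.1, ?_, ?_⟩
    · rw [td_det h]; exact hs.2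
    · rw [← td_mul h', ← td_mul h', mul_comm]

end Vale.Agent.P002
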