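import Vale.Agent.P002.Def3
import Vale.Agent.P002.AbN

open scoped Matrix.Norms.Operator Topology
open Matrix Filter

namespace Vale.Agent.P002

variable {g n : ℕ} {κ : Kd g n}

open Polynomial DirectSum in
theorem trik_cycR {R W : Type} [CommRing R] [AddCommGroup W] [Module R W] {ι : Type} [Fintype ι]
    (q : ι → R) (ψ : W ≃ₗ[R] ⨁ i : ι, R ⧸ R ∙ q i) :
    ∃ (e : ι → W →ₗ[R] W) (v : ι → W), (∀ i j, i ≠ j → e i (v j) = 0) ∧
      (∀ i, e i (v i) = v i) ∧ (∀ x, ∑ i, e i x = x) ∧ (∀ i x, ∃ p : R, e i x = p • v i) ∧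
      ∀ i, q i • v i = 0 := by
  classical
  refine ⟨fun i => ψ.symm.toLinearMap ∘ₗ lof R ι (fun i => R ⧸ R ∙ q i) i ∘ₗ
      component R ι (fun i => R ⧸ R ∙ q i) i ∘ₗ ψ.toLinearMap,
    fun i => ψ.symm (lof R ι (fun i => R ⧸ R ∙ q i) i (Submodule.Quotient.mk 1)),
    ?_, ?_, ?_, ?_, ?_⟩
  · intro i j hij
    simp only [LinearMap.comp_apply, LinearEquiv.coe_coe, LinearEquiv.apply_symm_apply]
    rw [component.of, dif_neg hij.symm, map_zero, map_zero]
  · intro i
    simp only [LinearMap.comp_apply, LinearEquiv.coe_coe, LinearEquiv.apply_symm_apply]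
    rw [component.lof_self]
  · intro x
    simp only [LinearMap.comp_apply, LinearEquiv.coe_coe]
    rw [← map_sum, LinearEquiv.symm_apply_eq]
    exact DirectSum.sum_univ_of (ψ x)
  · intro i x
    simp only [LinearMap.comp_apply, LinearEquiv.coe_coe]
    obtain ⟨p, hp⟩ := Submodule.Quotient.mk_surjective _
      (component R ι (fun i => R ⧸ R ∙ q i) i (ψ x))
    refine ⟨p, ?_⟩
    rw [← hp, ← map_smul, ← map_smul, ← Submodule.Quotient.mk_smul, smul_eq_mul, mul_one]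
  · intro i
    rw [← map_smul, ← map_smul, ← Submodule.Quotient.mk_smul, smul_eq_mul, mul_one,
      (Submodule.Quotient.mk_eq_zero _).2 (Submodule.mem_span_singleton_self _), map_zero,
      map_zero]

open Polynomial in
theorem trik_chain {W : Type} [AddCommGroup W] [Module ℂ W] [Module ℂ[X] W]
    [IsScalarTower ℂ ℂ[X] W] (y : ℂ[X]) (v : W) (k : ℕ) (h0 : y ^ k • v = 0)
    (h1 : ∀ j < k, y ^ j • v ≠ 0) (c : Fin k → ℂ) (h : ∑ j, c j • (y ^ (j : ℕ) • v) = 0) :
    ∀ j, c j = 0 := by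
  have key : ∀ m, ∀ j : Fin k, j.1 = m → c j = 0 := by
    intro m
    induction m using Nat.strong_induction_on with
    | _ m ih =>
      intro j hj
      have hk := j.2
      have h2 := congrArg (fun w => y ^ (k - 1 - m) • w) h
      simp only [Finset.smul_sum, smul_zero] at h2
      rw [Finset.sum_eq_single j ?_ (by simp), smul_comm, ← mul_smul, ← pow_add] at h2
      · exact (smul_eq_zero.1 h2).resolve_right (h1 _ (by omega))
      · intro j' _ hj'
        rcases lt_or_gt_of_ne (fun h => hj' (Fin.ext h) : j'.1 ≠ j.1) with h3 | h3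
        · rw [ih j' (by omega) j' rfl, zero_smul, smul_zero]
        · obtain ⟨r, hr⟩ : ∃ r, k - 1 - m + j' = r + k := ⟨k - 1 - m + j' - k, by omega⟩
          rw [smul_comm, ← mul_smul, ← pow_add, hr, pow_add, mul_smul, h0, smul_zero, smul_zero]
  exact fun j => key _ j rfl

open Polynomial in
theorem trik_basis {W : Type} [AddCommGroup W] [Module ℂ W] [Module ℂ[X] W]
    [IsScalarTower ℂ ℂ[X] W] {ι : Type} [Fintype ι] (e : ι → W →ₗ[ℂ[X]] W) (v : ι → W)
    (h1 : ∀ i j, i ≠ j → e i (v j) = 0) (h2 : ∀ i, e i (v i) = v i) (h3 : ∀ x, ∑ i, e i x = x)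
    (h4 : ∀ i x, ∃ p : ℂ[X], e i x = p • v i) (l : ι → ℂ)
    (h5 : ∀ i, ∃ k, (X - C (l i)) ^ k • v i = 0) :
    ∃ (σ : Type) (_ : Fintype σ) (b : Module.Basis σ ℂ W) (h : σ → ℤ), ∀ s, ∃ c : ℂ,
      (X : ℂ[X]) • b s = c • b s ∨ ∃ r, h r < h s ∧ (X : ℂ[X]) • b s = c • b s + b r := by
  classical
  obtain ⟨k, hk0, hk1⟩ : ∃ k : ι → ℕ, (∀ i, (X - C (l i)) ^ k i • v i = 0) ∧
      ∀ i, ∀ j < k i, (X - C (l i)) ^ j • v i ≠ 0 :=
    ⟨fun i => Nat.find (h5 i), fun i => Nat.find_spec (h5 i), fun i j hj => Nat.find_min (h5 i) hj⟩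
  let w : (Σ i, Fin (k i)) → W := fun s => (X - C (l s.1)) ^ (s.2 : ℕ) • v s.1
  have hli : LinearIndependent ℂ w := by
    rw [Fintype.linearIndependent_iff]
    rintro c hc ⟨i, j⟩
    refine trik_chain _ (v i) (k i) (hk0 i) (hk1 i) (fun j => c ⟨i, j⟩) ?_ j
    have h6 := congrArg (e i) hc
    rw [map_sum, map_zero, Fintype.sum_sigma, Finset.sum_eq_single i ?_ (by simp)] at h6
    · simpa only [w, LinearMap.map_smul_of_tower, map_smul, h2] using h6
    · intro i' _ hi'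
      refine Finset.sum_eq_zero fun j _ => ?_
      simp only [w, LinearMap.map_smul_of_tower, map_smul, h1 i i' hi'.symm, smul_zero]
  have hsp : ⊤ ≤ Submodule.span ℂ (Set.range w) := by
    intro x _
    rw [← h3 x]
    refine Submodule.sum_mem _ fun i _ => ?_
    obtain ⟨p, hp⟩ := h4 i x
    rw [hp, ← Polynomial.sum_taylor_eq p (l i), Polynomial.sum, Finset.sum_smul]
    refine Submodule.sum_mem _ fun j _ => ?_
    rw [← smul_eq_C_mul, smul_assoc]
    refine Submodule.smul_mem _ _ ?_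
    rcases lt_or_ge j (k i) with h | h
    · exact Submodule.subset_span ⟨⟨i, ⟨j, h⟩⟩, rfl⟩
    · obtain ⟨r, rfl⟩ := Nat.exists_eq_add_of_le' h
      rw [pow_add, mul_smul, hk0, smul_zero]
      exact Submodule.zero_mem _
  refine ⟨_, inferInstance, Module.Basis.mk hli hsp, fun s => -((s.2 : ℕ) : ℤ), ?_⟩
  rintro ⟨i, j⟩
  have h7 : (X : ℂ[X]) • w ⟨i, j⟩ = l i • w ⟨i, j⟩ + (X - C (l i)) ^ (j.1 + 1) • v i := by
    rw [pow_succ', mul_smul, sub_smul, ← algebraMap_smul ℂ[X] (l i), algebraMap_eq]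
    simp only [w]
    abel
  refine ⟨l i, ?_⟩
  simp only [Module.Basis.coe_mk]
  rcases Nat.lt_or_ge (j.1 + 1) (k i) with h | h
  · exact Or.inr ⟨⟨i, ⟨j + 1, h⟩⟩, by simp, h7⟩
  · have h8 : j.1 + 1 = k i := le_antisymm j.2 h
    rw [h8, hk0, add_zero] at h7
    exact Or.inl h7

open Polynomial in
theorem trik_end {V : Type} [AddCommGroup V] [Module ℂ V] [FiniteDimensional ℂ V]
    (f : V →ₗ[ℂ] V) : ∃ (σ : Type) (_ : Fintype σ) (b : Module.Basis σ ℂ V) (h : σ → ℤ),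
      ∀ s, ∃ c : ℂ, f (b s) = c • b s ∨ ∃ r, h r < h s ∧ f (b s) = c • b s + b r := by
  obtain ⟨ι, hι, p, hp, k, ⟨ψ⟩⟩ := Module.equiv_directSum_of_isTorsion
    (Module.AEval.isTorsion_of_finiteDimensional ℂ V f)
  obtain ⟨e, v, h1, h2, h3, h4, h5⟩ := trik_cycR (fun i => p i ^ k i) ψ
  have h6 : ∀ i, ∃ l : ℂ, p i ∣ X - C l := fun i => by
    obtain ⟨l, hl⟩ := IsAlgClosed.exists_root (p i) (degree_pos_of_irreducible (hp i)).ne'
    exact ⟨l, (irreducible_X_sub_C l).dvd_symm (hp i) (dvd_iff_isRoot.2 hl)⟩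
  choose l hl using h6
  obtain ⟨σ, hσ, b, h, hb⟩ := trik_basis e v h1 h2 h3 h4 l fun i => ⟨k i, by
    obtain ⟨r, hr⟩ := pow_dvd_pow_of_dvd (hl i) (k i)
    rw [hr, mul_comm, mul_smul, h5, smul_zero]⟩
  let o := Module.AEval'.of f
  refine ⟨σ, hσ, b.map o.symm, h, fun s => ?_⟩
  obtain ⟨c, hc⟩ := hb s
  have h7 : f (o.symm (b s)) = o.symm ((X : ℂ[X]) • b s) :=
    (Module.AEval'.of_symm_X_smul f (b s)).symm
  refine ⟨c, ?_⟩
  simp only [Module.Basis.map_apply, h7]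
  rcases hc with hc | ⟨r, hr, hc⟩
  · exact Or.inl (by rw [hc, map_smul])
  · exact Or.inr ⟨r, hr, by rw [hc, map_add, map_smul]⟩

theorem trik_jordan (J : M n) : ∃ P P' : M n, P * P' = 1 ∧ (P * J * P').BlockTriangular id ∧
    ∀ a b, a ≠ b → (P * J * P') a b = 0 ∨ (P * J * P') a b = 1 := by
  classical
  obtain ⟨σ, hσ, b, h, hb⟩ := trik_end (Matrix.toLin' J)
  have hc : Fintype.card σ = n := by
    rw [← Module.finrank_eq_card_basis b]
    simp
  let e0 : Fin n ≃ σ := (Fintype.equivFinOfCardEq hc).symm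
  let e : Fin n ≃ σ := (Tuple.sort (h ∘ e0)).trans e0
  have hm : Monotone (h ∘ e) := Tuple.monotone_sort (h ∘ e0)
  let b' := b.reindex e.symm
  let s := Pi.basisFun ℂ (Fin n)
  have hT : b'.toMatrix s * J * s.toMatrix b' = LinearMap.toMatrix b' b' (Matrix.toLin' J) := by
    rw [← basis_toMatrix_mul_linearMap_toMatrix_mul_basis_toMatrix b' s b' s,
      LinearMap.toMatrix_eq_toMatrix', LinearMap.toMatrix'_toLin']
  have key : ∀ x y, x ≠ y → (b'.toMatrix s * J * s.toMatrix b') x y = 0 ∨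
      (h (e x) < h (e y) ∧ (b'.toMatrix s * J * s.toMatrix b') x y = 1) := by
    intro x y hxy
    have hxy' : e y ≠ e x := fun h => hxy (e.injective h).symm
    rw [hT, LinearMap.toMatrix_apply]
    simp only [b', Module.Basis.repr_reindex_apply, Module.Basis.reindex_apply, Equiv.symm_symm]
    obtain ⟨c, hc | ⟨r, hr, hc⟩⟩ := hb (e y)
    · left
      rw [hc]
      simp [Finsupp.single_apply, hxy']
    · rw [hc]
      by_cases h1 : r = e x
      · right
        subst h1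
        exact ⟨hr, by simp [Finsupp.single_apply, hxy']⟩
      · left
        simp [Finsupp.single_apply, hxy', h1]
  refine ⟨b'.toMatrix s, s.toMatrix b', Module.Basis.toMatrix_mul_toMatrix_flip _ _,
    fun x y hxy => ?_, fun x y hxy => (key x y hxy).imp id And.right⟩
  have hxy' : y < x := hxy
  exact (key x y hxy'.ne').resolve_right fun h1 => absurd (hm hxy'.le) (not_le.2 h1.1)

theorem tri {L : IntermediateField ℚ ℂ} {N : ℕ} (hN : 0 < N) (hL : Roots L N) {J : M n}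
    (hd : J.det = 1) (hJ : ∀ μ, J.charpoly.IsRoot μ → μ ^ N = 1) :
    ∃ P P' : M n, P * P' = 1 ∧ Tri L N (P * J * P') := by
  obtain ⟨P, P', h1, h2, h3⟩ := trik_jordan J
  have h4 : (P * J * P').charpoly = J.charpoly := by
    rw [charpoly_mul_comm, ← mul_assoc, mul_eq_one_comm.1 h1, one_mul]
  have h5 : ∀ i, (P * J * P') i i ^ N = 1 := fun i => by
    refine hJ _ ?_
    rw [← h4, charpoly_of_upperTriangular _ h2, Polynomial.isRoot_prod]
    exact ⟨i, Finset.mem_univ i, by simp⟩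
  refine ⟨P, P', h1, fun a b => ?_, h2, ?_, h5⟩
  · by_cases hab : a = b
    · subst hab
      obtain ⟨ω, hω, hp⟩ := hL N hN le_rfl
      haveI : NeZero N := ⟨hN.ne'⟩
      obtain ⟨i, -, hi⟩ := hp.eq_pow_of_pow_eq_one (h5 a)
      rw [← hi]
      exact pow_mem (show ω ∈ OO L from ⟨hω, hp.isIntegral hN⟩) i
    · rcases h3 a b hab with h | h <;> rw [h]
      exacts [zero_mem _, one_mem _]
  · rw [det_mul, det_mul, hd, mul_one, ← det_mul, h1, det_one]

end Vale.Agent.P002
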