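import Vale.Agent.P002.MainK
import Vale.Agent.P002.BaseZ
import Vale.Agent.P002.TriK
import Vale.Agent.P002.Unit
import Vale.Agent.P002.StmtK

open scoped Matrix.Norms.Operator Topology
open Matrix Filter

namespace Vale.Agent.P002

variable {g s n : ℕ} (J : Fin s → SpecialLinearGroup (Fin n) ℂ)

abbrev kJ (g : ℕ) : Kd (g + s) n := kap g fun i => (J i).1

def mkSL (A : M n) (h : A.det = 1) : SpecialLinearGroup (Fin n) ℂ := ⟨A, h⟩

@[simp] theorem mkSL_val (A : M n) (h : A.det = 1) : (mkSL A h).1 = A := rfl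

def genK' (x : E (g + s) n) (h : ∀ j, (x j).1.det = 1 ∧ (x j).2.det = 1) :
    (Fin g × Bool) ⊕ Fin s → SpecialLinearGroup (Fin n) ℂ
  | Sum.inl (i, false) => mkSL (x (Fin.castAdd s i)).1 (h _).1
  | Sum.inl (i, true) => mkSL (x (Fin.castAdd s i)).2 (h _).2
  | Sum.inr i => mkSL (x (Fin.natAdd g i)).1 (h _).1 * J i * (mkSL (x (Fin.natAdd g i)).1 (h _).1)⁻¹

theorem lift_relK (x : E (g + s) n) (h : ∀ j, (x j).1.det = 1 ∧ (x j).2.det = 1) :
    (FreeGroup.lift (genK' J x h) (relK g s)).1 = pk (kJ J g) x (g + s) := by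
  have e : ∀ u : SpecialLinearGroup (Fin n) ℂ,
      u.1 = SpecialLinearGroup.coeMonoidHom u := fun _ => rfl
  rw [e, relK, map_mul, map_mul, map_list_prod, map_list_prod, map_list_prod, map_list_prod,
    pk_kap, List.map_map, List.map_ofFn, List.map_map, List.map_ofFn]
  congr 3
  · funext j
    simp [cm, genK']
  · funext j
    simp [genK']

noncomputable def repOf (x : E (g + s) n) (hx : x ∈ RK (kJ J g)) : RepK g s n :=
  PresentedGroup.toGroup (f := genK' J x hx.1) (by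
    rintro r rfl
    exact Subtype.ext ((lift_relK J x hx.1).trans hx.2))

theorem repOf_of (x : E (g + s) n) (hx : x ∈ RK (kJ J g)) (t : (Fin g × Bool) ⊕ Fin s) :
    repOf J x hx (PresentedGroup.of t) = genK' J x hx.1 t := PresentedGroup.toGroup.of _

theorem repOf_bdry (x : E (g + s) n) (hx : x ∈ RK (kJ J g)) : Bdry J (repOf J x hx) := fun i => by
  rw [repOf_of]
  exact isConj_iff.2 ⟨_, rfl⟩

theorem exists_repOf {ρ : RepK g s n} (h : Bdry J ρ) : ∃ x hx, repOf J x hx = ρ := by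
  choose u hu using fun i => isConj_iff.1 (h i)
  let x : E (g + s) n := fun j => Fin.addCases (fun i =>
    ((ρ (PresentedGroup.of (Sum.inl (i, false)))).1, (ρ (PresentedGroup.of (Sum.inl (i, true)))).1))
    (fun i => ((u i).1, 1)) j
  have hd : ∀ j, (x j).1.det = 1 ∧ (x j).2.det = 1 := fun j => by
    refine Fin.addCases (fun i => ?_) (fun i => ?_) j
    · simp only [x, Fin.addCases_left]
      exact ⟨(ρ _).2, (ρ _).2⟩
    · simp only [x, Fin.addCases_right]
      exact ⟨(u i).2, det_one⟩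
  have hg : genK' J x hd = fun t => ρ (PresentedGroup.of t) := by
    funext t
    rcases t with ⟨i, _ | _⟩ | i
    · exact Subtype.ext (by simp [genK', x])
    · exact Subtype.ext (by simp [genK', x])
    · rw [← hu i]
      exact Subtype.ext (by simp [genK', x])
  have h2 : FreeGroup.lift (fun t => ρ (PresentedGroup.of t)) =
      ρ.comp (PresentedGroup.mk {relK g s}) := by
    ext t : 1
    simp only [FreeGroup.lift_apply_of, MonoidHom.comp_apply]
    rfl
  have hx : x ∈ RK (kJ J g) := ⟨hd, by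
    rw [← lift_relK J x hd, hg, h2, MonoidHom.comp_apply,
      PresentedGroup.one_of_mem (Set.mem_singleton _), map_one]
    rfl⟩
  exact ⟨x, hx, PresentedGroup.ext fun t => (repOf_of J x hx t).trans (congrFun hg t)⟩

/-- matrix entries of group elements are polynomial -/
theorem word_mp {V : Type} {A : Subring (V → ℂ)} (hJ : ∀ i, MP A fun _ => (J i).1)
    {x : V → E (g + s) n} (hx : EP A x) (γ : PresentedGroup {relK g s}) :
    ∃ u : V → M n, MP A u ∧ ∀ v h, (repOf J (x v) h γ).1 = u v := by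
  let K : Subgroup (PresentedGroup {relK g s}) :=
    { carrier := {γ | ∃ u : V → M n, MP A u ∧ ∀ v h, (repOf J (x v) h γ).1 = u v}
      mul_mem' := by
        rintro a b ⟨u, hu, h1⟩ ⟨w, hw, h2⟩
        exact ⟨_, hu.mul hw, fun v h => by rw [map_mul, ← h1 v h, ← h2 v h]; rfl⟩
      one_mem' := ⟨_, MP.one, fun v h => by rw [map_one]; rfl⟩
      inv_mem' := by
        rintro a ⟨u, hu, h1⟩
        exact ⟨_, hu.adj, fun v h => by rw [map_inv, ← h1 v h]; rfl⟩ }
  refine PresentedGroup.generated_by _ K ?_ γ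
  rintro (⟨i, _ | _⟩ | i)
  · exact ⟨_, (hx (Fin.castAdd s i)).1, fun v h => by rw [repOf_of]; rfl⟩
  · exact ⟨_, (hx (Fin.castAdd s i)).2, fun v h => by rw [repOf_of]; rfl⟩
  · exact ⟨_, ((hx (Fin.natAdd g i)).1.mul (hJ i)).mul (hx (Fin.natAdd g i)).1.adj,
      fun v h => by rw [repOf_of]; rfl⟩

theorem word_pol (γ : PresentedGroup {relK g s}) : ∃ u : E (g + s) n → M n,
    MP (Pol (E (g + s) n)).toSubring u ∧ ∀ x h, (repOf J x h γ).1 = u x :=
  word_mp J (fun _ _ _ => (Pol _).algebraMap_mem _) (ep_lin LinearMap.id) γ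

theorem eval_pol (f : MvPolynomial (((Fin g × Bool) ⊕ Fin s) × Fin n × Fin n) ℂ) :
    ∃ F ∈ Pol (E (g + s) n), ∀ x h, MvPolynomial.eval (evK (repOf J x h)) f = F x := by
  induction f using MvPolynomial.induction_on with
  | C a => exact ⟨_, (Pol _).algebraMap_mem a, fun x h => by simp⟩
  | add p q hp hq =>
    obtain ⟨F, hF, h1⟩ := hp
    obtain ⟨G, hG, h2⟩ := hq
    exact ⟨F + G, add_mem hF hG, fun x h => by rw [map_add, h1, h2]; rfl⟩
  | mul_X p t hp =>
    obtain ⟨F, hF, h1⟩ := hp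
    obtain ⟨u, hu, h2⟩ := word_pol J (PresentedGroup.of t.1)
    exact ⟨_, mul_mem hF (hu t.2.1 t.2.2), fun x h => by
      rw [map_mul, h1, MvPolynomial.eval_X, evK, h2]; rfl⟩

theorem irred_pol {x : E (g + s) n} {hx : x ∈ RK (kJ J g)} (h : Irred (repOf J x hx)) :
    ∃ H ∈ Pol (E (g + s) n), H x ≠ 0 ∧ ∀ y hy, H y ≠ 0 → Irred (repOf J y hy) := by
  choose u hu hu' using fun γ => word_pol (g := g) J γ
  let b := Module.Basis.ofSpan (K := ℂ) h.ge
  have hb : ∀ i, ∃ γ, (repOf J x hx γ).1 = b i := fun i => Module.Basis.ofSpan_subset h.ge ⟨i, rfl⟩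
  choose γ hγ using hb
  haveI := FiniteDimensional.fintypeBasisIndex b
  classical
  refine ⟨fun y => b.det fun i => u (γ i) y, ?_, ?_, fun y hy hH => ?_⟩
  · simp only [Module.Basis.det_apply, det_apply', Module.Basis.toMatrix_apply]
    exact sum_fn_mem (A := (Pol _).toSubring) _ fun σ _ => mul_mem (intCast_mem _ _)
      (prod_fn_mem _ fun i _ => (hu (γ i)).lin (b.coord (σ i)))
  · have : (fun i => u (γ i) x) = b := funext fun i => (hu' _ x hx).symm.trans (hγ i)
    simp only [this, Module.Basis.det_self]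
    exact one_ne_zero
  · have := ((b.is_basis_iff_det (v := fun i => u (γ i) y)).2 (IsUnit.mk0 _ hH)).2
    refine eq_top_iff.2 (this.ge.trans (Submodule.span_mono ?_))
    rintro _ ⟨i, rfl⟩
    exact ⟨γ i, hu' _ y hy⟩

theorem irred_sch {x : E (g + s) n} {hx : x ∈ RK (kJ J g)} (h : Irred (repOf J x hx)) :
    SchK (kJ J g) x := by
  intro ξ hξ
  let K : Subgroup (SpecialLinearGroup (Fin n) ℂ) :=
    { carrier := {u | ξ * u.1 = u.1 * ξ}
      mul_mem' := fun {a b} ha hb => (Commute.mul_right ha hb :)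
      one_mem' := (Commute.one_right ξ :)
      inv_mem' := fun {a} ha => by
        have e1 : (a⁻¹).1 * a.1 = 1 := congrArg Subtype.val (inv_mul_cancel a)
        have e2 : a.1 * (a⁻¹).1 = 1 := congrArg Subtype.val (mul_inv_cancel a)
        have ha' : ξ * a.1 = a.1 * ξ := ha
        show ξ * (a⁻¹).1 = (a⁻¹).1 * ξ
        calc ξ * (a⁻¹).1 = (a⁻¹).1 * a.1 * ξ * (a⁻¹).1 := by rw [e1, one_mul]
          _ = (a⁻¹).1 * (ξ * a.1) * (a⁻¹).1 := by rw [ha', mul_assoc (a⁻¹).1]
          _ = (a⁻¹).1 * ξ := by rw [mul_assoc, mul_assoc, e2, mul_one] }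
  have h1 : ∀ γ, γ ∈ K.comap (repOf J x hx) := PresentedGroup.generated_by _ _ (by
    rintro (⟨i, _ | _⟩ | i)
    · have := hξ (Fin.castAdd s i)
      simp only [kap, Fin.addCases_left] at this
      rw [Subgroup.mem_comap, repOf_of]
      exact this.1
    · have := hξ (Fin.castAdd s i)
      simp only [kap, Fin.addCases_left] at this
      rw [Subgroup.mem_comap, repOf_of]
      exact this.2
    · have := hξ (Fin.natAdd g i)
      simp only [kap, Fin.addCases_right] at this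
      rw [Subgroup.mem_comap, repOf_of]
      exact this)
  have h2 : ∀ m : M n, ξ * m = m * ξ := fun m => by
    have hm : m ∈ Submodule.span ℂ (Set.range fun γ => (repOf J x hx γ).1) := h ▸ Submodule.mem_top
    induction hm using Submodule.span_induction with
    | mem m hm =>
      obtain ⟨γ, rfl⟩ := hm
      exact h1 γ
    | zero => simp
    | add a b _ _ ha hb => rw [mul_add, add_mul, ha, hb]
    | smul c a _ ha => rw [Matrix.mul_smul, Matrix.smul_mul, ha]
  obtain ⟨c, hc⟩ := Matrix.mem_range_scalar_of_commute_single (M := ξ) fun i j _ => (h2 _).symm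
  exact ⟨c, by rw [← hc, scalar_apply, smul_one_eq_diagonal]⟩

theorem kJ_some {j : Fin (g + s)} {c : M n} (h : kJ J g j = some c) : ∃ i, c = (J i).1 := by
  revert h
  refine Fin.addCases (fun i h => ?_) (fun i h => ?_) j
  · simp [kap] at h
  · simp only [kap, Fin.addCases_right, Option.some.injEq] at h
    exact ⟨i, h.symm⟩

theorem coreK (hn : 3 ≤ n) (hg : 4 ≤ g) {L : IntermediateField ℚ ℂ} (hL : GoodL L)
    (hR : ∃ ω ∈ L, IsPrimitiveRoot ω n) (hJ : ∀ i, Ent (OO L) (J i).1)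
    (hz : ∃ z ∈ SK L (kJ J g), ∀ j : Fin (g + s), j.1 < 2 → z j = (1, 1)) {ρ : RepK g s n}
    (hb : Bdry J ρ) (hi : Irred ρ)
    (f : MvPolynomial (((Fin g × Bool) ⊕ Fin s) × Fin n × Fin n) ℂ)
    (hf : ∀ σ : RepK g s n, IntegralK L σ → Bdry J σ → Irred σ →
      MvPolynomial.eval (evK σ) f = 0) : MvPolynomial.eval (evK ρ) f = 0 := by
  obtain ⟨x, hx, rfl⟩ := exists_repOf J hb
  obtain ⟨z, hz, hz'⟩ := hz
  obtain ⟨F, hF, h1⟩ := eval_pol J f
  obtain ⟨H, hH, h2, h3⟩ := irred_pol J hi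
  have hT : Two (kJ J g) (Fin.castAdd s ⟨0, by omega⟩) (Fin.castAdd s ⟨1, by omega⟩) :=
    ⟨rfl, rfl, Fin.addCases_left _, Fin.addCases_left _, fun j c h => by
      obtain ⟨i, rfl⟩ := kJ_some J h
      exact (J i).2⟩
  have key := dense_schK hT hn hL (fun j c h => by
    obtain ⟨i, rfl⟩ := kJ_some J h
    exact hJ i) hR hz (hz' _ (by simp)) (hz' _ (by simp)) hx (irred_sch J hi) (F * H)
    (mul_mem hF hH) fun y hy => by
      by_cases h : H y = 0
      · simp [h]
      rw [Pi.mul_apply, ← h1 y hy.1, hf _ (fun γ i j => ?_) (repOf_bdry J y hy.1) (h3 y hy.1 h),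
        zero_mul]
      obtain ⟨u, hu, e⟩ := word_mp J (V := Unit)
        (A := (OO L).comap (Pi.evalRingHom (fun _ : Unit => ℂ) ())) (x := fun _ => y)
        (fun i => (mp_unit _ _).2 (hJ i))
        (fun j => ⟨(mp_unit _ _).2 (hy.2 j).1, (mp_unit _ _).2 (hy.2 j).2⟩) γ
      rw [e () hy.1]
      exact hu i j
  rw [h1]
  exact (mul_eq_zero.1 key).resolve_right h2

theorem tri_SL {L : IntermediateField ℚ ℂ} {N : ℕ} (hn : 0 < n) (hN : 0 < N) (hL : Roots L N)
    (c : SpecialLinearGroup (Fin n) ℂ) (hc : ∀ μ, c.1.charpoly.IsRoot μ → μ ^ N = 1) :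
    ∃ c' : SpecialLinearGroup (Fin n) ℂ, IsConj c c' ∧ Tri L N c'.1 := by
  obtain ⟨P, Q, hPQ, hT⟩ := tri hN hL c.2 hc
  have hd : P.det ≠ 0 := fun h => by simpa [h] using congrArg det hPQ
  obtain ⟨t, ht⟩ := IsAlgClosed.exists_pow_nat_eq P.det hn
  have hc0 : t ≠ 0 := by
    rintro rfl
    exact hd (by rw [← ht, zero_pow hn.ne'])
  let u : SpecialLinearGroup (Fin n) ℂ := ⟨t⁻¹ • P, by
    rw [det_smul, Fintype.card_fin, inv_pow, ht, inv_mul_cancel₀ hd]⟩
  have hu : (u⁻¹).1 = t • Q := by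
    have e1 : (u⁻¹).1 * u.1 = 1 := congrArg Subtype.val (inv_mul_cancel u)
    have e2 : u.1 * (t • Q) = 1 := by
      show (t⁻¹ • P) * (t • Q) = 1
      rw [Matrix.smul_mul, Matrix.mul_smul, smul_smul, inv_mul_cancel₀ hc0, one_smul, hPQ]
    calc (u⁻¹).1 = (u⁻¹).1 * (u.1 * (t • Q)) := by rw [e2, mul_one]
      _ = t • Q := by rw [← mul_assoc, e1, one_mul]
  have key : (u * c * u⁻¹).1 = P * c.1 * Q := by
    show (t⁻¹ • P) * c.1 * (u⁻¹).1 = _
    rw [hu, Matrix.smul_mul, Matrix.smul_mul, Matrix.mul_smul, smul_smul, inv_mul_cancel₀ hc0,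
      one_smul]
  exact ⟨u * c * u⁻¹, isConj_iff.2 ⟨u, rfl⟩, key ▸ hT⟩

theorem finalK (n N : ℕ) (hn : 3 ≤ n) (hN : 0 < N) :
    ∃ L : IntermediateField ℚ ℂ, FiniteDimensional ℚ L ∧ ∀ g s : ℕ, 4 ≤ g →
      ∀ J : Fin s → SpecialLinearGroup (Fin n) ℂ,
        (∀ i μ, (J i).1.charpoly.IsRoot μ → μ ^ N = 1) → ∀ ρ : RepK g s n, Bdry J ρ → Irred ρ →
        ∀ f : MvPolynomial (((Fin g × Bool) ⊕ Fin s) × Fin n × Fin n) ℂ,
          (∀ σ : RepK g s n, IntegralK L σ → Bdry J σ → Irred σ →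
            MvPolynomial.eval (evK σ) f = 0) → MvPolynomial.eval (evK ρ) f = 0 := by
  obtain ⟨K, hK⟩ := baseZ (n := n) hN (by omega)
  obtain ⟨L, hL, hR⟩ := exists_L (K + N + n)
  have hR' : ∀ m ≤ K + N + n, Roots L m := fun m hm k h1 h2 => hR k h1 (h2.trans hm)
  refine ⟨L, hL.1, fun g s hg J hJ ρ hb hi f hf => ?_⟩
  choose J' h1 h2 using fun i => tri_SL (by omega) hN (hR' N (by omega)) (J i) (hJ i)
  exact coreK J' hn hg hL (hR n (by omega) (by omega)) (fun i => (h2 i).1)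
    (hK L (hR' K (by omega)) g s hg _ h2) (fun i => (h1 i).symm.trans (hb i)) hi f
    fun σ a b c => hf σ a (fun i => (h1 i).trans (b i)) c

end Vale.Agent.P002
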