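import Vale.Agent.P002.U1a

open scoped Matrix.Norms.Operator Topology
open Matrix Filter

namespace Vale.Agent.P002

variable {g n : ℕ}

open NumberField in
theorem u1b_pow {K : Type} [Field K] [NumberField K] (v : (𝓞 K)ˣ) {N : ℤ} (hN : N ≠ 0) :
    ∃ k : ℕ, 0 < k ∧ ∃ x : 𝓞 K, ((v ^ k : (𝓞 K)ˣ) : 𝓞 K) = 1 + N • x := by
  have hI : Ideal.span {(N : 𝓞 K)} ≠ ⊥ := by
    rw [Ne, Ideal.span_singleton_eq_bot]
    exact_mod_cast hN
  have := Ideal.finiteQuotientOfFreeOfNeBot _ hI
  obtain ⟨k, hk, h⟩ := (isOfFinOrder_of_finite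
    (Units.map (Ideal.Quotient.mk (Ideal.span {(N : 𝓞 K)})).toMonoidHom v)).exists_pow_eq_one
  refine ⟨k, hk, ?_⟩
  have h1 : Ideal.Quotient.mk (Ideal.span {(N : 𝓞 K)}) ((v ^ k : (𝓞 K)ˣ) : 𝓞 K) =
      Ideal.Quotient.mk _ 1 := by
    have := congrArg Units.val h
    simpa using this
  obtain ⟨x, hx⟩ := Ideal.mem_span_singleton'.1 (Ideal.Quotient.eq.1 h1)
  exact ⟨x, by rw [zsmul_eq_mul]; linear_combination -hx⟩

open NumberField in
theorem u1b_unif {K : Type} [Field K] [NumberField K] (S : Submodule ℤ K)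
    (h : ∀ x, ∃ N : ℤ, N ≠ 0 ∧ N • x ∈ S) : ∃ N : ℤ, N ≠ 0 ∧ ∀ x : 𝓞 K, N • (x : K) ∈ S := by
  classical
  obtain ⟨k, w, hw⟩ := Module.Finite.exists_fin (R := ℤ) (M := 𝓞 K)
  choose c hc0 hc using fun i => h (w i)
  refine ⟨∏ i, c i, Finset.prod_ne_zero_iff.2 fun i _ => hc0 i, fun x => ?_⟩
  have hx : x ∈ Submodule.span ℤ (Set.range w) := by rw [hw]; trivial
  induction hx using Submodule.span_induction with
  | mem x hx =>
    obtain ⟨i, rfl⟩ := hx
    rw [← Finset.prod_erase_mul _ _ (Finset.mem_univ i), mul_smul]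
    exact S.smul_mem _ (hc i)
  | zero => simp
  | add x y _ _ hx hy =>
    have : ((x + y : 𝓞 K) : K) = x + y := rfl
    rw [this, smul_add]; exact add_mem hx hy
  | smul r x _ hx =>
    have : ((r • x : 𝓞 K) : K) = r • (x : K) := rfl
    rw [this, smul_comm]; exact S.smul_mem _ hx

open NumberField Polynomial in
theorem u1b_den {L : IntermediateField ℚ ℂ} [NumberField L] (p : L[X]) :
    ∃ N : ℤ, N ≠ 0 ∧ ∀ k, (N • p.map (algebraMap L ℂ)).coeff k ∈ OO L := by
  classical
  obtain ⟨N, hN, h⟩ := exists_integral_multiples ℤ ℚ (L := L) (p.support.image p.coeff)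
  refine ⟨N, hN, fun k => ?_⟩
  have e : (N • p.map (algebraMap L ℂ)).coeff k = algebraMap L ℂ (N • p.coeff k) := by
    rw [coeff_smul, coeff_map, map_zsmul]
  rw [e]
  refine ⟨(N • p.coeff k).2, ?_⟩
  by_cases hk : k ∈ p.support
  · exact (h _ (Finset.mem_image_of_mem _ hk)).map (algebraMap L ℂ).toIntAlgHom
  · rw [notMem_support_iff.1 hk, smul_zero, map_zero]
    exact Subring.zero_mem _

open Polynomial in
theorem u1b {L : IntermediateField ℚ ℂ} (hL : GoodL L) {α : Fin n → ℂ}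
    (hα : Function.Injective α) (hχ : ∀ k, (∏ i, (X - C (α i))).coeff k ∈ OO L)
    (m : Fin n → ℤ) (hm : m ≠ 0) :
    ∃ c : ℂ[X], (∀ k, c.coeff k ∈ OO L) ∧
      (∀ i, c.eval (α i) ≠ 0 ∧ IsIntegral ℤ (c.eval (α i))⁻¹) ∧
      ∏ i, c.eval (α i) ^ m i ≠ 1 := by
  classical
  obtain ⟨hfd, ⟨z, hz, hzc⟩, h3⟩ := hL
  have : NumberField L := { to_finiteDimensional := hfd }
  obtain ⟨i0, hi0⟩ := Function.ne_iff.1 hm
  obtain ⟨q, hq⟩ : ∃ q : L[X], q.map (algebraMap L ℂ) = ∏ i, (X - C (α i)) :=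
    (mem_lifts _).1 ((lifts_iff_coeff_lifts _).2 fun k => ⟨⟨_, (hχ k).1⟩, rfl⟩)
  have hsep : (q.map (algebraMap L ℂ)).Separable := hq ▸ separable_prod_X_sub_C_iff.2 hα
  have hq0 : q ≠ 0 := by
    rintro rfl
    rw [Polynomial.map_zero] at hsep
    exact not_separable_zero hsep
  have hroot : ∀ i, q.eval₂ (algebraMap L ℂ) (α i) = 0 := fun i => by
    rw [eval₂_eq_eval_map, hq, eval_prod]
    exact Finset.prod_eq_zero (Finset.mem_univ i) (by simp)
  have hint : IsIntegral L (α i0) := IsAlgebraic.isIntegral ⟨q, hq0, hroot i0⟩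
  obtain ⟨h, hh⟩ : ∃ h, h = minpoly L (α i0) := ⟨_, rfl⟩
  have hirr : Irreducible h := hh ▸ minpoly.irreducible hint
  have : Fact (Irreducible h) := ⟨hirr⟩
  have h0 : h.eval₂ (algebraMap L ℂ) (α i0) = 0 := hh ▸ minpoly.aeval L (α i0)
  obtain ⟨r, hr⟩ : h ∣ q := hh ▸ minpoly.dvd L (α i0) (hroot i0)
  have hr0 : r.eval₂ (algebraMap L ℂ) (α i0) ≠ 0 := by
    intro e
    rw [hr, Polynomial.map_mul] at hsep
    obtain ⟨a, b, hab⟩ := hsep.isCoprime
    have := congrArg (eval (α i0)) hab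
    rw [eval_add, eval_mul, eval_mul, ← eval₂_eq_eval_map, ← eval₂_eq_eval_map, h0, e] at this
    simp at this
  have : Module.Finite L (AdjoinRoot h) := (AdjoinRoot.powerBasis hirr.ne_zero).finite
  have : NumberField (AdjoinRoot h) := NumberField.of_module_finite L _
  let J := {i // h.eval₂ (algebraMap L ℂ) (α i) = 0}
  let σ : J → (AdjoinRoot h →+* ℂ) := fun i => AdjoinRoot.lift (algebraMap L ℂ) (α i) i.2
  have hσ : Function.Injective fun i => NumberField.InfinitePlace.mk (σ i) := by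
    intro i j e
    rcases NumberField.InfinitePlace.mk_eq_iff.1 e with e | e
    · have := RingHom.congr_fun e (AdjoinRoot.root h)
      simp only [σ, AdjoinRoot.lift_root] at this
      exact Subtype.ext (hα this)
    · have := RingHom.congr_fun e (AdjoinRoot.of h ⟨z, hz⟩)
      simp only [σ, NumberField.ComplexEmbedding.conjugate_coe_eq, AdjoinRoot.lift_of] at this
      exact absurd this hzc
  have hJ : Fintype.card J ≤ h.natDegree := by
    have hm0 : h.map (algebraMap L ℂ) ≠ 0 := Polynomial.map_ne_zero hirr.ne_zero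
    rw [← natDegree_map (algebraMap L ℂ), ← Finset.card_univ,
      ← Finset.card_image_of_injective (f := fun i : J => α i) _
        (hα.comp Subtype.val_injective)]
    refine card_le_degree_of_subset_roots fun x hx => ?_
    obtain ⟨i, -, rfl⟩ := Finset.mem_image.1 (Finset.mem_def.2 hx)
    rw [mem_roots hm0, IsRoot, ← eval₂_eq_eval_map]
    exact i.2
  have hw : ∃ w : NumberField.InfinitePlace (AdjoinRoot h),
      ∀ i, w ≠ NumberField.InfinitePlace.mk (σ i) := by
    by_contra hno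
    push Not at hno
    have c1 := Fintype.card_le_of_surjective (fun i => NumberField.InfinitePlace.mk (σ i))
      fun w => (hno w).imp fun _ e => e.symm
    have c2 := NumberField.InfinitePlace.sum_mult_eq (K := AdjoinRoot h)
    have c3 := Finset.sum_le_card_nsmul Finset.univ
      (fun w : NumberField.InfinitePlace (AdjoinRoot h) => w.mult) 2 fun w _ => by
        unfold NumberField.InfinitePlace.mult
        split_ifs <;> norm_num
    have c4 := Module.finrank_mul_finrank ℚ L (AdjoinRoot h)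
    have c5 : Module.finrank L (AdjoinRoot h) = h.natDegree :=
      (AdjoinRoot.powerBasis hirr.ne_zero).finrank.trans (AdjoinRoot.powerBasis_dim _)
    have c6 := hirr.natDegree_pos
    rw [c2, ← c4, c5, Finset.card_univ, smul_eq_mul] at c3
    have c7 := Nat.mul_le_mul_right h.natDegree h3
    omega
  obtain ⟨v, hv⟩ := u1a σ hσ hw (fun i => m i) (Function.ne_iff.2 ⟨⟨i0, h0⟩, hi0⟩)
  let Φ : AdjoinRoot h → Fin n → ℂ := fun x i =>
    if hi : h.eval₂ (algebraMap L ℂ) (α i) = 0 then σ ⟨i, hi⟩ x else 0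
  have Φs : ∀ (N : ℤ) x i, Φ (N • x) i = N • Φ x i := fun N x i => by
    simp only [Φ]
    split_ifs
    · rw [map_zsmul]
    · rw [smul_zero]
  let S : Submodule ℤ (AdjoinRoot h) :=
    { carrier := {x | ∃ c : ℂ[X], (∀ k, c.coeff k ∈ OO L) ∧ ∀ i, c.eval (α i) = Φ x i}
      add_mem' := by
        rintro x y ⟨c, c1, c2⟩ ⟨d, d1, d2⟩
        refine ⟨c + d, fun k => coeff_add c d k ▸ add_mem (c1 k) (d1 k), fun i => ?_⟩
        rw [eval_add, c2, d2]
        simp only [Φ]
        split_ifs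
        · rw [map_add]
        · rw [add_zero]
      zero_mem' := ⟨0, fun k => Subring.zero_mem _, fun i => by simp [Φ]⟩
      smul_mem' := by
        rintro N x ⟨c, c1, c2⟩
        exact ⟨N • c, fun k => coeff_smul N c k ▸ zsmul_mem (c1 k) N,
          fun i => by rw [Φs, eval_smul, c2]⟩ }
  have hrK : AdjoinRoot.mk h r ≠ 0 := by
    intro e
    have := congrArg (σ ⟨i0, h0⟩) e
    rw [map_zero] at this
    exact hr0 this
  have hS : ∀ x, ∃ N : ℤ, N ≠ 0 ∧ N • x ∈ S := by
    intro x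
    obtain ⟨w, hw⟩ := AdjoinRoot.mk_surjective (x / AdjoinRoot.mk h r)
    obtain ⟨N, hN, hc⟩ := u1b_den (r * w)
    refine ⟨N, hN, _, hc, fun i => ?_⟩
    rw [Φs, eval_smul, ← eval₂_eq_eval_map]
    congr 1
    simp only [Φ]
    split_ifs with hi
    · have : x = AdjoinRoot.mk h (r * w) := by rw [map_mul, hw, mul_div_cancel₀ _ hrK]
      rw [this]
      exact (AdjoinRoot.lift_mk hi _).symm
    · have := hroot i
      rw [hr, eval₂_mul] at this
      rw [eval₂_mul, (mul_eq_zero.1 this).resolve_left hi, zero_mul]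
  obtain ⟨N, hN, hNS⟩ := u1b_unif S hS
  obtain ⟨k, hk, x, hx⟩ := u1b_pow v hN
  obtain ⟨c, c1, c2⟩ := hNS x
  have hxK : ((v : NumberField.RingOfIntegers (AdjoinRoot h)) : AdjoinRoot h) ^ k =
      1 + N • (x : AdjoinRoot h) := by
    have := congrArg (algebraMap _ (AdjoinRoot h)) hx
    simpa using this
  have e1 : ∀ i : J, (1 + c).eval (α i) = σ i v ^ k := fun i => by
    rw [eval_add, eval_one, c2, ← map_pow, hxK, map_add, map_one]
    congr 1
    exact dif_pos i.2
  have e2 : ∀ i, ¬ h.eval₂ (algebraMap L ℂ) (α i) = 0 → (1 + c).eval (α i) = 1 := fun i hi => by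
    rw [eval_add, eval_one, c2]
    simp only [Φ, dif_neg hi, add_zero]
  have hu : ∀ i : J, σ i v * σ i ((v⁻¹ : (NumberField.RingOfIntegers (AdjoinRoot h))ˣ) :
      NumberField.RingOfIntegers (AdjoinRoot h)) = 1 := fun i => by
    rw [← map_mul]
    have := congrArg (algebraMap _ (AdjoinRoot h)) v.mul_inv
    rw [map_mul, map_one] at this
    exact (congrArg (σ i) this).trans (map_one _)
  refine ⟨1 + c, fun j => ?_, fun i => ?_, fun hp => hv ?_⟩
  · rw [coeff_add, coeff_one]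
    refine add_mem ?_ (c1 j)
    split_ifs
    · exact Subring.one_mem _
    · exact Subring.zero_mem _
  · by_cases hi : h.eval₂ (algebraMap L ℂ) (α i) = 0
    · rw [e1 ⟨i, hi⟩, ← inv_pow, inv_eq_of_mul_eq_one_right (hu ⟨i, hi⟩)]
      exact ⟨pow_ne_zero _ (left_ne_zero_of_mul_eq_one (hu ⟨i, hi⟩)),
        ((NumberField.RingOfIntegers.isIntegral_coe _).map (σ ⟨i, hi⟩).toIntAlgHom).pow k⟩
    · rw [e2 i hi, inv_one]
      exact ⟨one_ne_zero, isIntegral_one⟩
  · rw [← Fintype.prod_subtype_mul_prod_subtype fun i => h.eval₂ (algebraMap L ℂ) (α i) = 0,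
      Finset.prod_eq_one (s := Finset.univ)
        (f := fun i : {i // ¬ h.eval₂ (algebraMap L ℂ) (α i) = 0} => (1 + c).eval (α i) ^ m i)
        fun i _ => by rw [e2 i i.2, _root_.one_zpow], mul_one] at hp
    have h1 := congrArg norm hp
    rw [norm_prod, norm_one] at h1
    refine (pow_eq_one_iff_of_nonneg (Finset.prod_nonneg fun i _ => by positivity) hk.ne').1 ?_
    rw [← h1, ← Finset.prod_pow]
    refine Finset.prod_congr rfl fun i _ => ?_
    rw [e1 i, norm_zpow, norm_pow, ← zpow_natCast, ← zpow_natCast, ← _root_.zpow_mul,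
      ← _root_.zpow_mul, mul_comm]

end Vale.Agent.P002
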