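import Vale.Agent.P002.Abs2

open scoped Matrix.Norms.Operator Topology
open Matrix Filter

namespace Vale.Agent.P002

variable {g n : ℕ}

theorem ZTri_solve {K : Type} [Field K] (T : Matrix (Fin n) (Fin n) K)
    (ht : T.BlockTriangular id) (hi : Function.Injective fun i => T i i) :
    ∃ U : Matrix (Fin n) (Fin n) K, U.BlockTriangular id ∧ (∀ i, U i i = 1) ∧
      T * U = U * diagonal (fun i => T i i) := by
  have key : ∀ j : Fin n, ∃ c : Fin n → K, (∀ i, j ≤ i → c i = if i = j then 1 else 0) ∧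
      ∀ i, i < j → ∑ k, T i k * c k = T j j * c i := fun j => by
    let B : Matrix (Fin n) (Fin n) K := of fun i k =>
      if i < j then T i k - diagonal (fun _ => T j j) i k else (1 : Matrix (Fin n) (Fin n) K) i k
    have hB : B.BlockTriangular id := fun i k h => by
      have h' : k < i := h
      simp only [B, of_apply, diagonal_apply_ne _ h'.ne', one_apply_ne h'.ne', ht h]
      simp
    have hd : IsUnit B.det := by
      rw [det_of_isUpperTriangular hB]
      refine Finset.prod_induction _ IsUnit (fun _ _ => IsUnit.mul) isUnit_one fun i _ => ?_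
      by_cases h : i < j
      · have : T i i - T j j ≠ 0 := sub_ne_zero.2 fun e => h.ne (hi e)
        simpa [B, h] using this
      · simp [B, h]
    have e : B *ᵥ (B⁻¹ *ᵥ Pi.single j 1) = Pi.single j 1 := by
      rw [mulVec_mulVec, mul_nonsing_inv _ hd, one_mulVec]
    refine ⟨B⁻¹ *ᵥ Pi.single j 1, fun i hi => ?_, fun i hi => ?_⟩
    · have := congrFun e i
      generalize B⁻¹ *ᵥ Pi.single j 1 = c at this ⊢
      simpa [B, mulVec, dotProduct, not_lt.2 hi, one_apply, Pi.single_apply] using this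
    · have := congrFun e i
      generalize B⁻¹ *ᵥ Pi.single j 1 = c at this ⊢
      simp only [B, mulVec, dotProduct, of_apply, if_pos hi, Pi.single_eq_of_ne hi.ne, sub_mul,
        Finset.sum_sub_distrib, diagonal_apply, ite_mul, zero_mul, Finset.sum_ite_eq,
        Finset.mem_univ, if_true] at this
      exact sub_eq_zero.1 this
  choose c h2 h3 using key
  refine ⟨of fun i j => c j i, fun i j (h : j < i) => by simp [h2 j i h.le, h.ne'],
    fun i => by simp [h2 i i le_rfl], ?_⟩
  ext i j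
  rw [mul_diagonal, mul_apply, mul_comm _ (T j j)]
  simp only [of_apply]
  rcases lt_or_ge i j with h | h
  · exact h3 j i h
  · rw [Finset.sum_eq_single i, h2 j i h]
    · split_ifs with e
      · rw [e]
      · simp
    · intro k _ hk
      rcases lt_or_gt_of_ne hk with h' | h'
      · rw [ht h', zero_mul]
      · rw [h2 j k (h.trans h'.le), if_neg (h.trans_lt h').ne', mul_zero]
    · simp

theorem ZTri_int {L : IntermediateField ℚ ℂ} (hL : FiniteDimensional ℚ L) (x : L) :
    ∃ k : ℕ, 0 < k ∧ IsIntegral ℤ ((k : ℂ) * (x : ℂ)) := by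
  have h1 : IsAlgebraic ℚ x := Algebra.IsAlgebraic.isAlgebraic x
  have h2 : IsAlgebraic ℚ (x : ℂ) := IntermediateField.isAlgebraic_iff.1 h1
  have h3 : IsAlgebraic ℤ (x : ℂ) := (IsFractionRing.isAlgebraic_iff ℤ ℚ ℂ).2 h2
  obtain ⟨y, hy, hint⟩ := h3.exists_integral_multiple
  refine ⟨y.natAbs * y.natAbs, Nat.mul_pos (Int.natAbs_pos.2 hy) (Int.natAbs_pos.2 hy), ?_⟩
  have e : ((y.natAbs * y.natAbs : ℕ) : ℂ) * (x : ℂ) = algebraMap ℤ ℂ y * (y • (x : ℂ)) := by
    rw [← Int.cast_natCast, Int.natAbs_mul_self, zsmul_eq_mul, Int.cast_mul, mul_assoc]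
    rfl
  rw [e]
  exact isIntegral_algebraMap.mul hint

theorem ztri {L : IntermediateField ℚ ℂ} (hL : FiniteDimensional ℚ L) (T : M n)
    (hT : ∀ i j, T i j ∈ L) (ht : T.BlockTriangular id)
    (hi : Function.Injective fun i => T i i) :
    ∃ (U : M n) (m : ℕ), 0 < m ∧ U.BlockTriangular id ∧ (∀ i, U i i = 1) ∧
      T * U = U * diagonal (fun i => T i i) ∧ ∀ i j, (m : ℂ) * U i j ∈ OO L := by
  obtain ⟨U, u1, u2, u3⟩ := ZTri_solve (K := L) (of fun i j => (⟨T i j, hT i j⟩ : L))
    (fun i j h => Subtype.ext (ht h)) fun i j e => hi (congrArg Subtype.val e)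
  choose k k0 k1 using fun p : Fin n × Fin n => ZTri_int hL (U p.1 p.2)
  refine ⟨of fun i j => (U i j : ℂ), ∏ p, k p, Finset.prod_pos fun p _ => k0 p,
    fun i j h => ?_, fun i => ?_, ?_, fun i j => ⟨?_, ?_⟩⟩
  · rw [of_apply, u1 h]; rfl
  · rw [of_apply, u2]; rfl
  · ext i j
    have := congrArg Subtype.val (congrFun (congrFun u3 i) j)
    rw [mul_diagonal, mul_apply] at this
    rw [mul_diagonal, mul_apply]
    simpa using this
  · exact mul_mem (natCast_mem L _) (U i j).2
  · obtain ⟨q, hq⟩ := Finset.dvd_prod_of_mem k (Finset.mem_univ (i, j))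
    change IsIntegral ℤ _
    rw [hq, of_apply, Nat.cast_mul, mul_comm (k (i, j) : ℂ), mul_assoc]
    have hq' : IsIntegral ℤ (q : ℂ) := by
      have := isIntegral_algebraMap (R := ℤ) (A := ℂ) (x := (q : ℤ))
      simpa using this
    exact hq'.mul (k1 (i, j))

end Vale.Agent.P002
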