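import Vale.Agent.P002.ZPerm
import Vale.Agent.P002.ZTri
import Vale.Agent.P002.BaseZ

open scoped Matrix.Norms.Operator Topology
open Matrix Filter

namespace Vale.Agent.P002

variable {g n : ℕ}

theorem zcom {N : ℕ} (hN : 0 < N) (hn : 0 < n) {L : IntermediateField ℚ ℂ}
    (hL : FiniteDimensional ℚ L) (hR : Roots L (2 * N * n * n)) {c : M n} (hc : Tri L N c) :
    ∃ m : ℕ, 0 < m ∧ ∃ a : M n × M n, a.1.det = 1 ∧ a.2.det = 1 ∧ Ent (OO L) a.1 ∧
      Ent (OO L) a.2 ∧ cm a = diagonal (fun i : Fin n => ((m : ℂ) ^ i.1)⁻¹) * c *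
        diagonal (fun i : Fin n => (m : ℂ) ^ i.1) := by
  obtain ⟨hcE, hcT, hcd, hcN⟩ := hc
  have h1 : ∏ i, c i i = 1 := by rw [← det_of_upperTriangular hcT, hcd]
  obtain ⟨σ, b, hb, hbN, hb1, hσ⟩ := zperm hN hn hcN h1
  have hbO : ∀ i, b i ∈ OO L := fun i =>
    Abs1_root hR (by positivity) (by nlinarith [Nat.mul_pos (Nat.mul_pos hN hn) hn]) (hbN i)
  have hTd : (fun i => (c * diagonal b) i i) = fun i => b (σ i) := by
    funext i
    rw [mul_diagonal, hσ]
  obtain ⟨U, m, hm, hUT, hU1, hTU, hUO⟩ := ztri hL (c * diagonal b)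
    (fun i j => by rw [mul_diagonal]; exact (mul_mem (hcE i j) (hbO j)).1)
    (hcT.mul (blockTriangular_diagonal b)) (by rw [hTd]; exact hb.comp σ.injective)
  rw [hTd] at hTU
  have hm0 : (m : ℂ) ≠ 0 := Nat.cast_ne_zero.2 hm.ne'
  set s : ℂ := ((Equiv.Perm.sign σ : ℤ) : ℂ) with hs
  have hss : s * s = 1 := by
    rw [hs, ← Int.cast_mul, ← Units.val_mul, Int.units_mul_self]; simp
  obtain ⟨ε, hε⟩ := IsAlgClosed.exists_pow_nat_eq s hn
  have hε2 : ε ^ (n * 2) = 1 := by rw [pow_mul, hε, pow_two, hss]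
  have hεO : ε ∈ OO L :=
    Abs1_root hR (by positivity) (by nlinarith [Nat.mul_pos hN hn]) hε2
  set w : M n := ε • σ.permMatrix ℂ with hw
  have hwij : ∀ i j, w i j = if j = σ i then ε else 0 := fun i j => by
    simp only [hw, Matrix.smul_apply, Equiv.Perm.permMatrix, PEquiv.toMatrix_apply,
      Equiv.toPEquiv_apply, Option.mem_def, Option.some.injEq, smul_eq_mul]
    by_cases h : j = σ i
    · rw [if_pos h, if_pos h.symm, mul_one]
    · rw [if_neg h, if_neg (Ne.symm h), mul_zero]
  have hwd : w.det = 1 := by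
    rw [hw, det_smul, det_permutation, Fintype.card_fin, hε]
    exact hss
  have hwE : Ent (OO L) w := fun i j => by
    rw [hwij]; split_ifs
    · exact hεO
    · exact zero_mem _
  have hwB : w * diagonal b = diagonal (fun i => b (σ i)) * w := by
    ext i j
    rw [mul_diagonal, diagonal_mul, hwij]
    split_ifs with h
    · rw [h]; ring
    · simp
  set D : M n := diagonal (fun i : Fin n => ((m : ℂ) ^ i.1)⁻¹) with hD
  set Q : M n := diagonal (fun i : Fin n => (m : ℂ) ^ i.1) with hQ
  have hQD : Q * D = 1 := by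
    rw [hD, hQ, diagonal_mul_diagonal, ← diagonal_one]
    congr 1
    funext i
    exact mul_inv_cancel₀ (pow_ne_zero _ hm0)
  have hUE : Ent (OO L) (D * U * Q) := fun i j => by
    rw [hD, hQ, mul_diagonal, diagonal_mul]
    rcases lt_trichotomy i j with h | h | h
    · obtain ⟨k, hk⟩ : ∃ k, j.1 = i.1 + k + 1 := ⟨j.1 - i.1 - 1, by have := Fin.lt_def.1 h; omega⟩
      have : ((m : ℂ) ^ i.1)⁻¹ * U i j * (m : ℂ) ^ j.1 = (m : ℂ) ^ k * ((m : ℂ) * U i j) := by
        rw [hk]
        field_simp
        ring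
      rw [this]
      exact mul_mem (pow_mem (natCast_mem _ m) k) (hUO i j)
    · subst h
      rw [hU1, mul_one, inv_mul_cancel₀ (pow_ne_zero _ hm0)]
      exact one_mem _
    · rw [hUT h, mul_zero, zero_mul]
      exact zero_mem _
  have hUd : U.det = 1 := by
    rw [det_of_upperTriangular hUT]
    exact Finset.prod_eq_one fun i _ => hU1 i
  have hAd : (D * U * Q * w).det = 1 := by
    have := congrArg det hQD
    rw [det_mul, det_one] at this
    rw [det_mul, det_mul, det_mul, hUd, hwd]
    linear_combination this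
  have hBd : (diagonal b).det = 1 := by rw [det_diagonal, hb1]
  have c1 : Q * diagonal (fun i => b (σ i)) = diagonal (fun i => b (σ i)) * Q :=
    (commute_diagonal _ _).eq
  have c2 : diagonal b * D = D * diagonal b := (commute_diagonal _ _).eq
  have key : D * U * Q * w * diagonal b = D * c * Q * diagonal b * (D * U * Q * w) := by
    calc D * U * Q * w * diagonal b = D * U * (Q * diagonal (fun i => b (σ i))) * w := by
          rw [Matrix.mul_assoc _ w, hwB]; simp only [Matrix.mul_assoc]
      _ = D * (U * diagonal (fun i => b (σ i))) * Q * w := by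
          rw [c1]; simp only [Matrix.mul_assoc]
      _ = D * c * (Q * D) * diagonal b * U * Q * w := by
          rw [← hTU, hQD]; simp only [Matrix.mul_assoc, Matrix.one_mul]
      _ = D * c * Q * (D * diagonal b) * U * Q * w := by simp only [Matrix.mul_assoc]
      _ = _ := by rw [← c2]; simp only [Matrix.mul_assoc]
  refine ⟨m, hm, (D * U * Q * w, diagonal b), hAd, hBd, BaseZ_mul hUE hwE, fun i j => ?_, ?_⟩
  · change diagonal b i j ∈ OO L
    rw [diagonal_apply]; split_ifs
    · exact hbO i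
    · exact zero_mem _
  · change D * U * Q * w * diagonal b * adjugate (D * U * Q * w) * adjugate (diagonal b) = _
    rw [key, Matrix.mul_assoc _ (D * U * Q * w), mul_adjugate, hAd, one_smul, Matrix.mul_one,
      Matrix.mul_assoc _ (diagonal b), mul_adjugate, hBd, one_smul, Matrix.mul_one]

end Vale.Agent.P002
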