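import Vale.Agent.P002.Def3

open scoped Matrix.Norms.Operator Topology
open Matrix Filter

namespace Vale.Agent.P002

variable {g n : ℕ}

theorem ZPerm_cyc {N : ℕ} (hN : 0 < N) {d : Fin n → ℂ} (hd : ∀ i, d i ^ N = 1) {S : Finset (Fin n)}
    (hS : S.Nonempty) (h1 : ∏ i ∈ S, d i = 1)
    (hmin : ∀ T ⊆ S, T.Nonempty → ∏ i ∈ T, d i = 1 → S.card ≤ T.card) :
    ∃ (σ : Fin n → Fin n) (p : Fin n → ℂ), (∀ i ∈ S, σ i ∈ S) ∧ Set.InjOn σ S ∧ Set.InjOn p S ∧
      ∀ i ∈ S, p i ^ N = 1 ∧ p (σ i) = d i * p i := by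
  have hm : 0 < S.card := hS.card_pos
  have hd0 : ∀ i, d i ≠ 0 := fun i h => by have := hd i; simp [h, hN.ne'] at this
  obtain ⟨E, hE, hEi, hEs⟩ : ∃ E : ℕ → Fin n, (∀ t, E t ∈ S) ∧
      (∀ t u, E t = E u ↔ t % S.card = u % S.card) ∧ ∀ i ∈ S, ∃ k < S.card, E k = i := by
    refine ⟨fun t => (S.equivFin.symm ⟨t % S.card, Nat.mod_lt _ hm⟩).1, fun t => Subtype.prop _,
      fun t u => ?_, fun i hi => ⟨S.equivFin ⟨i, hi⟩, Fin.prop _, ?_⟩⟩
    · rw [Subtype.val_inj, S.equivFin.symm.injective.eq_iff, Fin.mk.injEq]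
    · simp [Nat.mod_eq_of_lt (S.equivFin ⟨i, hi⟩).prop]
  choose! ix hix hix' using hEs
  have hx : ∀ t, ix (E t) = t % S.card := fun t => by
    have := (hEi _ _).1 (hix' _ (hE t))
    rwa [Nat.mod_eq_of_lt (hix _ (hE t))] at this
  have hinj : ∀ a b, b ≤ S.card → Set.InjOn E (Finset.Ico a b : Set ℕ) := fun a b hb t ht u hu h => by
    have h2 := (hEi _ _).1 h
    simp only [Finset.coe_Ico, Set.mem_Ico] at ht hu
    rwa [Nat.mod_eq_of_lt (by omega), Nat.mod_eq_of_lt (by omega)] at h2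
  have hfull : ∏ j ∈ Finset.range S.card, d (E j) = 1 := by
    rw [← h1, Finset.range_eq_Ico, ← Finset.prod_image (hinj 0 _ le_rfl)]
    congr 1
    refine Finset.Subset.antisymm (Finset.image_subset_iff.2 fun t _ => hE t) fun i hi => ?_
    exact Finset.mem_image.2 ⟨ix i, by simpa using hix i hi, hix' i hi⟩
  have key : ∀ a b, a < b → b < S.card →
      ∏ j ∈ Finset.range a, d (E j) ≠ ∏ j ∈ Finset.range b, d (E j) := fun a b hab hb h => by
    rw [← Finset.prod_range_mul_prod_Ico _ hab.le] at h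
    have h2 : ∏ j ∈ Finset.Ico a b, d (E j) = 1 :=
      (mul_right_eq_self₀.1 h.symm).resolve_right (Finset.prod_ne_zero_iff.2 fun j _ => hd0 _)
    rw [← Finset.prod_image (hinj a b hb.le)] at h2
    have h3 := hmin _ (Finset.image_subset_iff.2 fun t _ => hE t)
      ((Finset.nonempty_Ico.2 hab).image _) h2
    have h4 := Finset.card_image_le (s := Finset.Ico a b) (f := E)
    rw [Nat.card_Ico] at h4
    omega
  refine ⟨fun i => E (ix i + 1), fun i => ∏ j ∈ Finset.range (ix i), d (E j), fun i _ => hE _,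
    fun i hi j hj h => ?_, fun i hi j hj h => ?_, fun i hi => ⟨?_, ?_⟩⟩
  · have h2 : ix i % S.card = ix j % S.card := Nat.ModEq.add_right_cancel' 1 ((hEi _ _).1 h)
    rw [← hix' i hi, ← hix' j hj]
    exact (hEi _ _).2 h2
  · rcases lt_trichotomy (ix i) (ix j) with h2 | h2 | h2
    · exact (key _ _ h2 (hix j hj) h).elim
    · rw [← hix' i hi, ← hix' j hj, h2]
    · exact (key _ _ h2 (hix i hi) h.symm).elim
  · rw [← Finset.prod_pow]
    exact Finset.prod_eq_one fun j _ => hd _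
  · have h2 : d i * ∏ j ∈ Finset.range (ix i), d (E j) = ∏ j ∈ Finset.range (ix i + 1), d (E j) := by
      rw [Finset.prod_range_succ, hix' i hi, mul_comm]
    simp only [hx]
    rw [h2]
    rcases (Nat.succ_le_of_lt (hix i hi)).eq_or_lt with h3 | h3
    · rw [show ix i + 1 = S.card from h3, Nat.mod_self, hfull]; simp
    · rw [Nat.mod_eq_of_lt h3]

theorem ZPerm_ind {N : ℕ} (hN : 0 < N) {d : Fin n → ℂ} (hd : ∀ i, d i ^ N = 1)
    (s : Finset (Fin n)) : ∏ i ∈ s, d i = 1 →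
    ∃ (σ : Fin n → Fin n) (p : Fin n → ℂ) (l : Fin n → ℕ), (∀ i ∈ s, σ i ∈ s) ∧ Set.InjOn σ s ∧
      (∀ i ∈ s, ∀ j ∈ s, p i = p j → l i = l j → i = j) ∧
      ∀ i ∈ s, p i ^ N = 1 ∧ p (σ i) = d i * p i ∧ l (σ i) = l i ∧ l i < s.card := by
  induction s using Finset.strongInduction with
  | H s ih =>
  intro h1
  rcases s.eq_empty_or_nonempty with rfl | hs
  · exact ⟨id, fun _ => 1, fun _ => 0, by simp, by simp, by simp, by simp⟩
  obtain ⟨S, hS, hmin⟩ := Finset.exists_min_image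
    (s.powerset.filter fun T => T.Nonempty ∧ ∏ i ∈ T, d i = 1) Finset.card ⟨s, by simp [hs, h1]⟩
  simp only [Finset.mem_filter, Finset.mem_powerset] at hS hmin
  obtain ⟨σ, p, a1, a2, a3, a4⟩ := ZPerm_cyc hN hd hS.2.1 hS.2.2
    fun T hT h2 h3 => hmin T ⟨hT.trans hS.1, h2, h3⟩
  have h2 : ∏ i ∈ s \ S, d i = 1 := by
    have := Finset.prod_sdiff (f := d) hS.1
    rwa [hS.2.2, h1, mul_one] at this
  obtain ⟨σ', p', l', b1, b2, b3, b4⟩ := ih (s \ S) (Finset.sdiff_ssubset hS.1 hS.2.1) h2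
  have hc : (s \ S).card + 1 ≤ s.card := Finset.card_lt_card (Finset.sdiff_ssubset hS.1 hS.2.1)
  have m1 : ∀ i ∈ s, i ∉ S → i ∈ s \ S := fun i hi h => Finset.mem_sdiff.2 ⟨hi, h⟩
  have m2 : ∀ i ∈ s, i ∉ S → σ' i ∉ S := fun i hi h => (Finset.mem_sdiff.1 (b1 i (m1 i hi h))).2
  refine ⟨fun i => if i ∈ S then σ i else σ' i, fun i => if i ∈ S then p i else p' i,
    fun i => if i ∈ S then s.card - 1 else l' i, fun i hi => ?_, fun i hi j hj h => ?_,
    fun i hi j hj h h' => ?_, fun i hi => ?_⟩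
  · by_cases h : i ∈ S
    · simp only [h, if_true]; exact hS.1 (a1 i h)
    · simp only [h, if_false]; exact (Finset.mem_sdiff.1 (b1 i (m1 i hi h))).1
  · by_cases c1 : i ∈ S <;> by_cases c2 : j ∈ S <;> simp only [c1, c2, if_true, if_false] at h
    · exact a2 c1 c2 h
    · exact (m2 j hj c2 (h ▸ a1 i c1)).elim
    · exact (m2 i hi c1 (h ▸ a1 j c2)).elim
    · exact b2 (m1 i hi c1) (m1 j hj c2) h
  · by_cases c1 : i ∈ S <;> by_cases c2 : j ∈ S <;> simp only [c1, c2, if_true, if_false] at h h'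
    · exact a3 c1 c2 h
    · have := (b4 j (m1 j hj c2)).2.2.2; omega
    · have := (b4 i (m1 i hi c1)).2.2.2; omega
    · exact b3 i (m1 i hi c1) j (m1 j hj c2) h h'
  · by_cases c : i ∈ S
    · simp only [c, a1 i c, if_true]
      exact ⟨(a4 i c).1, (a4 i c).2, trivial, by omega⟩
    · simp only [c, m2 i hi c, if_false]
      obtain ⟨c1, c2, c3, c4⟩ := b4 i (m1 i hi c)
      exact ⟨c1, c2, c3, by omega⟩

theorem zperm {N : ℕ} (hN : 0 < N) (hn : 0 < n) {d : Fin n → ℂ} (hd : ∀ i, d i ^ N = 1)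
    (h1 : ∏ i, d i = 1) : ∃ (σ : Equiv.Perm (Fin n)) (b : Fin n → ℂ), Function.Injective b ∧
      (∀ i, b i ^ (N * n * n) = 1) ∧ ∏ i, b i = 1 ∧ ∀ i, b (σ i) = d i * b i := by
  obtain ⟨σ, p, l, -, a2, a3, a4⟩ := ZPerm_ind hN hd Finset.univ h1
  simp only [Finset.mem_univ, forall_const, Finset.card_univ, Fintype.card_fin] at a3 a4
  have hσ : Function.Injective σ := fun i j h => a2 (by simp) (by simp) h
  have hz := Complex.isPrimitiveRoot_exp (N * n) (Nat.mul_pos hN hn).ne'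
  set ζ := Complex.exp (2 * Real.pi * Complex.I / (N * n : ℕ))
  have z0 : ζ ≠ 0 := hz.ne_zero (Nat.mul_pos hN hn).ne'
  have hb : ∀ i, (p i * ζ ^ l i) ^ (N * n) = 1 := fun i => by
    rw [mul_pow, pow_mul, (a4 i).1, one_pow, one_mul, ← pow_mul, mul_comm (l i), pow_mul,
      hz.pow_eq_one, one_pow]
  have hP : (∏ i, p i * ζ ^ l i) ^ (N * n) = 1 := by
    rw [← Finset.prod_pow]; exact Finset.prod_eq_one fun i _ => hb i
  have P0 : (∏ i, p i * ζ ^ l i) ≠ 0 := fun h => by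
    rw [h, zero_pow (Nat.mul_pos hN hn).ne'] at hP; exact zero_ne_one hP
  obtain ⟨c, hc⟩ := IsAlgClosed.exists_pow_nat_eq (∏ i, p i * ζ ^ l i)⁻¹ hn
  have c0 : c ≠ 0 := fun h => by
    rw [h, zero_pow hn.ne'] at hc; exact inv_ne_zero P0 hc.symm
  refine ⟨Equiv.ofBijective σ hσ.bijective_of_finite, fun i => c * (p i * ζ ^ l i),
    fun i j h => ?_, fun i => ?_, ?_, fun i => ?_⟩
  · have h2 := mul_left_cancel₀ c0 h
    have h3 := congrArg (· ^ N) h2
    simp only [mul_pow, (a4 _).1, one_mul, ← pow_mul] at h3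
    have h4 := hz.pow_inj (by rw [mul_comm]; exact Nat.mul_lt_mul_of_pos_left (a4 i).2.2.2 hN)
      (by rw [mul_comm]; exact Nat.mul_lt_mul_of_pos_left (a4 j).2.2.2 hN) h3
    have h5 : l i = l j := Nat.eq_of_mul_eq_mul_right hN h4
    rw [h5] at h2
    exact a3 i j (mul_right_cancel₀ (pow_ne_zero _ z0) h2) h5
  · rw [mul_pow, pow_mul (p i * ζ ^ l i), hb, one_pow, mul_one, mul_comm (N * n), pow_mul, hc,
      inv_pow, hP, inv_one]
  · rw [Finset.prod_mul_distrib, Finset.prod_const, Finset.card_univ, Fintype.card_fin, hc,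
      inv_mul_cancel₀ P0]
  · simp only [Equiv.ofBijective_apply, (a4 i).2.1, (a4 i).2.2.1]
    ring

end Vale.Agent.P002
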